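import Vale.Agent.P228.Step

/-! The twisted Poincare structure. -/

set_option linter.unusedSectionVars false

namespace Vale.Agent.P228

variable {A : Type*} [Ring A] [StarRing A] [Algebra ℂ A] [StarModule ℂ A] [Base A]
variable {C : Cx A} {a e b : A}

theorem AvgData.ok (hC : C.OK) (h : AvgData C a e b) : (C.tw e).OK := by
  have h1 : star e * star C.d = star C.d * star e := by
    rw [← star_mul, ← star_mul, h.de]
  refine ⟨hC.toCpx, ?_, ?_, ?_⟩
  · simp only [Cx.tw, star_sub, star_add, star_mul, star_star, hC.φs]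
    abel
  · simp only [Cx.tw, mul_sub, mul_add, ← mul_assoc, h.pe, hC.pφ]
  · simp only [Cx.tw]
    calc _ = (C.d * C.φ + C.φ * star C.d) - (C.d * e * C.φ + e * C.φ * star C.d) -
          (C.d * C.φ * star e + C.φ * (star e * star C.d)) := by noncomm_ring
      _ = (C.d * C.φ + C.φ * star C.d) - e * (C.d * C.φ + C.φ * star C.d) -
          (C.d * C.φ + C.φ * star C.d) * star e := by rw [h.de, h1]; noncomm_ring
      _ = 0 := by rw [hC.cyc]; simp

private theorem av_ch (hC : C.OK) : C.d * C.φ = C.φ * -star C.d := by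
  rw [mul_neg, eq_neg_iff_add_eq_zero, hC.cyc]

private theorem av_star {x : A} (h : C.d * x = x * C.d) :
    -star C.d * star x = star x * -star C.d := by
  rw [neg_mul, mul_neg, ← star_mul, ← star_mul, h]

private theorem av_congr {d c x y x' y' : A} (h : Htp d c x y) (he : x' - y' = x - y) :
    Htp d c x' y' := by
  obtain ⟨k, hk⟩ := h
  exact ⟨k, he.trans hk⟩

/-- the twisted form from a homotopy of `e * φ` -/
private theorem av_tw (hC : C.OK) {y : A} (h : Htp C.d (-star C.d) (e * C.φ) y) :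
    Htp C.d (-star C.d) (C.tw e).φ (C.φ - (y + star y)) := by
  have h1 := h.star_form
  rw [star_mul, hC.φs] at h1
  exact (Htp.refl _ _ C.φ).sub (h.add h1)

private theorem av_eqv {D : Cx A} (hC : C.OK) (h : AvgData C a e b) (h1 : D.p = C.p)
    (h2 : D.d = C.d) (h3 : Htp C.d (-star C.d) (C.tw e).φ D.φ) : (C.tw e).Eqv D := by
  have ht := h.ok hC
  refine ⟨C.p, ?_, ?_⟩
  · rw [h1, h2]
    exact HE.refl hC.toCpx
  · have e1 : C.p * (C.tw e).φ = (C.tw e).φ := ht.pφ
    have e2 : (C.tw e).φ * C.p = (C.tw e).φ := ht.φp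
    rw [h2, hC.toCpx.star_p, e1, e2]
    exact h3

/-- `e e ≃ e`, `e φ a* ≃ e a φ a* ≃ e φ`, so `e φ e* ≃ e φ` and `φ e* ≃ e φ`; then
`φ - e φ - φ e* ≃ (p - 2 e) φ` with `(p - 2e)^2 ≃ p`. -/
theorem AvgData.good (hC : C.Good) (h : AvgData C a e b) : (C.tw e).Good := by
  have ho := hC.ok
  have ht := h.ok ho
  have hp := ho.toCpx
  refine ⟨ht, ?_, hC.cut⟩
  have ee' : Htp C.d C.d (e * e) e := by
    refine av_congr (h.hae.mul_left h.db) ?_
    calc e * e - e = (e - C.p) * e := by rw [sub_mul, h.pe]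
      _ = b * (a * e) - b * (C.p * e) := by rw [h.eb]; noncomm_ring
      _ = _ := by rw [h.pe]
  have c1 : C.d * (C.φ * star a) = C.φ * star a * -star C.d := by
    rw [← mul_assoc, av_ch ho, mul_assoc, av_star h.da, mul_assoc]
  have k1 : Htp C.d (-star C.d) (e * (C.φ * star a)) (e * C.φ) := by
    refine (h.hae.mul_right c1).symm.trans (av_congr (h.hφ.mul_left h.de) ?_)
    rw [h.ae]
    noncomm_ring
  have k2 : Htp C.d (-star C.d) (e * C.φ * star e) (e * C.φ) := by
    refine av_congr (k1.mul_right (av_star h.db)) ?_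
    have e1 := congrArg star h.eb
    simp only [star_sub, star_mul, hp.star_p] at e1
    calc _ = e * C.φ * star e - e * (C.φ * C.p) := by rw [ho.φp]
      _ = e * C.φ * (star e - C.p) := by noncomm_ring
      _ = e * (C.φ * star a) * star b - e * (C.φ * C.p) * star b := by rw [e1]; noncomm_ring
      _ = _ := by rw [ho.φp]
  have k3 : Htp C.d (-star C.d) (C.φ * star e) (e * C.φ) := by
    have := k2.star_form
    simp only [star_mul, star_star, ho.φs, ← mul_assoc] at this
    exact this.symm.trans k2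
  have k4 : Htp C.d (-star C.d) ((C.p - (e + e)) * C.φ) (C.tw e).φ := by
    refine av_congr ((Htp.refl _ _ C.φ).sub ((Htp.refl _ _ (e * C.φ)).add k3)).symm ?_
    simp only [Cx.tw, sub_mul, add_mul, ho.pφ]
  have k5 : HE C.p C.d C.p C.d (C.p - (e + e)) := by
    refine HE.of_sq ?_ ?_ ?_ ?_
    · simp only [mul_sub, mul_add, hp.pp, h.pe]
    · simp only [sub_mul, add_mul, hp.pp, h.ep]
    · simp only [mul_sub, mul_add, sub_mul, add_mul, hp.pd, hp.dp, h.de]
    · refine av_congr ((ee'.add ee').add (ee'.add ee')) ?_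
      simp only [mul_sub, mul_add, sub_mul, add_mul, hp.pp, h.pe, h.ep]
      abel
  exact (k5.comp hC.poinc).of_htp hp hp.dual.neg k4 ht.pφ ht.φp
theorem AvgData.eqv_neg (hC : C.OK) (h : AvgData C a e b) (ha : Htp C.d C.d a C.p) :
    (C.tw e).Eqv C.neg := by
  have k1 : Htp C.d C.d e C.p := av_congr (ha.mul_left h.db) (by rw [h.eb, mul_sub])
  have k2 := av_tw hC (k1.mul_right (av_ch hC))
  refine av_eqv hC h rfl rfl (av_congr k2 ?_)
  simp only [Cx.neg, hC.pφ, hC.φs]
  abel
theorem AvgData.eqv_pos (hC : C.OK) (h : AvgData C a e b) {ζ : ℂ} (hζ : ζ ≠ 1)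
    (ha : Htp C.d C.d a (ζ • C.p)) : (C.tw e).Eqv C := by
  have k0 : Htp C.d C.d e (ζ • e) := by
    have := ha.mul_right h.de
    rw [smul_mul_assoc, h.pe] at this
    exact h.hae.symm.trans this
  have k1 : Htp C.d C.d e 0 := by
    refine av_congr (k0.smul (1 - ζ)⁻¹) ?_
    have hz : (1 - ζ) ≠ 0 := sub_ne_zero.2 hζ.symm
    rw [← smul_sub, sub_zero]
    nth_rw 2 [← one_smul ℂ e]
    rw [← sub_smul, smul_smul, inv_mul_cancel₀ hz, one_smul]
  have k2 := av_tw hC (k1.mul_right (av_ch hC))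
  refine av_eqv hC h rfl rfl (av_congr k2 ?_)
  simp

end Vale.Agent.P228
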