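import Vale.Agent.P228.Basic

/-! Frames attached to a local family of half-spaces. -/

set_option linter.unusedSectionVars false

namespace Vale.Agent.P228

variable {A : Type*} [Ring A] [StarRing A] [Algebra ℂ A] [StarModule ℂ A] [Base A]

/-- slabs -/
def slab (E : ℝ → A) (a : ℝ) : A := E a * (1 - E (-a))

theorem Loc.slab {E : ℝ → A} (h : Loc E) : Loc (slab E) := by
  refine ⟨fun a => Base.mul_mem _ (h.1 a) _ (Base.compl_mem _ (h.1 _)), fun a b hab T => ?_⟩
  unfold P228.slab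
  have c := Base.comm _ (h.1 a) _ (Base.compl_mem _ (h.1 (-a)))
  calc _ = (1 - E b) * T * E a * (1 - E (-a)) +
        E b * (E (-b) * T * (E a * (1 - E (-a)))) := by noncomm_ring
    _ = 0 := by
      rw [h.2 a b hab, c, ← mul_assoc (E (-b) * T), h.loc' (neg_lt_neg hab)]
      simp

private theorem fr_slab_eq {E : ℝ → A} {a : ℝ} {y : A} (h1 : E a * y = y) (h2 : E (-a) * y = 0) :
    slab E a * y = y := by
  unfold slab
  rw [mul_assoc, sub_mul, one_mul, h2, sub_zero, h1]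

private theorem fr_up {M : ℝ → A} (h : Loc M) {a b : ℝ} (hab : a ≤ b) {x : A} (hx : M a * x = x) :
    M b * x = x := by
  rw [← hx, ← mul_assoc, h.mono hab]

private theorem fr_down {M : ℝ → A} (h : Loc M) {a b : ℝ} (hab : a ≤ b) {x : A}
    (hx : M b * x = 0) : M a * x = 0 := by
  rw [← h.mono' hab, mul_assoc, hx, mul_zero]

private theorem fr_upT {M : ℝ → A} (h : Loc M) {a b : ℝ} (hab : a < b) {x : A} (hx : M a * x = x)
    (T : A) : M b * (T * x) = T * x := by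
  have e : (1 - M b) * T * M a * x = 0 := by rw [h.2 a b hab, zero_mul]
  rw [mul_assoc _ _ x, hx, mul_assoc, sub_mul, one_mul, sub_eq_zero] at e
  exact e.symm

private theorem fr_downT {M : ℝ → A} (h : Loc M) {a b : ℝ} (hab : a < b) {x : A}
    (hx : M b * x = 0) (T : A) : M a * (T * x) = 0 := by
  have e : M a * T * (1 - M b) * x = 0 := by rw [h.loc' hab, zero_mul]
  rwa [mul_assoc _ _ x, sub_mul, one_mul, hx, sub_zero, mul_assoc] at e

private theorem fr_right0 {M : ℝ → A} (h : Loc M) {a b : ℝ} (hab : a < b) {x : A}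
    (hx : M b * x = 0) : x * M a = 0 := by
  have e := h.2 a b hab x
  rwa [sub_mul, one_mul, hx, sub_zero] at e

private theorem fr_right1 {M : ℝ → A} (h : Loc M) {a b : ℝ} (hab : a < b) {x : A}
    (hx : M a * x = x) : x * M b = x := by
  have e := h.loc' hab x
  rw [hx, mul_sub, mul_one, sub_eq_zero] at e
  exact e.symm

def idI {M : ℝ → A} (h : Loc M) (r : ℝ) : TwoSidedIdeal A :=
  TwoSidedIdeal.mk' {x | ∃ r', r < r' ∧ M r' * x = 0} ⟨r + 1, by linarith, mul_zero _⟩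
    (fun ⟨a, ha, hx⟩ ⟨b, hb, hy⟩ => ⟨min a b, lt_min ha hb, by
      rw [mul_add, fr_down h (min_le_left a b) hx, fr_down h (min_le_right a b) hy, add_zero]⟩)
    (fun ⟨a, ha, hx⟩ => ⟨a, ha, by rw [mul_neg, hx, neg_zero]⟩)
    (fun ⟨a, ha, hx⟩ => ⟨(r + a) / 2, by linarith, fr_downT h (by linarith) hx _⟩)
    (fun ⟨a, ha, hx⟩ => ⟨a, ha, by rw [← mul_assoc, hx, zero_mul]⟩)
def idN {M : ℝ → A} (h : Loc M) (r : ℝ) : TwoSidedIdeal A :=
  TwoSidedIdeal.mk' {x | ∀ r', r < r' → M r' * x = x} (fun _ _ => mul_zero _)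
    (fun hx hy a ha => by rw [mul_add, hx a ha, hy a ha])
    (fun hx a ha => by rw [mul_neg, hx a ha])
    (fun hx a ha => fr_upT h (a := (r + a) / 2) (by linarith) (hx _ (by linarith)) _)
    (fun hx a ha => by rw [← mul_assoc, hx a ha])
def idB {M : ℝ → A} (h : Loc M) (a : ℝ) : TwoSidedIdeal A :=
  TwoSidedIdeal.mk' {x | ∃ a', a' < a ∧ M a' * x = x} ⟨a - 1, by linarith, mul_zero _⟩
    (fun ⟨r, hr, hx⟩ ⟨b, hb, hy⟩ => ⟨max r b, max_lt hr hb, by
      rw [mul_add, fr_up h (le_max_left r b) hx, fr_up h (le_max_right r b) hy]⟩)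
    (fun ⟨r, hr, hx⟩ => ⟨r, hr, by rw [mul_neg, hx]⟩)
    (fun ⟨r, hr, hx⟩ => ⟨(r + a) / 2, by linarith, fr_upT h (by linarith) hx _⟩)
    (fun ⟨r, hr, hx⟩ => ⟨r, hr, by rw [← mul_assoc, hx]⟩)

theorem mem_idI {M : ℝ → A} (h : Loc M) (r : ℝ) (x : A) :
    x ∈ idI h r ↔ ∃ r', r < r' ∧ M r' * x = 0 := by simp [idI]
theorem mem_idN {M : ℝ → A} (h : Loc M) (r : ℝ) (x : A) :
    x ∈ idN h r ↔ ∀ r', r < r' → M r' * x = x := by simp [idN]
theorem mem_idB {M : ℝ → A} (h : Loc M) (a : ℝ) (x : A) :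
    x ∈ idB h a ↔ ∃ a', a' < a ∧ M a' * x = x := by simp [idB]

def fr {E : ℝ → A} (h : Loc E) (rN rI a : ℝ) : Frame A :=
  ⟨idI h.slab rI, idN h.slab rN, idB h.slab a, 1 - E 0⟩

theorem fr_OK {E : ℝ → A} (h : Loc E) {rN rI a : ℝ} (h0 : 0 ≤ rN) (h1 : rN ≤ rI) (h2 : rI < a) :
    (fr h rN rI a).OK := by
  have hs := h.slab
  have hχ := Base.compl_mem _ (h.1 0)
  refine ⟨fun x hx => ?_, fun x hx => ?_, fun x hx y hy => ?_, ?_, ?_, fun T => ?_,
    ⟨slab E, rI, a, hs, h2, mem_idI hs _, mem_idB hs _⟩⟩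
  · obtain ⟨r, hr, e⟩ := (mem_idI hs rI x).1 hx
    refine (mem_idI hs rI _).2 ⟨(rI + r) / 2, by linarith, ?_⟩
    have := congrArg star (fr_right0 hs (a := (rI + r) / 2) (by linarith) e)
    simpa [Base.star_eq _ (hs.1 _)] using this
  · refine (mem_idN hs rN _).2 fun r hr => ?_
    have := congrArg star (fr_right1 hs (a := (rN + r) / 2) (b := r) (by linarith)
      ((mem_idN hs rN x).1 hx _ (by linarith)))
    simpa [Base.star_eq _ (hs.1 _)] using this
  · obtain ⟨r, hr, e⟩ := (mem_idI hs rI x).1 hx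
    rw [← (mem_idN hs rN y).1 hy ((rI + r) / 2) (by linarith), ← mul_assoc,
      fr_right0 hs (by linarith) e, zero_mul]
  · show star (1 - E 0) - (1 - E 0) ∈ _
    rw [Base.star_eq _ hχ, sub_self]
    exact TwoSidedIdeal.zero_mem _
  · show (1 - E 0) * (1 - E 0) - (1 - E 0) ∈ _
    rw [Base.idem _ hχ, sub_self]
    exact TwoSidedIdeal.zero_mem _
  · show (1 - E 0) * T - T * (1 - E 0) ∈ _
    refine (mem_idN hs rN _).2 fun r hr => fr_slab_eq ?_ ?_
    · have e1 := fr_upT h (a := 0) (b := r) (by linarith) (Base.idem _ (h.1 0)) T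
      have e2 := h.mono (a := 0) (b := r) (by linarith)
      calc _ = E r * (T * E 0) - E r * E 0 * T := by noncomm_ring
        _ = _ := by rw [e1, e2]; noncomm_ring
    · have e1 := h.loc' (a := -r) (b := 0) (by linarith) T
      have e2 := h.mono' (a := -r) (b := 0) (by linarith)
      calc _ = E (-r) * T - E (-r) * E 0 * T - E (-r) * T * (1 - E 0) := by noncomm_ring
        _ = 0 := by rw [e1, e2]; simp
theorem fr_mono {E : ℝ → A} (h : Loc E) {rN rI a rN' rI' a' : ℝ} (h0 : rN ≤ rN') (h1 : rI' ≤ rI)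
    (h2 : a ≤ a') : Frame.Map (StarAlgHom.id ℂ A) (fr h rN rI a) (fr h rN' rI' a') := by
  have hs := h.slab
  refine ⟨fun x hx => ?_, fun x hx => ?_, fun x hx => ?_, ?_⟩
  · obtain ⟨r, hr, e⟩ := (mem_idI hs rI x).1 hx
    exact (mem_idI hs rI' _).2 ⟨r, by linarith, e⟩
  · exact (mem_idN hs rN' _).2 fun r hr => (mem_idN hs rN x).1 hx r (by linarith)
  · obtain ⟨r, hr, e⟩ := (mem_idB hs a x).1 hx
    exact (mem_idB hs a' _).2 ⟨r, by linarith, e⟩
  · show (1 - E 0) - (1 - E 0) ∈ _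
    rw [sub_self]
    exact TwoSidedIdeal.zero_mem _
/-- change of centre for thick frames -/
theorem fr_recentre {E E' : ℝ → A} (h : Loc E) (h' : Loc E')
    (he : ∀ a : ℝ, 1 / 2 < |a| → E a = E' a) :
    Frame.Map (StarAlgHom.id ℂ A) (fr h 0 (1 / 2) 1) (fr h' (1 / 2) (1 / 2) 1) := by
  have hs := h.slab
  have hs' := h'.slab
  have e1 : ∀ r : ℝ, 1 / 2 < r → E r = E' r := fun r hr => he r (hr.trans_le (le_abs_self r))
  have e2 : ∀ r : ℝ, 1 / 2 < r → E (-r) = E' (-r) := fun r hr =>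
    he _ (by rw [abs_neg]; exact hr.trans_le (le_abs_self r))
  have e3 : ∀ r : ℝ, 1 / 2 < r → slab E' r = slab E r := fun r hr => by
    unfold slab
    rw [e1 r hr, e2 r hr]
  refine ⟨fun x hx => ?_, fun x hx => ?_, fun x hx => ?_, ?_⟩
  · obtain ⟨r, hr, e⟩ := (mem_idI hs _ x).1 hx
    exact (mem_idI hs' _ _).2 ⟨r, hr, by rw [e3 r hr]; exact e⟩
  · exact (mem_idN hs' _ _).2 fun r hr => by
      rw [e3 r hr]; exact (mem_idN hs _ x).1 hx r (by linarith)
  · obtain ⟨r, hr, e⟩ := (mem_idB hs _ x).1 hx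
    refine (mem_idB hs' _ _).2 ⟨max r (3 / 4), max_lt hr (by norm_num), ?_⟩
    rw [e3 _ (lt_of_lt_of_le (by norm_num) (le_max_right _ _))]
    exact fr_up hs (le_max_left _ _) e
  · show (1 - E 0) - (1 - E' 0) ∈ _
    rw [sub_sub_sub_cancel_left]
    refine (mem_idN hs' _ _).2 fun r hr => fr_slab_eq ?_ ?_
    · rw [mul_sub, h'.mono (by linarith), ← e1 r hr, h.mono (by linarith)]
    · rw [mul_sub, h'.mono' (by linarith), ← e2 r hr, h.mono' (by linarith), sub_self]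
/-- endomorphisms fixing the diagonal -/
theorem fr_fix {E : ℝ → A} (h : Loc E) (rN rI a : ℝ) {τ : A →⋆ₐ[ℂ] A}
    (hD : ∀ P ∈ (Base.D : Set A), τ P = P) : Frame.Map τ (fr h rN rI a) (fr h rN rI a) := by
  have hs := h.slab
  have e1 : ∀ r x, slab E r * τ x = τ (slab E r * x) := fun r x => by
    rw [map_mul, hD _ (hs.1 r)]
  refine ⟨fun x hx => ?_, fun x hx => ?_, fun x hx => ?_, ?_⟩
  · obtain ⟨r, hr, e⟩ := (mem_idI hs _ x).1 hx
    exact (mem_idI hs _ _).2 ⟨r, hr, by rw [e1, e, map_zero]⟩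
  · exact (mem_idN hs _ _).2 fun r hr => by rw [e1, (mem_idN hs _ x).1 hx r hr]
  · obtain ⟨r, hr, e⟩ := (mem_idB hs _ x).1 hx
    exact (mem_idB hs _ _).2 ⟨r, hr, by rw [e1, e]⟩
  · show τ (1 - E 0) - (1 - E 0) ∈ _
    rw [hD _ (Base.compl_mem _ (h.1 0)), sub_self]
    exact TwoSidedIdeal.zero_mem _

variable {A' : Type*} [Ring A'] [StarRing A'] [Algebra ℂ A'] [StarModule ℂ A'] [Base A']

/-- passage to the coarse ring -/
theorem fr_coarse {E : ℝ → A} {E' : ℝ → A'} (h : Loc E) (h' : Loc E') {π : A →⋆ₐ[ℂ] A'}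
    (hπ : BaseHom π)
    (he : ∀ a a' : ℝ, a < a' → |a| ≤ 1 / 2 → |a'| ≤ 1 / 2 →
      E' a' * π (E a) = π (E a) ∧ π (E a') * E' a = E' a) :
    Frame.Map π (fr h 0 0 (1 / 2)) (fr h' 0 0 1) := by
  have hs := h.slab
  have hs' := h'.slab
  have c : ∀ a b, E' a * π (E b) = π (E b) * E' a := fun a b =>
    Base.comm _ (h'.1 a) _ (hπ.hD _ (h.1 b))
  have ab : ∀ {a : ℝ}, -(1 / 2) ≤ a → a ≤ 1 / 2 → |a| ≤ 1 / 2 := fun h1 h2 => abs_le.2 ⟨h1, h2⟩
  have k1 : ∀ a b : ℝ, 0 ≤ a → a < b → b ≤ 1 / 2 → slab E' b * π (slab E a) = π (slab E a) := by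
    intro a b h0 h1 h2
    have u1 := (he a b h1 (ab (by linarith) (by linarith)) (ab (by linarith) h2)).1
    have u2 := (he (-b) (-a) (by linarith) (ab (by linarith) (by linarith))
      (ab (by linarith) (by linarith))).2
    refine fr_slab_eq ?_ ?_
    · unfold slab
      rw [map_mul, ← mul_assoc, u1]
    · unfold slab
      rw [map_mul, map_sub, map_one, ← mul_assoc, c, mul_assoc, mul_sub, mul_one, c, u2, sub_self,
        mul_zero]
  have k2 : ∀ a b : ℝ, 0 ≤ a → a < b → b ≤ 1 / 2 → π (slab E b) * slab E' a = slab E' a := by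
    intro a b h0 h1 h2
    have u1 := (he a b h1 (ab (by linarith) (by linarith)) (ab (by linarith) h2)).2
    have u2 := (he (-b) (-a) (by linarith) (ab (by linarith) (by linarith))
      (ab (by linarith) (by linarith))).1
    have e : π (slab E b) = slab (fun r => π (E r)) b := by
      unfold slab
      rw [map_mul, map_sub, map_one]
    rw [e]
    refine fr_slab_eq ?_ ?_
    · unfold slab
      rw [← mul_assoc, u1]
    · unfold slab
      rw [← mul_assoc, ← c, mul_assoc, mul_sub, mul_one, ← c, u2, sub_self, mul_zero]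
  have k3 : ∀ a b : ℝ, 0 ≤ a → a < b → b ≤ 1 / 2 → ∀ x, slab E a * x = x →
      slab E' b * π x = π x := by
    intro a b h0 h1 h2 x hx
    rw [← hx, map_mul, ← mul_assoc, k1 a b h0 h1 h2]
  refine ⟨fun x hx => ?_, fun x hx => ?_, fun x hx => ?_, ?_⟩
  · obtain ⟨r, hr, e⟩ := (mem_idI hs _ x).1 hx
    have m0 : 0 < min r (1 / 2) := lt_min hr (by norm_num)
    refine (mem_idI hs' _ _).2 ⟨min r (1 / 2) / 2, by linarith, ?_⟩
    rw [← k2 _ (min r (1 / 2)) (by linarith) (by linarith) (min_le_right _ _),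
      Base.comm _ (hπ.hD _ (hs.1 _)) _ (hs'.1 _), mul_assoc, ← map_mul,
      fr_down hs (min_le_left _ _) e, map_zero, mul_zero]
  · refine (mem_idN hs' _ _).2 fun r hr => ?_
    have m0 : 0 < min r (1 / 2) := lt_min hr (by norm_num)
    exact fr_up hs' (min_le_left r (1 / 2)) (k3 (min r (1 / 2) / 2) _ (by linarith) (by linarith)
      (min_le_right _ _) x ((mem_idN hs _ x).1 hx _ (by linarith)))
  · obtain ⟨r, hr, e⟩ := (mem_idB hs _ x).1 hx
    exact (mem_idB hs' _ _).2 ⟨1 / 2, by norm_num, k3 (max r 0) _ (le_max_right _ _)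
      (max_lt hr (by norm_num)) le_rfl x (fr_up hs (le_max_left _ _) e)⟩
  · show π (1 - E 0) - (1 - E' 0) ∈ _
    rw [map_sub, map_one, sub_sub_sub_cancel_left]
    refine (mem_idN hs' _ _).2 fun r hr => ?_
    have m0 : 0 < min r (1 / 2) := lt_min hr (by norm_num)
    have m1 : min r (1 / 2) ≤ 1 / 2 := min_le_right _ _
    refine fr_up hs' (min_le_left r (1 / 2)) (fr_slab_eq ?_ ?_)
    · rw [mul_sub, h'.mono m0.le, (he 0 _ m0 (by norm_num) (ab (by linarith) m1)).1]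
    · rw [mul_sub, h'.mono' (by linarith), c,
        (he _ 0 (by linarith) (ab (by linarith) (by linarith)) (by norm_num)).2, sub_self]

end Vale.Agent.P228
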