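import Vale.Agent.P228.Norm
import Vale.Agent.P228.Avg
import Vale.Agent.P228.Fr

/-! The abstract contradiction. -/

set_option linter.unusedSectionVars false

namespace Vale.Agent.P228

variable {A : Type*} [Ring A] [StarRing A] [Algebra ℂ A] [StarModule ℂ A] [Base A]
variable {A' : Type*} [Ring A'] [StarRing A'] [Algebra ℂ A'] [StarModule ℂ A'] [Base A']
variable {Γ : Type*} [AddCommGroup Γ] {ι : Type*}

theorem forall₂_map {α β : Type*} {R : α → β → Prop} (J : List ι) (F : ι → α) (F' : ι → β)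
    (h : ∀ l, R (F l) (F' l)) : List.Forall₂ R (J.map F) (J.map F') := by
  induction J with
  | nil => simp
  | cons l J ih => exact List.Forall₂.cons (h l) ih

theorem Cx.map_id (C : Cx A) : C.map (StarAlgHom.id ℂ A) = C := rfl

theorem baseHom_id : BaseHom (StarAlgHom.id ℂ A) := ⟨fun _ h => h, fun _ => rfl⟩

theorem Val.mono {S : Sig A Γ} (J : List ι) {F F' : ι → Frame A}
    (h : ∀ l, Frame.Map (StarAlgHom.id ℂ A) (F l) (F' l)) {C : Cx A} {v : Γ}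
    (hv : Val S (J.map F) C v) : Val S (J.map F') C v := by
  obtain ⟨C', hr, hs⟩ := hv
  exact ⟨C', hr.map baseHom_id (forall₂_map J F F' h), hs⟩

/-- thin reductions at two centres give the same value -/
theorem thin_eq (S : Sig A Γ) (J : List ι) {E₀ E₁ : ι → ℝ → A} (h₀ : ∀ l, Loc (E₀ l))
    (h₁ : ∀ l, Loc (E₁ l)) (he : ∀ l (a : ℝ), 1 / 2 < |a| → E₁ l a = E₀ l a)
    {G : TwoSidedIdeal A} (hK₀ : ∀ x ∈ G, (∀ l ∈ J, x ∈ idB (h₀ l).slab 1) → x ∈ S.K)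
    (hK₁ : ∀ x ∈ G, (∀ l ∈ J, x ∈ idB (h₁ l).slab 1) → x ∈ S.K) {C : Cx A} (hC : C.Good)
    (hG : C.p ∈ G) {v w : Γ} (hv : Val S (J.map fun l => fr (h₀ l) 0 0 (1 / 2)) C v)
    (hw : Val S (J.map fun l => fr (h₁ l) 0 0 (1 / 2)) C w) : v = w := by
  have ok : ∀ {E : ι → ℝ → A} (h : ∀ l, Loc (E l)) {rN rI a : ℝ}, 0 ≤ rN → rN ≤ rI → rI < a →
      ∀ f ∈ J.map (fun l => fr (h l) rN rI a), f.OK := by
    intro E h rN rI a a0 a1 a2 f hf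
    obtain ⟨l, -, rfl⟩ := List.mem_map.1 hf
    exact fr_OK _ a0 a1 a2
  have kk : ∀ {E : ι → ℝ → A} (h : ∀ l, Loc (E l)) (rN rI : ℝ),
      (∀ x ∈ G, (∀ l ∈ J, x ∈ idB (h l).slab 1) → x ∈ S.K) →
      ∀ x ∈ G, (∀ f ∈ J.map (fun l => fr (h l) rN rI 1), x ∈ f.B) → x ∈ S.K :=
    fun h rN rI H x hx hf => H x hx fun l hl => hf _ (List.mem_map_of_mem hl)
  obtain ⟨C₀, r₀⟩ := exists_red (ok h₀ le_rfl (by norm_num : (0 : ℝ) ≤ 1 / 2)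
    (by norm_num : (1 / 2 : ℝ) < 1)) hC
  obtain ⟨C₁, r₁⟩ := exists_red (ok h₁ le_rfl (by norm_num : (0 : ℝ) ≤ 1 / 2)
    (by norm_num : (1 / 2 : ℝ) < 1)) hC
  have v₀ : Val S _ C _ := ⟨C₀, r₀, rfl⟩
  have v₁ : Val S _ C _ := ⟨C₁, r₁, rfl⟩
  have e := Cx.Eqv.refl hC.ok
  have a1 := Val.uniq (ok h₀ le_rfl le_rfl one_pos) (kk h₀ 0 0 hK₀) hC hC e hG hG
    (hv.mono J fun l => fr_mono (h₀ l) le_rfl le_rfl (by norm_num))
    (v₀.mono J fun l => fr_mono (h₀ l) le_rfl (by norm_num) le_rfl)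
  have a2 := Val.uniq (ok h₁ le_rfl le_rfl one_pos) (kk h₁ 0 0 hK₁) hC hC e hG hG
    (hw.mono J fun l => fr_mono (h₁ l) le_rfl le_rfl (by norm_num))
    (v₁.mono J fun l => fr_mono (h₁ l) le_rfl (by norm_num) le_rfl)
  have a3 := Val.uniq (ok h₀ (by norm_num : (0 : ℝ) ≤ 1 / 2) le_rfl (by norm_num))
    (kk h₀ (1 / 2) (1 / 2) hK₀) hC hC e hG hG
    (v₀.mono J fun l => fr_mono (h₀ l) (by norm_num) le_rfl le_rfl)
    (v₁.mono J fun l => fr_recentre (h₁ l) (h₀ l) (he l))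
  rw [a1, a2, a3]

theorem abs_contra (S : Sig A Γ) (S' : Sig A' Γ) (J : List ι) {E₀ E₁ : ι → ℝ → A}
    {E' : ι → ℝ → A'} (h₀ : ∀ l, Loc (E₀ l)) (h₁ : ∀ l, Loc (E₁ l)) (h' : ∀ l, Loc (E' l))
    (he : ∀ l (a : ℝ), 1 / 2 < |a| → E₁ l a = E₀ l a)
    {G : TwoSidedIdeal A} (hK₀ : ∀ x ∈ G, (∀ l ∈ J, x ∈ idB (h₀ l).slab 1) → x ∈ S.K)
    (hK₁ : ∀ x ∈ G, (∀ l ∈ J, x ∈ idB (h₁ l).slab 1) → x ∈ S.K)
    {G' : TwoSidedIdeal A'} (hK' : ∀ x ∈ G', (∀ l ∈ J, x ∈ idB (h' l).slab 1) → x ∈ S'.K)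
    {τ : A →⋆ₐ[ℂ] A} (hτ : BaseHom τ) (hD : ∀ P ∈ (Base.D : Set A), τ P = P)
    (htw : ∀ C : Cx A, C.OK → C.Poinc → C.p ∈ G → (∀ l ∈ J, C.p ∈ idB (h₀ l).slab (1 / 2)) →
      S.sig (τ C.form) = S.sig C.form)
    {π : A →⋆ₐ[ℂ] A'} (hπ : BaseHom π)
    (hπE : ∀ l (a a' : ℝ), a < a' → |a| ≤ 1 / 2 → |a'| ≤ 1 / 2 →
      E' l a' * π (E₁ l a) = π (E₁ l a) ∧ π (E₁ l a') * E' l a = E' l a)
    (hπs : ∀ x ∈ G, star x = x → (∀ l ∈ J, x ∈ idB (h₁ l).slab (1 / 2)) → S'.sig (π x) = S.sig x)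
    {C : Cx A} (hC : C.Good) (hG : C.p ∈ G) (hτC : C.map τ = C) (hC' : (C.map π).Good)
    (hG' : π C.p ∈ G') {a e b : A} (hav : AvgData C a e b) {ζ : ℂ} (hζ : ζ ≠ 1)
    (hτa : τ a = ζ • a) (hπa : Htp (π C.d) (π C.d) (π a) (π C.p)) {v : Γ}
    (hv : Val S' (J.map fun l => fr (h' l) 0 0 1) (C.map π) v) : v = 0 := by
  have ok : ∀ {E : ι → ℝ → A} (h : ∀ l, Loc (E l)),
      ∀ f ∈ J.map (fun l => fr (h l) 0 0 (1 / 2)), f.OK := by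
    intro E h f hf
    obtain ⟨l, -, rfl⟩ := List.mem_map.1 hf
    exact fr_OK _ le_rfl le_rfl (by norm_num)
  have ok' : ∀ f ∈ J.map (fun l => fr (h' l) 0 0 1), f.OK := by
    intro f hf
    obtain ⟨l, -, rfl⟩ := List.mem_map.1 hf
    exact fr_OK _ le_rfl le_rfl one_pos
  have kk' : ∀ x ∈ G', (∀ f ∈ J.map (fun l => fr (h' l) 0 0 1), x ∈ f.B) → x ∈ S'.K :=
    fun x hx hf => hK' x hx fun l hl => hf _ (List.mem_map_of_mem hl)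
  have hΨ := hav.good hC
  have hav' : AvgData C (τ a) (τ e) (τ b) := by simpa only [hτC] using hav.map τ
  have hΨ' := hav'.good hC
  have eΨ : (C.tw e).map τ = C.tw (τ e) := by rw [Cx.tw_map, hτC]
  obtain ⟨C₀, r₀⟩ := exists_red (ok h₀) hΨ
  obtain ⟨C₁, r₁⟩ := exists_red (ok h₁) hΨ
  have r₀' := r₀.map hτ (forall₂_map J _ _ fun l => fr_fix (h₀ l) 0 0 (1 / 2) hD)
  have r₁' := r₁.map hτ (forall₂_map J _ _ fun l => fr_fix (h₁ l) 0 0 (1 / 2) hD)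
  rw [eΨ] at r₀' r₁'
  have e1 := thin_eq S J h₀ h₁ he hK₀ hK₁ hΨ hG ⟨_, r₀, rfl⟩ ⟨_, r₁, rfl⟩
  have e2 := thin_eq S J h₀ h₁ he hK₀ hK₁ hΨ' hG ⟨_, r₀', rfl⟩ ⟨_, r₁', rfl⟩
  have g₀ := r₀.good (ok h₀) hΨ
  have e3 := htw C₀ g₀.ok g₀.poinc (r₀.mem hG) fun l hl => r₀.memB _ (List.mem_map_of_mem hl)
  rw [← Cx.form_map hτ] at e3
  have key : ∀ {D D₁ : Cx A}, D.Good → D.p ∈ G → Red (J.map fun l => fr (h₁ l) 0 0 (1 / 2)) D D₁ →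
      Val S' (J.map fun l => fr (h' l) 0 0 1) (D.map π) (S.sig D₁.form) := by
    intro D D₁ hD' hDG r
    have g := r.good (ok h₁) hD'
    refine ⟨_, r.map hπ (forall₂_map J _ _ fun l => fr_coarse (h₁ l) (h' l) hπ (hπE l)), ?_⟩
    rw [Cx.form_map hπ]
    exact hπs _ (g.ok.form_mem (r.mem hDG)) g.ok.form_star fun l hl =>
      g.ok.form_mem (r.memB _ (List.mem_map_of_mem hl))
  have v1 := key hΨ hG r₁
  have v2 := key hΨ' hG r₁'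
  rw [Cx.tw_map] at v1 v2
  have u1 := Val.uniq ok' kk' ((hav.map π).good hC') hC'.neg
    ((hav.map π).eqv_neg hC'.ok hπa) hG' hG' v1 (hv.neg ok' kk' hC' hG')
  have hπa' : Htp (C.map π).d (C.map π).d (π (τ a)) (ζ • (C.map π).p) := by
    rw [hτa, map_smul]; exact hπa.smul ζ
  have u2 := Val.uniq ok' kk' ((hav'.map π).good hC') hC'
    ((hav'.map π).eqv_pos hC'.ok hζ hπa') hG' hG' v2 hv
  refine S'.tf 2 v two_ne_zero ?_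
  have : v = -v := by rw [← u1, ← e1, ← e3, e2, u2]
  rw [two_nsmul]
  exact add_eq_zero_iff_eq_neg.2 this

end Vale.Agent.P228
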