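import Vale.Agent.P228.Defs

/-! Elementary lemmas on matrix units and diagonal projections. -/

set_option linter.unusedSectionVars false

namespace Vale.Agent.P228

variable {A : Type*} [Ring A] [StarRing A] [Base A]

theorem D_zero : (0 : A) ∈ (Base.D : Set A) := by
  simpa using Base.compl_mem (1 : A) Base.one_mem

theorem D_add {P Q : A} (hP : P ∈ (Base.D : Set A)) (hQ : Q ∈ (Base.D : Set A)) (h : P * Q = 0) :
    P + Q ∈ (Base.D : Set A) := by
  have := Base.compl_mem _ (Base.mul_mem _ (Base.compl_mem _ hP) _ (Base.compl_mem _ hQ))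
  have e : 1 - (1 - P) * (1 - Q) = P + Q - P * Q := by noncomm_ring
  rwa [e, h, sub_zero] at this

theorem D_sub {P Q : A} (hP : P ∈ (Base.D : Set A)) (hQ : Q ∈ (Base.D : Set A)) (h : Q * P = Q) :
    P - Q ∈ (Base.D : Set A) := by
  have := Base.mul_mem _ (Base.compl_mem _ hQ) _ hP
  rwa [sub_mul, one_mul, h] at this

theorem ee_mul_same (i j k : Fin 4) (x y : A) : ee i j x * ee j k y = ee i k (x * y) := by
  unfold ee
  calc _ = Base.s i * x * (star (Base.s j : A) * Base.s j) * y * star (Base.s k : A) := by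
        noncomm_ring
    _ = _ := by rw [Base.s_self]; noncomm_ring

theorem ee_mul_ne (i k : Fin 4) {j j' : Fin 4} (h : j ≠ j') (x y : A) :
    ee i j x * ee j' k y = 0 := by
  unfold ee
  calc _ = Base.s i * x * (star (Base.s j : A) * Base.s j') * y * star (Base.s k : A) := by
        noncomm_ring
    _ = _ := by rw [Base.s_ne _ _ h]; noncomm_ring

/-- simp-normal form of products of matrix units with numeral indices -/
theorem ee_mul (i j j' k : Fin 4) (x y : A) :
    ee i j x * ee j' k y = if j = j' then ee i k (x * y) else 0 := by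
  split_ifs with h
  · subst h; exact ee_mul_same _ _ _ _ _
  · exact ee_mul_ne _ _ h _ _

theorem star_ee (i j : Fin 4) (x : A) : star (ee i j x) = ee j i (star x) := by
  simp [ee, mul_assoc]

theorem ee_add (i j : Fin 4) (x y : A) : ee i j (x + y) = ee i j x + ee i j y := by
  simp [ee, mul_add, add_mul]

theorem ee_sub (i j : Fin 4) (x y : A) : ee i j (x - y) = ee i j x - ee i j y := by
  simp [ee, mul_sub, sub_mul]

theorem ee_neg (i j : Fin 4) (x : A) : ee i j (-x) = -ee i j x := by simp [ee]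

@[simp] theorem ee_zero (i j : Fin 4) : ee i j (0 : A) = 0 := by simp [ee]

theorem ee_smul [Algebra ℂ A] (i j : Fin 4) (c : ℂ) (x : A) : ee i j (c • x) = c • ee i j x := by
  simp [ee]

theorem ee_D (i : Fin 4) {P : A} (hP : P ∈ (Base.D : Set A)) : ee i i P ∈ (Base.D : Set A) :=
  Base.s_push i P hP

theorem ee_mem (I : TwoSidedIdeal A) (i j : Fin 4) {x : A} (hx : x ∈ I) : ee i j x ∈ I :=
  I.mul_mem_right _ _ (I.mul_mem_left _ _ hx)

theorem mono_s (i : Fin 4) : Mono (Base.s i : A) := Base.s_push i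

theorem mono_D {P : A} (hP : P ∈ (Base.D : Set A)) : Mono P := by
  intro Q hQ
  rw [Base.star_eq P hP]
  exact Base.mul_mem _ (Base.mul_mem _ hP _ hQ) _ hP

theorem Mono.mul {v w : A} (hv : Mono v) (hw : Mono w) : Mono (v * w) := by
  intro Q hQ
  have := hv _ (hw Q hQ)
  simpa [mul_assoc] using this

theorem Loc.mono {M : ℝ → A} (hM : Loc M) {a b : ℝ} (h : a ≤ b) : M b * M a = M a := by
  rcases h.eq_or_lt with rfl | h
  · exact Base.idem _ (hM.1 a)
  · have := hM.2 a b h 1
    rw [mul_one, sub_mul, one_mul, sub_eq_zero] at this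
    exact this.symm

theorem Loc.mono' {M : ℝ → A} (hM : Loc M) {a b : ℝ} (h : a ≤ b) : M a * M b = M a := by
  rw [Base.comm _ (hM.1 a) _ (hM.1 b), hM.mono h]

theorem Loc.loc' {M : ℝ → A} (hM : Loc M) {a b : ℝ} (h : a < b) (T : A) :
    M a * T * (1 - M b) = 0 := by
  have := congrArg star (hM.2 a b h (star T))
  simpa [Base.star_eq _ (hM.1 a), Base.star_eq _ (hM.1 b), mul_assoc] using this

/-- complementary family -/
theorem Loc.compl {M : ℝ → A} (hM : Loc M) : Loc (fun a => 1 - M (-a)) := by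
  refine ⟨fun a => Base.compl_mem _ (hM.1 _), fun a b h T => ?_⟩
  simpa using hM.loc' (neg_lt_neg h) T

theorem Cpx.star_p {p d : A} (h : Cpx p d) : star p = p := Base.star_eq _ h.pD

theorem Cpx.pp {p d : A} (h : Cpx p d) : p * p = p := Base.idem _ h.pD

theorem Cpx.dual {p d : A} (h : Cpx p d) : Cpx p (star d) :=
  ⟨h.pD, by simpa [h.star_p] using congrArg star h.dp, by simpa [h.star_p] using congrArg star h.pd,
    by simpa using congrArg star h.dd⟩

theorem Cpx.neg {p d : A} (h : Cpx p d) : Cpx p (-d) :=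
  ⟨h.pD, by simp [h.pd], by simp [h.dp], by simp [h.dd]⟩

theorem Cpx.smul [Algebra ℂ A] {p d : A} (h : Cpx p d) (c : ℂ) : Cpx p (c • d) :=
  ⟨h.pD, by simp [h.pd], by simp [h.dp], by simp [h.dd]⟩

theorem Cx.OK.φp {C : Cx A} (h : C.OK) : C.φ * C.p = C.φ := by
  simpa [h.φs, h.toCpx.star_p] using congrArg star h.pφ

theorem Frame.OK.NI {f : Frame A} (hf : f.OK) {x y : A} (hx : x ∈ f.N) (hy : y ∈ f.I) :
    x * y = 0 := by
  have := congrArg star (hf.IN _ (hf.starI _ hy) _ (hf.starN _ hx))
  simpa using this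

end Vale.Agent.P228
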