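import Vale.Agent.P228.Op

/-! Signature of finitely supported hermitian operators. -/

set_option linter.unusedSectionVars false

namespace Vale.Agent.P228

namespace SgnAux

variable {V : Type} [AddCommGroup V] [Module ℂ V]

/-- dimensions of positive subspaces -/
def PS (q : V → ℝ) : Set ℕ :=
  {m | ∃ W : Submodule ℂ V, FiniteDimensional ℂ W ∧ Module.finrank ℂ W = m ∧
    ∀ v ∈ W, v ≠ 0 → 0 < q v}

theorem ps_ne (q : V → ℝ) : (PS q).Nonempty :=
  ⟨_, ⊥, inferInstance, rfl, fun _ hv h => (h ((Submodule.mem_bot ℂ).1 hv)).elim⟩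

theorem ps_le {q : V → ℝ} {S : Type} [Fintype S] (L : V →ₗ[ℂ] (S → ℂ))
    (hL : ∀ v, L v = 0 → q v ≤ 0) : ∀ m ∈ PS q, m ≤ Fintype.card S := by
  rintro _ ⟨W, -, rfl, hW⟩
  have hf : Function.Injective (L.comp W.subtype) := by
    refine (injective_iff_map_eq_zero _).2 fun v hv => ?_
    by_contra h0
    exact absurd (hW v.1 v.2 fun e => h0 (Subtype.ext e)) (not_lt.2 (hL _ hv))
  simpa using LinearMap.finrank_le_finrank_of_injective hf

theorem le_sup {q : V → ℝ} (hb : BddAbove (PS q)) (q0 : q 0 = 0) {U : Type} [AddCommGroup U]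
    [Module ℂ U] [FiniteDimensional ℂ U] (f : U →ₗ[ℂ] V) (hf : ∀ u, u ≠ 0 → 0 < q (f u)) :
    Module.finrank ℂ U ≤ sSup (PS q) := by
  have hi : Function.Injective f := by
    refine (injective_iff_map_eq_zero _).2 fun u hu => ?_
    by_contra h0
    have := hf u h0
    rw [hu, q0] at this
    exact lt_irrefl _ this
  refine le_csSup hb ⟨LinearMap.range f, inferInstance, LinearMap.finrank_range_of_inj hi, ?_⟩
  rintro _ ⟨u, rfl⟩ h
  exact hf u fun e => h (by rw [e, map_zero])

theorem comp_le {q q' : V → ℝ} (hb : BddAbove (PS q)) (q0 : q 0 = 0) (g : V →ₗ[ℂ] V)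
    (h : ∀ v, q' v = q (g v)) : sSup (PS q') ≤ sSup (PS q) := by
  refine csSup_le (ps_ne q') ?_
  rintro _ ⟨W, _, rfl, hW⟩
  refine le_sup hb q0 (g.comp W.subtype) fun u hu => ?_
  have := hW u.1 u.2 fun e => hu (Subtype.ext e)
  rwa [h] at this

theorem add_le {q q' q'' : V → ℝ} (hb : BddAbove (PS q)) (q0 : q 0 = 0) (hb' : BddAbove (PS q'))
    (q0' : q' 0 = 0) (h : ∀ v, q'' v = q v + q' v) (l : V → V →ₗ[ℂ] ℂ)
    (hsym : ∀ v w, l w v = 0 → l v w = 0)
    (hq : ∀ w v (c : ℂ), l w v = 0 → q (w + c • v) = q w + Complex.normSq c * q v) :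
    sSup (PS q'') ≤ sSup (PS q) + sSup (PS q') := by
  refine csSup_le (ps_ne q'') ?_
  rintro _ ⟨U, hU, rfl, hpos⟩
  obtain ⟨W, hW, h1, h2⟩ := Nat.sSup_mem (ps_ne q) hb
  have np : ∀ v, (∀ w ∈ W, l w v = 0) → q v ≤ 0 := fun v hv => by
    by_contra h0
    have h0 := not_le.1 h0
    have key := le_sup hb q0 (W.subtype.coprod (LinearMap.toSpanSingleton ℂ V v)) fun u hu => by
      obtain ⟨w, c⟩ := u
      change 0 < q (w.1 + c • v)
      rw [hq _ _ _ (hv w.1 w.2)]
      by_cases hw : w = 0
      · have hc : c ≠ 0 := fun e => hu (by rw [hw, e]; rfl)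
        rw [hw, ZeroMemClass.coe_zero, q0, zero_add]
        exact mul_pos (Complex.normSq_pos.2 hc) h0
      · exact add_pos_of_pos_of_nonneg (h2 _ w.2 fun e => hw (Subtype.ext e))
          (mul_nonneg (Complex.normSq_nonneg c) h0.le)
    rw [Module.finrank_prod, Module.finrank_self, h1] at key
    omega
  let b := Module.finBasis ℂ W
  let φ : U →ₗ[ℂ] (Fin (Module.finrank ℂ W) → ℂ) :=
    LinearMap.pi fun i => (l (b i).1).comp U.subtype
  have a1 : Module.finrank ℂ (LinearMap.range φ) ≤ sSup (PS q) := by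
    rw [← h1]
    simpa using (LinearMap.range φ).finrank_le
  have a2 : Module.finrank ℂ (LinearMap.ker φ) ≤ sSup (PS q') := by
    refine le_sup hb' q0' (U.subtype.comp (LinearMap.ker φ).subtype) fun u hu => ?_
    have b1 := hpos u.1.1 u.1.2 fun e => hu (Subtype.ext (Subtype.ext e))
    have b2 : q u.1.1 ≤ 0 := by
      refine np _ fun w hw => hsym _ _ ?_
      have b5 : (l u.1.1).comp W.subtype = 0 :=
        b.ext fun i => hsym _ _ (congrFun (LinearMap.mem_ker.1 u.2) i)
      exact LinearMap.congr_fun b5 ⟨w, hw⟩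
    rw [h] at b1
    change 0 < q' u.1.1
    linarith
  have a3 := LinearMap.finrank_range_add_finrank_ker φ
  omega

theorem le_add {q q' q'' : V → ℝ} (hb : BddAbove (PS q)) (q0 : q 0 = 0) (hb' : BddAbove (PS q'))
    (q0' : q' 0 = 0) (hb'' : BddAbove (PS q'')) (q0'' : q'' 0 = 0) (P Q : V →ₗ[ℂ] V)
    (h : ∀ w w', q'' (P w + Q w') = q w + q' w') :
    sSup (PS q) + sSup (PS q') ≤ sSup (PS q'') := by
  obtain ⟨W, hW, a1, a2⟩ := Nat.sSup_mem (ps_ne q) hb
  obtain ⟨W', hW', a1', a2'⟩ := Nat.sSup_mem (ps_ne q') hb'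
  have key := le_sup hb'' q0'' ((P.comp W.subtype).coprod (Q.comp W'.subtype)) fun u hu => by
    obtain ⟨w, w'⟩ := u
    change 0 < q'' (P w.1 + Q w'.1)
    rw [h]
    have n1 : 0 ≤ q w.1 := by
      by_cases h : w.1 = 0
      · rw [h, q0]
      · exact (a2 _ w.2 h).le
    have n2 : 0 ≤ q' w'.1 := by
      by_cases h : w'.1 = 0
      · rw [h, q0']
      · exact (a2' _ w'.2 h).le
    by_cases h : w.1 = 0
    · refine add_pos_of_nonneg_of_pos n1 (a2' _ w'.2 fun h' => hu ?_)
      exact Prod.ext (Subtype.ext h) (Subtype.ext h')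
    · exact add_pos_of_pos_of_nonneg (a2 _ w.2 h) n2
  rwa [Module.finrank_prod, a1, a1'] at key

end SgnAux

open SgnAux

namespace Op

variable {n : ℕ}

/-- the standard hermitian pairing -/
noncomputable def ip (v w : Ch n) : ℂ := v.sum fun x a => star a * w x

/-- positive index of inertia -/
noncomputable def pos (T : Op n) : ℕ :=
  sSup {m | ∃ W : Submodule ℂ (Ch n), FiniteDimensional ℂ W ∧ Module.finrank ℂ W = m ∧
    ∀ v ∈ W, v ≠ 0 → 0 < (ip v (lin T v)).re}

noncomputable def sgn (T : Op n) : ℤ := (pos T : ℤ) - pos (-T)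

/-- finitely many nonzero rows -/
def Fin' (T : Op n) : Prop := ∃ S : Finset (Cell n), pr (S : Set (Cell n)) * T = T

theorem ip_eq (v w : Ch n) (s : Finset (Cell n)) (hs : ∀ x, v x ≠ 0 → w x ≠ 0 → x ∈ s) :
    ip v w = ∑ x ∈ s, star (v x) * w x := by
  classical
  rw [ip, Finsupp.sum]
  have e1 : ∑ x ∈ s ∩ v.support, star (v x) * w x = ∑ x ∈ v.support, star (v x) * w x := by
    refine Finset.sum_subset Finset.inter_subset_right fun y hy hy' => ?_
    by_contra h
    exact hy' (Finset.mem_inter.2 ⟨hs y (Finsupp.mem_support_iff.1 hy) (right_ne_zero_of_mul h), hy⟩)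
  have e2 : ∑ x ∈ s ∩ v.support, star (v x) * w x = ∑ x ∈ s, star (v x) * w x := by
    refine Finset.sum_subset Finset.inter_subset_left fun y hy hy' => ?_
    by_contra h
    exact hy' (Finset.mem_inter.2 ⟨hy, Finsupp.mem_support_iff.2 fun e =>
      left_ne_zero_of_mul h (by rw [e, star_zero])⟩)
  exact e1.symm.trans e2

theorem ip_left (v w : Ch n) : ip v w = ∑ x ∈ v.support, star (v x) * w x := rfl

theorem ip_right (v w : Ch n) : ip v w = ∑ x ∈ w.support, star (v x) * w x :=
  ip_eq v w _ fun _ _ h => Finsupp.mem_support_iff.2 h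

theorem ip_conj (v w : Ch n) : star (ip v w) = ip w v := by
  rw [ip_left, ip_right, star_sum]
  exact Finset.sum_congr rfl fun x _ => by rw [star_mul, star_star]

/-- the pairing is linear in the second variable -/
noncomputable def ipL (v : Ch n) : Ch n →ₗ[ℂ] ℂ where
  toFun w := ip v w
  map_add' w w' := by simp only [ip_left, Finsupp.add_apply, mul_add, Finset.sum_add_distrib]
  map_smul' c w := by
    simp only [ip_left, Finsupp.smul_apply, smul_eq_mul, RingHom.id_apply, Finset.mul_sum]
    exact Finset.sum_congr rfl fun x _ => by ring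

theorem ip_add_right (v w w' : Ch n) : ip v (w + w') = ip v w + ip v w' := (ipL v).map_add w w'
theorem ip_smul_right (c : ℂ) (v w : Ch n) : ip v (c • w) = c * ip v w := (ipL v).map_smul c w
theorem ip_zero_right (v : Ch n) : ip v 0 = 0 := (ipL v).map_zero
theorem ip_neg_right (v w : Ch n) : ip v (-w) = -ip v w := (ipL v).map_neg w
theorem ip_add_left (v v' w : Ch n) : ip (v + v') w = ip v w + ip v' w := by
  rw [← ip_conj, ip_add_right, star_add, ip_conj, ip_conj]
theorem ip_smul_left (c : ℂ) (v w : Ch n) : ip (c • v) w = star c * ip v w := by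
  rw [← ip_conj, ip_smul_right, star_mul', ip_conj]
theorem ip_zero_left (w : Ch n) : ip 0 w = 0 := by rw [← ip_conj, ip_zero_right, star_zero]

theorem ip_star (T : Op n) (v w : Ch n) : ip v (lin T w) = ip (lin (star T) v) w := by
  rw [ip_left, ip_right]
  simp only [lin_apply, ent_star, star_sum, star_mul', star_star, Finset.mul_sum, Finset.sum_mul]
  rw [Finset.sum_comm]
  exact Finset.sum_congr rfl fun y _ => Finset.sum_congr rfl fun x _ => by ring

/-- the quadratic form -/
noncomputable def qf (T : Op n) (v : Ch n) : ℝ := (ip v (lin T v)).re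

theorem qf_zero (T : Op n) : qf T 0 = 0 := by rw [qf, ip_zero_left, Complex.zero_re]

theorem qf_add (T T' : Op n) (v : Ch n) : qf (T + T') v = qf T v + qf T' v := by
  rw [qf, map_add, LinearMap.add_apply, ip_add_right, Complex.add_re, qf, qf]

theorem qf_conj (T g : Op n) (v : Ch n) : qf (g * T * star g) v = qf T (lin (star g) v) := by
  rw [qf, map_mul, map_mul, Module.End.mul_apply, Module.End.mul_apply, ip_star, qf]

theorem lin_diag (f : Cell n → ℂ) (v : Ch n) (x : Cell n) : lin (diag f) v x = f x * v x := by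
  classical
  rw [lin_apply]
  simp only [ent_diag, ite_mul, zero_mul, Finset.sum_ite_eq, Finsupp.mem_support_iff]
  split_ifs with h
  · rfl
  · rw [not_not.1 h, mul_zero]

theorem pos_eq (T : Op n) : pos T = sSup (PS (qf T)) := rfl

theorem rank_le {T : Op n} {S : Finset (Cell n)} (hS : pr (S : Set (Cell n)) * T = T) :
    ∀ m ∈ PS (qf T), m ≤ Fintype.card S := by
  refine ps_le (LinearMap.pi fun x : S => (Finsupp.lapply x.1).comp (lin T)) fun v hv => ?_
  have h1 : lin T v = 0 := by
    rw [← hS, map_mul, Module.End.mul_apply]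
    ext x
    rw [pr, lin_diag, Finsupp.zero_apply]
    by_cases hx : x ∈ S
    · have h2 : lin T v x = 0 := congrFun hv ⟨x, hx⟩
      rw [h2, mul_zero]
    · rw [Set.indicator_of_notMem (by simpa using hx), zero_mul]
  rw [qf, h1, ip_zero_right, Complex.zero_re]

theorem pos_bdd {T : Op n} (hT : T.Fin') : BddAbove (PS (qf T)) := by
  obtain ⟨S, hS⟩ := hT
  exact ⟨_, rank_le hS⟩

theorem Fin'.add {T T' : Op n} (hT : T.Fin') (hT' : T'.Fin') : (T + T').Fin' := by
  classical
  obtain ⟨S, hS⟩ := hT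
  obtain ⟨S', hS'⟩ := hT'
  refine ⟨S ∪ S', ?_⟩
  rw [mul_add, ← hS, ← hS', ← mul_assoc, ← mul_assoc, pr_mul, pr_mul, Finset.coe_union,
    Set.union_inter_cancel_left, Set.union_inter_cancel_right]

theorem pos_add_le {T T' : Op n} (hT : T.Fin') (hT' : T'.Fin') (hs : star T = T) :
    pos (T + T') ≤ pos T + pos T' := by
  have hsym : ∀ v w, ip w (lin T v) = 0 → ip v (lin T w) = 0 := fun v w h => by
    rw [ip_star, hs, ← ip_conj, h, star_zero]
  refine add_le (pos_bdd hT) (qf_zero T) (pos_bdd hT') (qf_zero T') (qf_add T T')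
    (fun w => (ipL w).comp (lin T)) hsym fun w v c a1 => ?_
  have a1 : ip w (lin T v) = 0 := a1
  have a2 := hsym _ _ a1
  change qf T (w + c • v) = qf T w + Complex.normSq c * qf T v
  rw [qf, map_add, map_smul, ip_add_left, ip_add_right, ip_add_right, ip_smul_left,
    ip_smul_left, ip_smul_right, ip_smul_right, a1, a2, mul_zero, mul_zero, add_zero, zero_add,
    ← mul_assoc, Complex.add_re, Complex.star_def, ← Complex.normSq_eq_conj_mul_self,
    Complex.re_ofReal_mul, qf, qf]

/-- a positive subspace injects into the functions on `S` via `v ↦ T v`, so the set is bounded;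
`W ↦ g* W` maps positive subspaces of `g T g*` injectively to positive subspaces of `T` -/
theorem pos_conj_le {T : Op n} (hT : T.Fin') (g : Op n) : pos (g * T * star g) ≤ pos T := by
  exact comp_le (pos_bdd hT) (qf_zero T) (lin (star g)) (qf_conj T g)

/-- `≤`: for a maximal positive `W` the form is `≤ 0` on the orthogonal complement of `W`, which has
codimension `pos T`.  `≥`: replace the maximal subspaces by `P W` and `(1-P) W'`. -/
theorem pos_add {T T' P : Op n} (hT : T.Fin') (hT' : T'.Fin') (hs : star T = T)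
    (hs' : star T' = T') (hP : star P = P) (hPP : P * P = P) (h1 : T * P = T) (h2 : T' * P = 0) :
    pos (T + T') = pos T + pos T' := by
  refine le_antisymm (pos_add_le hT hT' hs) ?_
  have e1 : P * T = T := by simpa only [star_mul, hP, hs] using congrArg star h1
  have e2 : P * T' = 0 := by simpa only [star_mul, hP, hs', star_zero] using congrArg star h2
  have hQ : star (1 - P) = 1 - P := by rw [star_sub, star_one, hP]
  have q1 : ∀ v, qf T v = qf T (lin P v) := fun v => by
    have := qf_conj T P v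
    rwa [hP, e1, h1] at this
  have q2 : ∀ v, qf T' v = qf T' (lin (1 - P) v) := fun v => by
    have := qf_conj T' (1 - P) v
    rwa [hQ, sub_mul, one_mul, e2, sub_zero, mul_sub, mul_one, h2, sub_zero] at this
  refine le_add (pos_bdd hT) (qf_zero T) (pos_bdd hT') (qf_zero T') (pos_bdd (hT.add hT'))
    (qf_zero _) (lin P) (lin (1 - P)) fun w w' => ?_
  have m1 : P * (1 - P) = 0 := by rw [mul_sub, mul_one, hPP, sub_self]
  have m2 : (1 - P) * P = 0 := by rw [sub_mul, one_mul, hPP, sub_self]
  have m3 : (1 - P) * (1 - P) = 1 - P := by rw [mul_sub, mul_one, m2, sub_zero]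
  have b1 : lin P (lin P w + lin (1 - P) w') = lin P w := by
    rw [map_add, ← Module.End.mul_apply, ← Module.End.mul_apply, ← map_mul, ← map_mul, hPP, m1,
      map_zero, LinearMap.zero_apply, add_zero]
  have b2 : lin (1 - P) (lin P w + lin (1 - P) w') = lin (1 - P) w' := by
    rw [map_add, ← Module.End.mul_apply, ← Module.End.mul_apply, ← map_mul, ← map_mul, m2, m3,
      map_zero, LinearMap.zero_apply, zero_add]
  change qf (T + T') (lin P w + lin (1 - P) w') = qf T w + qf T' w'
  rw [qf_add, q1, q2 (_ + _), b1, b2, ← q1, ← q2]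

theorem Fin'.neg {T : Op n} (hT : T.Fin') : (-T).Fin' := by
  obtain ⟨S, hS⟩ := hT
  exact ⟨S, by rw [mul_neg, hS]⟩
theorem Fin'.conj {T : Op n} (hT : T.Fin') (g : Op n) : (g * T * star g).Fin' := by
  classical
  obtain ⟨S, hS⟩ := hT
  refine ⟨S.biUnion fun y => (g.col_finite y).toFinset, ?_⟩
  have h : pr ((S.biUnion fun y => (g.col_finite y).toFinset : Finset (Cell n)) : Set (Cell n))
      * (g * pr (S : Set (Cell n))) = g * pr (S : Set (Cell n)) := by
    refine ext fun x y => ?_
    rw [pr, pr, ent_diag_mul, ent_mul_diag]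
    by_cases h1 : g.ent x y = 0
    · rw [h1, zero_mul, mul_zero]
    by_cases h2 : y ∈ S
    · rw [Set.indicator_of_mem (Finset.mem_coe.2 (Finset.mem_biUnion.2 ⟨y, h2, by simpa using h1⟩)),
        Pi.one_apply, one_mul]
    · rw [Set.indicator_of_notMem (s := (S : Set (Cell n))) (by simpa using h2), mul_zero, mul_zero]
  rw [← hS, ← mul_assoc g, ← mul_assoc, ← mul_assoc, h]

theorem sgn_congr {T : Op n} (hT : T.Fin') (g g' : Op n)
    (h : T = g' * (g * T * star g) * star g') : sgn (g * T * star g) = sgn T := by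
  have key : ∀ {T : Op n}, T.Fin' → T = g' * (g * T * star g) * star g' →
      pos (g * T * star g) = pos T := fun {T} hT h =>
    le_antisymm (pos_conj_le hT g) ((congrArg pos h).trans_le (pos_conj_le (hT.conj g) g'))
  have e : -(g * T * star g) = g * -T * star g := by rw [mul_neg, neg_mul]
  rw [sgn, sgn, key hT h, e, key hT.neg (by rw [← e, mul_neg, neg_mul, ← h])]
theorem sgn_add {T T' P : Op n} (hT : T.Fin') (hT' : T'.Fin') (hs : star T = T)
    (hs' : star T' = T') (hP : star P = P) (hPP : P * P = P) (h1 : T * P = T) (h2 : T' * P = 0) :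
    sgn (T + T') = sgn T + sgn T' := by
  rw [sgn, sgn, sgn, neg_add, pos_add hT hT' hs hs' hP hPP h1 h2,
    pos_add hT.neg hT'.neg (by rw [star_neg, hs]) (by rw [star_neg, hs']) hP hPP
      (by rw [neg_mul, h1]) (by rw [neg_mul, h2, neg_zero])]
  push_cast
  ring
theorem sgn_neg (T : Op n) : sgn (-T) = -sgn T := by simp [sgn]
theorem sgn_zero : sgn (0 : Op n) = 0 := by simp [sgn]
theorem sgn_single (x : Cell n) : sgn (pr {x}) = 1 := by
  have hS : pr (({x} : Finset (Cell n)) : Set (Cell n)) * pr {x} = pr {x} := by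
    rw [Finset.coe_singleton, pr_mul, Set.inter_self]
  have q : ∀ v : Ch n, ip v (lin (pr {x}) v) = (Complex.normSq (v x) : ℂ) := fun v => by
    rw [ip_eq _ _ {x} fun y _ h => by
      by_contra hy
      exact h (by rw [pr, lin_diag, Set.indicator_of_notMem (by simpa using hy), zero_mul]),
      Finset.sum_singleton, pr, lin_diag, Set.indicator_of_mem (Set.mem_singleton x), Pi.one_apply,
      one_mul, Complex.normSq_eq_conj_mul_self, Complex.star_def]
  have h1 : pos (pr {x}) = 1 := by
    refine le_antisymm (csSup_le (ps_ne _) fun m hm => by simpa using rank_le hS m hm) ?_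
    have := le_sup (pos_bdd ⟨_, hS⟩) (qf_zero _) (Finsupp.lsingle x : ℂ →ₗ[ℂ] Ch n) fun c hc => by
      rw [qf, q, Complex.ofReal_re, Finsupp.lsingle_apply, Finsupp.single_eq_same]
      exact Complex.normSq_pos.2 hc
    rwa [Module.finrank_self] at this
  have h2 : pos (-pr {x}) = 0 := by
    refine Nat.le_zero.1 (csSup_le (ps_ne _) fun m hm => ?_)
    have := ps_le (q := qf (-pr {x})) (0 : Ch n →ₗ[ℂ] (Empty → ℂ)) (fun v _ => by
      rw [qf, map_neg, LinearMap.neg_apply, ip_neg_right, q, Complex.neg_re, Complex.ofReal_re]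
      linarith [Complex.normSq_nonneg (v x)]) m hm
    simpa using this
  rw [sgn, h1, h2]
  rfl

end Op

end Vale.Agent.P228
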