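import Vale.Agent.P228.CtlB
import Vale.Agent.P228.Sgn
import Vale.Agent.P228.Fr

/-! The signature on the ideal of compactly supported elements. -/

set_option linter.unusedSectionVars false

namespace Vale.Agent.P228

open Filter

variable {n : ℕ} {κ J : Type} [Fintype κ]

namespace Op

theorem ent_pr_mul (S : Set (Cell n)) (T : Op n) (x y) :
    (pr S * T).ent x y = S.indicator 1 x * T.ent x y := ent_diag_mul _ _ _ _

theorem ent_mul_pr (S : Set (Cell n)) (T : Op n) (x y) :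
    (T * pr S).ent x y = T.ent x y * S.indicator 1 y := ent_mul_diag _ _ _ _

theorem pr_mul_eq_self {S : Set (Cell n)} {T : Op n} (h : ∀ x y, T.ent x y ≠ 0 → x ∈ S) :
    pr S * T = T := ext fun x y => by
  rw [ent_pr_mul]
  by_cases e : T.ent x y = 0
  · rw [e, mul_zero]
  · simp [h x y e]

theorem pr_up {S S' : Set (Cell n)} (hS : S ⊆ S') {T : Op n} (h : pr S * T = T) : pr S' * T = T := by
  rw [← h, ← mul_assoc, pr_mul, Set.inter_eq_right.2 hS]

theorem pr_up' {S S' : Set (Cell n)} (hS : S ⊆ S') {T : Op n} (h : T * pr S = T) :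
    T * pr S' = T := by
  rw [← h, mul_assoc, pr_mul, Set.inter_eq_left.2 hS]

end Op

namespace Ctl

variable (C : Ctl n κ J)

/-- projection onto a family of finite sets -/
noncomputable def prf (S : J → Finset (Cell n)) : C.A := C.pr fun j => (S j : Set (Cell n))

theorem prf_up {S S' : J → Finset (Cell n)} (hS : ∀ j, S j ⊆ S' j) {x : C.A}
    (h : C.prf S * x = x) : C.prf S' * x = x := by
  rw [← h, ← mul_assoc, prf, prf, pr_mul]
  congr 2
  funext j
  exact Set.inter_eq_right.2 (Finset.coe_subset.2 (hS j))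

open Classical in
/-- rows met by the columns in `S` -/
noncomputable def rows (T : κ → Op n) (S : Finset (Cell n)) : Finset (Cell n) :=
  S.biUnion fun y => Finset.univ.biUnion fun c => ((T c).col_finite y).toFinset

theorem mem_rows {T : κ → Op n} {S : Finset (Cell n)} {c : κ} {x y : Cell n} (hy : y ∈ S)
    (h : (T c).ent x y ≠ 0) : x ∈ rows T S := by
  classical
  unfold rows
  exact Finset.mem_biUnion.2 ⟨y, hy, Finset.mem_biUnion.2 ⟨c, Finset.mem_univ _, by simpa using h⟩⟩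

theorem op_rows {T : Op n} {S S' : Set (Cell n)} (h : ∀ x y, y ∈ S → T.ent x y ≠ 0 → x ∈ S') :
    Op.pr S' * (T * Op.pr S) = T * Op.pr S :=
  Op.pr_mul_eq_self fun x y e => by
    rw [Op.ent_mul_pr] at e
    exact h x y (Set.mem_of_indicator_ne_zero (right_ne_zero_of_mul e)) (left_ne_zero_of_mul e)

theorem prf_left (T : C.ctrl) {S S' : J → Finset (Cell n)}
    (h : ∀ᶠ j in C.l, ∀ c x y, y ∈ S j → (T.1 j c).ent x y ≠ 0 → x ∈ S' j) {y : C.A}
    (hy : C.prf S * y = y) : C.prf S' * (C.cl T * y) = C.cl T * y := by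
  have e : C.prf S' * (C.cl T * C.prf S) = C.cl T * C.prf S := by
    rw [prf, prf, pr, pr, ← map_mul, ← map_mul]
    refine C.cl_eq_of_eventually ?_
    filter_upwards [h] with j hj
    funext c
    exact op_rows (hj c)
  rw [← hy, ← mul_assoc (C.cl T), ← mul_assoc, e]

/-- elements of finite type; left multiplication: the rows of `T j c * pr (S j)` lie in a finite set -/
noncomputable def idF : TwoSidedIdeal C.A :=
  TwoSidedIdeal.mk' {x | ∃ S, C.prf S * x = x} ⟨fun _ => ∅, mul_zero _⟩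
    (fun ⟨S, hx⟩ ⟨S', hy⟩ => by
      classical
      exact ⟨fun j => S j ∪ S' j, by
        rw [mul_add, C.prf_up (fun _ => Finset.subset_union_left) hx,
          C.prf_up (fun _ => Finset.subset_union_right) hy]⟩)
    (fun ⟨S, hx⟩ => ⟨S, by rw [mul_neg, hx]⟩)
    (fun {x _} ⟨S, hy⟩ => by
      obtain ⟨T, rfl⟩ := C.cl_surj x
      exact ⟨fun j => rows (T.1 j) (S j),
        C.prf_left T (Eventually.of_forall fun j c x y h e => mem_rows h e) hy⟩)
    (fun ⟨S, hx⟩ => ⟨S, by rw [← mul_assoc, hx]⟩)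

def Cpt (S : J → Finset (Cell n)) : Prop := ∃ a : ℝ, a < 1 ∧ ∀ j, ∀ y ∈ S j, ‖C.t j y.1‖ ≤ a

theorem Cpt.union [DecidableEq (Cell n)] {C : Ctl n κ J} {S S' : J → Finset (Cell n)}
    (h : C.Cpt S) (h' : C.Cpt S') : C.Cpt fun j => S j ∪ S' j := by
  obtain ⟨a, ha, h⟩ := h
  obtain ⟨b, hb, h'⟩ := h'
  exact ⟨max a b, max_lt ha hb, fun j y hy => (Finset.mem_union.1 hy).elim
    (fun e => (h j y e).trans (le_max_left _ _)) (fun e => (h' j y e).trans (le_max_right _ _))⟩

theorem cpt_empty : C.Cpt fun _ => ∅ := ⟨0, one_pos, fun _ _ h => absurd h (Finset.notMem_empty _)⟩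

theorem exists_rows (T : C.ctrl) {S : J → Finset (Cell n)} (hS : C.Cpt S) :
    ∃ S', C.Cpt S' ∧ ∀ᶠ j in C.l, ∀ c x y, y ∈ S j → (T.1 j c).ent x y ≠ 0 → x ∈ S' j := by
  obtain ⟨a, ha, h⟩ := hS
  refine ⟨fun j => (rows (T.1 j) (S j)).filter fun x => ‖C.t j x.1‖ ≤ (1 + a) / 2,
    ⟨(1 + a) / 2, by linarith, fun j y hy => (Finset.mem_filter.1 hy).2⟩, ?_⟩
  filter_upwards [T.2 ((1 - a) / 2) (by linarith)] with j hj c x y hy e
  refine Finset.mem_filter.2 ⟨mem_rows hy e, ?_⟩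
  have h1 := h j y hy
  have h2 := (norm_le_of_mem (hj x y (Or.inr (by linarith))) fun h0 => e (congrFun h0 c)).2
  linarith

/-- compactly supported elements -/
noncomputable def idK : TwoSidedIdeal C.A :=
  TwoSidedIdeal.mk' {x | ∃ S, C.Cpt S ∧ C.prf S * x = x} ⟨fun _ => ∅, C.cpt_empty, mul_zero _⟩
    (fun ⟨S, hS, hx⟩ ⟨S', hS', hy⟩ => by
      classical
      exact ⟨fun j => S j ∪ S' j, hS.union hS', by
        rw [mul_add, C.prf_up (fun _ => Finset.subset_union_left) hx,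
          C.prf_up (fun _ => Finset.subset_union_right) hy]⟩)
    (fun ⟨S, hS, hx⟩ => ⟨S, hS, by rw [mul_neg, hx]⟩)
    (fun {x _} ⟨S, hS, hy⟩ => by
      obtain ⟨T, rfl⟩ := C.cl_surj x
      obtain ⟨S', h1, h2⟩ := C.exists_rows T hS
      exact ⟨S', h1, C.prf_left T h2 hy⟩)
    (fun ⟨S, hS, hx⟩ => ⟨S, hS, by rw [← mul_assoc, hx]⟩)

theorem mem_idF (x : C.A) : x ∈ C.idF ↔ ∃ S, C.prf S * x = x :=
  TwoSidedIdeal.mem_mk' _ _ _ _ _ _ _
theorem mem_idK (x : C.A) : x ∈ C.idK ↔ ∃ S, C.Cpt S ∧ C.prf S * x = x :=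
  TwoSidedIdeal.mem_mk' _ _ _ _ _ _ _

/-- cells with a fixed label: use `C.fin` and `pr_eq` -/
theorem label_mem_idF (w : List (Fin 4)) : C.cst (Op.pr {x | x.2 = w}) ∈ C.idF := by
  classical
  refine (C.mem_idF _).2 ⟨fun j => (C.fin j).toFinset.image fun p => (p, w), ?_⟩
  rw [cst_pr, prf, pr_mul]
  refine C.pr_eq (Eventually.of_forall fun j x hx => ⟨fun h => h.2, fun h => ⟨?_, h⟩⟩)
  exact Finset.mem_coe.2 (Finset.mem_image.2 ⟨x.1, by simpa using hx, Prod.ext rfl (Eq.symm h)⟩)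

theorem pr_inter {U V : J → Set (Cell n)} {x : C.A} (h : C.pr U * x = x) (h' : C.pr V * x = x) :
    C.pr (fun j => U j ∩ V j) * x = x := by
  rw [← pr_mul, mul_assoc, h', h]

/-- an element of finite type supported in slabs in all directions is supported in a finite subset
of the cube -/
theorem exists_cube {θ : Fin n → J → ℝ → ℝ} (hE : ∀ l, Loc (C.half l (θ l))) {a : ℝ} {x : C.A}
    (hx : x ∈ C.idF) (hB : ∀ l, x ∈ idB (hE l).slab a) :
    ∃ a' < a, ∃ S : J → Finset (Cell n), C.prf S * x = x ∧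
      ∀ j, ∀ y ∈ S j, ∀ l, θ l j (-a') < C.t j y.1 l ∧ C.t j y.1 l ≤ θ l j a' := by
  classical
  obtain ⟨S, hS⟩ := (C.mem_idF x).1 hx
  choose b hb hbx using fun l => (mem_idB _ _ _).1 (hB l)
  obtain ⟨a', h1, h2⟩ : ∃ a', (∀ l, b l ≤ a') ∧ a' < a :=
    ((eventually_all.2 fun l => mem_nhdsWithin_of_mem_nhds (Ici_mem_nhds (hb l))).and
      (self_mem_nhdsWithin (s := Set.Iio a))).exists
  have h3 : ∀ l, C.pr (fun j => {y | θ l j (-a') < C.t j y.1 l ∧ C.t j y.1 l ≤ θ l j a'}) * x = x := by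
    intro l
    have e : slab (C.half l (θ l)) a' * x = x := by
      rw [← hbx l, ← mul_assoc, (hE l).slab.mono (h1 l)]
    rw [slab, half, half, ← pr_compl, pr_mul] at e
    convert e using 3
    ext y
    simp [and_comm]
  have h4 : ∀ s : Finset (Fin n), C.prf (fun j => (S j).filter fun y => ∀ l ∈ s,
      θ l j (-a') < C.t j y.1 l ∧ C.t j y.1 l ≤ θ l j a') * x = x := by
    intro s
    induction s using Finset.induction_on with
    | empty => simpa using hS
    | insert l s _ ih =>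
      have e := C.pr_inter (h3 l) ih
      rw [prf]
      convert e using 3
      ext y
      simp only [Finset.coe_filter, Finset.mem_insert, forall_eq_or_imp, Set.mem_inter_iff,
        Set.mem_ofPred_eq]
      tauto
  exact ⟨a', h2, _, h4 Finset.univ, fun j y hy l => (Finset.mem_filter.1 hy).2 l (Finset.mem_univ l)⟩

open Classical in
/-- signature of component `c` -/
noncomputable def sigF (c : κ) (x : C.A) : J → ℤ :=
  if h : x ∈ C.idK then fun j =>
    Op.sgn (Op.pr (((C.mem_idK x).1 h).choose j : Set (Cell n)) * (C.cl_surj x).choose.1 j c *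
      Op.pr (((C.mem_idK x).1 h).choose j : Set (Cell n)))
  else 0

theorem col_eq {T T' : C.ctrl} (h : C.cl T = C.cl T') {S : J → Finset (Cell n)} (hS : C.Cpt S) :
    ∀ᶠ j in C.l, ∀ c, T.1 j c * Op.pr (S j : Set (Cell n)) = T'.1 j c * Op.pr (S j : Set (Cell n)) := by
  obtain ⟨a, ha, hS⟩ := hS
  filter_upwards [C.cl_eq.1 h (1 - a) (by linarith)] with j hj c
  refine Op.ext fun x y => ?_
  rw [Op.ent_mul_pr, Op.ent_mul_pr]
  by_cases hy : y ∈ S j
  · have e : (T.1 j c - T'.1 j c).ent x y = 0 := congrFun (hj x y (by linarith [hS j y hy])) c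
    rw [Op.ent_sub, sub_eq_zero] at e
    rw [e]
  · simp [hy]

theorem row_eq {T T' : C.ctrl} (h : C.cl T = C.cl T') {S : J → Finset (Cell n)} (hS : C.Cpt S) :
    ∀ᶠ j in C.l, ∀ c, Op.pr (S j : Set (Cell n)) * T.1 j c = Op.pr (S j : Set (Cell n)) * T'.1 j c := by
  have h' : C.cl (Star.star T) = C.cl (Star.star T') := by rw [map_star, map_star, h]
  filter_upwards [C.col_eq h' hS] with j hj c
  have e : Star.star (Star.star (T.1 j c) * Op.pr (S j : Set (Cell n))) =
      Star.star (Star.star (T'.1 j c) * Op.pr (S j : Set (Cell n))) := congrArg _ (hj c)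
  simpa only [star_mul, star_star, Op.star_pr] using e

/-- compactly supported families -/
def Sup (T : C.ctrl) : Prop := ∃ S, C.Cpt S ∧ ∀ᶠ j in C.l, ∀ c,
  Op.pr (S j : Set (Cell n)) * T.1 j c = T.1 j c ∧ T.1 j c * Op.pr (S j : Set (Cell n)) = T.1 j c

variable {C}

theorem Sup.eq {T T' : C.ctrl} (hT : C.Sup T) (hT' : C.Sup T') (h : C.cl T = C.cl T') :
    ∀ᶠ j in C.l, ∀ c, T.1 j c = T'.1 j c := by
  classical
  obtain ⟨S, hS, h1⟩ := hT
  obtain ⟨S', hS', h2⟩ := hT'
  filter_upwards [C.col_eq h (hS.union hS'), h1, h2] with j a b d c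
  have e := a c
  rwa [Op.pr_up' (Finset.coe_subset.2 Finset.subset_union_left) (b c).2,
    Op.pr_up' (Finset.coe_subset.2 Finset.subset_union_right) (d c).2] at e

theorem Sup.star {T : C.ctrl} (hT : C.Sup T) : C.Sup (Star.star T) := by
  obtain ⟨S, hS, h⟩ := hT
  refine ⟨S, hS, h.mono fun j hj c => ⟨?_, ?_⟩⟩
  · have e := congrArg Star.star (hj c).2
    rw [star_mul, Op.star_pr] at e
    exact e
  · have e := congrArg Star.star (hj c).1
    rw [star_mul, Op.star_pr] at e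
    exact e

theorem Sup.neg {T : C.ctrl} (hT : C.Sup T) : C.Sup (-T) := by
  obtain ⟨S, hS, h⟩ := hT
  refine ⟨S, hS, h.mono fun j hj c => ⟨?_, ?_⟩⟩
  · exact (mul_neg _ _).trans (congrArg Neg.neg (hj c).1)
  · exact (neg_mul _ _).trans (congrArg Neg.neg (hj c).2)

theorem Sup.zero : C.Sup 0 :=
  ⟨_, C.cpt_empty, Eventually.of_forall fun _ _ => ⟨mul_zero _, zero_mul _⟩⟩

theorem Sup.add {T T' : C.ctrl} (hT : C.Sup T) (hT' : C.Sup T') : C.Sup (T + T') := by
  classical
  obtain ⟨S, hS, h1⟩ := hT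
  obtain ⟨S', hS', h2⟩ := hT'
  refine ⟨_, hS.union hS', (h1.and h2).mono fun j hj c => ⟨?_, ?_⟩⟩
  · exact (mul_add _ _ _).trans (congrArg₂ (· + ·)
      (Op.pr_up (Finset.coe_subset.2 Finset.subset_union_left) (hj.1 c).1)
      (Op.pr_up (Finset.coe_subset.2 Finset.subset_union_right) (hj.2 c).1))
  · exact (add_mul _ _ _).trans (congrArg₂ (· + ·)
      (Op.pr_up' (Finset.coe_subset.2 Finset.subset_union_left) (hj.1 c).2)
      (Op.pr_up' (Finset.coe_subset.2 Finset.subset_union_right) (hj.2 c).2))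

theorem Sup.left {T : C.ctrl} (hT : C.Sup T) (G : C.ctrl) : C.Sup (G * T) := by
  classical
  obtain ⟨S, hS, h1⟩ := hT
  obtain ⟨S', hS', h2⟩ := C.exists_rows G hS
  refine ⟨_, hS.union hS', (h1.and h2).mono fun j hj c => ⟨?_, ?_⟩⟩
  · refine Op.pr_up (Finset.coe_subset.2 Finset.subset_union_right) ?_
    change _ * (G.1 j c * T.1 j c) = G.1 j c * T.1 j c
    rw [← (hj.1 c).1, ← mul_assoc (G.1 j c), ← mul_assoc, op_rows (hj.2 c)]
  · refine Op.pr_up' (Finset.coe_subset.2 Finset.subset_union_left) ?_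
    change G.1 j c * T.1 j c * _ = G.1 j c * T.1 j c
    rw [mul_assoc, (hj.1 c).2]

theorem Sup.right {T : C.ctrl} (hT : C.Sup T) (G : C.ctrl) : C.Sup (T * G) := by
  have := (hT.star.left (Star.star G)).star
  rwa [star_mul, star_star, star_star] at this

theorem sup_cmp {S : J → Finset (Cell n)} (hS : C.Cpt S) (T : C.ctrl) :
    C.Sup (C.prF (fun j => (S j : Set (Cell n))) * T * C.prF fun j => (S j : Set (Cell n))) := by
  refine ⟨S, hS, Eventually.of_forall fun j c => ⟨?_, ?_⟩⟩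
  · change Op.pr _ * (Op.pr _ * T.1 j c * Op.pr _) = Op.pr _ * T.1 j c * Op.pr _
    rw [← mul_assoc, ← mul_assoc, Op.pr_mul, Set.inter_self]
  · change Op.pr _ * T.1 j c * Op.pr _ * Op.pr _ = Op.pr _ * T.1 j c * Op.pr _
    rw [mul_assoc, Op.pr_mul, Set.inter_self]

theorem cl_cmp {S : J → Finset (Cell n)} {T : C.ctrl} (hs : Star.star (C.cl T) = C.cl T)
    (h : C.prf S * C.cl T = C.cl T) :
    C.cl (C.prF (fun j => (S j : Set (Cell n))) * T * C.prF fun j => (S j : Set (Cell n))) =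
      C.cl T := by
  have h' := congrArg Star.star h
  rw [star_mul, hs, prf, star_pr] at h'
  rw [map_mul, map_mul]
  exact (congrArg (· * _) h).trans h'

theorem exists_sup {x : C.A} (hx : x ∈ C.idK) (hs : Star.star x = x) :
    ∃ T, C.Sup T ∧ C.cl T = x := by
  obtain ⟨S, hS, h⟩ := (C.mem_idK x).1 hx
  obtain ⟨T, rfl⟩ := C.cl_surj x
  exact ⟨_, sup_cmp hS T, cl_cmp hs h⟩

theorem Sup.fin {T : C.ctrl} (hT : C.Sup T) : ∀ᶠ j in C.l, ∀ c, (T.1 j c).Fin' := by
  obtain ⟨S, -, h⟩ := hT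
  exact h.mono fun j hj c => ⟨S j, (hj c).1⟩

variable (C)

/-- two compressions of representatives of a hermitian `x` eventually agree, since a negligible
family with columns in a compact part vanishes eventually -/
theorem sigF_spec (c : κ) (T : C.ctrl) (hs : Star.star (C.cl T) = C.cl T)
    {S : J → Finset (Cell n)} (hS : C.Cpt S) (h : C.prf S * C.cl T = C.cl T) :
    C.sigF c (C.cl T) =ᶠ[C.l] fun j =>
      Op.sgn (Op.pr (S j : Set (Cell n)) * T.1 j c * Op.pr (S j : Set (Cell n))) := by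
  have hx : C.cl T ∈ C.idK := (C.mem_idK _).2 ⟨S, hS, h⟩
  have h0 := ((C.mem_idK _).1 hx).choose_spec
  have h1 := (C.cl_surj (C.cl T)).choose_spec
  rw [sigF, dif_pos hx]
  filter_upwards [(sup_cmp h0.1 (C.cl_surj (C.cl T)).choose).eq (sup_cmp hS T)
    (((cl_cmp (by rw [h1]; exact hs) (by rw [h1]; exact h0.2)).trans h1).trans
      (cl_cmp hs h).symm)] with j hj
  exact congrArg Op.sgn (hj c)

theorem Sup.sigF {C : Ctl n κ J} {T : C.ctrl} (hT : C.Sup T) (c : κ)
    (hs : Star.star (C.cl T) = C.cl T) : C.sigF c (C.cl T) =ᶠ[C.l] fun j => Op.sgn (T.1 j c) := by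
  obtain ⟨S, hS, h⟩ := hT
  have e : C.prf S * C.cl T = C.cl T := by
    rw [prf, pr, ← map_mul]
    exact C.cl_eq_of_eventually (h.mono fun j hj => funext fun c => (hj c).1)
  filter_upwards [C.sigF_spec c T hs hS e, h] with j h1 h2
  rw [h1, (h2 c).1, (h2 c).2]

/-- no hermitian hypothesis: `pr S₀ * T₀` and `pr S * T₀` represent `x` and have rows in a compact
part (use `negl_star`), so they agree eventually -/
theorem sigF_empty (c : κ) {x : C.A} {S : J → Finset (Cell n)} (hS : C.Cpt S)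
    (h : C.prf S * x = x) : ∀ᶠ j in C.l, S j = ∅ → C.sigF c x j = 0 := by
  classical
  have hx : x ∈ C.idK := (C.mem_idK _).2 ⟨S, hS, h⟩
  have h0 := ((C.mem_idK _).1 hx).choose_spec
  have h1 := (C.cl_surj x).choose_spec
  rw [sigF, dif_pos hx]
  have e : C.cl (C.prF (fun j => (((C.mem_idK _).1 hx).choose j : Set (Cell n))) *
      (C.cl_surj x).choose) = C.cl (C.prF (fun j => (S j : Set (Cell n))) * (C.cl_surj x).choose) := by
    rw [map_mul, map_mul, h1]
    exact h0.2.trans h.symm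
  filter_upwards [C.row_eq e h0.1] with j hj hSj
  have e2 := hj c
  change Op.pr _ * (Op.pr _ * _) = Op.pr _ * (Op.pr (S j : Set (Cell n)) * _) at e2
  rw [← mul_assoc, Op.pr_mul, Set.inter_self, hSj, Finset.coe_empty, Op.pr_empty, zero_mul,
    mul_zero] at e2
  rw [e2, zero_mul, Op.sgn_zero]

theorem sigF_congr (c : κ) {x : C.A} (hx : x ∈ C.idK) (hs : Star.star x = x) (g g' : C.A)
    (h : x = g' * (g * x * Star.star g) * Star.star g') :
    C.sigF c (g * x * Star.star g) =ᶠ[C.l] C.sigF c x := by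
  obtain ⟨T, hT, rfl⟩ := exists_sup hx hs
  obtain ⟨G, rfl⟩ := C.cl_surj g
  obtain ⟨G', rfl⟩ := C.cl_surj g'
  have h1 := (hT.left G).right (Star.star G)
  have e : C.cl G * C.cl T * Star.star (C.cl G) = C.cl (G * T * Star.star G) := by
    rw [map_mul, map_mul, map_star]
  have h2 := h1.sigF c (by rw [← e, star_mul, star_mul, star_star, hs, mul_assoc])
  have h3 := hT.eq ((h1.left G').right (Star.star G'))
    (by rw [map_mul, map_mul, map_star, ← e]; exact h)
  rw [e]
  filter_upwards [h2, h3, hT.sigF c hs, hT.fin] with j a b d f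
  rw [a, d]
  exact Op.sgn_congr (f c) (G.1 j c) (G'.1 j c) (b c)

theorem sigF_add (c : κ) {x y P : C.A} (hx : x ∈ C.idK) (hy : y ∈ C.idK) (hs : Star.star x = x)
    (hs' : Star.star y = y) (hP : P ∈ (Base.D : Set C.A)) (h1 : x * P = x) (h2 : y * P = 0) :
    C.sigF c (x + y) =ᶠ[C.l] C.sigF c x + C.sigF c y := by
  obtain ⟨T, hT, rfl⟩ := exists_sup hx hs
  obtain ⟨T', hT', rfl⟩ := exists_sup hy hs'
  obtain ⟨U, rfl⟩ := hP
  have h3 := (hT.add hT').sigF c (by rw [map_add, star_add, hs, hs'])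
  rw [← map_add]
  filter_upwards [h3, hT.sigF c hs, hT'.sigF c hs', hT.fin, hT'.fin,
    hT.star.eq hT (by rw [map_star, hs]), hT'.star.eq hT' (by rw [map_star, hs']),
    (hT.right (C.prF U)).eq hT (by rw [map_mul]; exact h1),
    (hT'.right (C.prF U)).eq Sup.zero (by rw [map_mul, map_zero]; exact h2)]
    with j a1 a2 a3 a4 a5 a6 a7 a8 a9
  rw [Pi.add_apply, a1, a2, a3]
  exact Op.sgn_add (a4 c) (a5 c) (a6 c) (a7 c) (Op.star_pr (U j))
    (by rw [Op.pr_mul, Set.inter_self]) (a8 c) (a9 c)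

theorem sigF_neg (c : κ) {x : C.A} (hx : x ∈ C.idK) (hs : Star.star x = x) :
    C.sigF c (-x) =ᶠ[C.l] -C.sigF c x := by
  obtain ⟨T, hT, rfl⟩ := exists_sup hx hs
  rw [← map_neg]
  filter_upwards [hT.neg.sigF c (by rw [map_neg, star_neg, hs]), hT.sigF c hs] with j a b
  rw [Pi.neg_apply, a, b]
  exact Op.sgn_neg _

theorem sigF_single (c : κ) (z : J → Cell n) {a : ℝ} (ha : a < 1)
    (hz : ∀ᶠ j in C.l, ‖C.t j (z j).1‖ ≤ a) : C.sigF c (C.pr fun j => {z j}) =ᶠ[C.l] 1 := by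
  have hT : C.Sup (C.prF fun j => {z j}) := by
    refine ⟨fun j => ({z j} : Finset (Cell n)).filter fun y => ‖C.t j y.1‖ ≤ a,
      ⟨a, ha, fun j y hy => (Finset.mem_filter.1 hy).2⟩, hz.mono fun j hj c => ?_⟩
    have e : (({z j} : Finset (Cell n)).filter fun y => ‖C.t j y.1‖ ≤ a) = {z j} :=
      Finset.filter_true_of_mem (by simpa using hj)
    beta_reduce
    rw [e, Finset.coe_singleton, prF_apply, Op.pr_mul, Set.inter_self]
    exact ⟨rfl, rfl⟩
  filter_upwards [hT.sigF c (C.star_pr _)] with j hj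
  exact hj.trans (Op.sgn_single _)

theorem germ_tf (l : Filter J) (m : ℕ) (v : Germ l ℤ) (hm : m ≠ 0) (h : m • v = 0) : v = 0 := by
  induction v using Germ.inductionOn with
  | h f =>
    have e : ((m • f : J → ℤ) : Germ l ℤ) = ((0 : J → ℤ) : Germ l ℤ) := h
    refine Germ.coe_eq.2 ((Germ.coe_eq.1 e).mono fun j hj => ?_)
    simpa [hm] using hj

noncomputable def sig (c : κ) (l' : Filter J) (hl : l' ≤ C.l) : Sig C.A (Germ l' ℤ) where
  K := C.idK
  sig x := (C.sigF c x : Germ l' ℤ)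
  congr x hx hs g g' h := Germ.coe_eq.2 ((C.sigF_congr c hx hs g g' h).filter_mono hl)
  add x hx y hy hs hs' P hP h1 h2 := by
    rw [← Germ.coe_add]
    exact Germ.coe_eq.2 ((C.sigF_add c hx hy hs hs' hP h1 h2).filter_mono hl)
  neg x hx hs := by
    rw [← Germ.coe_neg]; exact Germ.coe_eq.2 ((C.sigF_neg c hx hs).filter_mono hl)
  tf := germ_tf l'

end Ctl

end Vale.Agent.P228
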