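import Vale.Agent.P228.Gam

/-! Passage from the fine ring to the coarse ring. -/

set_option linter.unusedSectionVars false

namespace Vale.Agent.P228

open Filter Topology

universe u

variable {p n : ℕ} [Fact p.Prime]

namespace Setup

variable (Z : Setup.{u} p n)

theorem co_norm (j : ℕ × ℕ) (v : Fin n → ℝ) {a : ℝ} :
    ‖(Z.L j.1).R1⁻¹ • v‖ ≤ a ↔ ‖v‖ ≤ a * (Z.L j.1).R1 := by
  have h := (Z.L j.1).R1_pos
  rw [norm_smul, norm_inv, Real.norm_of_nonneg h.le, inv_mul_le_iff₀ h, mul_comm]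

theorem co_t (j : ℕ × ℕ) (z : Pos n) {a : ℝ} :
    ‖Z.coarse.t j z‖ ≤ a ↔ ‖rp (Z.δ j) z - (Z.L j.1).y1‖ ≤ a * (Z.L j.1).R1 := Z.co_norm j _

theorem co_W {j : ℕ × ℕ} {x y : Pos n} {r : ℝ}
    (h : ‖rp (Z.δ j) x - rp (Z.δ j) y‖ ≤ r * (Z.L j.1).R1) (f : ZMod p → ℂ) :
    f ∈ Z.coarse.W j x y r := by
  have e : Z.coarse.W j x y r = ⊤ := if_pos ((Z.co_norm j _).2 h)
  rw [e]
  exact Submodule.mem_top

theorem co_eta {a : ℝ} (ha : 0 < a) : ∀ᶠ k in atTop, (Z.L k).η ≤ a :=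
  Z.hη.eventually (ge_mem_nhds ha)

theorem co_eta' {a : ℝ} (ha : 0 < a) : ∀ᶠ j in lC, (Z.L j.1).η ≤ a :=
  eventually_lC.2 ((Z.co_eta ha).mono fun _ hk => Eventually.of_forall fun _ => hk)

/-- points of the doubled coarse cube: `e (pt z) = rp z`, and `t` is within `η R1` of it -/
theorem coarse_pt (j : ℕ × ℕ) {z : Pos n} (h : ‖Z.coarse.t j z‖ ≤ 2) :
    (Z.L j.1).e ((Z.L j.1).pt (Z.δ j) z) = rp (Z.δ j) z ∧
      ‖Z.fine.t j z - rp (Z.δ j) z‖ ≤ (Z.L j.1).η * (Z.L j.1).R1 := by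
  rw [co_t] at h
  have h1 := norm_sub_norm_le (rp (Z.δ j) z) (Z.L j.1).y1
  have h2 := (Z.L j.1).y1_le
  have h3 : (Z.L j.1).e ((Z.L j.1).pt (Z.δ j) z) = rp (Z.δ j) z :=
    (Z.L j.1).sec_in _ (by linarith)
  have h4 := (Z.L j.1).c2 ((Z.L j.1).pt (Z.δ j) z) (by rw [h3]; exact h)
  rw [h3] at h4
  exact ⟨h3, h4⟩

theorem fine_pt (j : ℕ × ℕ) {z : Pos n} (h : ‖Z.fine.t j z - (Z.L j.1).y1‖ ≤ 2 * (Z.L j.1).R1) :
    ‖Z.fine.t j z - rp (Z.δ j) z‖ ≤ (Z.L j.1).η * (Z.L j.1).R1 := by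
  have h1 := norm_sub_norm_le (Z.fine.t j z) (Z.L j.1).y1
  have h2 := (Z.L j.1).y1_le
  have h3 := ((Z.L j.1).pt_region (δ := Z.δ j) (z := z)
    (show ‖Z.fine.t j z‖ ≤ 1 by linarith)).1
  have h4 := (Z.L j.1).c1 ((Z.L j.1).pt (Z.δ j) z) h
  rw [h3] at h4
  exact h4

theorem co_near {j : ℕ × ℕ} (hη : (Z.L j.1).η ≤ 1 / 4) {x : Pos n}
    (hx : ‖rp (Z.δ j) x - (Z.L j.1).y1‖ ≤ 5 / 4 * (Z.L j.1).R1) {s : ℝ}
    (hs : s ≤ (Z.L j.1).R1 / 4) : ‖Z.fine.t j x‖ + s ≤ 1 ∧ ∀ y, ‖Z.fine.t j x - Z.fine.t j y‖ ≤ s →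
      ‖rp (Z.δ j) x - rp (Z.δ j) y‖ ≤ 2 * ((Z.L j.1).η * (Z.L j.1).R1) + s := by
  have h0 := (Z.L j.1).R1_pos
  have h1 := (Z.coarse_pt j (z := x) ((Z.co_t j x).2 (by linarith))).2
  have h2 := mul_le_mul_of_nonneg_right hη h0.le
  have h3 := norm_sub_le_norm_sub_add_norm_sub (Z.fine.t j x) (rp (Z.δ j) x) (Z.L j.1).y1
  have h4 := norm_sub_norm_le (Z.fine.t j x) (Z.L j.1).y1
  have h5 := (Z.L j.1).y1_le
  refine ⟨by linarith, fun y hy => ?_⟩
  have h6 := norm_sub_le_norm_sub_add_norm_sub (Z.fine.t j y) (Z.fine.t j x) (Z.L j.1).y1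
  rw [norm_sub_rev (Z.fine.t j y) (Z.fine.t j x)] at h6
  have h7 := Z.fine_pt j (z := y) (by linarith)
  have h8 := norm_sub_le_norm_sub_add_norm_sub (rp (Z.δ j) x) (Z.fine.t j x) (rp (Z.δ j) y)
  have h9 := norm_sub_le_norm_sub_add_norm_sub (Z.fine.t j x) (Z.fine.t j y) (rp (Z.δ j) y)
  rw [norm_sub_rev (rp (Z.δ j) x) (Z.fine.t j x)] at h8
  linarith

theorem co_in {j : ℕ × ℕ} {x : Pos n} {r : ℝ} (hr : 0 < r) (h : ‖Z.coarse.t j x‖ + r ≤ 1) :
    ‖rp (Z.δ j) x - (Z.L j.1).y1‖ ≤ 1 * (Z.L j.1).R1 := (Z.co_t j x).1 (by linarith)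

/-- given `r`, take `k` with `η k ≤ min (r/4) (1/4)` and the fine radius `min (r R1/4) (R1/4)` -/
theorem π_ctrl : ∀ T ∈ Z.fine.ctrl, Ctl.reidx (fun _ => (0 : ZMod p)) T ∈ Z.coarse.ctrl := by
  intro T hT r hr
  refine eventually_lC.2 ?_
  filter_upwards [Z.co_eta (a := r / 4) (by linarith), Z.co_eta (a := 1 / 4) (by norm_num)]
    with k h1 h2
  have h0 := (Z.L k).R1_pos
  have h3 := mul_le_mul_of_nonneg_right h1 h0.le
  have hs : 0 < min (r * (Z.L k).R1 / 4) ((Z.L k).R1 / 4) := lt_min (by positivity) (by positivity)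
  have s1 := min_le_left (r * (Z.L k).R1 / 4) ((Z.L k).R1 / 4)
  have s2 := min_le_right (r * (Z.L k).R1 / 4) ((Z.L k).R1 / 4)
  have s3 : 0 < r * (Z.L k).R1 := by positivity
  filter_upwards [eventually_lP.1 (hT _ hs) k] with i hi x y hxy
  by_cases e : entF (T (k, i)) x y = 0
  · have e' : entF (Ctl.reidx (fun _ => (0 : ZMod p)) T (k, i)) x y = 0 :=
      funext fun _ => congrFun e 0
    rw [e']
    exact zero_mem _
  refine Z.co_W ?_ _
  rcases hxy with h | h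
  · have g := Z.co_in hr h
    obtain ⟨a, b⟩ := Z.co_near (j := (k, i)) h2 (x := x.1) (by linarith) s2
    have := b y.1 (Z.fine.tle _ _ _ _ _ (hi x y (Or.inl a)) e)
    linarith
  · have g := Z.co_in hr h
    obtain ⟨a, b⟩ := Z.co_near (j := (k, i)) h2 (x := y.1) (by linarith) s2
    have := b x.1 ((norm_sub_rev _ _).trans_le (Z.fine.tle _ _ _ _ _ (hi x y (Or.inr a)) e))
    rw [norm_sub_rev]
    linarith

theorem π_negl : ∀ T ∈ Z.fine.negl,
    Z.fine.homF Z.coarse (fun _ => (0 : ZMod p)) Z.π_ctrl T ∈ Z.coarse.negl := by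
  intro T hT
  rw [Ctl.mem_negl] at hT ⊢
  intro r hr
  refine eventually_lC.2 ?_
  filter_upwards [Z.co_eta (a := 1 / 4) (by norm_num)] with k h2
  have h0 := (Z.L k).R1_pos
  filter_upwards [eventually_lP.1 (hT ((Z.L k).R1 / 4) (by positivity)) k] with i hi x y hy
  have g := Z.co_in hr hy
  have a := (Z.co_near (j := (k, i)) h2 (x := y.1) (by linarith) le_rfl).1
  exact funext fun _ => congrFun (hi x y a) 0

noncomputable def π : Z.fine.A →⋆ₐ[ℂ] Z.coarse.A :=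
  Z.fine.hom Z.coarse (fun _ => (0 : ZMod p)) Z.π_ctrl Z.π_negl

theorem π_half (l : Fin n) (a a' : ℝ) (h : a < a') (ha : |a| ≤ 1 / 2) (ha' : |a'| ≤ 1 / 2) :
    Z.coarse.half l (fun _ a => a) a' * Z.π (Z.fine.half l (Z.θ1 l) a) =
        Z.π (Z.fine.half l (Z.θ1 l) a) ∧
      Z.π (Z.fine.half l (Z.θ1 l) a') * Z.coarse.half l (fun _ a => a) a =
        Z.coarse.half l (fun _ a => a) a := by
  have key : ∀ᶠ j in lC, ∀ x : Pos n, ‖Z.coarse.t j x‖ ≤ 1 →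
      |Z.fine.t j x l - ((Z.L j.1).y1 l + (Z.L j.1).R1 * Z.coarse.t j x l)|
        ≤ (a' - a) * (Z.L j.1).R1 := by
    filter_upwards [Z.co_eta' (sub_pos.2 h)] with j hj x hx
    have h0 := (Z.L j.1).R1_pos
    have e : (Z.L j.1).y1 l + (Z.L j.1).R1 * Z.coarse.t j x l = rp (Z.δ j) x l := by
      show _ + _ * ((Z.L j.1).R1⁻¹ * (rp (Z.δ j) x l - (Z.L j.1).y1 l)) = _
      rw [mul_inv_cancel_left₀ h0.ne', add_sub_cancel]
    rw [e]
    exact (norm_le_pi_norm (Z.fine.t j x - rp (Z.δ j) x) l).trans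
      ((Z.coarse_pt j (by linarith)).2.trans (mul_le_mul_of_nonneg_right hj h0.le))
  constructor
  · refine Z.coarse.pr_mul_of_subset (key.mono fun j hj x hx h1 => ?_)
    have h2 : Z.fine.t j x.1 l ≤ (Z.L j.1).y1 l + (Z.L j.1).R1 * a := h1.trans_eq (if_pos ha)
    have h3 := (abs_le.1 (hj x.1 hx)).1
    exact le_of_mul_le_mul_left (by linarith) (Z.L j.1).R1_pos
  · refine Z.coarse.pr_mul_of_subset (key.mono fun j hj x hx h1 => ?_)
    have h2 := mul_le_mul_of_nonneg_left (show Z.coarse.t j x.1 l ≤ a from h1) (Z.L j.1).R1_pos.le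
    have h3 := (abs_le.1 (hj x.1 hx)).2
    exact (show _ ≤ (Z.L j.1).y1 l + (Z.L j.1).R1 * a' by linarith).trans_eq (if_pos ha').symm

/-- `exists_cube` gives `S` with `‖t - y1‖ ≤ R1/2` on `S j`; replace `S j` by `∅` when
`η k > 1/4` on the coarse side; apply `sigF_spec` on both sides. -/
theorem π_sig (x : Z.fine.A) (hx : x ∈ Z.fine.idF) (hs : star x = x)
    (h : ∀ l, x ∈ idB (Z.loc1 l).slab (1 / 2)) :
    Z.coarse.sigF 0 (Z.π x) =ᶠ[lC] Z.fine.sigF 0 x := by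
  classical
  obtain ⟨a, ha, S, hS, hb⟩ := Z.fine.exists_cube Z.loc1 hx h
  obtain ⟨T, rfl⟩ := Z.fine.cl_surj x
  have h1 : ∀ j, ∀ y ∈ S j, ‖Z.fine.t j y.1 - (Z.L j.1).y1‖ ≤ (Z.L j.1).R1 / 2 := by
    intro j y hy
    have h0 := (Z.L j.1).R1_pos
    refine (pi_norm_le_iff_of_nonneg (by positivity)).2 fun l => ?_
    have g0 : |(Z.L j.1).y1 l| + (Z.L j.1).R1 ≤ 1 / 2 := by
      have g1 : |(Z.L j.1).y1 l| ≤ ‖(Z.L j.1).y1‖ := norm_le_pi_norm (Z.L j.1).y1 l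
      linarith [(Z.L j.1).y1_le]
    have g1 := (recentre_lt h0 g0 (neg_lt_neg ha)).trans (hb j y hy l).1
    have g2 := (hb j y hy l).2.trans_lt (recentre_lt h0 g0 ha)
    rw [recentre, if_pos (by rw [abs_neg, abs_of_pos (by norm_num)])] at g1
    rw [recentre, if_pos (by rw [abs_of_pos (by norm_num)])] at g2
    rw [Pi.sub_apply]
    exact abs_le.2 ⟨by linarith, by linarith⟩
  have c1 : Z.fine.Cpt S := ⟨1 / 2, by norm_num, fun j y hy => by
    have := norm_sub_norm_le (Z.fine.t j y.1) (Z.L j.1).y1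
    linarith [h1 j y hy, (Z.L j.1).y1_le, (Z.L j.1).R1_pos]⟩
  let S' : ℕ × ℕ → Finset (Cell n) := fun j => if (Z.L j.1).η ≤ 1 / 4 then S j else ∅
  have e1 : ∀ᶠ j in lC, S' j = S j := (Z.co_eta' (by norm_num)).mono fun j hj => if_pos hj
  have c2 : Z.coarse.Cpt S' := ⟨3 / 4, by norm_num, fun j y hy => by
    by_cases hj : (Z.L j.1).η ≤ 1 / 4
    · have h0 := (Z.L j.1).R1_pos
      have g1 := h1 j y ((if_pos hj : S' j = S j) ▸ hy)
      have g2 := Z.fine_pt j (z := y.1) (by linarith)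
      have g3 := mul_le_mul_of_nonneg_right hj h0.le
      have g4 := norm_sub_le_norm_sub_add_norm_sub (rp (Z.δ j) y.1) (Z.fine.t j y.1) (Z.L j.1).y1
      rw [norm_sub_rev] at g2
      exact (Z.co_t j y.1).2 (by linarith)
    · exact absurd ((if_neg hj : S' j = ∅) ▸ hy) (Finset.notMem_empty y)⟩
  have e2 : Z.coarse.prf S' = Z.π (Z.fine.prf S) :=
    Z.coarse.pr_eq (e1.mono fun j hj y _ => by rw [hj])
  have a1 := Z.coarse.sigF_spec 0 (Z.fine.homF Z.coarse (fun _ => (0 : ZMod p)) Z.π_ctrl T)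
    ((map_star Z.π _).symm.trans (congrArg Z.π hs)) c2
    (by rw [e2]; exact (map_mul Z.π _ _).symm.trans (congrArg Z.π hS))
  have a2 := (Z.fine.sigF_spec 0 T hs c1 hS).filter_mono lC_le
  filter_upwards [a1, a2, e1] with j b1 b2 b3
  rw [b2, ← b3]
  exact b1

end Setup

/-- `IsGamma.pow` with `q = 1`, `Hull.dist` and `htp_of_col`: near the coarse region nonzero
entries of `γ` move points by at most `2 η R1 + r i`. -/
theorem GSetup.π_a (Z : GSetup.{u} p n) :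
    Htp (Z.coarse.cst (C0 n).d) (Z.coarse.cst (C0 n).d) (Z.π (Z.fine.cl Z.aF))
      (Z.coarse.cst (C0 n).p) := by
  choose G hG using Z.isγ
  choose H h1 h2 using fun j => (hG j).pow 1 one_pos
  obtain ⟨f, hf⟩ := GSetup.p_eq (n := n)
  obtain ⟨h, hh⟩ := Z.coarse.htp_of_col (C0 n).d (C0 n).d
    (Z.fine.homF Z.coarse (fun _ => (0 : ZMod p)) Z.π_ctrl Z.aF - Z.coarse.cstF (C0 n).p)
    (fun j _ => H j) (fun r hr => by
      refine eventually_lC.2 ?_
      filter_upwards [Z.co_eta (a := r / 4) (by linarith), Z.co_eta (a := 1 / 4) (by norm_num)]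
        with k g1 g2
      have h0 := (Z.L k).R1_pos
      have g3 := mul_le_mul_of_nonneg_right g1 h0.le
      have hs : 0 < min (r * (Z.L k).R1 / 4) ((Z.L k).R1 / 4) :=
        lt_min (by positivity) (by positivity)
      have s1 := min_le_left (r * (Z.L k).R1 / 4) ((Z.L k).R1 / 4)
      have s2 := min_le_right (r * (Z.L k).R1 / 4) ((Z.L k).R1 / 4)
      have s3 : 0 < r * (Z.L k).R1 := by positivity
      have s4 := ((Z.hδ k).mul_const (n : ℝ)).eventually (ge_mem_nhds (by rwa [zero_mul]) :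
        ∀ᶠ a in 𝓝 (0 * (n : ℝ)), a ≤ min (r * (Z.L k).R1 / 4) ((Z.L k).R1 / 4))
      filter_upwards [s4, Z.r_small _ hs] with i g4 g5 x y hy
      by_cases e : (H (k, i)).ent x y = 0
      · have e' : entF (fun _ : ZMod p => H (k, i)) x y = 0 := funext fun _ => e
        rw [e']
        exact zero_mem _
      refine Z.co_W ((h2 (k, i)).dist (Z.δ_pos _) s3.le y (fun y' hy' x' hx' => ?_) x e) _
      have g6 := rp_sub_le (Z.δ_pos (k, i)) hy'
      have g7 := Z.co_in hr hy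
      have g8 := norm_sub_le_norm_sub_add_norm_sub (rp (Z.δ (k, i)) y'.1) (rp (Z.δ (k, i)) y.1)
        (Z.L k).y1
      by_cases e1 : (Z.γ (k, i) ^ 1).ent x' y' = 0
      · rw [Op.ent_sub, e1, zero_sub, neg_ne_zero, hf, Op.ent_diag] at hx'
        obtain rfl : x' = y' := by
          by_contra h3
          exact hx' (if_neg h3)
        linarith
      · obtain ⟨a, b⟩ := Z.co_near (j := (k, i)) g2 (x := y'.1) (by linarith) (g5.trans s2)
        have g9 := ((Z.L k).t_le _ _).trans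
          (Z.nr_pow (k, i) (m := 1) (Z.q_pos _) x' y' (Or.inr a) e1)
        rw [LD.t_zpow, norm_sub_rev] at g9
        have g10 := b x'.1 g9
        have g11 := norm_sub_le_norm_sub_add_norm_sub (rp (Z.δ (k, i)) x'.1)
          (rp (Z.δ (k, i)) y'.1) (rp (Z.δ (k, i)) y.1)
        rw [norm_sub_rev] at g10
        linarith)
    fun j k => by
      refine Eq.trans ?_ (h1 j)
      change chi p 1 0 • Z.γ j - (C0 n).p = _
      rw [chi_zero_right, one_smul, pow_one]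
  rw [map_sub, sub_zero] at hh
  exact ⟨h, hh⟩

end Vale.Agent.P228
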