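import Vale.Agent.P228.Defs

/-! Quotient of a star algebra by a star-closed two-sided ideal. -/

set_option linter.unusedSectionVars false

namespace Vale.Agent.P228

variable {R : Type*} [Ring R] [StarRing R] [Algebra ℂ R] [StarModule ℂ R]

def SQ (I : TwoSidedIdeal R) (_ : StarCl I) := I.ringCon.Quotient

namespace SQ

variable (I : TwoSidedIdeal R) (hI : StarCl I)

noncomputable instance : Ring (SQ I hI) := inferInstanceAs (Ring I.ringCon.Quotient)
noncomputable instance : Algebra ℂ (SQ I hI) := inferInstanceAs (Algebra ℂ I.ringCon.Quotient)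

noncomputable def mk₀ : R →ₐ[ℂ] SQ I hI := RingCon.mkₐ ℂ I.ringCon

theorem mk₀_surj : Function.Surjective (mk₀ I hI) := fun x => Quotient.exists_rep x

theorem mk₀_eq {a b : R} : mk₀ I hI a = mk₀ I hI b ↔ a - b ∈ I :=
  (RingCon.eq _).trans (I.rel_iff a b)

noncomputable instance : Star (SQ I hI) :=
  ⟨Quotient.map' star fun a b h => (I.rel_iff _ _).2 (by
    rw [← star_sub]; exact hI _ ((I.rel_iff _ _).1 h))⟩

theorem star_mk₀ (a : R) : star (mk₀ I hI a) = mk₀ I hI (star a) := rfl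

noncomputable instance : StarRing (SQ I hI) where
  star_involutive x := by obtain ⟨a, rfl⟩ := mk₀_surj I hI x; simp [star_mk₀]
  star_mul x y := by
    obtain ⟨a, rfl⟩ := mk₀_surj I hI x; obtain ⟨b, rfl⟩ := mk₀_surj I hI y
    rw [← map_mul, star_mk₀, star_mk₀, star_mk₀, star_mul, map_mul]
  star_add x y := by
    obtain ⟨a, rfl⟩ := mk₀_surj I hI x; obtain ⟨b, rfl⟩ := mk₀_surj I hI y
    rw [← map_add, star_mk₀, star_mk₀, star_mk₀, star_add, map_add]

instance : StarModule ℂ (SQ I hI) where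
  star_smul c x := by
    obtain ⟨a, rfl⟩ := mk₀_surj I hI x
    rw [← map_smul, star_mk₀, star_mk₀, star_smul, map_smul]

noncomputable def mk : R →⋆ₐ[ℂ] SQ I hI := { mk₀ I hI with map_star' := fun _ => rfl }

theorem mk_surj : Function.Surjective (mk I hI) := mk₀_surj I hI

theorem mk_eq {a b : R} : mk I hI a = mk I hI b ↔ a - b ∈ I := mk₀_eq I hI

variable {B : Type*} [Ring B] [StarRing B] [Algebra ℂ B]

noncomputable def lift₀ (f : R →⋆ₐ[ℂ] B) (hf : ∀ a ∈ I, f a = 0) : SQ I hI →ₐ[ℂ] B :=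
  RingCon.liftₐ I.ringCon (f : R →ₐ[ℂ] B) fun a b h => by
    have := hf _ ((I.rel_iff _ _).1 h)
    rw [map_sub, sub_eq_zero] at this
    exact this

noncomputable def lift (f : R →⋆ₐ[ℂ] B) (hf : ∀ a ∈ I, f a = 0) : SQ I hI →⋆ₐ[ℂ] B :=
  { lift₀ I hI f hf with
    map_star' := fun x => by
      obtain ⟨a, rfl⟩ := mk₀_surj I hI x
      exact map_star f a }

theorem lift_mk (f : R →⋆ₐ[ℂ] B) (hf : ∀ a ∈ I, f a = 0) (a : R) :
    lift I hI f hf (mk I hI a) = f a := rfl

end SQ

end Vale.Agent.P228
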