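import Vale.Agent.P228.Op
import Vale.Agent.P228.SQ

/-! The ring of infinitesimally controlled families of operators. -/

set_option linter.unusedSectionVars false

namespace Vale.Agent.P228

open Filter

/-- control data -/
structure Ctl (n : ℕ) (κ J : Type) where
  l : Filter J
  t : J → Pos n → Fin n → ℝ
  W : J → Pos n → Pos n → ℝ → Submodule ℂ (κ → ℂ)
  mono : ∀ j x y r r', r ≤ r' → W j x y r ≤ W j x y r'
  mul : ∀ j x y z r r' f g, f ∈ W j x y r → g ∈ W j y z r' → f * g ∈ W j x z (r + r')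
  star : ∀ j x y r f, f ∈ W j x y r → star f ∈ W j y x r
  tle : ∀ j x y r f, f ∈ W j x y r → f ≠ 0 → ‖t j x - t j y‖ ≤ r
  grid : ∀ R r : ℝ, 0 < r → ∀ᶠ j in l, ∀ x y : Pos n, ‖x - y‖ ≤ R →
    (‖t j x‖ ≤ 1 ∨ ‖t j y‖ ≤ 1) → 1 ∈ W j x y r
  fin : ∀ j, {x | ‖t j x‖ ≤ 1}.Finite

abbrev Fam (n : ℕ) (κ J : Type) := J → κ → Op n

variable {n : ℕ} {κ J : Type} [Fintype κ]

noncomputable instance : StarRing (Fam n κ J) where
  star_involutive _ := funext fun _ => funext fun _ => star_star _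
  star_mul _ _ := funext fun _ => funext fun _ => star_mul _ _
  star_add _ _ := funext fun _ => funext fun _ => star_add _ _

instance : StarModule ℂ (Fam n κ J) where
  star_smul c T := funext fun j => funext fun k => star_smul c (T j k)

noncomputable def entF (T : κ → Op n) (x y : Cell n) : κ → ℂ := fun c => (T c).ent x y

theorem entF_mul (T S : κ → Op n) (x z : Cell n) :
    ∃ s : Finset (Cell n), entF (T * S) x z = ∑ y ∈ s, entF T x y * entF S y z := by
  classical
  refine ⟨Finset.univ.biUnion fun c => ((T c).row_finite x).toFinset, funext fun c => ?_⟩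
  rw [Finset.sum_apply]
  exact Op.ent_mul _ _ _ _ _ fun y h _ => Finset.mem_biUnion.2 ⟨c, by simp, by simpa using h⟩

theorem entF_add (T S : κ → Op n) (x y) : entF (T + S) x y = entF T x y + entF S x y :=
  funext fun _ => Op.ent_add _ _ _ _
theorem entF_sub (T S : κ → Op n) (x y) : entF (T - S) x y = entF T x y - entF S x y :=
  funext fun _ => Op.ent_sub _ _ _ _
theorem entF_neg (T : κ → Op n) (x y) : entF (-T) x y = -entF T x y :=
  funext fun _ => Op.ent_neg _ _ _
theorem entF_smul (c : ℂ) (T : κ → Op n) (x y) : entF (c • T) x y = c • entF T x y :=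
  funext fun _ => Op.ent_smul _ _ _ _
theorem entF_zero (x y : Cell n) : entF (0 : κ → Op n) x y = 0 := funext fun _ => Op.ent_zero _ _
theorem entF_star (T : κ → Op n) (x y) : entF (star T) x y = star (entF T y x) :=
  funext fun _ => Op.ent_star _ _ _
theorem entF_const (T : Op n) (x y) : entF (fun _ : κ => T) x y = T.ent x y • (1 : κ → ℂ) :=
  funext fun _ => by simp [entF]

namespace Ctl

variable (C : Ctl n κ J)

/-- propagation at most `r` on the region -/
def Pr (j : J) (r : ℝ) (T : κ → Op n) : Prop :=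
  ∀ x y : Cell n, (‖C.t j x.1‖ + r ≤ 1 ∨ ‖C.t j y.1‖ + r ≤ 1) → entF T x y ∈ C.W j x.1 y.1 r

/-- column version -/
def PrC (j : J) (r : ℝ) (T : κ → Op n) : Prop :=
  ∀ x y : Cell n, ‖C.t j y.1‖ + r ≤ 1 → entF T x y ∈ C.W j x.1 y.1 r

/-- columns in the region vanish -/
def Va (j : J) (r : ℝ) (T : κ → Op n) : Prop :=
  ∀ x y : Cell n, ‖C.t j y.1‖ + r ≤ 1 → entF T x y = 0

variable {C}

theorem Pr.mono {j r r' T} (h : C.Pr j r T) (hr : r ≤ r') : C.Pr j r' T := fun x y hxy =>
  C.mono _ _ _ _ _ hr (h x y (hxy.imp (fun a => by linarith) (fun a => by linarith)))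

theorem Va.mono {j r r' T} (h : C.Va j r T) (hr : r ≤ r') : C.Va j r' T := fun x y hxy =>
  h x y (by linarith)

theorem Pr.add {j r T S} (h : C.Pr j r T) (h' : C.Pr j r S) : C.Pr j r (T + S) := fun x y hxy => by
  rw [entF_add]; exact add_mem (h x y hxy) (h' x y hxy)

theorem Pr.smul {j r T} (c : ℂ) (h : C.Pr j r T) : C.Pr j r (c • T) := fun x y hxy => by
  rw [entF_smul]; exact Submodule.smul_mem _ _ (h x y hxy)

theorem Pr.zero (j r) : C.Pr j r 0 := fun x y _ => by rw [entF_zero]; exact zero_mem _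

theorem Pr.sum {α : Type*} {j r} (s : Finset α) {T : α → κ → Op n} (h : ∀ a ∈ s, C.Pr j r (T a)) :
    C.Pr j r (∑ a ∈ s, T a) :=
  Finset.sum_induction _ _ (fun _ _ => Pr.add) (Pr.zero _ _) h

theorem Pr.star {j r T} (h : C.Pr j r T) : C.Pr j r (Star.star T) := fun x y hxy => by
  rw [entF_star]; exact C.star _ _ _ _ _ (h y x hxy.symm)

theorem norm_le_of_mem {j x y r f} (h : f ∈ C.W j x y r) (hf : f ≠ 0) :
    ‖C.t j y‖ ≤ ‖C.t j x‖ + r ∧ ‖C.t j x‖ ≤ ‖C.t j y‖ + r := by
  have := C.tle _ _ _ _ _ h hf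
  have a := norm_sub_norm_le (C.t j x) (C.t j y)
  have b := norm_sub_norm_le (C.t j y) (C.t j x)
  rw [norm_sub_rev] at b
  constructor <;> linarith

theorem Pr.mul {j r r' T S} (hr : 0 ≤ r) (hr' : 0 ≤ r') (h : C.Pr j r T) (h' : C.Pr j r' S) :
    C.Pr j (r + r') (T * S) := by
  intro x z hxz
  obtain ⟨s, hs⟩ := entF_mul T S x z
  rw [hs]
  refine sum_mem fun y _ => ?_
  rcases hxz with a | a
  · have h1 := h x y (Or.inl (by linarith))
    by_cases e : entF T x y = 0
    · rw [e, zero_mul]; exact zero_mem _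
    · exact C.mul _ _ _ _ _ _ _ _ h1 (h' y z (Or.inl (by linarith [(norm_le_of_mem h1 e).1])))
  · have h1 := h' y z (Or.inr (by linarith))
    by_cases e : entF S y z = 0
    · rw [e, mul_zero]; exact zero_mem _
    · exact C.mul _ _ _ _ _ _ _ _ (h x y (Or.inr (by linarith [(norm_le_of_mem h1 e).2]))) h1

variable (C)

theorem pr_range (R : ℝ) {r : ℝ} (hr : 0 < r) : ∀ᶠ j in C.l, ∀ T : Op n,
    (∀ x y, T.ent x y ≠ 0 → ‖x.1 - y.1‖ ≤ R) → C.Pr j r fun _ => T := by
  filter_upwards [C.grid R r hr] with j hj T hT x y hxy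
  rw [entF_const]
  by_cases e : T.ent x y = 0
  · rw [e, zero_smul]; exact zero_mem _
  · exact Submodule.smul_mem _ _ (hj _ _ (hT x y e)
      (hxy.imp (fun a => by linarith) (fun a => by linarith)))

theorem pr_const (T : Op n) {r : ℝ} (hr : 0 < r) : ∀ᶠ j in C.l, C.Pr j r fun _ => T := by
  obtain ⟨R, hR⟩ := T.range
  filter_upwards [C.pr_range R hr] with j hj using hj T hR

/-- controlled families -/
noncomputable def ctrl : StarSubalgebra ℂ (Fam n κ J) where
  carrier := {T | ∀ r : ℝ, 0 < r → ∀ᶠ j in C.l, C.Pr j r (T j)}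
  mul_mem' := fun {T S} h h' r hr => by
    filter_upwards [h (r / 2) (by linarith), h' (r / 2) (by linarith)] with j a b
    simpa using Pr.mul (by linarith) (by linarith) a b
  add_mem' := fun {T S} h h' r hr => by
    filter_upwards [h r hr, h' r hr] with j a b using a.add b
  algebraMap_mem' := fun c r hr => C.pr_const (algebraMap ℂ _ c) hr
  star_mem' := fun {T} h r hr => by filter_upwards [h r hr] with j a using a.star

theorem mem_ctrl {T : Fam n κ J} :
    T ∈ C.ctrl ↔ ∀ r : ℝ, 0 < r → ∀ᶠ j in C.l, C.Pr j r (T j) := Iff.rfl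

/-- negligible families -/
noncomputable def negl : TwoSidedIdeal C.ctrl :=
  TwoSidedIdeal.mk' {T | ∀ r : ℝ, 0 < r → ∀ᶠ j in C.l, C.Va j r (T.1 j)}
    (fun r _ => Eventually.of_forall fun j x y _ => entF_zero x y)
    (fun {T S} h h' r hr => by
      filter_upwards [h r hr, h' r hr] with j a b x y hy
      exact (entF_add _ _ x y).trans (by rw [a x y hy, b x y hy, add_zero]))
    (fun {T} h r hr => by
      filter_upwards [h r hr] with j a x y hy
      exact (entF_neg _ x y).trans (by rw [a x y hy, neg_zero]))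
    (fun {T S} h r hr => by
      filter_upwards [h r hr] with j a x z hz
      obtain ⟨s, hs⟩ := entF_mul (T.1 j) (S.1 j) x z
      exact hs.trans (Finset.sum_eq_zero fun y _ => by rw [a y z hz, mul_zero]))
    (fun {T S} h r hr => by
      filter_upwards [h (r / 2) (by linarith), S.2 (r / 2) (by linarith)] with j a b x z hz
      obtain ⟨s, hs⟩ := entF_mul (T.1 j) (S.1 j) x z
      refine hs.trans (Finset.sum_eq_zero fun y _ => ?_)
      by_cases e : entF (S.1 j) y z = 0
      · rw [e, mul_zero]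
      · have := (norm_le_of_mem (b y z (Or.inr (by linarith))) e).2
        rw [a x y (by linarith), zero_mul])

theorem mem_negl {T : C.ctrl} :
    T ∈ C.negl ↔ ∀ r : ℝ, 0 < r → ∀ᶠ j in C.l, C.Va j r (T.1 j) :=
  TwoSidedIdeal.mem_mk' _ _ _ _ _ _ _

theorem negl_star : StarCl C.negl := by
  intro T h
  rw [mem_negl] at h ⊢
  intro r hr
  filter_upwards [h (r / 2) (by linarith), T.2 (r / 2) (by linarith)] with j a b x y hy
  refine (entF_star _ x y).trans ?_
  by_cases e : entF (T.1 j) y x = 0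
  · rw [e, star_zero]
  · have := (norm_le_of_mem (b y x (Or.inl (by linarith))) e).1
    exact absurd (a y x (by linarith)) e

/-- the controlled ring -/
abbrev A := SQ C.negl C.negl_star

noncomputable def cl : C.ctrl →⋆ₐ[ℂ] C.A := SQ.mk _ _

theorem cl_surj : Function.Surjective C.cl := SQ.mk_surj _ _

theorem cl_eq {T S : C.ctrl} :
    C.cl T = C.cl S ↔ ∀ r : ℝ, 0 < r → ∀ᶠ j in C.l, C.Va j r (T.1 j - S.1 j) :=
  (SQ.mk_eq _ _).trans C.mem_negl

theorem cl_eq_of_eventually {T S : C.ctrl} (h : ∀ᶠ j in C.l, T.1 j = S.1 j) : C.cl T = C.cl S :=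
  C.cl_eq.2 fun r _ => by
    filter_upwards [h] with j hj x y _
    rw [hj, sub_self, entF_zero]

/-- constant families -/
noncomputable def cstF : Op n →⋆ₐ[ℂ] C.ctrl where
  toFun T := ⟨fun _ _ => T, fun _ hr => C.pr_const T hr⟩
  map_one' := rfl
  map_mul' _ _ := rfl
  map_zero' := rfl
  map_add' _ _ := rfl
  commutes' _ := rfl
  map_star' _ := rfl

noncomputable def cst : Op n →⋆ₐ[ℂ] C.A := C.cl.comp C.cstF

/-- families of uniformly bounded range, constant in `κ` -/
noncomputable def brF (T : J → Op n) (R : ℝ) (h : ∀ j x y, (T j).ent x y ≠ 0 → ‖x.1 - y.1‖ ≤ R) :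
    C.ctrl :=
  ⟨fun j _ => T j, fun r hr => by filter_upwards [C.pr_range R hr] with j hj using hj _ (h j)⟩

/-- diagonal families -/
noncomputable def dgF (f : J → Cell n → ℂ) : C.ctrl :=
  C.brF (fun j => Op.diag (f j)) 0 fun j x y h => by
    by_cases e : x = y
    · simp [e]
    · exact absurd (by rw [Op.ent_diag, if_neg e]) h

noncomputable def dg (f : J → Cell n → ℂ) : C.A := C.cl (C.dgF f)

noncomputable def prF (S : J → Set (Cell n)) : C.ctrl := C.dgF fun j => (S j).indicator 1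

theorem prF_apply (S : J → Set (Cell n)) (j c) : (C.prF S).1 j c = Op.pr (S j) := rfl

/-- projections onto families of sets -/
noncomputable def pr (S : J → Set (Cell n)) : C.A := C.cl (C.prF S)

theorem ext_fam {T S : C.ctrl} (h : ∀ j c, T.1 j c = S.1 j c) : T = S :=
  Subtype.ext (funext fun j => funext fun c => h j c)

theorem pr_mul (S S' : J → Set (Cell n)) : C.pr S * C.pr S' = C.pr fun j => S j ∩ S' j := by
  rw [pr, pr, pr, ← map_mul]; exact congrArg _ (C.ext_fam fun j c => Op.pr_mul _ _)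
theorem pr_univ : C.pr (fun _ => Set.univ) = 1 := by
  rw [pr, ← map_one C.cl]; exact congrArg _ (C.ext_fam fun j c => Op.pr_univ)
theorem pr_compl (S : J → Set (Cell n)) : C.pr (fun j => (S j)ᶜ) = 1 - C.pr S := by
  rw [pr, pr, ← map_one C.cl, ← map_sub]; exact congrArg _ (C.ext_fam fun j c => Op.pr_compl _)
theorem star_pr (S : J → Set (Cell n)) : Star.star (C.pr S) = C.pr S := by
  rw [pr, ← map_star]; exact congrArg _ (C.ext_fam fun j c => Op.star_pr _)
theorem cst_pr (S : Set (Cell n)) : C.cst (Op.pr S) = C.pr fun _ => S := rfl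
theorem cst_push (f : Cell n → Cell n) (hf hR) (S : J → Set (Cell n)) :
    C.cst (Op.emb f hf hR) * C.pr S * Star.star (C.cst (Op.emb f hf hR)) =
      C.pr fun j => f '' S j := by
  rw [pr, pr, cst, StarAlgHom.comp_apply, ← map_star, ← map_mul, ← map_mul]
  exact congrArg _ (C.ext_fam fun j c => Op.emb_push _ hf hR _)
theorem cst_pull (f : Cell n → Cell n) (hf hR) (S : J → Set (Cell n)) :
    Star.star (C.cst (Op.emb f hf hR)) * C.pr S * C.cst (Op.emb f hf hR) =
      C.pr fun j => f ⁻¹' S j := by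
  rw [pr, pr, cst, StarAlgHom.comp_apply, ← map_star, ← map_mul, ← map_mul]
  exact congrArg _ (C.ext_fam fun j c => Op.emb_pull _ hf hR _)

noncomputable instance : Base C.A where
  D := Set.range C.pr
  one_mem := ⟨_, C.pr_univ⟩
  star_eq := by rintro _ ⟨S, rfl⟩; exact C.star_pr S
  idem := by rintro _ ⟨S, rfl⟩; simp only [pr_mul, Set.inter_self]
  comm := by rintro _ ⟨S, rfl⟩ _ ⟨S', rfl⟩; simp only [pr_mul, Set.inter_comm]
  mul_mem := by rintro _ ⟨S, rfl⟩ _ ⟨S', rfl⟩; exact ⟨_, (C.pr_mul _ _).symm⟩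
  compl_mem := by rintro _ ⟨S, rfl⟩; exact ⟨_, C.pr_compl _⟩
  s := fun i => C.cst (Base.s i)
  s_self := fun i => by rw [← map_star, ← map_mul, Base.s_self, map_one]
  s_ne := fun i j h => by rw [← map_star, ← map_mul, Base.s_ne _ _ h, map_zero]
  s_push := by rintro i _ ⟨S, rfl⟩; exact ⟨_, (C.cst_push _ (Op.cons_inj i) ⟨0, by simp⟩ S).symm⟩
  s_pull := by rintro i _ ⟨S, rfl⟩; exact ⟨_, (C.cst_pull _ (Op.cons_inj i) ⟨0, by simp⟩ S).symm⟩

theorem pr_D (S : J → Set (Cell n)) : C.pr S ∈ (Base.D : Set C.A) := ⟨S, rfl⟩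

theorem baseHom_cst : BaseHom C.cst :=
  ⟨by rintro _ ⟨S, rfl⟩; exact C.pr_D fun _ => S, fun _ => rfl⟩

end Ctl

end Vale.Agent.P228
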