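import Vale.Agent.P228.Ctl

/-! Locality, homotopies from column control, reindexing homomorphisms. -/

set_option linter.unusedSectionVars false

namespace Vale.Agent.P228

open Filter

variable {n : ℕ} {κ J : Type} [Fintype κ]

namespace Ctl

variable (C : Ctl n κ J)

/-- admissible gauge -/
def Adm (g : J → ℝ) : Prop :=
  ∀ Q : J → ℝ → Prop, (∀ r, 0 < r → ∀ᶠ j in C.l, Q j r) → ∀ᶠ j in C.l, Q j (g j)

theorem adm_const {r : ℝ} (hr : 0 < r) : C.Adm fun _ => r := fun _ h => h r hr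

/-- two families of sets agreeing on the region define the same projection -/
theorem pr_eq {S S' : J → Set (Cell n)}
    (h : ∀ᶠ j in C.l, ∀ x : Cell n, ‖C.t j x.1‖ ≤ 1 → (x ∈ S j ↔ x ∈ S' j)) :
    C.pr S = C.pr S' := by
  refine C.cl_eq.2 fun r hr => ?_
  filter_upwards [h] with j hj x y hy
  funext c
  have e : entF ((C.prF S).1 j - (C.prF S').1 j) x y c =
      (Op.pr (S j) - Op.pr (S' j)).ent x y := rfl
  rw [e, Op.ent_sub, Op.pr, Op.pr, Op.ent_diag, Op.ent_diag]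
  by_cases hxy : x = y
  · subst hxy
    have := hj x (by linarith)
    by_cases hx : x ∈ S j
    · simp [hx, this.1 hx]
    · simp [hx, mt this.2 hx]
  · simp [hxy]

theorem pr_mul_of_subset {S S' : J → Set (Cell n)}
    (h : ∀ᶠ j in C.l, ∀ x : Cell n, ‖C.t j x.1‖ ≤ 1 → x ∈ S j → x ∈ S' j) :
    C.pr S' * C.pr S = C.pr S := by
  rw [pr_mul]
  refine C.pr_eq ?_
  filter_upwards [h] with j hj x hx
  exact ⟨fun a => a.2, fun a => ⟨hj x hx a, a⟩⟩

theorem pr_empty' : C.pr (fun _ => ∅) = 0 := by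
  rw [pr, ← map_zero C.cl]; exact congrArg _ (C.ext_fam fun j c => Op.pr_empty)

theorem pr_eq_zero {S : J → Set (Cell n)}
    (h : ∀ᶠ j in C.l, ∀ x : Cell n, ‖C.t j x.1‖ ≤ 1 → x ∉ S j) : C.pr S = 0 := by
  rw [← C.pr_empty']
  refine C.pr_eq ?_
  filter_upwards [h] with j hj x hx
  exact ⟨fun a => absurd a (hj x hx), fun a => a.elim⟩

/-- separated sets: apply `Adm` to `Q j s := Pr j (min s r) (T j)` -/
theorem pr_mul_mul_pr {S S' : J → Set (Cell n)} {g : J → ℝ} (hg : C.Adm g)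
    (h : ∀ᶠ j in C.l, ∀ x ∈ S j, ∀ y ∈ S' j, C.W j x.1 y.1 (g j) = ⊥) (T : C.A) :
    C.pr S * T * C.pr S' = 0 := by
  obtain ⟨T, rfl⟩ := C.cl_surj T
  rw [pr, pr, ← map_mul, ← map_mul, ← map_zero C.cl]
  refine C.cl_eq.2 fun r hr => ?_
  have h1 := hg (fun j s => C.Pr j (min s r) (T.1 j)) fun s hs => T.2 _ (lt_min hs hr)
  filter_upwards [h, h1] with j hj hT x y hy
  funext c
  have e : entF ((C.prF S * T * C.prF S').1 j - (0 : C.ctrl).1 j) x y c =
      (Op.pr (S j) * T.1 j c * Op.pr (S' j) - 0).ent x y := rfl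
  rw [e, sub_zero, Op.pr, Op.pr, Op.ent_mul_diag, Op.ent_diag_mul]
  by_cases hx : x ∈ S j
  · by_cases hy' : y ∈ S' j
    · have a := C.mono _ _ _ _ _ (min_le_left (g j) r)
        (hT x y (Or.inr (by linarith [min_le_right (g j) r])))
      rw [hj x hx y hy', Submodule.mem_bot] at a
      have b : (T.1 j c).ent x y = 0 := congrFun a c
      simp [b]
    · simp [hy']
  · simp [hx]

theorem loc_pr {S : ℝ → J → Set (Cell n)}
    (h : ∀ a b : ℝ, a < b → ∃ g, C.Adm g ∧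
      ∀ᶠ j in C.l, ∀ x, x ∉ S b j → ∀ y ∈ S a j, C.W j x.1 y.1 (g j) = ⊥) :
    Loc fun a => C.pr (S a) := by
  refine ⟨fun a => C.pr_D _, fun a b hab T => ?_⟩
  obtain ⟨g, hg, h⟩ := h a b hab
  rw [← pr_compl]
  exact C.pr_mul_mul_pr hg h T

/-- half-spaces `t l ≤ θ a` -/
noncomputable def half (l : Fin n) (θ : J → ℝ → ℝ) (a : ℝ) : C.A :=
  C.pr fun j => {x | C.t j x.1 l ≤ θ j a}

theorem loc_half (l : Fin n) {θ : J → ℝ → ℝ}
    (h : ∀ a b : ℝ, a < b → ∃ g, C.Adm g ∧ ∀ j, θ j a + g j < θ j b) : Loc (C.half l θ) := by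
  refine C.loc_pr (S := fun a j => {x | C.t j x.1 l ≤ θ j a}) fun a b hab => ?_
  obtain ⟨g, hg, h⟩ := h a b hab
  refine ⟨g, hg, Eventually.of_forall fun j x hx y hy => ?_⟩
  rw [eq_bot_iff]
  intro f hf
  by_contra h0
  have h1 := C.tle _ _ _ _ _ hf h0
  have h2 := norm_le_pi_norm (C.t j x.1 - C.t j y.1) l
  have h3 : θ j b < C.t j x.1 l := not_le.1 hx
  have h4 : C.t j y.1 l ≤ θ j a := hy
  rw [Pi.sub_apply, Real.norm_eq_abs] at h2
  linarith [le_abs_self (C.t j x.1 l - C.t j y.1 l), h j]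

/-- Truncate `H`: call a column `y` good at `j` if `‖t y‖ ≤ 1` and all entries of the column lie in
`W j x y ((1 - ‖t y‖)/2)`; then `H * pr good` is controlled and agrees with `H` on the region. -/
theorem htp_of_col (d e : Op n) (c : C.ctrl) (H : Fam n κ J)
    (hH : ∀ r : ℝ, 0 < r → ∀ᶠ j in C.l, C.PrC j r (H j))
    (h : ∀ j k, c.1 j k = d * H j k + H j k * e) :
    Htp (C.cst d) (C.cst e) (C.cl c) 0 := by
  set G : J → Set (Cell n) := fun j => {y | ∀ x : Cell n,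
    entF (H j) x y ∈ C.W j x.1 y.1 ((1 - ‖C.t j y.1‖) / 2)} with hG
  set H' : Fam n κ J := fun j k => H j k * Op.pr (G j) with hH'
  have e1 : ∀ j x y, y ∈ G j → entF (H' j) x y = entF (H j) x y := fun j x y hy => by
    funext k
    simp [entF, hH', Op.pr, hy]
  have e0 : ∀ j x y, y ∉ G j → entF (H' j) x y = 0 := fun j x y hy => by
    funext k
    simp [entF, hH', Op.pr, hy]
  have hc : H' ∈ C.ctrl := fun r hr => by
    filter_upwards [hH r hr] with j hj x y _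
    by_cases hy : y ∈ G j
    · rw [e1 j x y hy]
      by_cases h1 : ‖C.t j y.1‖ + r ≤ 1
      · exact hj x y h1
      · exact C.mono _ _ _ _ _ (by linarith) (hy x)
    · rw [e0 j x y hy]
      exact zero_mem _
  have hv : ∀ r : ℝ, 0 < r → ∀ᶠ j in C.l, C.Va j r (H j - H' j) := fun r hr => by
    filter_upwards [hH (r / 2) (by linarith)] with j hj x y hy
    have : y ∈ G j := fun x => C.mono _ _ _ _ _ (by linarith) (hj x y (by linarith))
    rw [entF_sub, e1 j x y this, sub_self]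
  refine ⟨C.cl ⟨H', hc⟩, ?_⟩
  rw [sub_zero, cst, StarAlgHom.comp_apply, StarAlgHom.comp_apply, ← map_mul, ← map_mul,
    ← map_add]
  refine C.cl_eq.2 fun r hr => ?_
  filter_upwards [hv (r / 2) (by linarith), C.pr_const e (r := r / 2) (by linarith)]
    with j a b x z hz
  have e2 : c.1 j - (C.cstF d * ⟨H', hc⟩ + ⟨H', hc⟩ * C.cstF e : C.ctrl).1 j =
      (fun _ => d) * (H j - H' j) + (H j - H' j) * fun _ => e := by
    funext k
    have : (c.1 j - (C.cstF d * ⟨H', hc⟩ + ⟨H', hc⟩ * C.cstF e : C.ctrl).1 j) k =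
        c.1 j k - (d * H' j k + H' j k * e) := rfl
    rw [this, h]
    simp only [Pi.add_apply, Pi.mul_apply, Pi.sub_apply]
    noncomm_ring
  rw [e2, entF_add]
  obtain ⟨s, hs⟩ := entF_mul (fun _ : κ => d) (H j - H' j) x z
  obtain ⟨s', hs'⟩ := entF_mul (H j - H' j) (fun _ : κ => e) x z
  rw [hs, hs', Finset.sum_eq_zero fun y _ => by rw [a y z (by linarith), mul_zero], zero_add]
  refine Finset.sum_eq_zero fun y _ => ?_
  by_cases e3 : entF (fun _ : κ => e) y z = 0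
  · rw [e3, mul_zero]
  · have := (norm_le_of_mem (b y z (Or.inr (by linarith))) e3).2
    rw [a x y (by linarith), zero_mul]

theorem dg_mul (f g : J → Cell n → ℂ) : C.dg f * C.dg g = C.dg (f * g) := by
  rw [dg, dg, dg, ← map_mul]; exact congrArg _ (C.ext_fam fun j c => Op.diag_mul _ _)
theorem star_dg (f : J → Cell n → ℂ) : Star.star (C.dg f) = C.dg (Star.star f) := by
  rw [dg, dg, ← map_star]; exact congrArg _ (C.ext_fam fun j c => Op.star_diag _)
theorem dg_one : C.dg 1 = 1 := by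
  rw [dg, ← map_one C.cl]; exact congrArg _ (C.ext_fam fun j c => Op.diag_one)
theorem dg_comm (f : J → Cell n → ℂ) {P : C.A} (hP : P ∈ (Base.D : Set C.A)) :
    C.dg f * P = P * C.dg f := by
  obtain ⟨S, rfl⟩ := hP
  have e : C.pr S = C.dg fun j => (S j).indicator 1 := rfl
  rw [e, dg_mul, dg_mul, mul_comm]

/-- reindexing of the tuple -/
def reidx (σ : κ → κ) (T : Fam n κ J) : Fam n κ J := fun j c => T j (σ c)

variable (C' : Ctl n κ J) (σ : κ → κ)

noncomputable def homF (h1 : ∀ T ∈ C.ctrl, reidx σ T ∈ C'.ctrl) : C.ctrl →⋆ₐ[ℂ] C'.ctrl where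
  toFun T := ⟨reidx σ T.1, h1 _ T.2⟩
  map_one' := rfl
  map_mul' _ _ := rfl
  map_zero' := rfl
  map_add' _ _ := rfl
  commutes' _ := rfl
  map_star' _ := rfl

noncomputable def hom (h1 : ∀ T ∈ C.ctrl, reidx σ T ∈ C'.ctrl)
    (h2 : ∀ T ∈ C.negl, C.homF C' σ h1 T ∈ C'.negl) : C.A →⋆ₐ[ℂ] C'.A :=
  SQ.lift _ _ (C'.cl.comp (C.homF C' σ h1)) fun T hT => by
    rw [StarAlgHom.comp_apply, ← map_zero C'.cl]
    exact (SQ.mk_eq _ _).2 (by rw [sub_zero]; exact h2 T hT)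

variable {C C' σ} (h1 : ∀ T ∈ C.ctrl, reidx σ T ∈ C'.ctrl)
  (h2 : ∀ T ∈ C.negl, C.homF C' σ h1 T ∈ C'.negl)

theorem hom_cl (T : C.ctrl) : C.hom C' σ h1 h2 (C.cl T) = C'.cl (C.homF C' σ h1 T) := rfl
theorem hom_cst (T : Op n) : C.hom C' σ h1 h2 (C.cst T) = C'.cst T := rfl
theorem hom_dg (f : J → Cell n → ℂ) : C.hom C' σ h1 h2 (C.dg f) = C'.dg f := rfl
theorem hom_pr (S : J → Set (Cell n)) : C.hom C' σ h1 h2 (C.pr S) = C'.pr S := rfl
theorem baseHom_hom : BaseHom (C.hom C' σ h1 h2) :=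
  ⟨by rintro _ ⟨S, rfl⟩; exact C'.pr_D S, fun _ => rfl⟩

end Ctl

end Vale.Agent.P228
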