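import Vale.Agent.P228.Basic

/-! Closure properties of `Cut`. -/

set_option linter.unusedSectionVars false
set_option linter.unusedVariables false

namespace Vale.Agent.P228

variable {A : Type*} [Ring A] [StarRing A] [Algebra ℂ A] [StarModule ℂ A] [Base A]
variable {p d q e a v P : A}

/-- take `P = M a * p` -/
theorem Cut.zero (hp : p ∈ (Base.D : Set A)) : Cut p 0 := by
  intro M hM x y hxy
  refine ⟨M x * p, Base.mul_mem _ (hM.1 x) _ hp, ?_, by simp, ?_, ?_⟩
  · rw [mul_assoc, Base.idem _ hp]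
  · rw [mul_sub, ← mul_assoc, Base.idem _ (hM.1 x), sub_self]
  · rw [← mul_assoc, hM.mono hxy.le]
theorem Cut.smul (z : ℂ) (h : Cut p d) : Cut p (z • d) := by
  intro M hM x y hxy
  obtain ⟨Q, hQ, h1, h2, h3, h4⟩ := h M hM x y hxy
  refine ⟨Q, hQ, h1, ?_, h3, h4⟩
  rw [mul_smul_comm, smul_mul_assoc, ← h2]
theorem Cut.neg (h : Cut p d) : Cut p (-d) := by
  simpa using h.smul (-1)
/-- apply `h` to `Loc.compl` at `-b < -a` and take `p - P` -/
theorem Cut.dual (hp : Cpx p d) (h : Cut p d) : Cut p (star d) := by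
  intro M hM x y hxy
  obtain ⟨Q, hQ, h1, h2, h3, h4⟩ := h _ hM.compl (-y) (-x) (neg_lt_neg hxy)
  simp only [neg_neg] at h3 h4
  have hD := D_sub hp.pD hQ h1
  refine ⟨p - Q, hD, ?_, ?_, ?_, ?_⟩
  · rw [sub_mul, hp.pp, h1]
  · have e1 : d * (p - Q) = (p - Q) * d * (p - Q) := by
      have e2 : Q * d * (p - Q) = 0 := by
        rw [mul_sub, mul_assoc Q d p, hp.dp, ← h2, sub_self]
      rw [sub_mul p Q d, hp.pd, sub_mul, e2, sub_zero]
    have := congrArg star e1
    simp only [star_mul, Base.star_eq _ hD] at this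
    rw [mul_assoc]
    exact this
  · rw [sub_sub_cancel]
    rw [sub_mul, one_mul, sub_eq_self] at h4
    exact h4
  · rw [sub_mul, one_mul, sub_eq_zero] at h3
    exact h3.symm
/-- take the product of the two projections -/
theorem Cut.cmp (hp : Cpx p d) (hP : P ∈ (Base.D : Set A)) (hPp : P * p = P)
    (hPd : P * d = P * d * P) (h : Cut p d) : Cut P (P * d * P) := by
  intro M hM x y hxy
  obtain ⟨Q, hQ, h1, h2, h3, h4⟩ := h M hM x y hxy
  have PP := Base.idem _ hP
  have QP := Base.comm _ hQ _ hP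
  have pP : p * P = P := by rw [Base.comm _ hp.pD _ hP, hPp]
  have e1 : Q * P * P = Q * P := by rw [mul_assoc, PP]
  have e2 : P * (Q * P) = Q * P := by rw [← mul_assoc, ← QP, e1]
  refine ⟨Q * P, Base.mul_mem _ hQ _ hP, e1, ?_, ?_, ?_⟩
  · calc Q * P * (P * d * P) = Q * P * P * d * P := by noncomm_ring
      _ = P * (Q * d) * P := by rw [e1, QP]; noncomm_ring
      _ = P * Q * d * (Q * P) := by rw [h2]; noncomm_ring
      _ = Q * P * P * d * (P * (Q * P)) := by rw [e1, e2, QP]
      _ = _ := by noncomm_ring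
  · have : P - Q * P = (p - Q) * P := by rw [sub_mul, pP]
    rw [this, ← mul_assoc, h3, zero_mul]
  · rw [← mul_assoc, h4]
/-- cut the subcomplex at `(a, a + (b-a)/3)` and the quotient at `(b - (b-a)/3, b)` -/
theorem Cut.ext (hp : Cpx p d) (hq : Cpx q e) (hpq : p * q = 0) (h1 : p * a = a) (h2 : a * q = a)
    (h : Cut p d) (h' : Cut q e) : Cut (p + q) (d + a + e) := by
  intro M hM x y hxy
  have l1 : x < x + (y - x) / 3 := by linarith
  have l2 : x + (y - x) / 3 < y - (y - x) / 3 := by linarith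
  have l3 : y - (y - x) / 3 < y := by linarith
  obtain ⟨P, hP, a1, a2, a3, a4⟩ := h M hM _ _ l1
  obtain ⟨Q, hQ, b1, b2, b3, b4⟩ := h' M hM _ _ l3
  have qp : q * p = 0 := by rw [Base.comm _ hq.pD _ hp.pD, hpq]
  have pP : p * P = P := by rw [Base.comm _ hp.pD _ hP, a1]
  have qQ : q * Q = Q := by rw [Base.comm _ hq.pD _ hQ, b1]
  have Pq : P * q = 0 := by rw [← a1, mul_assoc, hpq, mul_zero]
  have Qp : Q * p = 0 := by rw [← b1, mul_assoc, qp, mul_zero]
  have pQ : p * Q = 0 := by rw [← qQ, ← mul_assoc, hpq, zero_mul]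
  have qP : q * P = 0 := by rw [← pP, ← mul_assoc, qp, zero_mul]
  have PQ : P * Q = 0 := by rw [← qQ, ← mul_assoc, Pq, zero_mul]
  have Pe : P * e = 0 := by rw [← hq.pd, ← mul_assoc, Pq, zero_mul]
  have Qd : Q * d = 0 := by rw [← hp.pd, ← mul_assoc, Qp, zero_mul]
  have Qa : Q * a = 0 := by rw [← h1, ← mul_assoc, Qp, zero_mul]
  have dQ : d * Q = 0 := by rw [← hp.dp, mul_assoc, pQ, mul_zero]
  have aP : a * P = 0 := by rw [← h2, mul_assoc, qP, mul_zero]
  have eP : e * P = 0 := by rw [← hq.dp, mul_assoc, qP, mul_zero]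
  have key : P * a = P * a * Q := by
    have e1 : (1 - M (y - (y - x) / 3)) * (q - Q) = q - Q := by rw [sub_mul, one_mul, b3, sub_zero]
    have e2 : P * M (x + (y - x) / 3) = P := by rw [Base.comm _ hP _ (hM.1 _), a4]
    have e3 : P * a * (q - Q) = 0 := by
      calc _ = P * (M (x + (y - x) / 3) * a * (1 - M (y - (y - x) / 3))) * (q - Q) := by
            conv_lhs => rw [← e1, ← e2]
            noncomm_ring
        _ = 0 := by rw [hM.loc' l2]; simp
    rw [mul_sub, mul_assoc P a q, h2, sub_eq_zero] at e3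
    exact e3
  refine ⟨P + Q, D_add hP hQ PQ, ?_, ?_, ?_, ?_⟩
  · simp only [mul_add, add_mul, a1, b1, Pq, Qp, add_zero, zero_add]
  · have e1 : (P + Q) * (d + a + e) = P * d + P * a + Q * e := by
      simp only [mul_add, add_mul, Pe, Qd, Qa, add_zero, zero_add]
    rw [e1]
    simp only [mul_add, add_mul, ← a2, ← b2, ← key]
    simp only [mul_assoc, dQ, aP, eP, mul_zero, add_zero, zero_add, add_assoc]
  · have e1 : M x * (q - Q) = 0 := by
      rw [← hM.mono' (l1.trans l2).le, mul_assoc, b3, mul_zero]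
    have : p + q - (P + Q) = (p - P) + (q - Q) := by abel
    rw [this, mul_add, a3, e1, add_zero]
  · have e1 : M y * P = P := by
      rw [← a4, ← mul_assoc, hM.mono (l2.trans l3).le]
    rw [mul_add, e1, b4]
/-- cut at the inner thirds and conjugate, using locality for `v` -/
theorem Cut.conj (hp : Cpx p d) (hm : Mono v) (hv : star v * v * p = p) (h : Cut p d) :
    Cut (v * p * star v) (v * d * star v) := by
  intro M hM x y hxy
  have l1 : x < x + (y - x) / 3 := by linarith
  have l2 : x + (y - x) / 3 < y - (y - x) / 3 := by linarith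
  have l3 : y - (y - x) / 3 < y := by linarith
  obtain ⟨P, hP, a1, a2, a3, a4⟩ := h M hM _ _ l2
  have pP : p * P = P := by rw [Base.comm _ hp.pD _ hP, a1]
  have e1 : star v * v * P = P := by rw [← pP, ← mul_assoc, hv]
  have e2 : star v * v * d = d := by rw [← hp.pd, ← mul_assoc, hv]
  refine ⟨v * P * star v, hm P hP, ?_, ?_, ?_, ?_⟩
  · calc _ = v * (P * (star v * v * p)) * star v := by noncomm_ring
      _ = _ := by rw [hv, a1]
  · calc _ = v * (P * (star v * v * d)) * star v := by noncomm_ring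
      _ = v * (P * (star v * v * d) * (star v * v * P)) * star v := by rw [e1, e2, ← a2]
      _ = _ := by noncomm_ring
  · have e3 : (1 - M (x + (y - x) / 3)) * (p - P) = p - P := by rw [sub_mul, one_mul, a3, sub_zero]
    calc _ = M x * v * (p - P) * star v := by noncomm_ring
      _ = M x * v * (1 - M (x + (y - x) / 3)) * (p - P) * star v := by
          conv_lhs => rw [← e3]
          noncomm_ring
      _ = 0 := by rw [hM.loc' l1]; simp
  · have e3 : (1 - M y) * v * M (y - (y - x) / 3) * P * star v = 0 := by rw [hM.2 _ _ l3]; simp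
    rw [mul_assoc _ _ P, a4] at e3
    have e4 : (1 - M y) * v * P * star v = v * P * star v - M y * (v * P * star v) := by
      noncomm_ring
    rw [e4, sub_eq_zero] at e3
    exact e3.symm
theorem Cut.ee (i : Fin 4) (hp : Cpx p d) (h : Cut p d) : Cut (ee i i p) (ee i i d) :=
  h.conj hp (mono_s i) (by rw [Base.s_self, one_mul])

end Vale.Agent.P228
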