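import Vale.Agent.P228.Near

/-! The averaging data in the fine ring. -/

set_option linter.unusedSectionVars false

namespace Vale.Agent.P228

open Filter Topology

universe u

section Ring
variable {R : Type*} [Ring R] [Algebra ℂ R]

noncomputable def avgE (q : ℕ) (P a : R) : R := (q : ℂ)⁻¹ • ∑ m ∈ Finset.range q, P * a ^ m
noncomputable def avgB (q : ℕ) (P a : R) : R :=
  (q : ℂ)⁻¹ • ∑ m ∈ Finset.range q, ∑ l ∈ Finset.range m, P * a ^ l

variable {q : ℕ} {P a d : R}

theorem geom_aux (hP : P * P = P) (h1 : P * a = a) (h2 : a * P = a) (m : ℕ) :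
    (∑ l ∈ Finset.range m, P * a ^ l) * (a - P) = P * a ^ m - P := by
  induction m with
  | zero => simp
  | succ m ih =>
    have e : a ^ m * P = P * a ^ m := ((Commute.pow_left (h2.trans h1.symm) m)).eq
    rw [Finset.sum_range_succ, add_mul, ih, mul_sub, mul_assoc, mul_assoc, ← pow_succ, e,
      ← mul_assoc, hP]
    abel

theorem avgE_sub (hq : 0 < q) (hP : P * P = P) (h1 : P * a = a) (h2 : a * P = a) :
    avgE q P a - P = avgB q P a * (a - P) := by
  have hq' : (q : ℂ) ≠ 0 := Nat.cast_ne_zero.2 hq.ne'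
  rw [avgE, avgB, smul_mul_assoc, Finset.sum_mul]
  simp only [geom_aux hP h1 h2, Finset.sum_sub_distrib, Finset.sum_const, Finset.card_range,
    smul_sub]
  rw [← Nat.cast_smul_eq_nsmul ℂ, smul_smul, inv_mul_cancel₀ hq', one_smul]

theorem mul_avgE (hq : 0 < q) (hP : P * P = P) (h1 : P * a = a) (h2 : a * P = a) :
    a * avgE q P a - avgE q P a = (q : ℂ)⁻¹ • (a ^ q - P) := by
  have e : Commute a P := h2.trans h1.symm
  have h3 : P * a ^ q = a ^ q := by
    obtain ⟨m, rfl⟩ := Nat.exists_eq_succ_of_ne_zero hq.ne'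
    rw [pow_succ', ← mul_assoc, h1]
  have h4 : ∀ m, a * (P * a ^ m) - P * a ^ m = P * a ^ (m + 1) - P * a ^ m := fun m => by
    rw [← mul_assoc, e.eq, mul_assoc, ← pow_succ']
  rw [avgE, mul_smul_comm, ← smul_sub, Finset.mul_sum, ← Finset.sum_sub_distrib]
  simp only [h4]
  rw [Finset.sum_range_sub (fun m => P * a ^ m), h3, pow_zero, mul_one]

theorem avgE_comm (h1 : d * P = P * d) (h2 : d * a = a * d) :
    d * avgE q P a = avgE q P a * d :=
  (Commute.smul_right (Commute.sum_right _ _ _ fun m _ =>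
    Commute.mul_right h1 (Commute.pow_right h2 m)) _).eq

theorem avgB_comm (h1 : d * P = P * d) (h2 : d * a = a * d) :
    d * avgB q P a = avgB q P a * d :=
  (Commute.smul_right (Commute.sum_right _ _ _ fun _ _ => Commute.sum_right _ _ _ fun m _ =>
    Commute.mul_right h1 (Commute.pow_right h2 m)) _).eq

theorem mul_avgE_left (hP : P * P = P) : P * avgE q P a = avgE q P a := by
  rw [avgE, mul_smul_comm, Finset.mul_sum]
  simp only [← mul_assoc, hP]

end Ring

variable {p n : ℕ} [Fact p.Prime]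

namespace GSetup

variable (Z : GSetup.{u} p n)

theorem r_small (s : ℝ) (hs : 0 < s) : ∀ᶠ i in atTop, Z.r i ≤ s :=
  Z.hr.eventually (ge_mem_nhds hs)

theorem chi_pow (m : ℕ) (c : ZMod p) : chi p 1 c ^ m = chi p m c := by
  induction m with
  | zero => simp [chi_of_dvd (p := p) (dvd_zero _)]
  | succ m ih => rw [pow_succ, ih, Nat.cast_succ, chi_add]; rfl

theorem rq_nonneg (j : ℕ × ℕ) : 0 ≤ Z.r j.2 / Z.q j := div_nonneg (Z.r_pos _).le (Nat.cast_nonneg _)

theorem nr_pow (j : ℕ × ℕ) {m : ℕ} (hm : m ≤ Z.q j) :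
    (Z.L j.1).Nr (Z.δ j) m (Z.r j.2) (Z.γ j ^ m) := by
  refine ((Z.nr j).pow (Z.rq_nonneg j) m).mono ?_
  have hq : (0 : ℝ) < Z.q j := Nat.cast_pos.2 (Z.q_pos j)
  calc (m : ℝ) * (Z.r j.2 / Z.q j) ≤ Z.q j * (Z.r j.2 / Z.q j) :=
        mul_le_mul_of_nonneg_right (Nat.cast_le.2 hm) (Z.rq_nonneg j)
    _ = Z.r j.2 := by field_simp

theorem p_eq : ∃ f, (C0 n).p = Op.diag f := ⟨_, StJ_p _⟩

theorem pr_term (j : ℕ × ℕ) {m : ℕ} (hm : m ≤ Z.q j) :
    Z.fine.Pr j (Z.r j.2) fun c => (C0 n).p * (chi p 1 c • Z.γ j) ^ m := by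
  obtain ⟨f, hf⟩ := p_eq (n := n)
  have := Z.pr_of_nr (((LD.nr_diag (L := Z.L j.1) (δ := Z.δ j) le_rfl f).mul le_rfl (Z.r_pos _).le
    (Z.nr_pow j hm)))
  rw [zero_add, zero_add, ← hf] at this
  simpa only [smul_pow, chi_pow, mul_smul_comm] using this

theorem mem_of_pr {T : Fam n (ZMod p) (ℕ × ℕ)} (h : ∀ j, Z.fine.Pr j (Z.r j.2) (T j)) :
    T ∈ Z.fine.ctrl := fun s hs => eventually_lP.2 fun k => by
  filter_upwards [Z.r_small s hs] with i hi using (h (k, i)).mono hi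

noncomputable def aF : Z.fine.ctrl := ⟨fun j c => chi p 1 c • Z.γ j, Z.mem_of_pr fun j => by
  simpa using Z.pr_of_nr (Z.nr_pow j (Z.q_pos j))⟩

noncomputable def eF : Z.fine.ctrl :=
  ⟨fun j c => avgE (Z.q j) (C0 n).p (chi p 1 c • Z.γ j), Z.mem_of_pr fun j => by
    have := (Ctl.Pr.sum (Finset.range (Z.q j)) fun m hm =>
      Z.pr_term j (Finset.mem_range.1 hm).le).smul (Z.q j : ℂ)⁻¹
    refine (congrArg _ (funext fun c => ?_)).mp this
    simp only [avgE, Pi.smul_apply, Finset.sum_apply]⟩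

noncomputable def bF : Z.fine.ctrl :=
  ⟨fun j c => avgB (Z.q j) (C0 n).p (chi p 1 c • Z.γ j), Z.mem_of_pr fun j => by
    have := (Ctl.Pr.sum (Finset.range (Z.q j)) fun m hm => Ctl.Pr.sum (Finset.range m) fun l hl =>
      Z.pr_term j ((Finset.mem_range.1 hl).trans (Finset.mem_range.1 hm)).le).smul (Z.q j : ℂ)⁻¹
    refine (congrArg _ (funext fun c => ?_)).mp this
    simp only [avgB, Pi.smul_apply, Finset.sum_apply]⟩

theorem nr_cst (T : Op n) (k : ℕ) (s : ℝ) (hs : 0 < s) :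
    ∀ᶠ i in atTop, (Z.L k).Nr (Z.δ (k, i)) 0 s T := by
  obtain ⟨δ₀, h0, h⟩ := (Z.L k).nr_const T hs
  filter_upwards [(Z.hδ k).eventually (ge_mem_nhds h0)] with i hi using h _ (Z.δ_pos _) hi

theorem chi_mul_star (c : ZMod p) : chi p 1 c * star (chi p 1 c) = 1 := by
  have := congrFun (chi_add (p := p) 1 (-1)) c
  rw [chi_neg, add_neg_cancel, chi_of_dvd (dvd_zero _)] at this
  exact this.symm

theorem avgData : AvgData ((C0 n).map Z.fine.cst) (Z.fine.cl Z.aF) (Z.fine.cl Z.eF)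
    (Z.fine.cl Z.bF) := by
  have ok : (C0 n).OK := (StJ_good _).ok
  have pp := ok.toCpx.pp
  have dp : (C0 n).d * (C0 n).p = (C0 n).p * (C0 n).d := ok.dp.trans ok.pd.symm
  choose G hG using Z.isγ
  have pa : ∀ j c, (C0 n).p * (chi p 1 c • Z.γ j) = chi p 1 c • Z.γ j := fun j c => by
    rw [mul_smul_comm, (hG j).pγ]
  have ap : ∀ j c, (chi p 1 c • Z.γ j) * (C0 n).p = chi p 1 c • Z.γ j := fun j c => by
    rw [smul_mul_assoc, (hG j).γp]
  have da : ∀ j c, (C0 n).d * (chi p 1 c • Z.γ j) = (chi p 1 c • Z.γ j) * (C0 n).d :=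
    fun j c => by rw [smul_mul_assoc, mul_smul_comm, (hG j).dγ]
  have lift : ∀ {T S : Z.fine.ctrl}, (∀ j c, T.1 j c = S.1 j c) → Z.fine.cl T = Z.fine.cl S :=
    fun h => congrArg _ (Z.fine.ext_fam h)
  have cs : ∀ T, Z.fine.cst T = Z.fine.cl (Z.fine.cstF T) := fun _ => rfl
  refine ⟨?_, ?_, ?_, ?_, ?_, ?_, ?_, ?_, ?_, ?_, ?_⟩ <;> try simp only [Cx.map, cs]
  · rw [← map_mul]; exact lift pa
  · rw [← map_mul]; exact lift ap
  · rw [← map_mul, ← map_mul]; exact lift da
  · rw [← map_mul]; exact lift fun j c => mul_avgE_left pp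
  · rw [← map_mul]
    exact lift fun j c =>
      (avgE_comm rfl ((pa j c).trans (ap j c).symm)).symm.trans (mul_avgE_left pp)
  · rw [← map_mul, ← map_mul]; exact lift fun j c => avgE_comm dp (da j c)
  · rw [← map_mul, ← map_mul]; exact lift fun j c => avgB_comm dp (da j c)
  · rw [← map_sub, ← map_sub, ← map_mul]
    exact lift fun j c => avgE_sub (Z.q_pos j) pp (pa j c) (ap j c)
  · rw [← map_mul, ← map_mul]
    exact lift fun j c => avgE_comm ((ap j c).trans (pa j c).symm) rfl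
  · choose H h1 h2 using fun j => (hG j).pow (Z.q j) (Z.q_pos j)
    obtain ⟨h, hh⟩ := Z.fine_htp (fun j => Z.γ j ^ Z.q j - (C0 n).p) H (C0 n).d (C0 n).d
      (fun k s hs => by
        filter_upwards [Z.r_small (s / 2) (by linarith), Z.nr_cst (C0 n).p k s hs] with i hi hp
        refine LD.Nr.sub (((Z.nr_pow (k, i) le_rfl).shift (Z.r_pos _).le fun w => ?_).mono
          (by linarith)) hp
        rw [zpow_natCast]; exact Z.q_small (k, i) w) h2 h1 (fun j => (Z.q j : ℂ)⁻¹)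
      (Z.aF * Z.eF - Z.eF) fun j c => by
        refine (mul_avgE (Z.q_pos j) pp (pa j c) (ap j c)).trans ?_
        rw [smul_pow, chi_pow, chi_of_dvd (Int.natCast_dvd_natCast.2 (Z.q_dvd j)), Pi.one_apply,
          one_smul]
    rw [map_sub, map_mul, sub_zero] at hh
    exact ⟨h, hh⟩
  · choose H h1 h2 using fun j => (hG j).form
    obtain ⟨h, hh⟩ := Z.fine_htp (fun j => Z.γ j * (C0 n).φ * star (Z.γ j) - (C0 n).φ) H (C0 n).d
      (-star (C0 n).d)
      (fun k s hs => by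
        filter_upwards [Z.r_small (s / 3) (by linarith), Z.nr_cst (C0 n).φ k (s / 3) (by linarith)]
          with i hi hp
        have h1 := Z.nr_pow (k, i) (m := 1) (Z.q_pos _)
        rw [pow_one] at h1
        have r0 := (Z.r_pos i).le
        have := (h1.mul r0 (by linarith) hp).mul (by linarith) r0 h1.star
        simp only [Nat.cast_one, add_zero, add_neg_cancel] at this
        exact LD.Nr.sub (this.mono (by linarith)) (hp.mono (by linarith))) h2 h1 (fun _ => 1)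
      (Z.aF * Z.fine.cstF (C0 n).φ * star Z.aF - Z.fine.cstF (C0 n).φ) fun j c => by
        change (chi p 1 c • Z.γ j) * (C0 n).φ * star (chi p 1 c • Z.γ j) - (C0 n).φ = _
        rw [star_smul, smul_mul_assoc, smul_mul_smul_comm, chi_mul_star, one_smul, one_smul]
    rw [map_sub, map_mul, map_mul, map_star, sub_zero, map_neg, map_star] at hh
    exact ⟨h, hh⟩

theorem τ_a : Z.τ (Z.fine.cl Z.aF) = chi p 1 1 • Z.fine.cl Z.aF := by
  rw [← map_smul]
  refine congrArg Z.fine.cl (Z.fine.ext_fam fun j c => ?_)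
  change chi p 1 (c + 1) • Z.γ j = chi p 1 1 • chi p 1 c • Z.γ j
  rw [chi_succ, smul_smul]

end GSetup

end Vale.Agent.P228
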