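import Vale.Agent.P228.SuspB

/-! Suspension: the standard complex is Poincare, and its reduction along lattice walls. -/

set_option linter.unusedSectionVars false

namespace Vale.Agent.P228

variable {A : Type*} [Ring A] [StarRing A] [Algebra ℂ A] [StarModule ℂ A] [Base A]
variable {C : Cx A} {T : A}

theorem Susp.R1 (hC : C.OK) (hT : C.Sh T) : Susp.R C.p C.d C.φ T 1 (T * 1 * star T) :=
  Susp.mkR hC hT Base.one_mem (by rw [mul_one, hT.u2]; exact Base.one_mem) (by simp) (by simp)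

theorem Cx.OK.susp (hC : C.OK) (hT : C.Sh T) : (C.susp T).OK := Susp.susp_OK (Susp.R1 hC hT)
/-- `φ` is homotopic, via `κ = -(1/2) ee 1 1 φ₀`, to `φ' = ee 0 1 (φ₀ T) + ee 1 0 φ₀`, whose cone is
an extension of two cones of `φ₀` (`HE.of_ctr`, `CtrI.ext`, `HE.ctr`, `HE.conj`). -/
theorem Cx.Good.susp (hC : C.Good) (hT : C.Sh T) : (C.susp T).Good := by
  have hO := hC.ok.susp hT
  have hp := hC.ok.toCpx
  refine ⟨hO, ?_, ?_⟩
  · have h := Susp.lef (Susp.R1 hC.ok hT) hC.poinc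
    have e : ee 0 0 C.p + ee 1 1 C.p = (C.susp T).p := rfl
    simp only [sub_self, mul_zero, add_zero, mul_one, hT.u2, e] at h
    have h' : HE (C.susp T).p ((C.susp T).d * (C.susp T).p) (C.susp T).p
        (-(star (C.susp T).d * (C.susp T).p)) ((C.susp T).φ * (C.susp T).p) := h
    rwa [hO.dp, hO.toCpx.dual.dp, hO.φp] at h'
  · have h := Cut.ext (a := ee 0 1 ((T - 1) * C.p)) ((Susp.cpx_ee 0 hp).smul Complex.I)
      ((Susp.cpx_ee 1 hp).smul (-Complex.I)) (by simp [ee_mul])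
      (by simp [ee_mul, sub_mul, mul_sub, hT.cp, Susp.ass hp.pp, hp.pp])
      (by simp [ee_mul, mul_assoc, hp.pp])
      ((Cut.ee 0 hp hC.cut).smul _) ((Cut.ee 1 hp hC.cut).smul _)
    rw [neg_smul, ← sub_eq_add_neg] at h
    exact h

theorem Cx.Sh.susp {U : A} (hU : C.Sh U) (hc : U * T = T * U)
    (hs : ∀ i, U * Base.s i = Base.s i * U) : (C.susp T).Sh U := by
  have hs' : ∀ i, star (Base.s i : A) * U = U * star (Base.s i : A) := fun i =>
    (Susp.star_comm' (Susp.comm_star hU.u1 hU.u2 (hs i))).symm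
  have l : ∀ i j x, U * ee i j x = ee i j (U * x) := fun i j x => by
    simp only [ee, mul_assoc, Susp.ass (hs i)]
  have r : ∀ i j x, ee i j x * U = ee i j (x * U) := fun i j x => by
    simp only [ee, mul_assoc, hs']
  have hc' : U * star T = star T * U := Susp.star_comm' (Susp.comm_star hU.u1 hU.u2 hc)
  refine ⟨hU.u1, hU.u2, ?_, ?_, ?_⟩ <;>
    simp [Cx.susp, mul_add, add_mul, mul_sub, sub_mul, l, r, mul_assoc, hU.cp, hU.cd, hU.cφ,
      Susp.ass hU.cφ, Susp.ass hc, hc, hc']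

/-- interval data: `Λ` is the set of edges `[-m, m')`, `T Λ T*` is `(-m, m']` -/
structure Wall (C : Cx A) (T Λ : A) : Prop where
  ΛD : Λ ∈ (Base.D : Set A)
  TD : T * Λ * star T ∈ (Base.D : Set A)
  cd : Λ * C.d = C.d * Λ
  cφ : Λ * C.φ = C.φ * Λ

/-- upper wall -/
def wp (T Λ : A) : A := T * Λ * star T * (1 - Λ)
/-- lower wall -/
def wm (T Λ : A) : A := Λ * (1 - T * Λ * star T)
/-- open interval (quotient complex) -/
def slabP (C : Cx A) (T Λ : A) : A := ee 0 0 (C.p * (Λ * (T * Λ * star T))) + ee 1 1 (C.p * Λ)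
/-- closed interval (subcomplex) -/
def slabQ (C : Cx A) (T Λ : A) : A :=
  ee 0 0 (C.p * (Λ + wp T Λ)) + ee 1 1 (C.p * Λ)

variable {Λ : A}

theorem Wall.R (hC : C.OK) (hT : C.Sh T) (hW : Wall C T Λ) :
    Susp.R C.p C.d C.φ T Λ (T * Λ * star T) :=
  Susp.mkR hC hT hW.ΛD hW.TD hW.cd hW.cφ

/-- Poincare-Lefschetz duality for the interval.  Replace `φ` by `φ'` as above; the cone has a
three-step filtration: (vertices `T Λ T*`, edge cochains `Λ`), then (vertex and edge `wm`),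
then (edges and vertex cochains `Λ T Λ T*`). -/
theorem Wall.lefschetz (hC : C.Good) (hT : C.Sh T) (hW : Wall C T Λ) :
    HE (slabQ C T Λ) ((C.susp T).d * slabQ C T Λ) (slabP C T Λ)
      (-(star (C.susp T).d * slabP C T Λ)) ((C.susp T).φ * slabP C T Λ) :=
  Susp.lef (hW.R hC.ok hT) hC.poinc

/-- the connecting map -/
noncomputable def wallMap (C : Cx A) (T Λ : A) : A :=
  star (Base.s 0 : A) * ee 0 0 (C.p * (wp T Λ + wm T Λ)) *
    ((C.susp T).d * slabP C T Λ * star (Base.s 0 : A) +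
      (C.susp T).φ * slabP C T Λ * star (Base.s 1 : A))

theorem Wall.slabD (hC : C.OK) (hW : Wall C T Λ) : slabP C T Λ ∈ (Base.D : Set A) :=
  Susp.ee_D2 (Base.mul_mem _ hC.pD _ (Base.mul_mem _ hW.ΛD _ hW.TD)) (Base.mul_mem _ hC.pD _ hW.ΛD)

theorem Wall.slab_d (hC : C.OK) (hT : C.Sh T) (hW : Wall C T Λ) :
    slabP C T Λ * (C.susp T).d = slabP C T Λ * (C.susp T).d * slabP C T Λ := by
  have h := hW.R hC hT
  unfold slabP
  generalize T * Λ * star T = L at h ⊢
  simp [Cx.susp, mul_add, add_mul, mul_sub, sub_mul, ee_mul, mul_assoc, h.all]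
  abel

theorem Wall.WD (hW : Wall C T Λ) : wp T Λ + wm T Λ ∈ (Base.D : Set A) := by
  refine D_add (Base.mul_mem _ hW.TD _ (Base.compl_mem _ hW.ΛD))
    (Base.mul_mem _ hW.ΛD _ (Base.compl_mem _ hW.TD)) ?_
  rw [wp, wm, mul_assoc, ← mul_assoc (1 - Λ), sub_mul, one_mul, Base.idem _ hW.ΛD]
  simp

/-- the cone of `wallMap` is the cone of the duality map -/
theorem Wall.wallMap_HE (hC : C.Good) (hT : C.Sh T) (hW : Wall C T Λ) :
    HE ((wp T Λ + wm T Λ) * C.p) ((wp T Λ + wm T Λ) * C.d)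
      ((C.susp T).cmp (slabP C T Λ)).bd.p ((C.susp T).cmp (slabP C T Λ)).bd.d (wallMap C T Λ) := by
  have h := hW.R hC.ok hT
  have hO := hC.ok.susp hT
  have hL := hW.lefschetz hC hT
  have hP := hW.slabD hC.ok
  have hd := hW.slab_d hC.ok hT
  have hWD := hW.WD
  have wd : (wp T Λ + wm T Λ) * C.d = C.d * (wp T Λ + wm T Λ) := by
    unfold wp wm
    generalize T * Λ * star T = L at h ⊢
    simp [mul_add, add_mul, mul_sub, sub_mul, mul_assoc, h.all]
  have cW := Susp.cpx_w hC.ok.pD hWD h.rpd h.rdp h.rdd wd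
  have eQ : slabQ C T Λ = ee 0 0 (C.p * (wp T Λ + wm T Λ)) + slabP C T Λ := by
    unfold slabQ slabP wp wm
    generalize T * Λ * star T = L at h ⊢
    simp [mul_add, mul_sub, ee_add, ee_sub, h.all]
    abel
  have XP : ee 0 0 (C.p * (wp T Λ + wm T Λ)) * slabP C T Λ = 0 := by
    unfold slabP wp wm
    generalize T * Λ * star T = L at h ⊢
    simp [mul_add, add_mul, mul_sub, sub_mul, ee_mul, mul_assoc, h.all]
  have QD : ee 0 0 (C.p * (wp T Λ + wm T Λ)) + slabP C T Λ ∈ (Base.D : Set A) :=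
    D_add (ee_D 0 cW.pD) hP XP
  rw [eQ] at hL
  have dQ : (ee 0 0 (C.p * (wp T Λ + wm T Λ)) + slabP C T Λ) * ((C.susp T).d *
      (ee 0 0 (C.p * (wp T Λ + wm T Λ)) + slabP C T Λ)) = (C.susp T).d *
      (ee 0 0 (C.p * (wp T Λ + wm T Λ)) + slabP C T Λ) := by
    unfold slabP wp wm
    generalize T * Λ * star T = L at h ⊢
    simp [Cx.susp, mul_add, add_mul, mul_sub, sub_mul, ee_mul, ee_add, ee_sub, mul_assoc, h.all]
  have QP : (ee 0 0 (C.p * (wp T Λ + wm T Λ)) + slabP C T Λ) * slabP C T Λ = slabP C T Λ := by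
    rw [add_mul, XP, zero_add, Base.idem _ hP]
  have DP : slabP C T Λ * (star (C.susp T).d * slabP C T Λ) = star (C.susp T).d * slabP C T Λ := by
    simpa [Base.star_eq _ hP, mul_assoc] using (congrArg star hd).symm
  have k := Susp.conn_HE hO (Susp.cpx_ee 0 cW) hP XP hd
    (by simp [Cx.susp, add_mul, sub_mul, ee_mul, Susp.ass h.rdp])
    (by simpa only [mul_assoc, QP] using congrArg (· * slabP C T Λ) dQ)
    hL.1
    ⟨QD, dQ, by rw [mul_assoc, Base.idem _ QD],
      by rw [mul_assoc, dQ, ← mul_assoc, hO.dd, zero_mul]⟩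
    (Cpx.neg ⟨hP, DP, by rw [mul_assoc, Base.idem _ hP],
      by rw [mul_assoc, DP, ← mul_assoc, hO.toCpx.dual.dd, zero_mul]⟩) hL
  have k2 := Susp.he_left 0 cW (hO.cmp hP hd).bd.toCpx k
  rw [← mul_assoc, ← wd, ← Base.comm _ hWD _ hC.ok.pD] at k2
  rw [wallMap, ← Base.comm _ hWD _ hC.ok.pD]
  exact k2

theorem Wall.wallMap_form (hC : C.OK) (hT : C.Sh T) (hW : Wall C T Λ) :
    wallMap C T Λ * ((C.susp T).cmp (slabP C T Λ)).bd.φ * star (wallMap C T Λ) =
      (wp T Λ - wm T Λ) * C.φ := by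
  have h := hW.R hC hT
  have hP := hW.slabD hC
  have sP := Base.star_eq _ hP
  have PP := Base.idem _ hP
  have s00 : ∀ i : Fin 4, ∀ x : A, star (Base.s i : A) * (Base.s i * x) = x := fun i x => by
    rw [← mul_assoc, Base.s_self, one_mul]
  have s01 : ∀ x : A, star (Base.s 0 : A) * (Base.s 1 * x) = 0 := fun x => by
    rw [← mul_assoc, Base.s_ne _ _ (by decide), zero_mul]
  have s10 : ∀ x : A, star (Base.s 1 : A) * (Base.s 0 * x) = 0 := fun x => by
    rw [← mul_assoc, Base.s_ne _ _ (by decide), zero_mul]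
  have e1 : ∀ X d φ P : A, star P = P → P * P = P → star φ = φ →
      star (Base.s 0 : A) * X * (d * P * star (Base.s 0 : A) + φ * P * star (Base.s 1 : A)) *
        (ee 0 1 P + ee 1 0 P) * star (star (Base.s 0 : A) * X *
          (d * P * star (Base.s 0 : A) + φ * P * star (Base.s 1 : A))) =
      star (Base.s 0 : A) * (X * (d * P * φ + φ * P * star d) * star X) *
        star (star (Base.s 0 : A)) := by
    intro X d φ P sP PP sφ
    simp [ee, mul_add, add_mul, mul_assoc, s00, s01, s10, sP, sφ, Susp.ass PP, add_comm]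
  have e2 : ee 0 0 (C.p * (wp T Λ + wm T Λ)) * ((C.susp T).d * slabP C T Λ * (C.susp T).φ +
      (C.susp T).φ * slabP C T Λ * star (C.susp T).d) * star (ee 0 0 (C.p * (wp T Λ + wm T Λ))) =
      ee 0 0 ((wp T Λ - wm T Λ) * C.φ) := by
    unfold slabP wp wm
    generalize T * Λ * star T = L at h ⊢
    simp [Cx.susp, mul_add, add_mul, mul_sub, sub_mul, ee_mul, ee_add, ee_sub, star_ee,
      mul_assoc, h.all]
    module
  have e3 := e1 (ee 0 0 (C.p * (wp T Λ + wm T Λ))) (C.susp T).d (C.susp T).φ (slabP C T Λ) sP PP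
    (hC.susp hT).φs
  rw [e2, Susp.un_ee] at e3
  exact e3

/-- `f u - wp f ∈ N` is null-homotopic, hence `f (J - 2 u J u*) f* ≃ (wp - wm) φ - 2 wp φ`. -/
theorem Wall.step {f : Frame A} (hf : f.OK) (hC : C.Good) (hT : C.Sh T) (hW : Wall C T Λ)
    (hI : 1 - Λ * (T * Λ * star T) ∈ f.I) (hB : Λ ∈ f.B) (hp : (1 - f.χ) * wp T Λ ∈ f.N)
    (hm : f.χ * wm T Λ ∈ f.N) :
    ∃ C₁, Step f (C.susp T) C₁ ∧ C₁.Eqv ((C.res (wp T Λ)).add (C.res (wm T Λ))).neg := by
  have h := hW.R hC.ok hT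
  have hG := hC.susp hT
  have hP := hW.slabD hC.ok
  have hd := hW.slab_d hC.ok hT
  have hS : f.Slab (C.susp T) (slabP C T Λ) := by
    refine ⟨hP, ?_, hd, ?_, ?_⟩
    · unfold slabP
      generalize T * Λ * star T = L at h ⊢
      simp [Cx.susp, mul_add, add_mul, ee_mul, mul_assoc, h.all]
    · have e : (C.susp T).p - slabP C T Λ = ee 0 0 (C.p * (1 - Λ * (T * Λ * star T))) +
          ee 1 1 (C.p * (1 - Λ) * (1 - Λ * (T * Λ * star T))) := by
        unfold slabP
        generalize T * Λ * star T = L at h ⊢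
        simp [Cx.susp, mul_sub, sub_mul, ee_sub, mul_assoc, h.all]
        abel
      rw [e]
      exact f.I.add_mem (ee_mem _ _ _ (f.I.mul_mem_left _ _ hI))
        (ee_mem _ _ _ (f.I.mul_mem_left _ _ hI))
    · exact f.B.add_mem (ee_mem _ _ _ (f.B.mul_mem_left _ _ (f.B.mul_mem_right _ _ hB)))
        (ee_mem _ _ _ (f.B.mul_mem_left _ _ hB))
  obtain ⟨u, hu⟩ := hS.exists_step hf hG
  have hB := (hG.ok.cmp hP hd).bd
  have hH := hW.wallMap_HE hC hT
  have hF := hW.wallMap_form hC.ok hT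
  have hK := hS.bd_ctrI hG.ok hG.poinc
  refine ⟨_, ⟨_, u, hS, hu, rfl⟩, wallMap C T Λ, ?_, ?_⟩
  · simpa only [Cx.flip, Cx.neg, Cx.add, Cx.res, add_mul] using hH
  · have pd : wp T Λ * ((wp T Λ + wm T Λ) * C.d) = (wp T Λ + wm T Λ) * C.d * wp T Λ := by
      unfold wp wm
      generalize T * Λ * star T = L at h ⊢
      simp [mul_add, add_mul, mul_sub, sub_mul, mul_assoc, h.all]
    have pw : wp T Λ * ((wp T Λ + wm T Λ) * C.p) = wp T Λ * C.p := by
      unfold wp wm
      generalize T * Λ * star T = L at h ⊢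
      simp [mul_add, add_mul, mul_sub, sub_mul, mul_assoc, h.all]
    have pf : wp T Λ * ((wp T Λ - wm T Λ) * C.φ) * star (wp T Λ) = wp T Λ * C.φ := by
      unfold wp wm
      generalize T * Λ * star T = L at h ⊢
      simp [mul_sub, sub_mul, mul_assoc, h.all]
    obtain ⟨h1, h2, h3, -⟩ := hH
    generalize wallMap C T Λ = F at h1 h2 h3 hF ⊢
    generalize ((C.susp T).cmp (slabP C T Λ)).bd = B at h2 h3 hF hB hK hu ⊢
    have ca : (wp T Λ + wm T Λ) * C.d * (F * u) = F * u * B.d := by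
      rw [← mul_assoc, h3, mul_assoc, hu.ch, mul_assoc]
    have cb : (wp T Λ + wm T Λ) * C.d * (wp T Λ * F) = wp T Λ * F * B.d := by
      rw [← mul_assoc, ← pd, mul_assoc, h3, mul_assoc]
    have hN : F * u - wp T Λ * F ∈ f.N := by
      have e1 : wp T Λ * F = wp T Λ * C.p * F := by rw [← pw, mul_assoc, h1]
      have e2 : f.χ * F = f.χ * wp T Λ * (C.p * F) + f.χ * wm T Λ * (C.p * F) := by
        conv_lhs => rw [← h1]
        noncomm_ring
      have e : F * u - wp T Λ * F = F * (u - f.χ * B.p) - (f.χ * F - F * f.χ) * B.p -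
          (1 - f.χ) * wp T Λ * (C.p * F) + f.χ * wm T Λ * (C.p * F) := by
        rw [sub_mul (f.χ * F), mul_assoc f.χ F, h2, e2, e1]
        noncomm_ring
      rw [e]
      exact f.N.add_mem (f.N.sub_mem (f.N.sub_mem (f.N.mul_mem_left _ _ hu.md)
        (f.N.mul_mem_right _ _ (hf.χc F))) (f.N.mul_mem_right _ _ hp)) (f.N.mul_mem_right _ _ hm)
    have h0 := hf.null_right (d := (wp T Λ + wm T Λ) * C.d) hB.toCpx hK hN
      (by rw [sub_mul, mul_assoc, hu.up, mul_assoc, h2]) (by rw [mul_sub, ca, cb, sub_mul])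
    have hab : Htp ((wp T Λ + wm T Λ) * C.d) B.d (F * u) (wp T Λ * F) := by
      obtain ⟨k, hk⟩ := h0
      exact ⟨k, by rw [← hk, sub_zero]⟩
    have h5 := Susp.form_htp hab ca cb hB.cyc
    have h6 := (Htp.refl _ _ (F * B.φ * star F)).sub (h5.smul 2)
    have e1 : F * B.φ * star F - (2 : ℂ) • (F * u * B.φ * star (F * u)) =
        F * (B.flip u).φ * star F := by
      simp [Cx.flip, mul_sub, sub_mul, mul_assoc]
    have e2 : F * B.φ * star F - (2 : ℂ) • (wp T Λ * F * B.φ * star (wp T Λ * F)) =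
        -(wp T Λ * C.φ + wm T Λ * C.φ) := by
      have : wp T Λ * F * B.φ * star (wp T Λ * F) =
          wp T Λ * (F * B.φ * star F) * star (wp T Λ) := by simp [mul_assoc]
      rw [this, hF, pf, sub_mul]
      module
    rw [e1, e2, add_mul] at h6
    exact h6

end Vale.Agent.P228
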