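import Vale.Agent.P228.Uniq
import Vale.Agent.P228.Susp

/-! The index of the standard complex. -/

set_option linter.unusedSectionVars false

namespace Vale.Agent.P228

variable {A : Type*} [Ring A] [StarRing A] [Algebra ℂ A] [StarModule ℂ A] [Base A]
variable {Γ : Type*} [AddCommGroup Γ] {ι : Type*}

/-- commuting unitary shifts -/
structure Shifts (T : ι → A) : Prop where
  u1 : ∀ l, star (T l) * T l = 1
  u2 : ∀ l, T l * star (T l) = 1
  cm : ∀ l l', T l * T l' = T l' * T l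
  cs : ∀ l i, T l * Base.s i = Base.s i * T l

theorem St_sh {T : ι → A} (hT : Shifts T) (l : ι) {q : A} (hq : T l * q = q * T l) (J : List ι) :
    (St (J.map T) q).Sh (T l) := by
  induction J with
  | nil => exact ⟨hT.u1 l, hT.u2 l, hq, by simp [St], hq⟩
  | cons l' J ih => exact ih.susp (hT.cm _ _) (hT.cs l)
theorem St_good {T : ι → A} (hT : Shifts T) {q : A} (hqD : q ∈ (Base.D : Set A)) (J : List ι)
    (hq : ∀ l ∈ J, T l * q = q * T l) : (St (J.map T) q).Good := by
  induction J with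
  | nil =>
    have hc : Cpx q 0 := ⟨hqD, by simp, by simp, by simp⟩
    refine ⟨⟨hc, Base.star_eq _ hqD, Base.idem _ hqD, by simp [St]⟩, ?_, Cut.zero hqD⟩
    have := HE.refl hc
    simpa [Cx.Poinc, St] using this
  | cons l J ih =>
    exact (ih fun l' h => hq l' (by simp [h])).susp (St_sh hT l (hq l (by simp)) J)
theorem St_mem {G : TwoSidedIdeal A} (Ts : List A) {q : A} (hq : q ∈ G) : (St Ts q).p ∈ G := by
  induction Ts with
  | nil => exact hq
  | cons T Ts ih => exact G.add_mem (ee_mem G _ _ ih) (ee_mem G _ _ ih)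

theorem normAux_left {ω : A} (hs : ∀ i, ω * Base.s i = Base.s i * ω) (i j : Fin 4) (x : A) :
    ω * ee i j x = ee i j (ω * x) := by
  unfold ee
  rw [← mul_assoc, ← mul_assoc, hs, mul_assoc (Base.s i)]

theorem normAux_right {ω : A} (hω : ω ∈ (Base.D : Set A)) (hs : ∀ i, ω * Base.s i = Base.s i * ω)
    (i j : Fin 4) (x : A) : ee i j x * ω = ee i j (x * ω) := by
  have h : star (Base.s j : A) * ω = ω * star (Base.s j : A) := by
    simpa [Base.star_eq _ hω] using congrArg star (hs j)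
  unfold ee
  rw [mul_assoc _ _ ω, h]; noncomm_ring

theorem normAux_res {T : ι → A} {q ω : A} (hqD : q ∈ (Base.D : Set A))
    (hω : ω ∈ (Base.D : Set A)) (hs : ∀ i, ω * Base.s i = Base.s i * ω) (J : List ι)
    (hJ : ∀ l ∈ J, T l * ω = ω * T l) :
    (St (J.map T) q).res ω = St (J.map T) (ω * q) ∧
      ω * (St (J.map T) q).p = (St (J.map T) q).p * ω ∧
      ω * (St (J.map T) q).d = (St (J.map T) q).d * ω ∧
      ω * (St (J.map T) q).φ = (St (J.map T) q).φ * ω := by
  induction J with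
  | nil =>
    have := Base.comm _ hω _ hqD
    exact ⟨by simp [St, Cx.res], this, by simp [St], this⟩
  | cons l J ih =>
    obtain ⟨h1, h2, h3, h4⟩ := ih fun l' h => hJ l' (by simp [h])
    have t1 : T l * ω = ω * T l := hJ l (by simp)
    have t2 : star (T l) * ω = ω * star (T l) := by
      simpa [Base.star_eq _ hω] using (congrArg star t1).symm
    simp only [List.map_cons, St]
    rw [← h1]
    generalize St (J.map T) q = C at h2 h3 h4
    have e1 : ω * ((T l - 1) * C.p) = (T l - 1) * (ω * C.p) := by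
      rw [← mul_assoc, ← mul_assoc, mul_sub ω, sub_mul (T l), t1, mul_one, one_mul]
    have e2 : (T l - 1) * C.p * ω = (T l - 1) * (ω * C.p) := by rw [mul_assoc, h2]
    have e3 : C.φ * (1 + T l) * ω = ω * (C.φ * (1 + T l)) := by
      rw [← mul_assoc, h4, mul_assoc, mul_assoc, add_mul, mul_add ω, t1, mul_one, one_mul]
    have e4 : C.φ * (1 + star (T l)) * ω = ω * (C.φ * (1 + star (T l))) := by
      rw [← mul_assoc, h4, mul_assoc, mul_assoc, add_mul, mul_add ω, t2, mul_one, one_mul]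
    refine ⟨?_, ?_, ?_, ?_⟩
    · simp only [Cx.res, Cx.susp, mul_add ω, mul_sub ω, mul_smul_comm, normAux_left hs, e1,
        mul_assoc]
    · simp only [Cx.susp, mul_add ω, add_mul, normAux_left hs, normAux_right hω hs, h2]
    · simp only [Cx.susp, mul_add ω, mul_sub ω, add_mul _ _ ω, sub_mul _ _ ω, mul_smul_comm,
        smul_mul_assoc, normAux_left hs, normAux_right hω hs, h3, e1, e2]
    · simp only [Cx.susp, mul_add ω, add_mul _ _ ω, mul_smul_comm,
        smul_mul_assoc, normAux_left hs, normAux_right hω hs, e3, e4]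

/-- a diagonal projection commuting with the shifts in `J` and with the isometries -/
theorem St_res {T : ι → A} (hT : Shifts T) {q ω : A} (hqD : q ∈ (Base.D : Set A))
    (hω : ω ∈ (Base.D : Set A)) (hs : ∀ i, ω * Base.s i = Base.s i * ω) (J : List ι)
    (hJ : ∀ l ∈ J, T l * ω = ω * T l) :
    (St (J.map T) q).res ω = St (J.map T) (ω * q) ∧
      ω * (St (J.map T) q).d = (St (J.map T) q).d * ω ∧
      ω * (St (J.map T) q).φ = (St (J.map T) q).φ * ω :=
  have h := normAux_res hqD hω hs J hJ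
  ⟨h.1, h.2.2.1, h.2.2.2⟩

/-- every intersection of walls has signature `γ` -/
def Pt (S : Sig A Γ) (γ : Γ) (T Λ : ι → A) : List ι → A → Prop
  | [], q => S.sig (ee 0 0 q) = γ
  | l :: J, q => Pt S γ T Λ J (wp (T l) (Λ l) * q) ∧ Pt S γ T Λ J (wm (T l) (Λ l) * q)

structure Walls (T Λ : ι → A) (F : ι → Frame A) : Prop where
  ΛD : ∀ l, Λ l ∈ (Base.D : Set A)
  TD : ∀ l, T l * Λ l * star (T l) ∈ (Base.D : Set A)
  cs : ∀ l i, Λ l * Base.s i = Base.s i * Λ l
  cT : ∀ l l', l ≠ l' → T l' * Λ l = Λ l * T l'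
  hI : ∀ l, 1 - Λ l * (T l * Λ l * star (T l)) ∈ (F l).I
  hB : ∀ l, Λ l ∈ (F l).B
  hp : ∀ l, (1 - (F l).χ) * wp (T l) (Λ l) ∈ (F l).N
  hm : ∀ l, (F l).χ * wm (T l) (Λ l) ∈ (F l).N

theorem normAux_comm {U T L : A} (h1 : U * T = T * U) (h2 : U * star T = star T * U)
    (h3 : U * L = L * U) : U * wp T L = wp T L * U ∧ U * wm T L = wm T L * U := by
  have h : Commute U (T * L * star T) := Commute.mul_right (Commute.mul_right h1 h3) h2
  have h' : Commute U L := h3
  exact ⟨h.mul_right ((Commute.one_right U).sub_right h'),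
    h'.mul_right ((Commute.one_right U).sub_right h)⟩

theorem normAux_star {U T : A} (u1 : star T * T = 1) (u2 : T * star T = 1) (h : U * T = T * U) :
    U * star T = star T * U := by
  calc U * star T = (star T * T) * U * star T := by rw [u1, one_mul]
    _ = star T * (U * T) * star T := by rw [h]; noncomm_ring
    _ = star T * U * (T * star T) := by noncomm_ring
    _ = _ := by rw [u2, mul_one]

/-- induction on `J` generalising `q` and `G` (replace `G` by `G ⊓ (F l).B`), using `Wall.step`,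
`exists_red`, `Val.uniq`, `Val.add`, `Val.neg`, `St_res` -/
theorem St_val (S : Sig A Γ) (γ : Γ) {T Λ : ι → A} {F : ι → Frame A} (hT : Shifts T)
    (hW : Walls T Λ F) (hF : ∀ l, (F l).OK) (J : List ι) (hJ : J.Nodup) {q : A}
    (hqD : q ∈ (Base.D : Set A)) (hq : ∀ l ∈ J, T l * q = q * T l) {G : TwoSidedIdeal A}
    (hqG : q ∈ G) (hK : ∀ x ∈ G, (∀ l ∈ J, x ∈ (F l).B) → x ∈ S.K) (hpt : Pt S γ T Λ J q) :
    Val S (J.map F) (St (J.map T) q) ((-2 : ℤ) ^ J.length • γ) := by
  induction J generalizing q G with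
  | nil =>
    refine ⟨_, rfl, ?_⟩
    have h : S.sig (ee 0 0 q) = γ := hpt
    simpa [St, Cx.form] using h
  | cons l J ih =>
    obtain ⟨hl, hJ'⟩ := List.nodup_cons.1 hJ
    have hne : ∀ l' ∈ J, l ≠ l' := fun l' h e => hl (e ▸ h)
    have hq' : ∀ l' ∈ J, T l' * q = q * T l' := fun l' h => hq l' (by simp [h])
    have hC := St_good hT hqD J hq'
    have hS := St_sh hT l (hq l (by simp)) J
    have hΛ := St_res hT hqD (hW.ΛD l) (hW.cs l) J fun l' h => hW.cT l l' (hne l' h)
    have hw : Wall (St (J.map T) q) (T l) (Λ l) := ⟨hW.ΛD l, hW.TD l, hΛ.2.1, hΛ.2.2⟩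
    obtain ⟨C₁, hs, he⟩ := Wall.step (hF l) hC hS hw (hW.hI l) (hW.hB l) (hW.hp l) (hW.hm l)
    have hfs : ∀ f ∈ J.map F, f.OK := by
      intro f hf
      obtain ⟨l', -, rfl⟩ := List.mem_map.1 hf
      exact hF l'
    have hK1 : ∀ x ∈ G ⊓ (F l).B, (∀ l' ∈ J, x ∈ (F l').B) → x ∈ S.K := by
      intro x hx hb
      rw [TwoSidedIdeal.mem_inf] at hx
      refine hK x hx.1 fun l' h' => ?_
      rcases List.mem_cons.1 h' with rfl | h'
      · exact hx.2
      · exact hb l' h'
    have hK2 : ∀ x ∈ G ⊓ (F l).B, (∀ f ∈ J.map F, x ∈ f.B) → x ∈ S.K :=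
      fun x hx hb => hK1 x hx fun l' h => hb _ (List.mem_map_of_mem h)
    have pD : wp (T l) (Λ l) ∈ (Base.D : Set A) :=
      Base.mul_mem _ (hW.TD l) _ (Base.compl_mem _ (hW.ΛD l))
    have mD : wm (T l) (Λ l) ∈ (Base.D : Set A) :=
      Base.mul_mem _ (hW.ΛD l) _ (Base.compl_mem _ (hW.TD l))
    have cs : ∀ i, Base.s i * wp (T l) (Λ l) = wp (T l) (Λ l) * Base.s i ∧
        Base.s i * wm (T l) (Λ l) = wm (T l) (Λ l) * Base.s i := fun i =>
      normAux_comm (hT.cs l i).symm (normAux_star (hT.u1 l) (hT.u2 l) (hT.cs l i).symm)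
        (hW.cs l i).symm
    have cT : ∀ l' ∈ J, T l' * wp (T l) (Λ l) = wp (T l) (Λ l) * T l' ∧
        T l' * wm (T l) (Λ l) = wm (T l) (Λ l) * T l' := fun l' h =>
      normAux_comm (hT.cm l' l) (normAux_star (hT.u1 l) (hT.u2 l) (hT.cm l' l))
        (hW.cT l l' (hne l' h))
    have pB : wp (T l) (Λ l) ∈ (F l).B :=
      (F l).B.mul_mem_right _ _ ((F l).B.mul_mem_right _ _ ((F l).B.mul_mem_left _ _ (hW.hB l)))
    have mB : wm (T l) (Λ l) ∈ (F l).B := (F l).B.mul_mem_right _ _ (hW.hB l)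
    have key : ∀ ω : A, ω ∈ (Base.D : Set A) → (∀ i, ω * Base.s i = Base.s i * ω) →
        (∀ l' ∈ J, T l' * ω = ω * T l') → ω ∈ (F l).B → Pt S γ T Λ J (ω * q) →
        ((St (J.map T) q).res ω).Good ∧ ((St (J.map T) q).res ω).p ∈ G ⊓ (F l).B ∧
          Val S (J.map F) ((St (J.map T) q).res ω) ((-2 : ℤ) ^ J.length • γ) := by
      intro ω h1 h2 h3 h4 h5
      have hr := St_res hT hqD h1 h2 J h3
      have hm : ω * q ∈ G ⊓ (F l).B := by
        rw [TwoSidedIdeal.mem_inf]
        exact ⟨G.mul_mem_left _ _ hqG, (F l).B.mul_mem_right _ _ h4⟩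
      refine ⟨hC.res h1 hr.2.1 hr.2.2, ?_, ?_⟩
      · rw [hr.1]; exact St_mem _ hm
      · rw [hr.1]
        refine ih hJ' (Base.mul_mem _ h1 _ hqD) (fun l' h => ?_) hm hK1 h5
        rw [← mul_assoc, h3 l' h, mul_assoc, hq' l' h, mul_assoc]
    obtain ⟨g1, m1, v1⟩ := key _ pD (fun i => (cs i).1.symm) (fun l' h => (cT l' h).1) pB hpt.1
    obtain ⟨g2, m2, v2⟩ := key _ mD (fun i => (cs i).2.symm) (fun l' h => (cT l' h).2) mB hpt.2
    have ho : ((St (J.map T) q).res (wp (T l) (Λ l))).p *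
        ((St (J.map T) q).res (wm (T l) (Λ l))).p = 0 := by
      have e : wp (T l) (Λ l) * wm (T l) (Λ l) = 0 := by
        have : wp (T l) (Λ l) * wm (T l) (Λ l) = T l * Λ l * star (T l) * (Λ l - Λ l * Λ l) *
            (1 - T l * Λ l * star (T l)) := by
          unfold wp wm; noncomm_ring
        rw [this, Base.idem _ (hW.ΛD l), sub_self, mul_zero, zero_mul]
      have c := Base.comm _ hC.ok.pD _ mD
      change wp (T l) (Λ l) * _ * (wm (T l) (Λ l) * _) = 0
      rw [mul_assoc, ← mul_assoc _ (wm (T l) (Λ l)), c, ← mul_assoc, ← mul_assoc, e, zero_mul,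
        zero_mul]
    have m3 := (G ⊓ (F l).B).add_mem m1 m2
    have v3 := (v1.add hfs hK2 g1 g2 ho m1 m2 v2).neg hfs hK2 (g1.add g2 ho) m3
    have hg := hC.susp hS
    have g3 := hs.good (hF l) hg
    obtain ⟨C', hr⟩ := exists_red hfs g3
    have m4 : C₁.p ∈ G ⊓ (F l).B := by
      rw [TwoSidedIdeal.mem_inf]
      exact ⟨hs.mem (St_mem (T l :: J.map T) hqG), hs.memB⟩
    have e := Val.uniq hfs hK2 g3 (g1.add g2 ho).neg he m4 m3 ⟨C', hr, rfl⟩ v3
    refine ⟨C', ⟨C₁, hs, hr⟩, ?_⟩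
    rw [e, List.length_cons, pow_succ', mul_smul]
    module

end Vale.Agent.P228
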