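import Vale.Agent.P228.Op
import Vale.Agent.P228.Norm

/-! The cubical complex of the lattice: entries and filling of cycles. -/

set_option linter.unusedSectionVars false

namespace Vale.Agent.P228

open Op
open Finsupp hiding cons

variable {n : ℕ}

/-- cells with empty label -/
noncomputable def q0 (n : ℕ) : Op n := pr {x | x.2 = []}

noncomputable def StJ (J : List (Fin n)) : Cx (Op n) := St (J.map sh) (q0 n)

/-- dimension of a cell -/
def cnt (x : Cell n) : ℕ := x.2.count 1

open Classical in
/-- augmentation -/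
noncomputable def eps (m : ℕ) : Ch n →ₗ[ℂ] ℂ :=
  Finsupp.linearCombination ℂ fun x => if x.2 = List.replicate m 0 then 1 else 0

theorem emb_comm {f g : Cell n → Cell n} (hf hR hg hR') (h : ∀ x, f (g x) = g (f x)) :
    emb f hf hR * emb g hg hR' = emb g hg hR' * emb f hf hR :=
  Op.ext fun x y => by rw [ent_mul_emb, ent_mul_emb, ent_emb, ent_emb, h]

theorem shifts_sh : Shifts (sh : Fin n → Op n) where
  u1 l := star_emb_mul_emb _ _ _
  u2 l := by
    have := emb_push _ (sh_inj l) ⟨1, by simp [Pi.norm_single]⟩ (Set.univ : Set (Cell n))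
    rw [pr_univ, mul_one, Set.image_univ,
      Set.range_eq_univ.2 fun x => ⟨(x.1 - Pi.single l 1, x.2), by simp⟩, pr_univ] at this
    exact this
  cm l l' := emb_comm _ _ _ _ fun x => by simp [add_right_comm]
  cs l i := emb_comm (sh_inj l) _ (cons_inj i) ⟨0, by simp⟩ fun x => rfl

theorem sh_q0 (l : Fin n) : sh l * q0 n = q0 n * sh l := Op.ext fun x y => by
  rw [q0, pr, ent_mul_diag, ent_diag_mul, sh, ent_emb]
  split_ifs with h
  · subst h; by_cases e : y.2 = [] <;> simp [e]
  · simp

theorem StJ_good (J : List (Fin n)) : (StJ J).Good :=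
  St_good shifts_sh (pr_D _) J fun l _ => sh_q0 l

theorem StJ_cons (l : Fin n) (J : List (Fin n)) : StJ (l :: J) = (StJ J).susp (sh l) := rfl

theorem ee_pr (i : Fin 4) (S : Set (Cell n)) :
    ee i i (pr S) = pr ((fun x : Cell n => ((x.1, i :: x.2) : Cell n)) '' S) :=
  emb_push _ (cons_inj i) ⟨0, by simp⟩ S

theorem pr_union {S S' : Set (Cell n)} (h : Disjoint S S') : pr (S ∪ S') = pr S + pr S' := by
  rw [pr, pr, pr, ← diag_add, Set.indicator_union_of_disjoint h]; rfl

theorem StJ_p (J : List (Fin n)) :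
    (StJ J).p = pr {x | x.2.length = J.length ∧ ∀ i ∈ x.2, i = 0 ∨ i = 1} := by
  induction J with
  | nil =>
    change q0 n = _
    rw [q0]; congr 1; ext x; simp +contextual
  | cons l J ih =>
    change ee 0 0 (StJ J).p + ee 1 1 (StJ J).p = _
    rw [ih, ee_pr, ee_pr, ← pr_union]
    · congr 1
      ext ⟨z, w⟩
      cases w with
      | nil => simp
      | cons i w =>
        simp only [Set.mem_union, Set.mem_image, Set.mem_ofPred_eq, Prod.mk.injEq, List.cons.injEq,
          Prod.exists, List.length_cons, Nat.add_right_cancel_iff, List.forall_mem_cons]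
        constructor
        · rintro (⟨a, b, h, rfl, rfl, rfl⟩ | ⟨a, b, h, rfl, rfl, rfl⟩)
          · exact ⟨h.1, Or.inl rfl, h.2⟩
          · exact ⟨h.1, Or.inr rfl, h.2⟩
        · rintro ⟨h1, rfl | rfl, h2⟩
          · exact Or.inl ⟨z, w, ⟨h1, h2⟩, rfl, rfl, rfl⟩
          · exact Or.inr ⟨z, w, ⟨h1, h2⟩, rfl, rfl, rfl⟩
    · rw [Set.disjoint_left]
      rintro _ ⟨x, -, rfl⟩ ⟨y, -, h⟩
      simp at h

theorem ent_ee {i j : Fin 4} {T : Op n} {x y : Cell n} (h : (ee i j T).ent x y ≠ 0) :
    ∃ x' y' : Cell n, x = (x'.1, i :: x'.2) ∧ y = (y'.1, j :: y'.2) ∧ T.ent x' y' ≠ 0 := by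
  obtain ⟨y', h1, h2⟩ := ent_mul_ne h
  obtain ⟨x', h3, h4⟩ := ent_mul_ne h1
  refine ⟨x', y', ?_, ?_, h4⟩
  · by_contra e; exact h3 (by rw [s_eq, cons, ent_emb, if_neg e])
  · by_contra e; exact h2 (by rw [ent_star, s_eq, cons, ent_emb, if_neg e, star_zero])

/-- label preserving operators of range one -/
def Un (T : Op n) : Prop := ∀ x y, T.ent x y ≠ 0 → x.2 = y.2 ∧ ‖x.1 - y.1‖ ≤ 1

theorem un_one : Un (1 : Op n) := fun x y h => by
  by_cases e : x = y
  · simp [e]
  · exact absurd (by rw [ent_one, if_neg e]) h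

theorem un_sh (l : Fin n) : Un (sh l) := fun x y h => by
  by_cases e : x = (y.1 + Pi.single l 1, y.2)
  · simp [e, Pi.norm_single]
  · exact absurd (by rw [sh, ent_emb, if_neg e]) h

theorem Un.star {T : Op n} (h : Un T) : Un (star T) := fun x y e => by
  have := h y x (by simpa using e)
  exact ⟨this.1.symm, by rw [norm_sub_rev]; exact this.2⟩

theorem ent_add_ne {T S : Op n} {x y} (h : (T + S).ent x y ≠ 0) : T.ent x y ≠ 0 ∨ S.ent x y ≠ 0 := by
  by_contra hc; push Not at hc; exact h (by rw [ent_add, hc.1, hc.2, add_zero])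

theorem ent_sub_ne {T S : Op n} {x y} (h : (T - S).ent x y ≠ 0) : T.ent x y ≠ 0 ∨ S.ent x y ≠ 0 := by
  by_contra hc; push Not at hc; exact h (by rw [ent_sub, hc.1, hc.2, sub_zero])

theorem ent_smul_ne {c : ℂ} {T : Op n} {x y} (h : (c • T).ent x y ≠ 0) : T.ent x y ≠ 0 := by
  rw [ent_smul] at h; exact right_ne_zero_of_mul h

theorem Un.add {T S : Op n} (h : Un T) (h' : Un S) : Un (T + S) := fun x y e =>
  (ent_add_ne e).elim (h x y) (h' x y)

theorem Un.sub {T S : Op n} (h : Un T) (h' : Un S) : Un (T - S) := fun x y e =>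
  (ent_sub_ne e).elim (h x y) (h' x y)

theorem StJ_d_ent (J : List (Fin n)) {x y : Cell n} (h : (StJ J).d.ent x y ≠ 0) :
    cnt x + 1 = cnt y ∧ ‖x.1 - y.1‖ ≤ 1 := by
  induction J generalizing x y with
  | nil => exact absurd (ent_zero x y) h
  | cons l J ih =>
    rcases ent_sub_ne h with h | h
    · rcases ent_add_ne h with h | h
      · obtain ⟨x', y', rfl, rfl, h'⟩ := ent_ee (ent_smul_ne h)
        simpa [cnt] using ih h'
      · obtain ⟨x', y', rfl, rfl, h'⟩ := ent_ee h
        change ((sh l - 1) * (StJ J).p).ent x' y' ≠ 0 at h'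
        rw [StJ_p, pr, ent_mul_diag] at h'
        have := (un_sh l).sub un_one _ _ (left_ne_zero_of_mul h')
        simpa [cnt, this.1] using this.2
    · obtain ⟨x', y', rfl, rfl, h'⟩ := ent_ee (ent_smul_ne h)
      simpa [cnt] using ih h'

theorem StJ_φ_ent (J : List (Fin n)) {x y : Cell n} (h : (StJ J).φ.ent x y ≠ 0) :
    cnt x + cnt y = J.length ∧ ‖x.1 - y.1‖ ≤ J.length := by
  induction J generalizing x y with
  | nil =>
    change (q0 n).ent x y ≠ 0 at h
    rw [q0, pr, ent_diag] at h
    by_cases e : x = y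
    · subst e
      by_cases e' : x.2 = [] <;> simp_all [cnt]
    · simp [e] at h
  | cons l J ih =>
    have key : ∀ {U : Op n}, Un U → ∀ {x' y' : Cell n}, ((StJ J).φ * U).ent x' y' ≠ 0 →
        cnt x' + cnt y' = J.length ∧ ‖x'.1 - y'.1‖ ≤ J.length + 1 := by
      intro U hU x' y' h
      obtain ⟨z, h1, h2⟩ := ent_mul_ne h
      have a := ih h1
      have b := hU _ _ h2
      exact ⟨by rw [cnt, cnt, ← b.1]; exact a.1,
        (norm_sub_le_norm_sub_add_norm_sub _ z.1 _).trans (add_le_add a.2 b.2)⟩
    rcases ent_add_ne (ent_smul_ne h) with h | h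
    · obtain ⟨x', y', rfl, rfl, h'⟩ := ent_ee h
      have := key (un_one.add (un_sh l)) h'
      exact ⟨by simpa [cnt, ← add_assoc] using this.1, by simpa using this.2⟩
    · obtain ⟨x', y', rfl, rfl, h'⟩ := ent_ee h
      have := key (un_one.add (un_sh l).star) h'
      exact ⟨by have := this.1; simp [cnt] at this ⊢; omega, by simpa using this.2⟩

theorem lin_cons (i : Fin 4) (y : Cell n) (c : ℂ) :
    lin (cons i) (single y c) = single (y.1, i :: y.2) c := lin_emb _ _ _ _ _

theorem lin_sh (l : Fin n) (y : Cell n) (c : ℂ) :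
    lin (sh l) (single y c) = single (y.1 + Pi.single l 1, y.2) c := lin_emb _ _ _ _ _

theorem eps_cons0 (m : ℕ) (v : Ch n) : eps (m + 1) (lin (cons 0) v) = eps m v := by
  have : (eps (m + 1)).comp (lin (cons (n := n) 0)) = eps m := lhom_ext fun y c => by
    simp [lin_cons, eps, List.replicate_succ]
  exact LinearMap.congr_fun this v

theorem eps_cons1 (m : ℕ) (v : Ch n) : eps (m + 1) (lin (cons 1) v) = 0 := by
  have : (eps (m + 1)).comp (lin (cons (n := n) 1)) = 0 := lhom_ext fun y c => by
    simp [lin_cons, eps, List.replicate_succ]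
  exact LinearMap.congr_fun this v

theorem eps_sh (m : ℕ) (l : Fin n) (v : Ch n) : eps m (lin (sh l) v) = eps m v := by
  have : (eps m).comp (lin (sh l)) = eps m := lhom_ext fun y c => by simp [lin_sh, eps]
  exact LinearMap.congr_fun this v

theorem lin_ee (i j : Fin 4) (T : Op n) (v : Ch n) :
    lin (ee i j T) v = lin (cons i) (lin T (lin (star (cons j)) v)) := by
  simp [ee, s_eq]

theorem lin_p_cons (l : Fin n) (J : List (Fin n)) (v : Ch n) : lin (StJ (l :: J)).p v =
    lin (cons 0) (lin (StJ J).p (lin (star (cons 0)) v)) +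
      lin (cons 1) (lin (StJ J).p (lin (star (cons 1)) v)) := by
  simp [StJ_cons, Cx.susp, lin_ee]

theorem lin_d_cons (l : Fin n) (J : List (Fin n)) (v : Ch n) : lin (StJ (l :: J)).d v =
    lin (cons 0) (Complex.I • lin (StJ J).d (lin (star (cons 0)) v) +
      (lin (sh l) (lin (StJ J).p (lin (star (cons 1)) v)) - lin (StJ J).p (lin (star (cons 1)) v)))
      - lin (cons 1) (Complex.I • lin (StJ J).d (lin (star (cons 1)) v)) := by
  simp [StJ_cons, Cx.susp, lin_ee]

theorem eps_d (J : List (Fin n)) (v : Ch n) : eps J.length (lin (StJ J).d v) = 0 := by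
  induction J generalizing v with
  | nil => simp [StJ, St]
  | cons l J ih =>
    rw [lin_d_cons, List.length_cons, map_sub, eps_cons0, eps_cons1]
    simp [ih, eps_sh]

theorem eq_on_supp {W : Type*} [AddCommGroup W] [Module ℂ W] (L L' : Ch n →ₗ[ℂ] W)
    {S : Set (Cell n)} (h : ∀ y ∈ S, L (single y 1) = L' (single y 1)) {v : Ch n}
    (hv : v ∈ supported ℂ ℂ S) : L v = L' v := by
  rw [supported_eq_span_single] at hv
  refine LinearMap.eqOn_span ?_ hv
  rintro _ ⟨y, hy, rfl⟩
  exact h y hy

theorem map_supp (L : Ch n →ₗ[ℂ] Ch n) {S S' : Set (Cell n)}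
    (h : ∀ y ∈ S, L (single y 1) ∈ supported ℂ ℂ S') {v : Ch n} (hv : v ∈ supported ℂ ℂ S) :
    L v ∈ supported ℂ ℂ S' := by
  rw [supported_eq_span_single] at hv
  refine (Submodule.span_le (p := (supported ℂ ℂ S').comap L)).2 ?_ hv
  rintro _ ⟨y, hy, rfl⟩
  exact h y hy

theorem eps_of_cnt (m : ℕ) {v : Ch n} (h : v ∈ supported ℂ ℂ {x : Cell n | 1 ≤ cnt x}) :
    eps m v = 0 :=
  eq_on_supp (eps m) 0 (fun y hy => by
    have : y.2 ≠ List.replicate m 0 := fun e => by
      simp [cnt, e] at hy
    simp [eps, this]) h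

theorem lin_star_cons (i : Fin 4) (v : Ch n) (x : Cell n) :
    lin (star (cons i)) v x = v (x.1, i :: x.2) := by
  have : (lapply x).comp (lin (star (cons (n := n) i))) = lapply (x.1, i :: x.2) :=
    lhom_ext' fun y => LinearMap.ext_ring (by
      classical
      simp only [LinearMap.comp_apply, lsingle_apply, lapply_apply]
      rw [← ent_def, ent_star, cons, ent_emb, single_apply]
      split_ifs <;> simp)
  exact LinearMap.congr_fun this v

theorem lin_pr (S : Set (Cell n)) (v : Ch n) (x : Cell n) :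
    lin (pr S) v x = S.indicator 1 x * v x := by
  have : (lapply x).comp (lin (pr S)) = S.indicator (1 : Cell n → ℂ) x • lapply x :=
    lhom_ext' fun y => LinearMap.ext_ring (by
      classical
      simp only [LinearMap.comp_apply, lsingle_apply, lapply_apply, LinearMap.smul_apply]
      rw [← ent_def, pr, ent_diag, single_apply]
      by_cases e : x = y <;> simp [e, eq_comm])
  exact LinearMap.congr_fun this v

theorem star_cons_cons (i : Fin 4) (v : Ch n) : lin (star (cons i)) (lin (cons i) v) = v := by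
  rw [← Module.End.mul_apply, ← map_mul, ← s_eq, Base.s_self, map_one, Module.End.one_apply]

theorem star_cons_ne {i j : Fin 4} (h : i ≠ j) (v : Ch n) :
    lin (star (cons i)) (lin (cons j) v) = 0 := by
  rw [← Module.End.mul_apply, ← map_mul, ← s_eq, ← s_eq, Base.s_ne _ _ h, map_zero,
    LinearMap.zero_apply]

theorem mem_supp_iff {S : Set (Cell n)} {v : Ch n} :
    v ∈ supported ℂ ℂ S ↔ ∀ x, v x ≠ 0 → x ∈ S := by
  simp [mem_supported, Set.subset_def]

/-- linear maps acting on positions only -/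
structure LP (L : Module.End ℂ (Ch n)) : Prop where
  cns : ∀ i, L * lin (cons i) = lin (cons i) * L
  lab : ∀ y : Cell n, L (single y 1) ∈ supported ℂ ℂ {x : Cell n | x.2 = y.2}

theorem LP.star_cons {L : Module.End ℂ (Ch n)} (h : LP L) (i : Fin 4) :
    L * lin (star (cons i)) = lin (star (cons i)) * L := lhom_ext' fun y => LinearMap.ext_ring (by
  simp only [LinearMap.comp_apply, lsingle_apply, Module.End.mul_apply]
  by_cases e : ∃ w, y.2 = i :: w
  · obtain ⟨w, hw⟩ := e
    have : (single y 1 : Ch n) = lin (cons i) (single (y.1, w) 1) := by rw [lin_cons, ← hw]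
    rw [this, star_cons_cons, ← Module.End.mul_apply L, h.cns, Module.End.mul_apply,
      star_cons_cons]
  · have k : ∀ v : Ch n, v ∈ supported ℂ ℂ {x : Cell n | x.2 = y.2} →
        lin (star (cons i)) v = 0 := fun v hv => Finsupp.ext fun x => by
      rw [lin_star_cons]
      by_contra hc
      exact e ⟨_, (mem_supp_iff.1 hv _ hc).symm⟩
    rw [k _ (h.lab y), k _ (single_mem_supported ℂ _ rfl), map_zero])

theorem LP.q0 {L : Module.End ℂ (Ch n)} (h : LP L) : L * lin (q0 n) = lin (q0 n) * L :=
  lhom_ext' fun y => LinearMap.ext_ring (by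
    simp only [LinearMap.comp_apply, lsingle_apply, Module.End.mul_apply]
    have k : ∀ v : Ch n, v ∈ supported ℂ ℂ {x : Cell n | x.2 = y.2} →
        lin (P228.q0 n) v = ({x : Cell n | x.2 = []}.indicator 1 y : ℂ) • v :=
      fun v hv => Finsupp.ext fun x => by
        rw [P228.q0, lin_pr, Finsupp.smul_apply, smul_eq_mul]
        by_cases e : v x = 0
        · simp [e]
        · have := mem_supp_iff.1 hv _ e
          simp only [Set.indicator, Set.mem_ofPred_eq, Pi.one_apply] at this ⊢
          rw [this]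
    rw [k _ (h.lab y), k _ (single_mem_supported ℂ _ rfl), map_smul])

theorem LP.comm {L : Module.End ℂ (Ch n)} (h : LP L) (J : List (Fin n))
    (hJ : ∀ l ∈ J, L * lin (sh l) = lin (sh l) * L) (v : Ch n) :
    L (lin (StJ J).p v) = lin (StJ J).p (L v) ∧ L (lin (StJ J).d v) = lin (StJ J).d (L v) := by
  induction J generalizing v with
  | nil => exact ⟨LinearMap.congr_fun h.q0 v, by simp [StJ, St]⟩
  | cons l J ih =>
    have a : ∀ i w, L (lin (cons i) w) = lin (cons i) (L w) :=
      fun i => LinearMap.congr_fun (h.cns i)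
    have b : ∀ i w, L (lin (star (cons i)) w) = lin (star (cons i)) (L w) :=
      fun i => LinearMap.congr_fun (h.star_cons i)
    have c : ∀ w, L (lin (sh l) w) = lin (sh l) (L w) :=
      LinearMap.congr_fun (hJ l List.mem_cons_self)
    have ih' := fun w => ih (fun l hl => hJ l (List.mem_cons_of_mem _ hl)) w
    simp only [lin_p_cons, lin_d_cons, map_add, map_sub, map_smul, a, b, c,
      fun w => (ih' w).1, fun w => (ih' w).2, and_self]

/-- projection of a coordinate -/
noncomputable def prj (l : Fin n) (c : ℤ) : Module.End ℂ (Ch n) :=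
  linearCombination ℂ fun x => single (Function.update x.1 l c, x.2) 1

/-- prism operator -/
noncomputable def prism (l : Fin n) (c : ℤ) : Module.End ℂ (Ch n) :=
  linearCombination ℂ fun x => ∑ s ∈ Finset.Ico c (x.1 l), single (Function.update x.1 l s, x.2) 1

theorem prj_single (l : Fin n) (c : ℤ) (y : Cell n) :
    prj l c (single y 1) = single (Function.update y.1 l c, y.2) 1 := by simp [prj]

theorem prism_single (l : Fin n) (c : ℤ) (y : Cell n) : prism l c (single y 1) =
    ∑ s ∈ Finset.Ico c (y.1 l), single (Function.update y.1 l s, y.2) 1 := by simp [prism]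

theorem end_ext {L L' : Module.End ℂ (Ch n)} (h : ∀ y, L (single y 1) = L' (single y 1)) :
    L = L' := lhom_ext' fun y => LinearMap.ext_ring (h y)

theorem lp_prj (l : Fin n) (c : ℤ) : LP (prj l c) :=
  ⟨fun i => end_ext fun y => by simp [lin_cons, prj_single],
    fun y => by rw [prj_single]; exact single_mem_supported ℂ _ rfl⟩

theorem lp_prism (l : Fin n) (c : ℤ) : LP (prism l c) :=
  ⟨fun i => end_ext fun y => by simp [lin_cons, prism_single],
    fun y => by rw [prism_single]; exact sum_mem fun s _ => single_mem_supported ℂ _ rfl⟩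

theorem upd_add {l l' : Fin n} (h : l' ≠ l) (z : Pos n) (c : ℤ) :
    Function.update (z + Pi.single l' 1) l c = Function.update z l c + Pi.single l' 1 := by
  funext k
  by_cases e : k = l
  · subst e; simp [h.symm]
  · simp [e]

theorem upd_add' (l : Fin n) (z : Pos n) (c : ℤ) :
    Function.update z l c + Pi.single l 1 = Function.update z l (c + 1) := by
  funext k
  by_cases e : k = l
  · subst e; simp
  · simp [e]

theorem upd_add'' (l : Fin n) (z : Pos n) (c : ℤ) :
    Function.update (z + Pi.single l 1) l c = Function.update z l c := by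
  funext k
  by_cases e : k = l
  · subst e; simp
  · simp [e]

theorem prj_sh {l l' : Fin n} (h : l' ≠ l) (c : ℤ) :
    prj l c * lin (sh l') = lin (sh l') * prj l c :=
  end_ext fun y => by simp [lin_sh, prj_single, upd_add h]

theorem prism_sh {l l' : Fin n} (h : l' ≠ l) (c : ℤ) :
    prism l c * lin (sh l') = lin (sh l') * prism l c :=
  end_ext fun y => by simp [lin_sh, prism_single, upd_add h, h.symm]

theorem prj_sh_self (l : Fin n) (c : ℤ) (v : Ch n) : prj l c (lin (sh l) v) = prj l c v :=
  LinearMap.congr_fun (end_ext (L := prj l c * lin (sh l)) fun y => by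
    simp [lin_sh, prj_single, upd_add'']) v

theorem eps_prj (m : ℕ) (l : Fin n) (c : ℤ) (v : Ch n) : eps m (prj l c v) = eps m v := by
  have : (eps m).comp (prj l c) = eps m := lhom_ext' fun y => LinearMap.ext_ring (by
    simp [prj_single, eps])
  exact LinearMap.congr_fun this v

theorem sum_Ico_tele {W : Type*} [AddCommGroup W] (f : ℤ → W) {a b : ℤ} (h : a ≤ b) :
    ∑ s ∈ Finset.Ico a b, (f (s + 1) - f s) = f b - f a := by
  induction b, h using Int.leInduction with
  | base => simp
  | succ b hb ih =>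
    rw [← Finset.insert_Ico_right_eq_Ico_add_one hb, Finset.sum_insert (by simp), ih]; abel

theorem sh_prism (l : Fin n) (c : ℤ) {v : Ch n} (hv : v ∈ supported ℂ ℂ {x : Cell n | c ≤ x.1 l}) :
    lin (sh l) (prism l c v) - prism l c v = v - prj l c v :=
  eq_on_supp (lin (sh l) * prism l c - prism l c) (1 - prj l c) (fun y hy => by
    simp only [LinearMap.sub_apply, Module.End.mul_apply, Module.End.one_apply, prism_single,
      prj_single, map_sum, lin_sh, upd_add', ← Finset.sum_sub_distrib]
    rw [sum_Ico_tele (fun s => (single (Function.update y.1 l s, y.2) 1 : Ch n)) hy]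
    simp) hv

theorem prism_sh_self (l : Fin n) (c : ℤ) {v : Ch n}
    (hv : v ∈ supported ℂ ℂ {x : Cell n | c ≤ x.1 l}) :
    prism l c (lin (sh l) v) - prism l c v = v :=
  eq_on_supp (prism l c * lin (sh l) - prism l c) 1 (fun y hy => by
    simp only [LinearMap.sub_apply, Module.End.mul_apply, Module.End.one_apply, prism_single,
      lin_sh, upd_add'', Pi.add_apply, Pi.single_eq_same]
    rw [← Finset.insert_Ico_right_eq_Ico_add_one hy, Finset.sum_insert (by simp)]
    simp) hv

theorem supp_star_cons (i : Fin 4) {S S' : Set (Cell n)} (h : ∀ x : Cell n, (x.1, i :: x.2) ∈ S → x ∈ S')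
    {v : Ch n} (hv : v ∈ supported ℂ ℂ S) : lin (star (cons i)) v ∈ supported ℂ ℂ S' :=
  mem_supp_iff.2 fun x hx => h x (mem_supp_iff.1 hv _ (by rwa [lin_star_cons] at hx))

theorem supp_cons (i : Fin 4) {S S' : Set (Cell n)} (h : ∀ x ∈ S, (x.1, i :: x.2) ∈ S')
    {v : Ch n} (hv : v ∈ supported ℂ ℂ S) : lin (cons i) v ∈ supported ℂ ℂ S' :=
  map_supp _ (fun y hy => by rw [lin_cons]; exact single_mem_supported ℂ _ (h y hy)) hv

theorem supp_prj (l : Fin n) (c : ℤ) {S S' : Set (Cell n)}
    (h : ∀ x ∈ S, (Function.update x.1 l c, x.2) ∈ S') {v : Ch n} (hv : v ∈ supported ℂ ℂ S) :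
    prj l c v ∈ supported ℂ ℂ S' :=
  map_supp _ (fun y hy => by rw [prj_single]; exact single_mem_supported ℂ _ (h y hy)) hv

theorem supp_prism (l : Fin n) (c : ℤ) {S S' : Set (Cell n)}
    (h : ∀ x ∈ S, ∀ s, c ≤ s → s < x.1 l → (Function.update x.1 l s, x.2) ∈ S') {v : Ch n}
    (hv : v ∈ supported ℂ ℂ S) : prism l c v ∈ supported ℂ ℂ S' :=
  map_supp _ (fun y hy => by
    rw [prism_single]
    exact sum_mem fun s hs => single_mem_supported ℂ _
      (h y hy s (Finset.mem_Ico.1 hs).1 (Finset.mem_Ico.1 hs).2)) hv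

theorem supp_inter {S S' : Set (Cell n)} {v : Ch n} (h : v ∈ supported ℂ ℂ S)
    (h' : v ∈ supported ℂ ℂ S') : v ∈ supported ℂ ℂ (S ∩ S') :=
  mem_supp_iff.2 fun x hx => ⟨mem_supp_iff.1 h x hx, mem_supp_iff.1 h' x hx⟩

/-- Induction on `J`.  For `l :: J` write `z = s₀ x + s₁ y`.  Let `Π` project the coordinate `l` to
`a l` (`Finsupp.mapDomain`) and `Σ (single (w,lab)) = ∑_{a l ≤ s < w l} single (update w l s, lab)`.
On chains with `w l ≥ a l`: `(T-1) Σ = 1 - Π`, `Σ (T-1) = 1`; also `Π T = Π`, and `Π`, `Σ` commute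
with `lin (StJ J).d`, `lin (StJ J).p` (they commute with the other shifts, the isometries, their
adjoints and `q0`).  `Π x` is a cycle with `eps = 0`; fill it by `x''` and take
`z' = s₁ (Σ x) + s₀ (-I • x'')`. -/
theorem fill_aux (J : List (Fin n)) (hJ : J.Nodup) (a : Pos n) (z : Ch n)
    (hp : lin (StJ J).p z = z) (hd : lin (StJ J).d z = 0) (he : eps J.length z = 0)
    (ha : z ∈ supported ℂ ℂ {x : Cell n | a ≤ x.1 ∧ ∀ l, l ∉ J → x.1 l = a l}) :
    ∃ z', lin (StJ J).p z' = z' ∧ lin (StJ J).d z' = z ∧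
      z' ∈ supported ℂ ℂ {x : Cell n | a ≤ x.1 ∧ ∀ l, l ∉ J → x.1 l = a l} ∧
      (∀ b : Pos n, z ∈ supported ℂ ℂ {x : Cell n | x.1 ≤ b} →
        z' ∈ supported ℂ ℂ {x : Cell n | x.1 ≤ b}) ∧
      ∀ m, z ∈ supported ℂ ℂ {x : Cell n | m ≤ cnt x} →
        z' ∈ supported ℂ ℂ {x : Cell n | m + 1 ≤ cnt x} := by
  induction J generalizing z with
  | nil =>
    have hz : z = single (a, []) (z (a, [])) := by
      refine eq_single_iff.2 ⟨fun x hx => ?_, rfl⟩
      have h1 := (mem_supp_iff.1 ha x (mem_support_iff.1 hx)).2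
      have h2 : x.2 = [] := by
        by_contra e
        refine mem_support_iff.1 hx ?_
        rw [← hp]
        exact (lin_pr _ _ _).trans (by simp [e])
      exact Finset.mem_singleton.2 (Prod.ext (funext fun l => h1 l (by simp)) h2)
    have : z = 0 := by
      rw [hz] at he ⊢
      simp only [eps, linearCombination_single] at he
      simp at he
      simp [he]
    subst this
    exact ⟨0, by simp, by simp, zero_mem _, fun _ _ => zero_mem _, fun _ _ => zero_mem _⟩
  | cons l J ih =>
    obtain ⟨hl, hJ'⟩ := List.nodup_cons.1 hJ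
    have ne : ∀ l' ∈ J, l' ≠ l := fun l' h e => hl (e ▸ h)
    have n01 : (0 : Fin 4) ≠ 1 := by decide
    obtain ⟨x, hx⟩ : ∃ x, x = lin (star (cons 0)) z := ⟨_, rfl⟩
    obtain ⟨y, hy⟩ : ∃ y, y = lin (star (cons 1)) z := ⟨_, rfl⟩
    rw [lin_p_cons, ← hx, ← hy] at hp
    have px : lin (StJ J).p x = x := by
      conv_rhs => rw [hx, ← hp, map_add, star_cons_cons, star_cons_ne n01, add_zero]
    have py : lin (StJ J).p y = y := by
      conv_rhs => rw [hy, ← hp, map_add, star_cons_cons, star_cons_ne n01.symm, zero_add]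
    rw [lin_d_cons, ← hx, ← hy, py] at hd
    rw [px, py] at hp
    have d1 : Complex.I • lin (StJ J).d x = -(lin (sh l) y - y) := by
      have := congrArg (lin (star (cons 0))) hd
      rw [map_sub, star_cons_cons, star_cons_ne n01, sub_zero, map_zero] at this
      exact eq_neg_of_add_eq_zero_left this
    have sx : x ∈ supported ℂ ℂ {x : Cell n | a ≤ x.1 ∧ ∀ l', l' ∉ l :: J → x.1 l' = a l'} :=
      hx ▸ supp_star_cons 0 (fun _ h => h) ha
    have sx' : x ∈ supported ℂ ℂ {x : Cell n | a l ≤ x.1 l} :=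
      supported_mono (fun _ h => h.1 l) sx
    have sy' : y ∈ supported ℂ ℂ {x : Cell n | a l ≤ x.1 l} :=
      hy ▸ supp_star_cons 1 (fun _ h => h.1 l) ha
    have cP := (lp_prj l (a l)).comm J fun l' h => prj_sh (ne l' h) _
    have cS := (lp_prism l (a l)).comm J fun l' h => prism_sh (ne l' h) _
    obtain ⟨x'', q1, q2, q3, q4, q5⟩ := ih hJ' (prj l (a l) x) (by rw [← (cP x).1, px])
      (by
        have : Complex.I • lin (StJ J).d (prj l (a l) x) = 0 := by
          rw [← (cP x).2, ← map_smul, d1, map_neg, map_sub, prj_sh_self, sub_self, neg_zero]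
        exact (smul_eq_zero.1 this).resolve_left Complex.I_ne_zero)
      (by rw [eps_prj, ← eps_cons0, ← he, ← hp, map_add, List.length_cons, eps_cons1, add_zero])
      (supp_prj _ _ (fun w hw => And.intro (fun k => by
        by_cases e : k = l
        · subst e; simp
        · simpa [e] using hw.1 k) (fun k hk => by
        by_cases e : k = l
        · subst e; simp
        · simpa [e] using hw.2 k (by simp [e, hk]))) sx)
    refine ⟨lin (cons 1) (prism l (a l) x) + lin (cons 0) ((-Complex.I) • x''), ?_, ?_, ?_, ?_, ?_⟩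
    · simp only [lin_p_cons, map_add, star_cons_cons, star_cons_ne n01, star_cons_ne n01.symm,
        map_smul, zero_add, add_zero, q1, ← (cS x).1, px, map_zero, smul_zero]
    · have e0 : lin (star (cons 0)) (lin (cons 1) (prism l (a l) x) +
          lin (cons 0) ((-Complex.I) • x'')) = (-Complex.I) • x'' := by
        rw [map_add, star_cons_cons, star_cons_ne n01, zero_add]
      have e1 : lin (star (cons 1)) (lin (cons 1) (prism l (a l) x) +
          lin (cons 0) ((-Complex.I) • x'')) = prism l (a l) x := by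
        rw [map_add, star_cons_cons, star_cons_ne n01.symm, add_zero]
      have e2 : Complex.I • lin (StJ J).d (prism l (a l) x) = -y := by
        rw [← (cS x).2, ← map_smul, d1, map_neg, map_sub, prism_sh_self _ _ sy']
      rw [lin_d_cons, e0, e1, e2, ← (cS x).1, px, sh_prism _ _ sx', map_smul (lin (StJ J).d), q2,
        smul_smul, mul_neg, Complex.I_mul_I, neg_neg, one_smul, ← hp, map_neg, add_sub_cancel,
        sub_neg_eq_add]
    · refine add_mem (supp_cons 1 (S := {x : Cell n | a ≤ x.1 ∧ ∀ l', l' ∉ l :: J → x.1 l' = a l'})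
        (fun _ h => h) (supp_prism _ _ (fun w hw s h1 _ => And.intro (fun k => ?_) (fun k hk => ?_)) sx))
        (supp_cons 0 (fun w h => And.intro h.1 fun k hk => h.2 k fun e => hk (by simp [e]))
          (Submodule.smul_mem _ _ q3))
      · by_cases e : k = l
        · subst e; simpa using h1
        · simpa [e] using hw.1 k
      · have e : k ≠ l := fun e => hk (by simp [e])
        simpa [e] using hw.2 k hk
    · intro b hb
      have sb := supp_inter sx' (hx ▸ supp_star_cons 0 (S' := {x : Cell n | x.1 ≤ b})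
        (fun _ h => h) hb)
      refine add_mem (supp_cons 1 (S := {x : Cell n | x.1 ≤ b}) (fun _ h => h)
        (supp_prism _ _ (fun w hw s _ h2 k => ?_) sb))
        (supp_cons 0 (fun w h => h) (Submodule.smul_mem _ _ (q4 b
          (supp_prj _ _ (fun w hw k => ?_) sb))))
      · by_cases e : k = l
        · subst e; simpa using h2.le.trans (hw.2 k)
        · simpa [e] using hw.2 k
      · by_cases e : k = l
        · subst e; simpa using le_trans hw.1 (hw.2 k)
        · simpa [e] using hw.2 k
    · intro m hm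
      have sm : x ∈ supported ℂ ℂ {x : Cell n | m ≤ cnt x} :=
        hx ▸ supp_star_cons 0 (fun _ h => by simpa [cnt] using h) hm
      exact add_mem (supp_cons 1 (S := {x : Cell n | m ≤ cnt x}) (fun _ h => by simpa [cnt] using h)
        (supp_prism _ _ (fun w hw s _ _ => hw) sm))
        (supp_cons 0 (fun w h => by simpa [cnt] using h) (Submodule.smul_mem _ _ (q5 m
          (supp_prj _ _ (fun w hw => hw) sm))))

/-- the full complex -/
noncomputable def C0 (n : ℕ) : Cx (Op n) := StJ (List.finRange n)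

/-- take for `a` the coordinatewise minimum of the support (`z' = 0` if `z = 0`) -/
theorem fill (z : Ch n) (hp : lin (C0 n).p z = z) (hd : lin (C0 n).d z = 0) (he : eps n z = 0) :
    ∃ z', lin (C0 n).p z' = z' ∧ lin (C0 n).d z' = z ∧
      (∀ a b : Pos n, z ∈ supported ℂ ℂ {x : Cell n | x.1 ∈ Set.Icc a b} →
        z' ∈ supported ℂ ℂ {x : Cell n | x.1 ∈ Set.Icc a b}) ∧
      ∀ m, z ∈ supported ℂ ℂ {x : Cell n | m ≤ cnt x} →
        z' ∈ supported ℂ ℂ {x : Cell n | m + 1 ≤ cnt x} := by
  by_cases h0 : z = 0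
  · subst h0
    exact ⟨0, by simp, by simp, fun _ _ _ => zero_mem _, fun _ _ => zero_mem _⟩
  have hne : z.support.Nonempty := support_nonempty_iff.2 h0
  obtain ⟨z', h1, h2, h3, h4, h5⟩ := fill_aux (List.finRange n) (List.nodup_finRange n)
    (z.support.inf' hne fun x => x.1) z hp hd (by simpa using he)
    (mem_supp_iff.2 fun x hx => ⟨Finset.inf'_le _ (mem_support_iff.2 hx), by simp⟩)
  refine ⟨z', h1, h2, fun a b hab => mem_supp_iff.2 fun x hx => ⟨?_, ?_⟩, h5⟩
  · exact le_trans (Finset.le_inf' hne _ fun y hy =>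
      (mem_supp_iff.1 hab y (mem_support_iff.1 hy)).1) (mem_supp_iff.1 h3 x hx).1
  · exact mem_supp_iff.1 (h4 b (supported_mono (fun _ h => h.2) hab)) x hx

end Vale.Agent.P228
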