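import Vale.Agent.P228.GridA

/-! Acyclic carriers and the chain approximation of a lattice map. -/

set_option linter.unusedSectionVars false

namespace Vale.Agent.P228

open Op
open Finsupp hiding cons

variable {n : ℕ}

/-- each column of `h` lies in every box containing the nearby columns of `c` -/
def Hull (h c : Op n) : Prop :=
  ∀ (x : Cell n) (a b : Pos n), (∀ y : Cell n, ‖y.1 - x.1‖ ≤ n → ∀ y', c.ent y' y ≠ 0 →
    y'.1 ∈ Set.Icc a b) → ∀ x', h.ent x' x ≠ 0 → x'.1 ∈ Set.Icc a b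

theorem mem_box_iff (x z : Pos n) (K : ℕ) :
    z ∈ Set.Icc (x - fun _ => (K : ℤ)) (x + fun _ => (K : ℤ)) ↔ ‖z - x‖ ≤ K := by
  rw [pi_norm_le_iff_of_nonneg (Nat.cast_nonneg _), Set.mem_Icc, Pi.le_def, Pi.le_def, ← forall_and]
  refine forall_congr' fun l => ?_
  rw [Int.norm_eq_abs, ← Int.cast_abs, ← Int.cast_natCast (R := ℝ) K, Int.cast_le, abs_le]
  simp only [Pi.sub_apply, Pi.add_apply]
  omega

/-- support of the cubical complex -/
def PS (n : ℕ) : Set (Cell n) := {x | x.2.length = n ∧ ∀ i ∈ x.2, i = 0 ∨ i = 1}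

theorem C0_p : (C0 n).p = pr (PS n) := by simpa [PS, C0] using StJ_p (List.finRange n)

theorem lin_pr_of_mem {S : Set (Cell n)} {v : Ch n} (h : v ∈ supported ℂ ℂ S) :
    lin (pr S) v = v := Finsupp.ext fun x => by
  rw [lin_pr]
  by_cases e : v x = 0
  · simp [e]
  · simp [mem_supp_iff.1 h x e]

theorem lin_pr_single_not {S : Set (Cell n)} {y : Cell n} (h : y ∉ S) :
    lin (pr S) (single y 1) = 0 := Finsupp.ext fun x => by
  rw [lin_pr]
  by_cases e : x = y
  · simp [e, h]
  · simp [Ne.symm e]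

theorem row_mem {T : Op n} (h : (C0 n).p * T = T) {x y} (e : T.ent x y ≠ 0) : x ∈ PS n := by
  rw [← h, C0_p, pr, ent_diag_mul] at e
  by_contra hc
  exact e (by simp [hc])

theorem col_mem {T : Op n} (h : T * (C0 n).p = T) {x y} (e : T.ent x y ≠ 0) : y ∈ PS n := by
  rw [← h, C0_p, pr, ent_mul_diag] at e
  by_contra hc
  exact e (by simp [hc])

theorem cnt_le {x : Cell n} (h : x ∈ PS n) : cnt x ≤ n :=
  List.count_le_length.trans h.1.le

theorem finite_near (x : Pos n) (R : ℝ) : {y : Cell n | ‖x - y.1‖ ≤ R ∧ y ∈ PS n}.Finite := by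
  refine ((Set.finite_Icc (x - fun _ => (⌈R⌉₊ : ℤ)) (x + fun _ => (⌈R⌉₊ : ℤ))).prod
    (List.finite_length_eq (Fin 4) n)).subset fun y hy => ⟨?_, hy.2.1⟩
  rw [mem_box_iff, norm_sub_rev]
  exact hy.1.trans (Nat.le_ceil R)

theorem col_supp (T : Op n) (y : Cell n) {S : Set (Cell n)} (h : ∀ x, T.ent x y ≠ 0 → x ∈ S) :
    lin T (single y 1) ∈ supported ℂ ℂ S := mem_supp_iff.2 h

theorem acyclic_aux (e c : Op n) (ρ μ : Cell n → ℕ)
    (he : ∀ x y, e.ent x y ≠ 0 → ρ x < ρ y ∧ μ y ≤ μ x + 1 ∧ ‖x.1 - y.1‖ ≤ 1)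
    (hee : e * e = 0) (hpc : (C0 n).p * c = c) (hc : (C0 n).d * c = c * e)
    (hε : ∀ v, eps n (lin c v) = 0) (hμ : ∀ x y, c.ent x y ≠ 0 → μ y ≤ cnt x) (m : ℕ) :
    ∃ col : Cell n → Ch n, ∀ x, ρ x < m → lin (C0 n).p (col x) = col x ∧
      lin (C0 n).d (col x) = lin c (single x 1) - linearCombination ℂ col (lin e (single x 1)) ∧
      (∀ a b : Pos n, (∀ y : Cell n, ‖y.1 - x.1‖ ≤ ρ x → ∀ y', c.ent y' y ≠ 0 →
        y'.1 ∈ Set.Icc a b) → col x ∈ supported ℂ ℂ {y : Cell n | y.1 ∈ Set.Icc a b}) ∧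
      col x ∈ supported ℂ ℂ {y : Cell n | μ x + 1 ≤ cnt y} := by
  induction m with
  | zero => exact ⟨0, fun x h => absurd h (Nat.not_lt_zero _)⟩
  | succ m ih =>
    obtain ⟨col, H⟩ := ih
    have ex : ∀ x, lin e (single x 1) ∈ supported ℂ ℂ
        {y : Cell n | ρ y < ρ x ∧ μ x ≤ μ y + 1 ∧ ‖y.1 - x.1‖ ≤ 1} :=
      fun x => col_supp e x fun y => he y x
    have new : ∀ x, ρ x = m → ∃ z', lin (C0 n).p z' = z' ∧
        lin (C0 n).d z' = lin c (single x 1) - linearCombination ℂ col (lin e (single x 1)) ∧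
        (∀ a b : Pos n, (∀ y : Cell n, ‖y.1 - x.1‖ ≤ ρ x → ∀ y', c.ent y' y ≠ 0 →
          y'.1 ∈ Set.Icc a b) → z' ∈ supported ℂ ℂ {y : Cell n | y.1 ∈ Set.Icc a b}) ∧
        z' ∈ supported ℂ ℂ {y : Cell n | μ x + 1 ≤ cnt y} := by
      intro x hx
      have e1 := eq_on_supp (lin (C0 n).p * linearCombination ℂ col) (linearCombination ℂ col)
        (fun y hy => by simpa using (H y (hx ▸ hy.1)).1) (ex x)
      have e2 := eq_on_supp (lin (C0 n).d * linearCombination ℂ col)
        (lin c - linearCombination ℂ col * lin e)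
        (fun y hy => by simpa using (H y (hx ▸ hy.1)).2.1) (ex x)
      have e3 : linearCombination ℂ col (lin e (single x 1)) ∈
          supported ℂ ℂ {y : Cell n | 1 ≤ cnt y ∧ μ x ≤ cnt y} :=
        map_supp _ (fun y hy => by
          rw [linearCombination_single, one_smul]
          refine supported_mono (fun w hw => ?_) (H y (hx ▸ hy.1)).2.2.2
          have := hy.2.1
          simp only [Set.mem_ofPred_eq] at hw ⊢
          omega) (ex x)
      simp only [Module.End.mul_apply, LinearMap.sub_apply] at e1 e2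
      obtain ⟨z', h1, h2, h3, h4⟩ := fill
        (lin c (single x 1) - linearCombination ℂ col (lin e (single x 1)))
        (by rw [map_sub, e1, ← Module.End.mul_apply, ← map_mul, hpc])
        (by rw [map_sub, e2, ← Module.End.mul_apply, ← map_mul, hc, ← Module.End.mul_apply (lin e),
          ← map_mul, hee]; simp)
        (by rw [map_sub, hε, eps_of_cnt _ (supported_mono (fun _ h => h.1) e3), sub_zero])
      refine ⟨z', h1, h2, fun a b hab => h3 a b (sub_mem (col_supp c x (hab x (by simp))) ?_),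
        h4 _ (sub_mem (col_supp c x fun y => hμ y x) (supported_mono (fun _ h => h.2) e3))⟩
      refine map_supp _ (fun y hy => ?_) (ex x)
      rw [linearCombination_single, one_smul]
      refine (H y (hx ▸ hy.1)).2.2.1 a b fun w hw => hab w ?_
      have : (ρ y : ℝ) + 1 ≤ ρ x := by exact_mod_cast hy.1
      exact (norm_sub_le_norm_sub_add_norm_sub _ y.1 _).trans (by linarith [hy.2.2])
    classical
    choose! z hz using new
    refine ⟨fun x => if ρ x = m then z x else col x, fun x hx => ?_⟩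
    have e0 : linearCombination ℂ (fun x => if ρ x = m then z x else col x) (lin e (single x 1)) =
        linearCombination ℂ col (lin e (single x 1)) :=
      eq_on_supp _ _ (fun y hy => by
        have : ρ y ≠ m := by have := hy.1; omega
        simp [this]) (ex x)
    rw [e0]
    by_cases h : ρ x = m
    · simp only [if_pos h]; exact hz x h
    · simp only [if_neg h]; exact H x (by omega)

/-- Acyclic carrier lemma.  Define the columns `h x` by strong recursion on `ρ x` (or construct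
`h_m` on cells of rank `< m` by induction on `m`): `h x = fill (c x - h (e x))`.  Prove the hull
property with radius `ρ x` in place of `n`.  Bounded range follows from the hull property and the
range of `c`; rows are finite because columns outside `p` are set to zero and `p` has finitely many
labels (`StJ_p`). -/
theorem acyclic (e c : Op n) (ρ μ : Cell n → ℕ) (hρ : ∀ x, ρ x ≤ n)
    (he : ∀ x y, e.ent x y ≠ 0 → ρ x < ρ y ∧ μ y ≤ μ x + 1 ∧ ‖x.1 - y.1‖ ≤ 1)
    (hee : e * e = 0) (hpe : (C0 n).p * e = e) (hep : e * (C0 n).p = e)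
    (hpc : (C0 n).p * c = c) (hcp : c * (C0 n).p = c) (hc : (C0 n).d * c = c * e)
    (hε : ∀ v, eps n (lin c v) = 0) (hμ : ∀ x y, c.ent x y ≠ 0 → μ y ≤ cnt x) :
    ∃ h : Op n, (C0 n).p * h = h ∧ h * (C0 n).p = h ∧ c = (C0 n).d * h + h * e ∧ Hull h c ∧
      ∀ x y, h.ent x y ≠ 0 → μ y + 1 ≤ cnt x := by
  obtain ⟨col, H⟩ := acyclic_aux e c ρ μ he hee hpc hc hε hμ (n + 1)
  have H' := fun x => H x (Nat.lt_succ_of_le (hρ x))
  have hull : ∀ (x : Cell n) (a b : Pos n), (∀ y : Cell n, ‖y.1 - x.1‖ ≤ n → ∀ y',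
      c.ent y' y ≠ 0 → y'.1 ∈ Set.Icc a b) → ∀ x', col x x' ≠ 0 → x'.1 ∈ Set.Icc a b :=
    fun x a b h => mem_supp_iff.1 ((H' x).2.2.1 a b fun y hy => h y
      (hy.trans (Nat.cast_le.2 (hρ x))))
  obtain ⟨R, hR⟩ := c.range
  have rg : ∀ x y, (PS n).indicator (fun y => col y x) y ≠ 0 →
      ‖x.1 - y.1‖ ≤ (⌈R⌉₊ + n : ℕ) ∧ y ∈ PS n := by
    intro x y h
    have hy := Set.mem_of_indicator_ne_zero h
    rw [Set.indicator_of_mem hy] at h
    refine ⟨(mem_box_iff _ _ _).1 (hull y _ _ (fun w hw w' h' => (mem_box_iff _ _ _).2 ?_) x h), hy⟩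
    have := (hR _ _ h').trans (Nat.le_ceil R)
    exact (norm_sub_le_norm_sub_add_norm_sub _ w.1 _).trans (by push_cast; linarith)
  obtain ⟨h, hh⟩ : ∃ h : Op n, ∀ x y, h.ent x y = (PS n).indicator (fun y => col y x) y :=
    ⟨ofFun _ (fun y => (col y).hasFiniteSupport.subset fun x hx => by
        by_contra e; exact hx (by simp [Set.indicator, not_not.1 e]))
      (fun x => (finite_near x.1 _).subset fun y hy => rg x y hy) ⟨_, fun x y h => (rg x y h).1⟩,
      ent_ofFun _ _ _ _⟩
  have c1 : ∀ y ∈ PS n, lin h (single y 1) = col y := fun y hy => Finsupp.ext fun x => by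
    rw [← ent_def, hh, Set.indicator_of_mem hy]
  have c2 : ∀ y, y ∉ PS n → lin h (single y 1) = 0 := fun y hy => Finsupp.ext fun x => by
    rw [← ent_def, hh, Set.indicator_of_notMem hy]; rfl
  have ne : ∀ x y, h.ent x y ≠ 0 → col y x ≠ 0 := fun x y e => by
    rw [hh] at e
    rwa [Set.indicator_of_mem (Set.mem_of_indicator_ne_zero e)] at e
  refine ⟨h, lin_inj (end_ext fun y => ?_), lin_inj (end_ext fun y => ?_),
    lin_inj (end_ext fun y => ?_), fun x a b hab x' hx' => hull x a b hab x' (ne _ _ hx'),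
    fun x y e => mem_supp_iff.1 (H' y).2.2.2 x (ne _ _ e)⟩
  · rw [map_mul, Module.End.mul_apply]
    by_cases hy : y ∈ PS n
    · rw [c1 y hy, (H' y).1]
    · rw [c2 y hy, map_zero]
  · rw [map_mul, Module.End.mul_apply, C0_p]
    by_cases hy : y ∈ PS n
    · rw [lin_pr_of_mem (single_mem_supported ℂ _ hy)]
    · rw [lin_pr_single_not hy, c2 y hy, map_zero]
  · rw [map_add, map_mul, map_mul, LinearMap.add_apply, Module.End.mul_apply, Module.End.mul_apply]
    by_cases hy : y ∈ PS n
    · rw [c1 y hy, (H' y).2.1, eq_on_supp (lin h) (linearCombination ℂ col)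
        (fun w hw => by simpa using c1 w hw) (col_supp e y fun x => row_mem hpe), sub_add_cancel]
    · rw [c2 y hy, ← hcp, ← hep, map_mul, map_mul, Module.End.mul_apply, Module.End.mul_apply,
        C0_p, lin_pr_single_not hy]
      simp

structure IsGamma (G : Pos n → Pos n) (γ : Op n) : Prop where
  pγ : (C0 n).p * γ = γ
  γp : γ * (C0 n).p = γ
  dγ : (C0 n).d * γ = γ * (C0 n).d
  εγ : ∀ v, eps n (lin γ v) = eps n v
  deg : ∀ x y, γ.ent x y ≠ 0 → cnt y ≤ cnt x
  hull : ∀ (x : Cell n) (a b : Pos n), (∀ z : Pos n, ‖z - x.1‖ ≤ n + 1 → G z ∈ Set.Icc a b) →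
    ∀ x', γ.ent x' x ≠ 0 → x'.1 ∈ Set.Icc a b

/-- `γ₀` sends the vertex `(z, replicate n 0)` to `(G z, replicate n 0)` and kills other cells;
apply `acyclic` to `c = γ₀ d`, `e = -d`, `ρ = min n cnt`, `μ = cnt - 1`; `γ = γ₀ + h`. -/
theorem exists_gamma (G : Pos n → Pos n) (hG : ∃ R : ℝ, ∀ z, ‖G z - z‖ ≤ R) :
    ∃ γ, IsGamma G γ := by
  classical
  obtain ⟨R, hR⟩ := hG
  have ok : (C0 n).OK := (StJ_good _).ok
  have vP : ∀ z : Pos n, ((z, List.replicate n 0) : Cell n) ∈ PS n := fun z =>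
    ⟨by simp, fun i hi => Or.inl (List.eq_of_mem_replicate hi)⟩
  obtain ⟨g, hg⟩ : ∃ g : Op n, ∀ x y, g.ent x y =
      if y.2 = List.replicate n 0 ∧ x = (G y.1, y.2) then 1 else 0 :=
    ⟨ofFun _ (fun y => (Set.finite_singleton (G y.1, y.2)).subset fun x hx => by
        by_contra e; exact hx (if_neg fun h => e h.2))
      (fun x => (finite_near x.1 R).subset fun y hy => by
        have := of_not_not fun e => hy (if_neg e)
        exact ⟨by rw [this.2]; exact hR _, by rw [← Prod.mk.eta (p := y), this.1]; exact vP _⟩)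
      ⟨R, fun x y hy => by
        have := of_not_not fun e => hy (if_neg e)
        rw [this.2]; exact hR _⟩, ent_ofFun _ _ _ _⟩
  have gne : ∀ x y, g.ent x y ≠ 0 → y.2 = List.replicate n 0 ∧ x = (G y.1, y.2) :=
    fun x y h => of_not_not fun e => h (by rw [hg, if_neg e])
  have c0 : ∀ x : Cell n, x.2 = List.replicate n 0 → cnt x = 0 := fun x h => by
    simp [cnt, h, List.count_replicate]
  have pg : (C0 n).p * g = g := Op.ext fun x y => by
    rw [C0_p, pr, ent_diag_mul]
    by_cases e : g.ent x y = 0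
    · simp [e]
    · rw [(gne _ _ e).2, (gne _ _ e).1, Set.indicator_of_mem (vP _)]; simp
  have gp : g * (C0 n).p = g := Op.ext fun x y => by
    rw [C0_p, pr, ent_mul_diag]
    by_cases e : g.ent x y = 0
    · simp [e]
    · rw [Set.indicator_of_mem (by rw [← Prod.mk.eta (p := y), (gne _ _ e).1]; exact vP _)]; simp
  have dg : (C0 n).d * g = 0 := Op.ext fun x y => by
    by_contra e
    obtain ⟨z, h1, h2⟩ := ent_mul_ne (T := (C0 n).d) (S := g) (by simpa using e)
    have := (StJ_d_ent _ h1).1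
    rw [c0 z (by rw [(gne _ _ h2).2]; exact (gne _ _ h2).1)] at this
    omega
  have εg : ∀ v, eps n (lin g v) = eps n v := by
    have : (eps n).comp (lin g) = eps n := lhom_ext' fun y => LinearMap.ext_ring (by
      simp only [LinearMap.comp_apply, lsingle_apply]
      by_cases e : y.2 = List.replicate n 0
      · have : lin g (single y 1) = single (G y.1, y.2) 1 := Finsupp.ext fun x => by
          rw [← ent_def, hg, single_apply]; simp [e, eq_comm]
        simp [this, eps]
      · have : lin g (single y 1) = 0 := Finsupp.ext fun x => by rw [← ent_def, hg]; simp [e]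
        simp [this, eps, e])
    exact LinearMap.congr_fun this
  have εd : ∀ v, eps n (lin (C0 n).d v) = 0 := fun v => by
    simpa [C0] using eps_d (List.finRange n) v
  obtain ⟨h, h1, h2, h3, h4, h5⟩ := acyclic (-(C0 n).d) (g * (C0 n).d) (fun x => min n (cnt x))
    (fun x => cnt x - 1) (fun _ => min_le_left _ _)
    (fun x y e => by
      have e' : (C0 n).d.ent x y ≠ 0 := by simpa using e
      have a := StJ_d_ent _ e'
      have b := cnt_le (col_mem ok.dp e')
      exact ⟨by omega, by omega, a.2⟩)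
    (by simp [ok.dd]) (by simp [ok.pd]) (by simp [ok.dp]) (by rw [← mul_assoc, pg])
    (by rw [mul_assoc, ok.dp]) (by rw [← mul_assoc, dg, mul_neg, mul_assoc, ok.dd]; simp)
    (fun v => by rw [map_mul, Module.End.mul_apply, εg, εd])
    (fun x y e => by
      obtain ⟨z, a, b⟩ := ent_mul_ne e
      have := (StJ_d_ent _ b).1
      rw [c0 z (gne _ _ a).1] at this
      omega)
  refine ⟨g + h, by rw [mul_add, pg, h1], by rw [add_mul, gp, h2], ?_, fun v => ?_,
    fun x y e => ?_, fun x a b hab x' e => ?_⟩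
  · rw [mul_add, add_mul, dg, h3]; noncomm_ring
  · rw [map_add, LinearMap.add_apply, map_add, εg, eps_of_cnt n (v := lin h v), add_zero]
    exact map_supp _ (S := Set.univ) (fun y _ => col_supp h y fun x e => by
      have := h5 x y e; simp only [Set.mem_ofPred_eq]; omega) (by simp)
  · rcases ent_add_ne e with e | e
    · rw [c0 y (gne _ _ e).1]; exact Nat.zero_le _
    · have := h5 x y e; omega
  · rcases ent_add_ne e with e | e
    · rw [(gne _ _ e).2]; exact hab _ (by simp; positivity)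
    · refine h4 x a b (fun y hy y' e' => ?_) x' e
      obtain ⟨z, a', b'⟩ := ent_mul_ne e'
      rw [(gne _ _ a').2]
      exact hab _ ((norm_sub_le_norm_sub_add_norm_sub _ y.1 _).trans
        (by linarith [(StJ_d_ent _ b').2]))

variable {G : Pos n → Pos n} {γ : Op n}

theorem eps_p (v : Ch n) : eps n (lin (C0 n).p v) = eps n v := by
  have : (eps n).comp (lin (C0 n).p) = eps n := lhom_ext' fun y => LinearMap.ext_ring (by
    simp only [LinearMap.comp_apply, lsingle_apply, C0_p]
    by_cases e : y ∈ PS n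
    · rw [lin_pr_of_mem (single_mem_supported ℂ _ e)]
    · have : y.2 ≠ List.replicate n 0 := fun h =>
        e ⟨by simp [h], fun i hi => Or.inl (List.eq_of_mem_replicate (h ▸ hi))⟩
      simp [lin_pr_single_not e, eps, this])
  exact LinearMap.congr_fun this v

theorem IsGamma.pow_aux (h : IsGamma G γ) (q : ℕ) (hq : 0 < q) (μ : Cell n → ℕ)
    (hμ : ∀ x y, (C0 n).d.ent x y ≠ 0 → μ y ≤ μ x + 1)
    (hμ' : ∀ x y, (γ ^ q - (C0 n).p).ent x y ≠ 0 → μ y ≤ cnt x) :
    ∃ H : Op n, (C0 n).p * H = H ∧ γ ^ q - (C0 n).p = (C0 n).d * H + H * (C0 n).d ∧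
      Hull H (γ ^ q - (C0 n).p) ∧ ∀ x y, H.ent x y ≠ 0 → μ y + 1 ≤ cnt x := by
  have ok : (C0 n).OK := (StJ_good _).ok
  obtain ⟨m, rfl⟩ := Nat.exists_eq_succ_of_ne_zero hq.ne'
  have ε : ∀ k v, eps n (lin (γ ^ k) v) = eps n v := fun k => by
    induction k with
    | zero => simp
    | succ k ih => intro v; rw [pow_succ', map_mul, Module.End.mul_apply, h.εγ, ih]
  obtain ⟨H, h1, -, h3, h4, h5⟩ := acyclic (C0 n).d (γ ^ (m + 1) - (C0 n).p)
    (fun x => min n (cnt x)) μ (fun _ => min_le_left _ _)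
    (fun x y e => by
      have a := StJ_d_ent _ e
      have b := cnt_le (col_mem ok.dp e)
      exact ⟨by omega, hμ x y e, a.2⟩)
    ok.dd ok.pd ok.dp (by rw [mul_sub, pow_succ', ← mul_assoc, h.pγ, ok.toCpx.pp])
    (by rw [sub_mul, pow_succ, mul_assoc, h.γp, ok.toCpx.pp])
    (by rw [mul_sub, sub_mul, ok.pd, ok.dp, (Commute.pow_right h.dγ _).eq])
    (fun v => by rw [map_sub, LinearMap.sub_apply, map_sub, ε, eps_p, sub_self]) hμ'
  exact ⟨H, h1, h3, h4, h5⟩

theorem IsGamma.pow (h : IsGamma G γ) (q : ℕ) (hq : 0 < q) :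
    ∃ H : Op n, γ ^ q - (C0 n).p = (C0 n).d * H + H * (C0 n).d ∧ Hull H (γ ^ q - (C0 n).p) := by
  obtain ⟨H, -, h1, h2, -⟩ := h.pow_aux q hq 0 (fun _ _ _ => by simp) fun _ _ _ => by simp
  exact ⟨H, h1, h2⟩

/-- degree one: with `μ = cnt` the homotopy `H` from `γ` to `p` kills top cells, and `eps ∘ φ`
kills all other cells. -/
theorem IsGamma.form (h : IsGamma G γ) :
    ∃ H : Op n, γ * (C0 n).φ * star γ - (C0 n).φ = (C0 n).d * H + H * (-star (C0 n).d) ∧
      Hull H (γ * (C0 n).φ * star γ - (C0 n).φ) := by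
  have ok : (C0 n).OK := (StJ_good _).ok
  have εd : ∀ v, eps n (lin (C0 n).d v) = 0 := fun v => by
    simpa [C0] using eps_d (List.finRange n) v
  obtain ⟨H, p1, e1, -, g1⟩ := h.pow_aux 1 one_pos cnt (fun x y e => (StJ_d_ent _ e).1.ge)
    fun x y e => by
      rw [pow_one] at e
      rcases ent_sub_ne e with e | e
      · exact h.deg x y e
      · rw [C0_p, pr, ent_diag] at e
        rw [of_not_not fun c => e (if_neg c)]
  rw [pow_one] at e1
  have sγ : star γ = (C0 n).p + (star H * star (C0 n).d + star (C0 n).d * star H) := by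
    rw [← ok.toCpx.star_p, ← star_mul, ← star_mul, ← star_add, ← star_add, ← e1]; simp
  have k1 : ∀ v, eps n (lin ((C0 n).φ * star H) v) = 0 := fun v => eps_of_cnt _
    (map_supp _ (S := Set.univ) (fun y _ => col_supp _ y fun x e => by
      obtain ⟨z, a, b⟩ := ent_mul_ne e
      have b' : H.ent y z ≠ 0 := by simpa using b
      have := g1 _ _ b'
      have := cnt_le (row_mem p1 b')
      have := (StJ_φ_ent _ a).1
      simp only [List.length_finRange, Set.mem_ofPred_eq] at this ⊢
      omega) (by simp))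
  have φd : (C0 n).φ * star (C0 n).d = -((C0 n).d * (C0 n).φ) :=
    eq_neg_of_add_eq_zero_right ok.cyc
  have dγ' : star (C0 n).d * star γ = star γ * star (C0 n).d := by
    rw [← star_mul, ← star_mul, h.dγ]
  have pγ' : star γ * (C0 n).p = star γ := by
    rw [← ok.toCpx.star_p, ← star_mul, h.pγ]
  obtain ⟨K, -, -, h3, h4, -⟩ := acyclic (-star (C0 n).d) (γ * (C0 n).φ * star γ - (C0 n).φ)
    (fun x => n - cnt x) 0 (fun _ => Nat.sub_le _ _)
    (fun x y e => by
      have e' : (C0 n).d.ent y x ≠ 0 := by simpa using e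
      have a := StJ_d_ent _ e'
      have b := cnt_le (col_mem ok.dp e')
      exact ⟨by omega, by simp, by rw [norm_sub_rev]; exact a.2⟩)
    ok.toCpx.dual.neg.dd ok.toCpx.dual.neg.pd ok.toCpx.dual.neg.dp
    (by rw [mul_sub, ← mul_assoc, ← mul_assoc, h.pγ, ok.pφ])
    (by rw [sub_mul, mul_assoc, pγ', ok.φp])
    (by
      rw [mul_neg, sub_mul, mul_assoc _ (star γ), ← dγ', ← mul_assoc, mul_assoc γ _ (star (C0 n).d),
        φd, mul_sub, ← mul_assoc, ← mul_assoc, h.dγ]
      noncomm_ring)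
    (fun v => by
      have e : (C0 n).φ * star γ = (C0 n).φ + ((C0 n).φ * star H * star (C0 n).d -
          (C0 n).d * ((C0 n).φ * star H)) := by
        rw [sγ, mul_add, mul_add, ok.φp, ← mul_assoc _ (star (C0 n).d), φd]; noncomm_ring
      rw [map_sub, LinearMap.sub_apply, map_sub, mul_assoc, map_mul, Module.End.mul_apply, h.εγ, e,
        map_add, map_sub, LinearMap.add_apply, LinearMap.sub_apply, map_add, map_sub,
        map_mul _ _ (star (C0 n).d), map_mul _ (C0 n).d, Module.End.mul_apply,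
        Module.End.mul_apply, k1, εd]
      simp)
    (fun _ _ _ => by simp)
  exact ⟨K, h3, h4⟩

end Vale.Agent.P228
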