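import Vale.Agent.P228.HtyA

/-! Contractions modulo an ideal, chain maps congruent to `χ`. -/

set_option linter.unusedSectionVars false

namespace Vale.Agent.P228

variable {A : Type*} [Ring A] [StarRing A] [Algebra ℂ A] [StarModule ℂ A] [Base A]
variable {p d q e r c f f' f'' g g' u v w a : A}
variable {I : TwoSidedIdeal A} {P : A}

private theorem memq (I : TwoSidedIdeal A) (x : A) : x ∈ I ↔ I.ringCon.mk' x = 0 := by
  rw [TwoSidedIdeal.mem_iff, ← map_zero I.ringCon.mk']
  exact (RingCon.eq _).symm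

private theorem ra {R : Type*} [Ring R] {x y z : R} (h : x * y = z) (t : R) :
    x * (y * t) = z * t := by rw [← mul_assoc, h]

private theorem Cpx.qp (hp : Cpx p d) (hq : Cpx q e) (hpq : p * q = 0) : q * p = 0 := by
  rw [Base.comm _ hq.pD _ hp.pD, hpq]

theorem CtrI.supp (hp : Cpx p d) (h : CtrI I p d) :
    ∃ K, p * K = K ∧ K * p = K ∧ d * K + K * d - p ∈ I := by
  obtain ⟨K, hK⟩ := h
  have h1 := hp.pd
  have h2 := hp.dp
  have h3 := hp.pp
  refine ⟨p * K * p, by simp only [mul_assoc, ra h3], by simp only [mul_assoc, h3], ?_⟩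
  have : d * (p * K * p) + (p * K * p) * d - p = p * (d * K + K * d - p) * p := by
    linear_combination (norm := noncomm_ring)
      h2 * K * p - h1 * K * p + p * K * h1 - p * K * h2 + h3 * p + h3
  rw [this]
  exact I.mul_mem_right _ _ (I.mul_mem_left _ _ hK)
theorem CtrI.cmp (hp : Cpx p d) (hP : P ∈ (Base.D : Set A)) (hPp : P * p = P) (hI : p - P ∈ I)
    (h : CtrI I p d) : CtrI I P (P * d * P) := by
  obtain ⟨K, h1, h2, hK⟩ := h.supp hp
  refine ⟨K, ?_⟩
  have a1 := congrArg I.ringCon.mk' h1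
  have a2 := congrArg I.ringCon.mk' h2
  have a3 := congrArg I.ringCon.mk' hp.pd
  have a4 := congrArg I.ringCon.mk' hp.dp
  rw [memq] at hI hK ⊢
  simp only [map_sub, map_add, map_mul] at a1 a2 a3 a4 hI hK ⊢
  rw [← sub_eq_zero.1 hI, a3, a4]
  exact hK
/-- extension: `(p,d)` subcomplex, `(q,e)` quotient, `K = K₁ + K₂ - K₁ a K₂` -/
theorem CtrI.ext (hp : Cpx p d) (hq : Cpx q e) (hpq : p * q = 0) (h1 : p * a = a) (h2 : a * q = a)
    (hc : d * a + a * e = 0) (h : CtrI I p d) (h' : CtrI I q e) :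
    CtrI I (p + q) (d + a + e) := by
  obtain ⟨K, h3, h4, hK⟩ := h.supp hp
  obtain ⟨L, h5, h6, hL⟩ := h'.supp hq
  have hqp := hp.qp hq hpq
  refine ⟨K + L - K * a * L, ?_⟩
  have dL : d * L = 0 := by rw [← hp.dp, ← h5, mul_assoc, ra hpq, zero_mul, mul_zero]
  have Ld : L * d = 0 := by rw [← hp.pd, ← h6, mul_assoc, ra hqp, zero_mul, mul_zero]
  have La : L * a = 0 := by rw [← h1, ← h6, mul_assoc, ra hqp, zero_mul, mul_zero]
  have aK : a * K = 0 := by rw [← h2, ← h3, mul_assoc, ra hqp, zero_mul, mul_zero]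
  have eK : e * K = 0 := by rw [← hq.dp, ← h3, mul_assoc, ra hqp, zero_mul, mul_zero]
  have Ke : K * e = 0 := by rw [← hq.pd, ← h4, mul_assoc, ra hpq, zero_mul, mul_zero]
  have : (d + a + e) * (K + L - K * a * L) + (K + L - K * a * L) * (d + a + e) - (p + q) =
      (d * K + K * d - p) + (e * L + L * e - q) - (d * K + K * d - p) * a * L
        - K * a * (e * L + L * e - q) := by
    linear_combination (norm := noncomm_ring) dL + aK + eK + Ke + Ld + La - aK * a * L
      - eK * a * L - K * a * Ld - K * a * La + K * hc * L - h1 * L - K * h2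
  rw [this]
  exact I.sub_mem (I.sub_mem (I.add_mem hK hL) (I.mul_mem_right _ _ (I.mul_mem_right _ _ hK)))
    (I.mul_mem_left _ _ hL)
theorem CtrI.dual (hI : StarCl I) (hp : Cpx p d) (h : CtrI I p d) : CtrI I p (star d) := by
  obtain ⟨K, hK⟩ := h
  refine ⟨star K, ?_⟩
  have := hI _ hK
  simp only [star_sub, star_add, star_mul, hp.star_p] at this
  rwa [add_comm] at this
theorem CtrI.smul {z : ℂ} (hz : z ≠ 0) (h : CtrI I p d) : CtrI I p (z • d) := by
  obtain ⟨K, hK⟩ := h
  refine ⟨z⁻¹ • K, ?_⟩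
  simpa only [smul_mul_assoc, mul_smul_comm, smul_smul, mul_inv_cancel₀ hz, inv_mul_cancel₀ hz,
    one_smul] using hK
theorem CtrI.conj (hp : Cpx p d) (hv : star v * v * p = p) (h : CtrI I p d) :
    CtrI I (v * p * star v) (v * d * star v) := by
  obtain ⟨K, h1, h2, hK⟩ := h.supp hp
  refine ⟨v * K * star v, ?_⟩
  have a1 : star v * v * K = K := by rw [← h1, ← mul_assoc, hv]
  have a2 : star v * v * d = d := by rw [← hp.pd, ← mul_assoc, hv]
  have : v * d * star v * (v * K * star v) + v * K * star v * (v * d * star v) - v * p * star v =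
      v * (d * K + K * d - p) * star v := by
    linear_combination (norm := noncomm_ring) v * d * a1 * star v + v * K * a2 * star v
  rw [this]
  exact I.mul_mem_right _ _ (I.mul_mem_left _ _ hK)
theorem Cpx.ext (hp : Cpx p d) (hq : Cpx q e) (hpq : p * q = 0) (h1 : p * a = a) (h2 : a * q = a)
    (hc : d * a + a * e = 0) : Cpx (p + q) (d + a + e) := by
  have hqp := hp.qp hq hpq
  have qd : q * d = 0 := by rw [← hp.pd, ra hqp, zero_mul]
  have qa : q * a = 0 := by rw [← h1, ra hqp, zero_mul]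
  have pe : p * e = 0 := by rw [← hq.pd, ra hpq, zero_mul]
  have dq : d * q = 0 := by rw [← hp.dp, mul_assoc, hpq, mul_zero]
  have ap : a * p = 0 := by rw [← h2, mul_assoc, hqp, mul_zero]
  have ep : e * p = 0 := by rw [← hq.dp, mul_assoc, hqp, mul_zero]
  have de : d * e = 0 := by rw [← hq.pd, ra dq, zero_mul]
  have ad : a * d = 0 := by rw [← hp.pd, ra ap, zero_mul]
  have aa : a * a = 0 := by nth_rewrite 2 [← h1]; rw [ra ap, zero_mul]
  have ed : e * d = 0 := by rw [← hp.pd, ra ep, zero_mul]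
  have ea : e * a = 0 := by rw [← h1, ra ep, zero_mul]
  refine ⟨D_add hp.pD hq.pD hpq, ?_, ?_, ?_⟩
  · simp only [mul_add, add_mul, qd, qa, pe, hp.pd, h1, hq.pd, add_zero, zero_add]
  · simp only [mul_add, add_mul, dq, ap, ep, hp.dp, h2, hq.dp, add_zero, zero_add, add_assoc]
  · linear_combination (norm := noncomm_ring) hp.dd + hq.dd + hc + de + ad + aa + ed + ea
theorem Cpx.conj (hp : Cpx p d) (hm : Mono v) (hv : star v * v * p = p) :
    Cpx (v * p * star v) (v * d * star v) := by
  have a2 : star v * v * d = d := by rw [← hp.pd, ← mul_assoc, hv]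
  refine ⟨hm _ hp.pD, ?_, ?_, ?_⟩
  · linear_combination (norm := noncomm_ring) v * p * a2 * star v + v * hp.pd * star v
  · linear_combination (norm := noncomm_ring) v * d * hv * star v + v * hp.dp * star v
  · linear_combination (norm := noncomm_ring) v * d * a2 * star v + v * hp.dd * star v
theorem Cpx.cmp (hp : Cpx p d) (hP : P ∈ (Base.D : Set A)) (hPd : P * d = P * d * P) :
    Cpx P (P * d * P) := by
  have hPP := Base.idem _ hP
  refine ⟨hP, by simp only [mul_assoc, ra hPP], by simp only [mul_assoc, hPP], ?_⟩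
  linear_combination (norm := noncomm_ring) P * d * hPP * d * P - hPd * d * P + P * hp.dd * P

variable {F : Frame A}

/-- chain maps in `N` into a complex contractible mod `I` are null-homotopic, `h = K w` -/
theorem Frame.OK.null_left (hF : F.OK) (hp : Cpx p d) (h : CtrI F.I p d) (hw : w ∈ F.N)
    (h1 : p * w = w) (hc : d * w = w * e) :
    ∃ k ∈ F.N, p * k = k ∧ (∀ x, w * x = w → k * x = k) ∧ w = d * k + k * e := by
  obtain ⟨K, h2, -, hK⟩ := h.supp hp
  refine ⟨K * w, F.N.mul_mem_left _ _ hw, by rw [← mul_assoc, h2],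
    fun x hx => by rw [mul_assoc, hx], ?_⟩
  have := hF.IN _ hK _ hw
  linear_combination (norm := noncomm_ring) -this - h1 + K * hc
theorem Frame.OK.null_right (hF : F.OK) (hq : Cpx q e) (h : CtrI F.I q e) (hw : w ∈ F.N)
    (h1 : w * q = w) (hc : d * w = w * e) : Htp d e w 0 := by
  obtain ⟨K, hK⟩ := h
  refine ⟨w * K, ?_⟩
  have := hF.NI hw hK
  linear_combination (norm := noncomm_ring) -this - h1 - hc * K
/-- `u = p χ p - K [d, p χ p]` -/
theorem Frame.OK.exists_chi (hF : F.OK) (hp : Cpx p d) (h : CtrI F.I p d) :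
    ∃ u, F.Chi p d u := by
  obtain ⟨K, h1, h2, hK⟩ := h.supp hp
  have a1 := hp.pd
  have a2 := hp.dp
  have a3 := hp.pp
  have a4 := hp.dd
  set χ := F.χ with hχ
  have hy : d * (p * χ * p) - (p * χ * p) * d ∈ F.N := by
    have : d * (p * χ * p) - (p * χ * p) * d = -(p * (χ * d - d * χ) * p) := by
      linear_combination (norm := noncomm_ring)
        a2 * χ * p - a1 * χ * p - p * χ * a1 + p * χ * a2
    rw [this]
    exact F.N.neg_mem (F.N.mul_mem_right _ _ (F.N.mul_mem_left _ _ (hF.χc d)))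
  have h0 := hF.IN _ hK _ hy
  refine ⟨p * χ * p - K * (d * (p * χ * p) - (p * χ * p) * d), ?_, ?_, ?_, ?_⟩
  · linear_combination (norm := noncomm_ring)
      a3 * χ * p - h1 * (d * (p * χ * p) - (p * χ * p) * d)
  · linear_combination (norm := noncomm_ring)
      p * χ * a3 - K * d * p * χ * a3 + K * p * χ * p * a2
  · linear_combination (norm := noncomm_ring) -h0 - a1 * p * χ * p + a3 * χ * p * d
      + K * a4 * p * χ * p - K * p * χ * p * a4
  · have : p * χ * p - K * (d * (p * χ * p) - (p * χ * p) * d) - χ * p =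
        -((χ * p - p * χ) * p) - K * (d * (p * χ * p) - (p * χ * p) * d) := by
      linear_combination (norm := noncomm_ring) χ * a3
    rw [this]
    exact F.N.sub_mem (F.N.neg_mem (F.N.mul_mem_right _ _ (hF.χc p))) (F.N.mul_mem_left _ _ hy)
theorem Frame.Chi.star (hF : F.OK) (hp : Cpx p d) (h : F.Chi p d u) :
    F.Chi p (star d) (star u) := by
  refine ⟨by simpa [hp.star_p] using congrArg Star.star h.up,
    by simpa [hp.star_p] using congrArg Star.star h.pu,
    by simpa using (congrArg Star.star h.ch).symm, ?_⟩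
  have a1 := hF.starN _ h.md
  simp only [star_sub, star_mul, hp.star_p] at a1
  have : Star.star u - F.χ * p = (Star.star u - p * Star.star F.χ) + p * (Star.star F.χ - F.χ)
      - (F.χ * p - p * F.χ) := by noncomm_ring
  rw [this]
  exact F.N.sub_mem (F.N.add_mem a1 (F.N.mul_mem_left _ _ hF.χs)) (hF.χc p)
theorem Frame.Chi.smul_d (z : ℂ) (h : F.Chi p d u) : F.Chi p (z • d) u :=
  ⟨h.pu, h.up, by rw [smul_mul_assoc, mul_smul_comm, h.ch], h.md⟩
theorem Frame.Chi.neg_d (h : F.Chi p d u) : F.Chi p (-d) u :=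
  ⟨h.pu, h.up, by rw [neg_mul, mul_neg, h.ch], h.md⟩
/-- filtered lift: `k = K (u a - a w)` -/
theorem Frame.OK.chi_ext (hF : F.OK) (hp : Cpx p d) (hq : Cpx q e) (hpq : p * q = 0)
    (h1 : p * a = a) (h2 : a * q = a) (hc : d * a + a * e = 0) (h : CtrI F.I p d)
    (hu : F.Chi p d u) (hw : F.Chi q e w) :
    ∃ k, p * k = k ∧ k * q = k ∧ F.Chi (p + q) (d + a + e) (u + k + w) := by
  have hqp := hp.qp hq hpq
  have hy : u * a - a * w ∈ F.N := by
    have : u * a - a * w = (u - F.χ * p) * a - a * (w - F.χ * q) + (F.χ * a - a * F.χ) * q := by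
      linear_combination (norm := noncomm_ring) F.χ * h1 - F.χ * h2
    rw [this]
    exact F.N.add_mem (F.N.sub_mem (F.N.mul_mem_right _ _ hu.md) (F.N.mul_mem_left _ _ hw.md))
      (F.N.mul_mem_right _ _ (hF.χc a))
  have hy1 : p * (u * a - a * w) = u * a - a * w := by
    linear_combination (norm := noncomm_ring) hu.pu * a - h1 * w
  have hy2 : (u * a - a * w) * q = u * a - a * w := by
    linear_combination (norm := noncomm_ring) u * h2 - a * hw.up
  have hy3 : d * (u * a - a * w) = (u * a - a * w) * (-e) := by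
    linear_combination (norm := noncomm_ring) hu.ch * a + u * hc - hc * w + a * hw.ch
  obtain ⟨k, hkN, hk1, hk2, hk3⟩ := hF.null_left hp h hy hy1 hy3
  have hk4 := hk2 q hy2
  have qu : q * u = 0 := by rw [← hu.pu, ra hqp, zero_mul]
  have qk : q * k = 0 := by rw [← hk1, ra hqp, zero_mul]
  have pw : p * w = 0 := by rw [← hw.pu, ra hpq, zero_mul]
  have uq : u * q = 0 := by rw [← hu.up, mul_assoc, hpq, mul_zero]
  have kp : k * p = 0 := by rw [← hk4, mul_assoc, hqp, mul_zero]
  have wp' : w * p = 0 := by rw [← hw.up, mul_assoc, hqp, mul_zero]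
  have dw : d * w = 0 := by rw [← hp.dp, mul_assoc, pw, mul_zero]
  have au : a * u = 0 := by rw [← h2, mul_assoc, qu, mul_zero]
  have ak : a * k = 0 := by rw [← h2, mul_assoc, qk, mul_zero]
  have eu : e * u = 0 := by rw [← hq.dp, mul_assoc, qu, mul_zero]
  have ek : e * k = 0 := by rw [← hq.dp, mul_assoc, qk, mul_zero]
  have ue : u * e = 0 := by rw [← hq.pd, ra uq, zero_mul]
  have kd : k * d = 0 := by rw [← hp.pd, ra kp, zero_mul]
  have ka : k * a = 0 := by rw [← h1, ra kp, zero_mul]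
  have wd : w * d = 0 := by rw [← hp.pd, ra wp', zero_mul]
  have wa : w * a = 0 := by rw [← h1, ra wp', zero_mul]
  refine ⟨k, hk1, hk4, ?_, ?_, ?_, ?_⟩
  · simp only [mul_add, add_mul, qu, qk, pw, hu.pu, hk1, hw.pu, add_zero, zero_add]
  · simp only [mul_add, add_mul, uq, kp, wp', hu.up, hk4, hw.up, add_zero, zero_add, add_assoc]
  · linear_combination (norm := noncomm_ring)
      hu.ch + hw.ch - hk3 + dw + au + ak + eu + ek - ue - kd - ka - wd - wa
  · have : u + k + w - F.χ * (p + q) = (u - F.χ * p) + k + (w - F.χ * q) := by noncomm_ring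
    rw [this]
    exact F.N.add_mem (F.N.add_mem hu.md hkN) hw.md
/-- sign change of a strict isomorphism `f` (inverse `g`): `v = p - 2 u f w g` is a chain self-map
with `v * v - p ∈ N`, so `HE.of_sq` applies, and the map is `v * f`. -/
theorem Frame.OK.flip_HE (hF : F.OK) (hp : Cpx p d) (hq : Cpx q e) (h : CtrI F.I p d)
    (h1 : p * f = f) (h2 : f * q = f) (hc : d * f = f * e) (hqg : q * g = g) (hgp : g * p = g)
    (hfg : f * g = p) (hgf : g * f = q) (hu : F.Chi p d u) (hw : F.Chi q e w) :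
    HE p d q e (f - (2 : ℂ) • (u * f * w)) := by
  have hgc : e * g = g * d := by
    linear_combination (norm := noncomm_ring)
      -(hq.pd * g) - hgf * e * g - g * hc * g + g * d * hfg + g * hp.dp
  set t := u * f * w * g with ht
  have t1 : p * t = t := by rw [ht]; simp only [← mul_assoc, hu.pu]
  have t2 : t * p = t := by rw [ht]; simp only [mul_assoc, hgp]
  have t3 : d * t = t * d := by
    rw [ht]
    linear_combination (norm := noncomm_ring)
      hu.ch * f * w * g + u * hc * w * g + u * f * hw.ch * g + u * f * w * hgc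
  have t4 : t * t - t ∈ F.N := by
    have b1 := hu.md
    have b2 := hw.md
    have b3 := hF.χχ
    have b4 := hF.χc f
    have b5 := hF.χc p
    have c1 := congrArg F.N.ringCon.mk' h1
    have c2 := congrArg F.N.ringCon.mk' hqg
    have c3 := congrArg F.N.ringCon.mk' hfg
    have c4 := congrArg F.N.ringCon.mk' hp.pp
    rw [ht]
    rw [memq] at b1 b2 b3 b4 b5 ⊢
    simp only [map_sub, map_mul, sub_eq_zero] at b1 b2 b3 b4 b5 c1 c2 c3 c4 ⊢
    rw [b1, b2]
    set x := F.N.ringCon.mk' F.χ
    set p' := F.N.ringCon.mk' p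
    set f' := F.N.ringCon.mk' f
    set q' := F.N.ringCon.mk' q
    set g' := F.N.ringCon.mk' g
    have e1 : x * p' * f' * (x * q') * g' = x * p' := by
      linear_combination (norm := noncomm_ring) x * c1 * x * q' * g' + x * f' * x * c2
        - x * b4 * g' + b3 * f' * g' + x * c3
    rw [e1]
    linear_combination (norm := noncomm_ring) -(x * b5 * p') + b3 * p' * p' + x * c4
  have v1 : p * (p - (2 : ℂ) • t) = p - (2 : ℂ) • t := by
    rw [mul_sub, mul_smul_comm, t1, hp.pp]
  have v2 : (p - (2 : ℂ) • t) * p = p - (2 : ℂ) • t := by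
    rw [sub_mul, smul_mul_assoc, t2, hp.pp]
  have v3 : d * (p - (2 : ℂ) • t) = (p - (2 : ℂ) • t) * d := by
    rw [mul_sub, sub_mul, mul_smul_comm, smul_mul_assoc, t3, hp.pd, hp.dp]
  have v4 : Htp d d ((p - (2 : ℂ) • t) * (p - (2 : ℂ) • t)) p := by
    have y1 : p * (t * t - t) = t * t - t := by rw [mul_sub, ← mul_assoc, t1]
    have y2 : d * (t * t - t) = (t * t - t) * d := by
      linear_combination (norm := noncomm_ring) t3 * t + t * t3 - t3
    obtain ⟨k, -, -, -, hk⟩ := hF.null_left hp h t4 y1 y2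
    refine ⟨(4 : ℂ) • k, ?_⟩
    rw [mul_smul_comm, smul_mul_assoc, ← smul_add, ← hk]
    simp only [mul_sub, sub_mul, mul_smul_comm, smul_mul_assoc, t1, t2, hp.pp, smul_sub, smul_smul]
    module
  have := (HE.of_sq v1 v2 v3 v4).comp (HE.of_iso hp hq h1 h2 hc hqg hgp hfg hgf)
  have e2 : (p - (2 : ℂ) • t) * f = f - (2 : ℂ) • (u * f * w) := by
    rw [sub_mul, smul_mul_assoc, h1, ht, mul_assoc (u * f * w), hgf, mul_assoc (u * f), hw.up]
  rwa [e2] at this

end Vale.Agent.P228
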