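import Vale.Agent.P228.Basic

/-! Homotopies, homotopy equivalences, contractions modulo an ideal. -/

set_option linter.unusedSectionVars false

namespace Vale.Agent.P228

variable {A : Type*} [Ring A] [StarRing A] [Algebra ℂ A] [StarModule ℂ A] [Base A]
variable {p d q e r c f f' f'' g g' u v w a : A}

theorem Htp.refl (d e f : A) : Htp d e f f := ⟨0, by simp⟩
theorem Htp.symm (h : Htp d e f f') : Htp d e f' f := by
  obtain ⟨k, H⟩ := h
  exact ⟨-k, by linear_combination (norm := noncomm_ring) -H⟩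
theorem Htp.trans (h : Htp d e f f') (h' : Htp d e f' f'') : Htp d e f f'' := by
  obtain ⟨k, H⟩ := h
  obtain ⟨k', H'⟩ := h'
  exact ⟨k + k', by linear_combination (norm := noncomm_ring) H + H'⟩
theorem Htp.add (h : Htp d e f f') (h' : Htp d e g g') : Htp d e (f + g) (f' + g') := by
  obtain ⟨k, H⟩ := h
  obtain ⟨k', H'⟩ := h'
  exact ⟨k + k', by linear_combination (norm := noncomm_ring) H + H'⟩
theorem Htp.sub (h : Htp d e f f') (h' : Htp d e g g') : Htp d e (f - g) (f' - g') := by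
  obtain ⟨k, H⟩ := h
  obtain ⟨k', H'⟩ := h'
  exact ⟨k - k', by linear_combination (norm := noncomm_ring) H - H'⟩
theorem Htp.smul (z : ℂ) (h : Htp d e f f') : Htp d e (z • f) (z • f') := by
  obtain ⟨k, H⟩ := h
  exact ⟨z • k, by rw [← smul_sub, H, smul_add, mul_smul_comm, smul_mul_assoc]⟩
theorem Htp.mul_left (hu : c * u = u * d) (h : Htp d e f f') : Htp c e (u * f) (u * f') := by
  obtain ⟨k, H⟩ := h
  exact ⟨u * k, by linear_combination (norm := noncomm_ring) u * H - hu * k⟩
theorem Htp.mul_right (hu : e * u = u * c) (h : Htp d e f f') : Htp d c (f * u) (f' * u) := by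
  obtain ⟨k, H⟩ := h
  exact ⟨k * u, by linear_combination (norm := noncomm_ring) H * u + k * hu⟩
theorem Htp.star (h : Htp d e f f') : Htp (star e) (star d) (star f) (star f') := by
  obtain ⟨k, H⟩ := h
  exact ⟨Star.star k, by rw [← star_sub, H, star_add, star_mul, star_mul, add_comm]⟩
theorem Htp.smul_d {z : ℂ} (hz : z ≠ 0) (h : Htp d e f f') : Htp (z • d) (z • e) f f' := by
  obtain ⟨k, H⟩ := h
  exact ⟨z⁻¹ • k, by simp [H, smul_smul, mul_inv_cancel₀ hz, inv_mul_cancel₀ hz]⟩
theorem Htp.neg_d (h : Htp d e f f') : Htp (-d) (-e) f f' := by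
  obtain ⟨k, H⟩ := h
  exact ⟨-k, by simp [H]⟩
/-- adjoint of a homotopy of symmetric forms -/
theorem Htp.star_form (h : Htp d (-Star.star d) f f') :
    Htp d (-Star.star d) (Star.star f) (Star.star f') := by
  simpa using h.star.neg_d

theorem HE.refl (h : Cpx p d) : HE p d p d p := ⟨h.pp, h.pp, h.dp.trans h.pd.symm, p, h.pp, h.pp, h.dp.trans h.pd.symm,
    by rw [h.pp]; exact Htp.refl _ _ _, by rw [h.pp]; exact Htp.refl _ _ _⟩
theorem HE.of_iso (hpd : Cpx p d) (hqe : Cpx q e) (hp : p * f = f) (hq : f * q = f) (hc : d * f = f * e) (hqg : q * g = g)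
    (hgp : g * p = g) (h1 : f * g = p) (h2 : g * f = q) : HE p d q e f := by
  refine ⟨hp, hq, hc, g, hqg, hgp, ?_, by rw [h1]; exact Htp.refl _ _ _,
    by rw [h2]; exact Htp.refl _ _ _⟩
  calc e * g = q * e * g := by rw [hqe.pd]
    _ = g * (f * e) * g := by rw [← h2]; noncomm_ring
    _ = g * (d * (f * g)) := by rw [← hc]; noncomm_ring
    _ = g * d := by rw [h1, hpd.dp]
theorem HE.comp (h : HE p d q e f) (h' : HE q e r c g) : HE p d r c (f * g) := by
  obtain ⟨a1, a2, a3, f', a4, a5, a6, a7, a8⟩ := h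
  obtain ⟨b1, b2, b3, g', b4, b5, b6, b7, b8⟩ := h'
  refine ⟨by rw [← mul_assoc, a1], by rw [mul_assoc, b2],
    by rw [← mul_assoc, a3, mul_assoc, b3, mul_assoc], g' * f', by rw [← mul_assoc, b4],
    by rw [mul_assoc, a5], by rw [← mul_assoc, b6, mul_assoc, a6, mul_assoc], ?_, ?_⟩
  · have := (b7.mul_left a3).mul_right a6
    rw [a2] at this
    simpa only [mul_assoc] using this.trans a7
  · have := (a8.mul_left b6).mul_right b3
    rw [b5] at this
    simpa only [mul_assoc] using this.trans b8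
theorem HE.star (hp : Cpx p d) (hq : Cpx q e) (h : HE p d q e f) :
    HE q (star e) p (star d) (star f) := by
  obtain ⟨a1, a2, a3, g, a4, a5, a6, a7, a8⟩ := h
  refine ⟨by simpa [hq.star_p] using congrArg Star.star a2,
    by simpa [hp.star_p] using congrArg Star.star a1,
    by simpa using (congrArg Star.star a3).symm, Star.star g,
    by simpa [hp.star_p] using congrArg Star.star a5,
    by simpa [hq.star_p] using congrArg Star.star a4,
    by simpa using (congrArg Star.star a6).symm,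
    by simpa [hq.star_p] using a8.star, by simpa [hp.star_p] using a7.star⟩
theorem HE.smul_d {z : ℂ} (hz : z ≠ 0) (h : HE p d q e f) : HE p (z • d) q (z • e) f := by
  obtain ⟨a1, a2, a3, g, a4, a5, a6, a7, a8⟩ := h
  exact ⟨a1, a2, by simp [a3], g, a4, a5, by simp [a6], a7.smul_d hz, a8.smul_d hz⟩
theorem HE.neg_d (h : HE p d q e f) : HE p (-d) q (-e) f := by
  obtain ⟨a1, a2, a3, g, a4, a5, a6, a7, a8⟩ := h
  exact ⟨a1, a2, by simp [a3], g, a4, a5, by simp [a6], a7.neg_d, a8.neg_d⟩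
theorem HE.smul_f {z : ℂ} (hz : z ≠ 0) (h : HE p d q e f) : HE p d q e (z • f) := by
  obtain ⟨a1, a2, a3, g, a4, a5, a6, a7, a8⟩ := h
  exact ⟨by simp [a1], by simp [a2], by simp [a3], z⁻¹ • g, by simp [a4], by simp [a5],
    by simp [a6], by simpa [smul_smul, mul_inv_cancel₀ hz, inv_mul_cancel₀ hz] using a7,
    by simpa [smul_smul, mul_inv_cancel₀ hz, inv_mul_cancel₀ hz] using a8⟩
theorem HE.of_htp (hp : Cpx p d) (hq : Cpx q e) (h : HE p d q e f) (hh : Htp d e f f')
    (h1 : p * f' = f') (h2 : f' * q = f') : HE p d q e f' := by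
  obtain ⟨a1, a2, a3, g, a4, a5, a6, a7, a8⟩ := h
  refine ⟨h1, h2, ?_, g, a4, a5, a6, (hh.symm.mul_right a6).trans a7,
    (hh.symm.mul_left a6).trans a8⟩
  obtain ⟨k, H⟩ := hh
  linear_combination (norm := noncomm_ring) a3 - d * H + H * e - hp.dd * k + k * hq.dd
theorem Htp.conj' (hp : Cpx p d) (hq : Cpx q e) (hv : Star.star v * v * p = p)
    (hw : Star.star w * w * q = q) (h1 : p * f = f) (h2 : p * f' = f') (h : Htp d e f f') :
    Htp (v * d * Star.star v) (w * e * Star.star w) (v * f * Star.star w)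
      (v * f' * Star.star w) := by
  obtain ⟨k, H⟩ := h
  have e1 : Star.star w * w * e = e := by rw [← hq.pd, ← mul_assoc, hw]
  refine ⟨v * (p * k) * Star.star w, ?_⟩
  linear_combination (norm := noncomm_ring) v * p * H * Star.star w - v * h1 * Star.star w
    + v * h2 * Star.star w + v * hp.pd * k * Star.star w - v * hp.dp * k * Star.star w
    - v * d * hv * k * Star.star w - v * p * k * e1 * Star.star w
theorem HE.conj (hp : Cpx p d) (hq : Cpx q e) (h : HE p d q e f) (hv : Star.star v * v * p = p)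
    (hw : Star.star w * w * q = q) :
    HE (v * p * Star.star v) (v * d * Star.star v) (w * q * Star.star w) (w * e * Star.star w)
      (v * f * Star.star w) := by
  obtain ⟨a1, a2, a3, g, a4, a5, a6, a7, a8⟩ := h
  have V : ∀ x, p * x = x → ∀ y, Star.star v * (v * (x * y)) = x * y := fun x hx y => by
    rw [← hx, ← mul_assoc, ← mul_assoc, ← mul_assoc, hv]
  have W : ∀ x, q * x = x → ∀ y, Star.star w * (w * (x * y)) = x * y := fun x hx y => by
    rw [← hx, ← mul_assoc, ← mul_assoc, ← mul_assoc, hw]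
  have R : ∀ {a b c : A}, a * b = c → ∀ y, a * (b * y) = c * y := fun h y => by
    rw [← mul_assoc, h]
  refine ⟨?_, ?_, ?_, w * g * Star.star v, ?_, ?_, ?_, ?_, ?_⟩
  · simp only [mul_assoc, V f a1, R a1]
  · simp only [mul_assoc, W q hq.pp, R a2]
  · simp only [mul_assoc, V f a1, W e hq.pd, R a3]
  · simp only [mul_assoc, W g a4, R a4]
  · simp only [mul_assoc, V p hp.pp, R a5]
  · simp only [mul_assoc, W g a4, V d hp.pd, R a6]
  · simpa only [mul_assoc, W g a4] using
      Htp.conj' hp hp hv hv (by rw [← mul_assoc, a1]) hp.pp a7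
  · simpa only [mul_assoc, V f a1] using
      Htp.conj' hq hq hw hw (by rw [← mul_assoc, a4]) hq.pp a8
/-- a chain self-map whose square is homotopic to the identity -/
theorem HE.of_sq (hp : p * f = f) (hq : f * p = f) (hc : d * f = f * d) (h : Htp d d (f * f) p) :
    HE p d p d f := ⟨hp, hq, hc, f, hp, hq, hc, h, h⟩
/-- restriction to an invariant projection `w` -/
theorem HE.res (h : HE p d q e f) (hw : w * w = w) (h1 : w * p = p * w) (h2 : w * d = d * w)
    (h3 : w * q = q * w) (h4 : w * e = e * w) (h5 : w * f = f * w) :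
    HE (w * p) (w * d) (w * q) (w * e) (w * f) := by
  obtain ⟨a1, a2, a3, g, a4, a5, a6, ⟨k, a7⟩, ⟨k', a8⟩⟩ := h
  have L : ∀ {x : A}, w * x = x * w → ∀ y, w * x * (w * y) = w * (x * y) := fun {x} h y => by
    rw [← mul_assoc, mul_assoc w x w, ← h, ← mul_assoc, hw, mul_assoc]
  have M : ∀ {x : A}, w * x = x * w → ∀ y, w * y * w * (w * x) = w * (y * x * w) :=
    fun {x} h y => by rw [mul_assoc, ← mul_assoc w w, hw, h, mul_assoc, mul_assoc]
  have N : ∀ {x : A}, w * x = x * w → w * x = w * (x * w) := fun {x} h => by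
    rw [← h, ← mul_assoc, hw]
  refine ⟨by rw [L h1, a1], by rw [L h5, a2], by rw [L h2, L h5, a3], w * g * w, ?_, ?_, ?_,
    ⟨w * k * w, ?_⟩, ⟨w * k' * w, ?_⟩⟩
  · rw [mul_assoc w g, L h3, ← mul_assoc q, a4]
  · rw [M h1, a5, mul_assoc]
  · rw [M h2, mul_assoc w g, L h4, ← mul_assoc, ← a6, mul_assoc, mul_assoc]
  · rw [M h2, mul_assoc w g, mul_assoc w k, L h5, L h2, N h1]
    linear_combination (norm := noncomm_ring) w * a7 * w
  · rw [M h5, M h4, mul_assoc w k', L h4, N h3]
    linear_combination (norm := noncomm_ring) w * a8 * w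

theorem ctrI_bot : CtrI ⊥ p d ↔ Ctr p d := by
  simp [CtrI, Ctr, sub_eq_zero]
theorem Ctr.ctrI (I : TwoSidedIdeal A) (h : Ctr p d) : CtrI I p d := by
  obtain ⟨K, H⟩ := h
  exact ⟨K, by rw [H, sub_self]; exact I.zero_mem⟩

theorem ctr_fix {P D N K : A} (hD : D * D = 0) (h1 : P * D = D) (h2 : D * P = D) (h3 : P * P = P)
    (h4 : P * N = N) (h5 : N * P = N) (h6 : N * N = 0) (H : D * K + K * D = P - N) : Ctr P D := by
  have hN : D * N = N * D := by
    linear_combination (norm := noncomm_ring) D * H - H * D - hD * K + K * hD + h2 - h1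
  refine ⟨K * (P + N), ?_⟩
  linear_combination (norm := noncomm_ring) H * (P + N) - K * hN + K * h1 - K * h2 + h3 + h4
    - h5 - h6

/-- the mapping cone of an equivalence is contractible. Hint: with `f g - p = d h + h d`,
`g f - q = e h' + h' e` (compress `h`, `h'` to `p h p`, `q h' q`) put
`K₀ = -h + g + h'`; then `D K₀ + K₀ D = p + q - N` with `N = p N q` (so `N*N = 0`), `N` commutes
with `D`, and `K = K₀ (p + q + N)` works. -/
theorem HE.ctr (hp : Cpx p d) (hq : Cpx q e) (hpq : p * q = 0) (h : HE p d q e f) :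
    Ctr (p + q) (d + f - e) := by
  obtain ⟨a1, a2, a3, g, a4, a5, a6, ⟨k, a7⟩, ⟨k', a8⟩⟩ := h
  have hqp : q * p = 0 := by rw [Base.comm _ hq.pD _ hp.pD, hpq]
  have R : ∀ {a b c : A}, a * b = c → ∀ y, a * (b * y) = c * y := fun h y => by
    rw [← mul_assoc, h]
  have Z : ∀ {a b x y : A}, a * b = 0 → x * a = x → b * y = y → x * y = 0 := fun h0 h1 h2 => by
    rw [← h1, ← h2, mul_assoc, R h0, zero_mul, mul_zero]
  obtain ⟨h₁, b1, b2, b3⟩ : ∃ h₁ : A, p * h₁ = h₁ ∧ h₁ * p = h₁ ∧ f * g - p = d * h₁ + h₁ * d := by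
    refine ⟨p * k * p, by simp only [mul_assoc, R hp.pp], by simp only [mul_assoc, hp.pp], ?_⟩
    have := congrArg (fun x => p * x * p) a7
    simpa only [mul_sub, sub_mul, mul_add, add_mul, mul_assoc, R a1, a5, hp.pp, R hp.pd, R hp.dp,
      hp.pd, hp.dp] using this
  obtain ⟨h₂, c1, c2, c3⟩ : ∃ h₂ : A, q * h₂ = h₂ ∧ h₂ * q = h₂ ∧ g * f - q = e * h₂ + h₂ * e := by
    refine ⟨q * k' * q, by simp only [mul_assoc, R hq.pp], by simp only [mul_assoc, hq.pp], ?_⟩
    have := congrArg (fun x => q * x * q) a8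
    simpa only [mul_sub, sub_mul, mul_add, add_mul, mul_assoc, R a4, a2, hq.pp, R hq.pd, R hq.dp,
      hq.pd, hq.dp] using this
  refine ctr_fix (N := h₁ * f - f * h₂) (K := -h₁ + g + h₂) ?_ ?_ ?_ ?_ ?_ ?_ ?_ ?_
  · linear_combination (norm := noncomm_ring) hp.dd + hq.dd + a3 - Z hpq hp.dp hq.pd
      + Z hqp a2 hp.pd + Z hqp a2 a1 - Z hqp hq.dp hp.pd - Z hqp hq.dp a1
  · linear_combination (norm := noncomm_ring) hp.pd + a1 - hq.pd - Z hpq hp.pp hq.pd
      + Z hqp hq.pp hp.pd + Z hqp hq.pp a1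
  · linear_combination (norm := noncomm_ring) hp.dp + a2 - hq.dp + Z hpq hp.dp hq.pp
      + Z hqp a2 hp.pp - Z hqp hq.dp hp.pp
  · linear_combination (norm := noncomm_ring) hp.pp + hq.pp + hpq + hqp
  · linear_combination (norm := noncomm_ring) b1 * f - a1 * h₂ + Z hqp hq.pp b1 * f
      - Z hqp hq.pp a1 * h₂
  · linear_combination (norm := noncomm_ring) h₁ * a2 - f * c2 + h₁ * Z hqp a2 hp.pp
      - f * Z hqp c2 hp.pp
  · linear_combination (norm := noncomm_ring) h₁ * Z hqp a2 b1 * f - h₁ * Z hqp a2 a1 * h₂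
      - f * Z hqp c2 b1 * f + f * Z hqp c2 a1 * h₂
  · linear_combination (norm := noncomm_ring) b3 + c3 - a6 + Z hpq hp.dp a4 + Z hpq hp.dp c1
      - Z hqp a2 b1 + Z hqp hq.dp b1 + Z hpq b2 hq.pd - Z hpq a5 hq.pd + Z hqp c2 hp.pd
      + Z hqp c2 a1
/-- converse: read off the blocks of the contraction -/
theorem HE.of_ctr (hp : Cpx p d) (hq : Cpx q e) (hpq : p * q = 0) (h1 : p * f = f) (h2 : f * q = f)
    (hc : d * f = f * e) (h : Ctr (p + q) (d + f - e)) : HE p d q e f := by
  obtain ⟨K, H⟩ := h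
  have hqp : q * p = 0 := by rw [Base.comm _ hq.pD _ hp.pD, hpq]
  have R : ∀ {a b c : A}, a * b = c → ∀ y, a * (b * y) = c * y := fun h y => by
    rw [← mul_assoc, h]
  have Z : ∀ {a b x y : A}, a * b = 0 → x * a = x → b * y = y → x * y = 0 := fun h0 h1 h2 => by
    rw [← h1, ← h2, mul_assoc, R h0, zero_mul, mul_zero]
  have e1 : p * (d + f - e) = d + f := by
    linear_combination (norm := noncomm_ring) hp.pd + h1 - Z hpq hp.pp hq.pd
  have e2 : (d + f - e) * p = d := by
    linear_combination (norm := noncomm_ring) hp.dp + Z hqp h2 hp.pp - Z hqp hq.dp hp.pp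
  have e3 : q * (d + f - e) = -e := by
    linear_combination (norm := noncomm_ring) Z hqp hq.pp hp.pd + Z hqp hq.pp h1 - hq.pd
  have e4 : (d + f - e) * q = f - e := by
    linear_combination (norm := noncomm_ring) Z hpq hp.dp hq.pp + h2 - hq.dp
  have B : ∀ x y : A, x * (d + f - e) * K * y + x * K * ((d + f - e) * y) = x * (p + q) * y :=
    fun x y => by linear_combination (norm := noncomm_ring) x * H * y
  have b1 := B p p
  have b2 := B q q
  have b3 := B q p
  rw [e1, e2] at b1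
  rw [e3, e4] at b2
  rw [e3, e2] at b3
  refine ⟨h1, h2, hc, q * K * p, by simp only [mul_assoc, R hq.pp],
    by simp only [mul_assoc, hp.pp], ?_, ⟨-(p * K * p), ?_⟩, ⟨q * K * q, ?_⟩⟩
  · linear_combination (norm := noncomm_ring) -b3 + hq.dp * K * p - q * K * hp.pd - hqp * p
      - q * hqp
  · linear_combination (norm := noncomm_ring) b1 + h2 * K * p + hp.dp * K * p + p * K * hp.pd
      + p * hp.pp + hp.pp + hpq * p
  · linear_combination (norm := noncomm_ring) b2 + q * K * h1 - hq.dp * K * q - q * K * hq.pd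
      + q * hq.pp + hq.pp + hqp * q

end Vale.Agent.P228
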