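import Vale.Agent.P228.CSig
import Vale.Agent.P228.GridB

/-! Local data, the fine and the coarse control. -/

set_option linter.unusedSectionVars false

namespace Vale.Agent.P228

open Filter Topology

universe u

/-- metric local data of a homeomorphism `g` with equicontinuous powers -/
structure LD (p n : ℕ) where
  Ω : Type u
  g : Equiv.Perm Ω
  ρ : Ω → Ω → ℝ
  ρ_self : ∀ w, ρ w w = 0
  ρ_comm : ∀ w w', ρ w w' = ρ w' w
  ρ_tri : ∀ w w' w'', ρ w w'' ≤ ρ w w' + ρ w' w''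
  ρ_inv : ∀ w w', ρ (g w) (g w') = ρ w w'
  e : Ω → Fin n → ℝ
  t : Ω → Fin n → ℝ
  e_le : ∀ w w', ‖e w - e w'‖ ≤ ρ w w'
  t_le : ∀ w w', ‖t w - t w'‖ ≤ ρ w w'
  t_inv : ∀ w, t (g w) = t w
  uc : ∀ ε > 0, ∃ δ > 0, ∀ w w', ‖e w - e w'‖ ≤ δ → ρ w w' ≤ ε
  small : ∀ ε > 0, ∃ q : ℕ, 0 < q ∧ p ∣ q ∧ ∀ w, ρ ((g ^ q) w) w ≤ ε
  sec : (Fin n → ℝ) → Ω
  sec_in : ∀ z, ‖z‖ ≤ 7 → e (sec z) = z
  sec_out : ∀ z, 7 ≤ ‖z‖ → 7 ≤ ‖e (sec z)‖
  prop : ∀ w, ‖t w‖ ≤ 1 → ‖e w‖ ≤ 6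
  gh : (Fin n → ℝ) → Fin n → ℝ
  gh_uc : UniformContinuous gh
  gh_bdd : ∃ R : ℝ, ∀ z, ‖gh z - z‖ ≤ R
  gh_in : ∀ z, ‖z‖ ≤ 7 ∨ ‖gh z‖ ≤ 7 → gh z = e (g (sec z))
  y0 : Fin n → ℝ
  ρ0 : ℝ
  ρ0_pos : 0 < ρ0
  y0_le : ‖y0‖ + ρ0 ≤ 1 / 2
  r0 : ℝ
  r0_pos : 0 < r0
  free : ∀ w, ‖t w - y0‖ ≤ ρ0 → ∀ h : ℤ, ¬ (p : ℤ) ∣ h → r0 ≤ ρ ((g ^ h) w) w
  y1 : Fin n → ℝ
  R1 : ℝ
  R1_pos : 0 < R1
  y1_le : ‖y1‖ + 2 * R1 ≤ 1 / 2
  η : ℝ
  η_nonneg : 0 ≤ η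
  c1 : ∀ w, ‖t w - y1‖ ≤ 2 * R1 → ‖t w - e w‖ ≤ η * R1
  c2 : ∀ w, ‖e w - y1‖ ≤ 2 * R1 → ‖t w - e w‖ ≤ η * R1

variable {p n : ℕ} [Fact p.Prime]

/-- real position of a lattice point at mesh `δ` -/
def rp (δ : ℝ) (z : Pos n) : Fin n → ℝ := fun l => δ * z l

/-- the character `c ↦ ζ^(h c)` -/
noncomputable def chi (p : ℕ) [Fact p.Prime] (h : ℤ) : ZMod p → ℂ :=
  fun c => ZMod.stdAddChar ((h : ZMod p) * c)

theorem chi_add (h h' : ℤ) : chi p (h + h') = chi p h * chi p h' := by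
  funext c
  simp only [chi, Pi.mul_apply, Int.cast_add, add_mul, AddChar.map_add_eq_mul]
theorem chi_neg (h : ℤ) : chi p (-h) = star (chi p h) := by
  funext c
  simp only [chi, Pi.star_apply, Int.cast_neg, neg_mul, AddChar.map_neg_eq_conj]
  rfl
theorem chi_of_dvd {h : ℤ} (hh : (p : ℤ) ∣ h) : chi p h = 1 := by
  funext c
  simp only [chi, (ZMod.intCast_zmod_eq_zero_iff_dvd h p).2 hh, zero_mul, AddChar.map_zero_eq_one,
    Pi.one_apply]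
theorem chi_succ (h : ℤ) (c : ZMod p) : chi p h (c + 1) = chi p h 1 * chi p h c := by
  simp only [chi, mul_add, AddChar.map_add_eq_mul, mul_comm]
theorem chi_one_ne : chi p 1 1 ≠ 1 := by
  intro h
  simp only [chi, Int.cast_one, mul_one] at h
  exact one_ne_zero (ZMod.injective_stdAddChar (h.trans (AddChar.map_zero_eq_one _).symm))
theorem chi_zero_right (h : ℤ) : chi p h 0 = 1 := by
  simp only [chi, mul_zero, AddChar.map_zero_eq_one]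

theorem ld_rp_sub {δ : ℝ} (hδ : 0 ≤ δ) (x y : Pos n) : ‖rp δ x - rp δ y‖ ≤ δ * ‖x - y‖ := by
  refine (pi_norm_le_iff_of_nonneg (by positivity)).2 fun l => ?_
  have h := norm_le_pi_norm (x - y) l
  rw [Pi.sub_apply, Int.norm_eq_abs, Int.cast_sub] at h
  rw [Pi.sub_apply, rp, rp, ← mul_sub, Real.norm_eq_abs, abs_mul, abs_of_nonneg hδ]
  exact mul_le_mul_of_nonneg_left h hδ

theorem ld_rp_finite {δ : ℝ} (hδ : 0 < δ) (B : ℝ) : {z : Pos n | ‖rp δ z‖ ≤ B}.Finite := by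
  refine (Set.finite_Icc (fun _ : Fin n => -⌈B / δ⌉) fun _ => ⌈B / δ⌉).subset fun z hz => ?_
  have key : ∀ l, |z l| ≤ ⌈B / δ⌉ := fun l => by
    have h := (norm_le_pi_norm (rp δ z) l).trans hz
    rw [rp, Real.norm_eq_abs, abs_mul, abs_of_pos hδ, mul_comm, ← le_div_iff₀ hδ] at h
    have h2 := h.trans (Int.le_ceil _)
    exact_mod_cast h2
  exact ⟨fun l => (abs_le.1 (key l)).1, fun l => (abs_le.1 (key l)).2⟩

theorem ld_small {f : ℕ → ℝ} (hf : Tendsto f atTop (𝓝 0)) (R : ℝ) {ε : ℝ} (hε : 0 < ε) :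
    ∀ᶠ i in atTop, f i * R ≤ ε := by
  have h := hf.mul_const R
  rw [zero_mul] at h
  exact h.eventually (eventually_le_nhds hε)

namespace LD

variable (L : LD.{u} p n)

noncomputable def pt (δ : ℝ) (z : Pos n) : L.Ω := L.sec (rp δ z)

theorem ρ_nonneg (w w' : L.Ω) : 0 ≤ L.ρ w w' := (norm_nonneg _).trans (L.e_le w w')
theorem ld_succ (h : ℤ) (w : L.Ω) : (L.g ^ (h + 1)) w = L.g ((L.g ^ h) w) := by
  rw [add_comm, zpow_one_add, Equiv.Perm.mul_apply]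
theorem ρ_zpow (h : ℤ) (w w' : L.Ω) : L.ρ ((L.g ^ h) w) ((L.g ^ h) w') = L.ρ w w' := by
  induction h using Int.induction_on with
  | zero => simp
  | succ i ih => rw [ld_succ, ld_succ, L.ρ_inv, ih]
  | pred i ih => rw [← L.ρ_inv, ← ld_succ, ← ld_succ, sub_add_cancel, ih]
theorem t_zpow (h : ℤ) (w : L.Ω) : L.t ((L.g ^ h) w) = L.t w := by
  induction h using Int.induction_on with
  | zero => simp
  | succ i ih => rw [ld_succ, L.t_inv, ih]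
  | pred i ih => rw [← L.t_inv, ← ld_succ, sub_add_cancel, ih]
theorem pt_region {δ : ℝ} {z : Pos n} (h : ‖L.t (L.pt δ z)‖ ≤ 1) :
    L.e (L.pt δ z) = rp δ z ∧ ‖rp δ z‖ ≤ 6 := by
  have h1 := L.prop _ h
  have h2 : ‖rp δ z‖ ≤ 7 := by
    by_contra hc
    have := L.sec_out _ (not_le.1 hc).le
    unfold pt at h1
    linarith
  have h3 : L.e (L.pt δ z) = rp δ z := L.sec_in _ h2
  exact ⟨h3, h3 ▸ h1⟩

noncomputable def W (δ : ℝ) (x y : Pos n) (r : ℝ) : Submodule ℂ (ZMod p → ℂ) :=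
  Submodule.span ℂ {f | ∃ h : ℤ, L.ρ (L.pt δ x) ((L.g ^ h) (L.pt δ y)) ≤ r ∧ f = chi p h}

theorem ld_chi_mem {δ : ℝ} {x y : Pos n} {r : ℝ} {h : ℤ}
    (H : L.ρ (L.pt δ x) ((L.g ^ h) (L.pt δ y)) ≤ r) : chi p h ∈ L.W δ x y r :=
  Submodule.subset_span ⟨h, H, rfl⟩

theorem ld_W_mono (δ : ℝ) (x y : Pos n) {r r' : ℝ} (hr : r ≤ r') : L.W δ x y r ≤ L.W δ x y r' :=
  Submodule.span_mono fun _ ⟨h, H, e⟩ => ⟨h, H.trans hr, e⟩

theorem ld_W_mul {δ : ℝ} {x y z : Pos n} {r r' : ℝ} {f g : ZMod p → ℂ} (hf : f ∈ L.W δ x y r)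
    (hg : g ∈ L.W δ y z r') : f * g ∈ L.W δ x z (r + r') := by
  have := Submodule.mul_mem_mul hf hg
  unfold W at this
  rw [Submodule.span_mul_span] at this
  refine Submodule.span_le.2 ?_ this
  rintro _ ⟨_, ⟨h, H, rfl⟩, _, ⟨h', H', rfl⟩, rfl⟩
  beta_reduce
  rw [← chi_add]
  refine L.ld_chi_mem ((L.ρ_tri _ ((L.g ^ h) (L.pt δ y)) _).trans (add_le_add H ?_))
  rw [zpow_add, Equiv.Perm.mul_apply, L.ρ_zpow]
  exact H'

theorem ld_W_star {δ : ℝ} {x y : Pos n} {r : ℝ} {f : ZMod p → ℂ} (hf : f ∈ L.W δ x y r) :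
    star f ∈ L.W δ y x r := by
  induction hf using Submodule.span_induction with
  | mem f hf =>
    obtain ⟨h, H, rfl⟩ := hf
    rw [← chi_neg]
    refine L.ld_chi_mem ?_
    rw [← L.ρ_zpow h, ← Equiv.Perm.mul_apply _ (L.g ^ (-h)), ← zpow_add, add_neg_cancel, zpow_zero,
      Equiv.Perm.one_apply, L.ρ_comm]
    exact H
  | zero => rw [star_zero]; exact zero_mem _
  | add f g _ _ hf hg => rw [star_add]; exact add_mem hf hg
  | smul a f _ hf => rw [star_smul]; exact Submodule.smul_mem _ _ hf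

theorem ld_W_tle {δ : ℝ} {x y : Pos n} {r : ℝ} {f : ZMod p → ℂ} (hf : f ∈ L.W δ x y r)
    (h0 : f ≠ 0) : ‖L.t (L.pt δ x) - L.t (L.pt δ y)‖ ≤ r := by
  by_contra hc
  refine h0 ((Submodule.span_eq_bot.2 ?_).le hf)
  rintro _ ⟨h, H, rfl⟩
  refine absurd ?_ hc
  rw [← L.t_zpow h (L.pt δ y)]
  exact (L.t_le _ _).trans H

theorem ld_W_shift {δ : ℝ} {x y : Pos n} {r : ℝ} {f : ZMod p → ℂ} (hf : f ∈ L.W δ x y r) :
    (fun c => f (c + 1)) ∈ L.W δ x y r := by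
  induction hf using Submodule.span_induction with
  | mem f hf =>
    obtain ⟨h, H, rfl⟩ := hf
    have e : (fun c => chi p h (c + 1)) = chi p h 1 • chi p h := funext fun c => chi_succ h c
    rw [e]
    exact Submodule.smul_mem _ _ (L.ld_chi_mem H)
  | zero => exact zero_mem _
  | add f g _ _ hf hg => exact add_mem hf hg
  | smul a f _ hf => exact Submodule.smul_mem _ a hf

theorem ld_grid {f : ℕ → ℝ} (hf0 : ∀ i, 0 < f i) (hf : Tendsto f atTop (𝓝 0)) (R : ℝ) {r : ℝ}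
    (hr : 0 < r) : ∀ᶠ i in atTop, ∀ x y : Pos n, ‖x - y‖ ≤ R →
      (‖L.t (L.pt (f i) x)‖ ≤ 1 ∨ ‖L.t (L.pt (f i) y)‖ ≤ 1) → 1 ∈ L.W (f i) x y r := by
  obtain ⟨ε, hε, hu⟩ := L.uc r hr
  filter_upwards [ld_small hf R hε, ld_small hf R one_pos] with i h1 h2 x y hxy hreg
  have h3 : ‖rp (f i) x - rp (f i) y‖ ≤ f i * R :=
    (ld_rp_sub (hf0 i).le x y).trans (mul_le_mul_of_nonneg_left hxy (hf0 i).le)
  have h4 : L.e (L.pt (f i) x) = rp (f i) x ∧ L.e (L.pt (f i) y) = rp (f i) y := by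
    rcases hreg with h | h
    · obtain ⟨a, b⟩ := L.pt_region h
      have := norm_sub_norm_le (rp (f i) y) (rp (f i) x)
      rw [norm_sub_rev] at this
      exact ⟨a, L.sec_in _ (by linarith)⟩
    · obtain ⟨a, b⟩ := L.pt_region h
      have := norm_sub_norm_le (rp (f i) x) (rp (f i) y)
      exact ⟨L.sec_in _ (by linarith), a⟩
  rw [← chi_of_dvd (p := p) (dvd_zero _)]
  refine L.ld_chi_mem ?_
  rw [zpow_zero, Equiv.Perm.one_apply]
  exact hu _ _ (by rw [h4.1, h4.2]; linarith)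

/-- entries are `s`-close to the graph of `g ^ h` on the region -/
def Nr (δ : ℝ) (h : ℤ) (s : ℝ) (T : Op n) : Prop :=
  ∀ x y : Cell n, (‖L.t (L.pt δ x.1)‖ + s ≤ 1 ∨ ‖L.t (L.pt δ y.1)‖ + s ≤ 1) → T.ent x y ≠ 0 →
    L.ρ (L.pt δ x.1) ((L.g ^ h) (L.pt δ y.1)) ≤ s

end LD

/-- the product filter: for every `k`, eventually in `i` -/
def lP : Filter (ℕ × ℕ) := ⨆ k, map (Prod.mk k) atTop
def lK (k : ℕ) : Filter (ℕ × ℕ) := map (Prod.mk k) atTop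
def lC : Filter (ℕ × ℕ) := (atTop : Filter ℕ).curry atTop

theorem eventually_lP {Q : ℕ × ℕ → Prop} : (∀ᶠ j in lP, Q j) ↔ ∀ k, ∀ᶠ i in atTop, Q (k, i) := by
  simp only [lP, eventually_iSup, eventually_map]
theorem eventually_lC {Q : ℕ × ℕ → Prop} :
    (∀ᶠ j in lC, Q j) ↔ ∀ᶠ k in atTop, ∀ᶠ i in atTop, Q (k, i) := eventually_curry_iff
theorem lK_le (k : ℕ) : lK k ≤ lP := le_iSup (fun k => map (Prod.mk k) atTop) k
theorem lC_le : lC ≤ lP := fun _ h =>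
  eventually_lC.2 (Eventually.of_forall (eventually_lP.1 h))
instance : lC.NeBot := forall_mem_nonempty_iff_neBot.1 fun s hs => by
  obtain ⟨k, hk⟩ := (eventually_lC.1 hs).exists
  obtain ⟨i, hi⟩ := hk.exists
  exact ⟨_, hi⟩

/-- a sequence of local data with meshes -/
structure Setup (p n : ℕ) where
  L : ℕ → LD.{u} p n
  hη : Tendsto (fun k => (L k).η) atTop (𝓝 0)
  δ : ℕ × ℕ → ℝ
  δ_pos : ∀ j, 0 < δ j
  hδ : ∀ k, Tendsto (fun i => δ (k, i)) atTop (𝓝 0)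

namespace Setup

variable (Z : Setup.{u} p n)

noncomputable def fine : Ctl n (ZMod p) (ℕ × ℕ) where
  l := lP
  t j z := (Z.L j.1).t ((Z.L j.1).pt (Z.δ j) z)
  W j := (Z.L j.1).W (Z.δ j)
  mono := fun j x y _ _ hr => (Z.L j.1).ld_W_mono _ x y hr
  mul := fun j _ _ _ _ _ _ _ hf hg => (Z.L j.1).ld_W_mul hf hg
  star := fun j _ _ _ _ hf => (Z.L j.1).ld_W_star hf
  tle := fun j _ _ _ _ hf h0 => (Z.L j.1).ld_W_tle hf h0
  grid := fun R _ hr => eventually_lP.2 fun k =>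
    (Z.L k).ld_grid (fun i => Z.δ_pos (k, i)) (Z.hδ k) R hr
  fin := fun j => (ld_rp_finite (Z.δ_pos j) 6).subset fun _ hx => ((Z.L j.1).pt_region hx).2

open Classical in
noncomputable def coarse : Ctl n (ZMod p) (ℕ × ℕ) where
  l := lC
  t j z := (Z.L j.1).R1⁻¹ • (rp (Z.δ j) z - (Z.L j.1).y1)
  W j x y r := if ‖(Z.L j.1).R1⁻¹ • (rp (Z.δ j) x - rp (Z.δ j) y)‖ ≤ r then ⊤ else ⊥
  mono := fun j x y r r' hr => by
    by_cases h : ‖(Z.L j.1).R1⁻¹ • (rp (Z.δ j) x - rp (Z.δ j) y)‖ ≤ r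
    · rw [if_pos (h.trans hr)]; exact le_top
    · rw [if_neg h]; exact bot_le
  mul := fun j x y z r r' f g hf hg => by
    by_cases h : ‖(Z.L j.1).R1⁻¹ • (rp (Z.δ j) x - rp (Z.δ j) y)‖ ≤ r
    · by_cases h' : ‖(Z.L j.1).R1⁻¹ • (rp (Z.δ j) y - rp (Z.δ j) z)‖ ≤ r'
      · have e : (Z.L j.1).R1⁻¹ • (rp (Z.δ j) x - rp (Z.δ j) z) =
            (Z.L j.1).R1⁻¹ • (rp (Z.δ j) x - rp (Z.δ j) y) +
              (Z.L j.1).R1⁻¹ • (rp (Z.δ j) y - rp (Z.δ j) z) := by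
          rw [← smul_add, sub_add_sub_cancel]
        rw [if_pos (by rw [e]; exact (norm_add_le _ _).trans (add_le_add h h'))]
        exact Submodule.mem_top
      · rw [if_neg h', Submodule.mem_bot] at hg
        rw [hg, mul_zero]; exact zero_mem _
    · rw [if_neg h, Submodule.mem_bot] at hf
      rw [hf, zero_mul]; exact zero_mem _
  star := fun j x y r f hf => by
    by_cases h : ‖(Z.L j.1).R1⁻¹ • (rp (Z.δ j) x - rp (Z.δ j) y)‖ ≤ r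
    · rw [if_pos (by rw [← neg_sub, smul_neg, norm_neg]; exact h)]
      exact Submodule.mem_top
    · rw [if_neg h, Submodule.mem_bot] at hf
      rw [hf, star_zero]; exact zero_mem _
  tle := fun j x y r f hf h0 => by
    by_cases h : ‖(Z.L j.1).R1⁻¹ • (rp (Z.δ j) x - rp (Z.δ j) y)‖ ≤ r
    · rw [← smul_sub, sub_sub_sub_cancel_right]; exact h
    · rw [if_neg h, Submodule.mem_bot] at hf
      exact absurd hf h0
  grid := fun R r hr => Eventually.filter_mono lC_le <| eventually_lP.2 fun k => by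
    have hR := (Z.L k).R1_pos
    filter_upwards [ld_small (Z.hδ k) R (mul_pos hR hr)] with i h1 x y hxy _
    have h3 : ‖rp (Z.δ (k, i)) x - rp (Z.δ (k, i)) y‖ ≤ Z.δ (k, i) * R :=
      (ld_rp_sub (Z.δ_pos _).le x y).trans (mul_le_mul_of_nonneg_left hxy (Z.δ_pos _).le)
    rw [if_pos]
    · exact Submodule.mem_top
    · rw [norm_smul, norm_inv, Real.norm_of_nonneg hR.le, inv_mul_le_iff₀ hR]
      exact h3.trans h1
  fin := fun j => (ld_rp_finite (Z.δ_pos j) ((Z.L j.1).R1 + ‖(Z.L j.1).y1‖)).subset fun x hx => by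
    have hR := (Z.L j.1).R1_pos
    have h1 : ‖(Z.L j.1).R1⁻¹ • (rp (Z.δ j) x - (Z.L j.1).y1)‖ ≤ 1 := hx
    rw [norm_smul, norm_inv, Real.norm_of_nonneg hR.le, inv_mul_le_iff₀ hR, mul_one] at h1
    have h2 := norm_sub_norm_le (rp (Z.δ j) x) (Z.L j.1).y1
    show ‖rp (Z.δ j) x‖ ≤ _
    linarith

theorem fine_adm {g : ℕ → ℝ} (hg : ∀ k, 0 < g k) : Z.fine.Adm fun j => g j.1 := fun _ h =>
  eventually_lP.2 fun k => eventually_lP.1 (h (g k) (hg k)) k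

theorem pr_of_nr {j : ℕ × ℕ} {h : ℤ} {s : ℝ} {T : Op n} (H : (Z.L j.1).Nr (Z.δ j) h s T) :
    Z.fine.Pr j s fun c => chi p h c • T := by
  intro x y hxy
  have e : entF (fun c => chi p h c • T) x y = T.ent x y • chi p h :=
    funext fun c => by simp [entF, mul_comm]
  rw [e]
  by_cases h0 : T.ent x y = 0
  · rw [h0, zero_smul]; exact zero_mem _
  · exact Submodule.smul_mem _ _ ((Z.L j.1).ld_chi_mem (H x y hxy h0))

/-- reparametrisation centred at `y` -/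
noncomputable def recentre (y ρ a : ℝ) : ℝ := if |a| ≤ 1 / 2 then y + ρ * a else a

theorem recentre_lt {y ρ a b : ℝ} (hρ : 0 < ρ) (h : |y| + ρ ≤ 1 / 2) (hab : a < b) :
    recentre y ρ a < recentre y ρ b := by
  have h1 := le_abs_self y
  have h2 := neg_abs_le y
  unfold recentre
  split_ifs with ha hb hb
  · nlinarith
  · rw [abs_le] at ha hb
    have : 1 / 2 < b := by
      by_contra hc
      exact hb ⟨by linarith [ha.1], not_lt.1 hc⟩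
    nlinarith [ha.2]
  · rw [abs_le] at ha hb
    have : a < -(1 / 2) := by
      by_contra hc
      exact ha ⟨not_lt.1 hc, by linarith [hb.2]⟩
    nlinarith [hb.1]
  · exact hab

theorem ld_recentre_le {y ρ : ℝ} (hρ : 0 < ρ) (h : |y| + ρ ≤ 1 / 2) (a : ℝ) :
    recentre y ρ a ≤ max a (1 / 2) ∧ -max a (1 / 2) ≤ recentre y ρ (-a) := by
  have h1 := le_abs_self y
  have h2 := neg_abs_le y
  have h3 := le_max_left a (1 / 2)
  have h4 := le_max_right a (1 / 2)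
  unfold recentre
  rw [abs_neg]
  split_ifs with ha
  · rw [abs_le] at ha
    constructor <;> nlinarith [ha.1, ha.2]
  · constructor <;> linarith

theorem ld_y0 (k : ℕ) (l : Fin n) : |(Z.L k).y0 l| + (Z.L k).ρ0 ≤ 1 / 2 := by
  have h1 : |(Z.L k).y0 l| ≤ _ := norm_le_pi_norm (Z.L k).y0 l
  linarith [(Z.L k).y0_le]

theorem ld_y1 (k : ℕ) (l : Fin n) : |(Z.L k).y1 l| + (Z.L k).R1 ≤ 1 / 2 := by
  have h1 : |(Z.L k).y1 l| ≤ _ := norm_le_pi_norm (Z.L k).y1 l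
  linarith [(Z.L k).y1_le, (Z.L k).R1_pos]

theorem ld_loc (l : Fin n) (y ρ : ℕ → ℝ) (hρ : ∀ k, 0 < ρ k) (h : ∀ k, |y k| + ρ k ≤ 1 / 2) :
    Loc (Z.fine.half l fun j => recentre (y j.1) (ρ j.1)) :=
  Z.fine.loc_half l fun a b hab =>
    ⟨fun j => (recentre (y j.1) (ρ j.1) b - recentre (y j.1) (ρ j.1) a) / 2,
      Z.fine_adm (g := fun k => (recentre (y k) (ρ k) b - recentre (y k) (ρ k) a) / 2) fun k => by
        linarith [recentre_lt (hρ k) (h k) hab],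
      fun j => by linarith [recentre_lt (hρ j.1) (h j.1) hab]⟩

theorem ld_hK {C : Ctl n (ZMod p) (ℕ × ℕ)} {θ : Fin n → ℕ × ℕ → ℝ → ℝ}
    (hE : ∀ l, Loc (C.half l (θ l)))
    (hθ : ∀ l j a, θ l j a ≤ max a (1 / 2) ∧ -max a (1 / 2) ≤ θ l j (-a)) (x : C.A)
    (hx : x ∈ C.idF) (h : ∀ l, x ∈ idB (hE l).slab 1) : x ∈ C.idK := by
  obtain ⟨a, ha, S, h1, h2⟩ := C.exists_cube hE hx h
  refine (C.mem_idK x).2 ⟨S, ⟨max a (1 / 2), max_lt ha (by norm_num), fun j y hy => ?_⟩, h1⟩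
  refine (pi_norm_le_iff_of_nonneg (le_trans (by norm_num) (le_max_right _ _))).2 fun l => ?_
  rw [Real.norm_eq_abs, abs_le]
  exact ⟨(hθ l j a).2.trans (h2 j y hy l).1.le, (h2 j y hy l).2.trans (hθ l j a).1⟩

noncomputable def θ0 (l : Fin n) (j : ℕ × ℕ) : ℝ → ℝ := recentre ((Z.L j.1).y0 l) (Z.L j.1).ρ0
noncomputable def θ1 (l : Fin n) (j : ℕ × ℕ) : ℝ → ℝ := recentre ((Z.L j.1).y1 l) (Z.L j.1).R1

theorem loc0 (l : Fin n) : Loc (Z.fine.half l (Z.θ0 l)) :=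
  Z.ld_loc l (fun k => (Z.L k).y0 l) (fun k => (Z.L k).ρ0) (fun k => (Z.L k).ρ0_pos)
    fun k => Z.ld_y0 k l
theorem loc1 (l : Fin n) : Loc (Z.fine.half l (Z.θ1 l)) :=
  Z.ld_loc l (fun k => (Z.L k).y1 l) (fun k => (Z.L k).R1) (fun k => (Z.L k).R1_pos)
    fun k => Z.ld_y1 k l
theorem locC (l : Fin n) : Loc (Z.coarse.half l fun _ a => a) :=
  Z.coarse.loc_half l fun a b hab =>
    ⟨fun _ => (b - a) / 2, Z.coarse.adm_const (by linarith), fun _ => by linarith⟩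
theorem half_eq (l : Fin n) (a : ℝ) (h : 1 / 2 < |a|) :
    Z.fine.half l (Z.θ1 l) a = Z.fine.half l (Z.θ0 l) a := by
  simp only [Ctl.half, θ0, θ1, recentre, if_neg (not_le.2 h)]
theorem hK0 (x : Z.fine.A) (hx : x ∈ Z.fine.idF) (h : ∀ l, x ∈ idB (Z.loc0 l).slab 1) :
    x ∈ Z.fine.idK :=
  ld_hK Z.loc0 (fun l j a => ld_recentre_le (Z.L j.1).ρ0_pos (Z.ld_y0 j.1 l) a) x hx h
theorem hK1 (x : Z.fine.A) (hx : x ∈ Z.fine.idF) (h : ∀ l, x ∈ idB (Z.loc1 l).slab 1) :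
    x ∈ Z.fine.idK :=
  ld_hK Z.loc1 (fun l j a => ld_recentre_le (Z.L j.1).R1_pos (Z.ld_y1 j.1 l) a) x hx h
theorem hKC (x : Z.coarse.A) (hx : x ∈ Z.coarse.idF) (h : ∀ l, x ∈ idB (Z.locC l).slab 1) :
    x ∈ Z.coarse.idK :=
  ld_hK Z.locC (fun _ _ a => ⟨le_max_left _ _, neg_le_neg (le_max_left a _)⟩) x hx h

/-- the character twist -/
noncomputable def τ : Z.fine.A →⋆ₐ[ℂ] Z.fine.A :=
  Z.fine.hom Z.fine (fun c => c + 1)
    (fun T hT r hr => by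
      filter_upwards [hT r hr] with j hj x y hxy
      exact (Z.L j.1).ld_W_shift (hj x y hxy))
    (fun T hT => by
      rw [Ctl.mem_negl] at hT ⊢
      intro r hr
      filter_upwards [hT r hr] with j hj x y hy
      exact funext fun c => congrFun (hj x y hy) (c + 1))

theorem τ_iter (x : Z.fine.A) : Z.τ^[p] x = x := by
  obtain ⟨T, rfl⟩ := Z.fine.cl_surj x
  have key : ∀ m : ℕ, ∃ S : Z.fine.ctrl, Z.τ^[m] (Z.fine.cl T) = Z.fine.cl S ∧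
      ∀ j c, S.1 j c = T.1 j (c + m) := by
    intro m
    induction m with
    | zero => exact ⟨T, rfl, fun j c => by rw [Nat.cast_zero, add_zero]⟩
    | succ m ih =>
      obtain ⟨S, h1, h2⟩ := ih
      rw [Function.iterate_succ_apply', h1]
      refine ⟨_, Ctl.hom_cl _ _ S, fun j c => (h2 j (c + 1)).trans ?_⟩
      rw [Nat.cast_succ, add_assoc, add_comm 1]
  obtain ⟨S, h1, h2⟩ := key p
  rw [h1]
  exact congrArg _ (Z.fine.ext_fam fun j c => by rw [h2, ZMod.natCast_self, add_zero])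

end Setup

end Vale.Agent.P228
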