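import Vale.Agent.P228.SigAlg

/-! Twisting by a locally inner periodic automorphism does not change the signature. -/

set_option linter.unusedSectionVars false
set_option linter.unusedVariables false

namespace Vale.Agent.P228

variable {A : Type*} [Ring A] [StarRing A] [Algebra ℂ A] [StarModule ℂ A] [Base A]
variable {Γ : Type*} [AddCommGroup Γ] (S : Sig A Γ)

/-- nonsingular hermitian form on `p` with inverse `γ` -/
structure Form (p β γ : A) : Prop where
  pD : p ∈ (Base.D : Set A)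
  hs : star β = β
  pβ : p * β = β
  pγ : p * γ = γ
  γp : γ * p = γ
  βγ : β * γ = p
  γβ : γ * β = p

namespace Tw

theorem R {a b c : A} (h : a * b = c) (y : A) : a * (b * y) = c * y := by rw [← mul_assoc, h]

/-- relations between the projection, the flip and the differential of the boundary -/
structure Rel (P J D : A) : Prop where
  PP : P * P = P
  sP : star P = P
  JJ : J * J = P
  sJ : star J = J
  PJ : P * J = J
  JP : J * P = J
  PD : P * D = D
  DP : D * P = D
  DD : D * D = 0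
  JD : J * star D = D * J

theorem form_mul {C : Cx A} (hC : C.OK) :
    C.form * C.bd.φ = ee 0 0 C.d + ee 0 1 C.φ + ee 1 1 (star C.d) := by
  simp [Cx.form, Cx.bd, mul_add, add_mul, ee_mul, hC.φp, hC.dp, hC.toCpx.dual.dp]
  abel

theorem form_eq {C : Cx A} (hC : C.OK) : C.form * C.bd.φ * C.bd.φ = C.form := by
  simp [Cx.form, Cx.bd, mul_add, add_mul, ee_mul, hC.φp, hC.dp, hC.toCpx.dual.dp]
  abel

theorem rel {C : Cx A} (hC : C.OK) : Rel C.bd.p C.bd.φ (C.form * C.bd.φ) := by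
  have pp := hC.toCpx.pp
  have sp := hC.toCpx.star_p
  have cy := congrArg (ee 0 1) hC.cyc
  rw [ee_add, ee_zero] at cy
  refine ⟨?_, ?_, ?_, ?_, ?_, ?_, ?_, ?_, ?_, ?_⟩
  · simp [Cx.bd, mul_add, add_mul, ee_mul, pp]
  · simp [Cx.bd, star_ee, sp]
  · simp [Cx.bd, mul_add, add_mul, ee_mul, pp, add_comm]
  · simp [Cx.bd, star_ee, sp, add_comm]
  · simp [Cx.bd, mul_add, add_mul, ee_mul, pp, add_comm]
  · simp [Cx.bd, mul_add, add_mul, ee_mul, pp, add_comm]
  · rw [form_mul hC]
    simp [Cx.bd, mul_add, add_mul, ee_mul, hC.pd, hC.pφ, hC.toCpx.dual.pd]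
  · rw [form_mul hC]
    simp [Cx.bd, mul_add, add_mul, ee_mul, hC.dp, hC.φp, hC.toCpx.dual.dp, add_assoc]
  · rw [form_mul hC]
    simp [mul_add, add_mul, ee_mul, hC.dd, hC.toCpx.dual.dd, cy]
  · rw [form_eq hC, form_mul hC]
    simp [Cx.bd, Cx.form, mul_add, add_mul, ee_mul, star_ee, hC.pd, hC.pφ, hC.toCpx.dual.pd, hC.φs]
    abel

theorem Rel.inst {P J D k : A} (h : Rel P J D) (hk : D * k + k * D = P) :
    ∃ K : A, P * K = K ∧ K * P = K ∧ K * K = 0 ∧ J * star K = K * J ∧ D * K + K * D = P := by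
  obtain ⟨k, k1, k2, hk⟩ : ∃ k : A, P * k = k ∧ k * P = k ∧ D * k + k * D = P := by
    refine ⟨P * k * P, by simp only [mul_assoc, R h.PP], by simp only [mul_assoc, h.PP], ?_⟩
    have := congrArg (fun x => P * x * P) hk
    simpa only [mul_add, add_mul, mul_assoc, R h.PD, R h.DP, h.PD, h.DP, h.PP] using this
  have k3 : star k * P = star k := by simpa [h.sP] using congrArg star k1
  have PD' : P * star D = star D := by simpa [h.sP] using congrArg star h.DP
  have hk' : star k * star D + star D * star k = P := by simpa [h.sP] using congrArg star hk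
  have JD' : J * D = star D * J := by
    linear_combination (norm := noncomm_ring) -J * h.DP - J * D * h.JJ - J * h.JD * J
      + h.JJ * star D * J + PD' * J
  obtain ⟨g, g1, g2, g3, g4⟩ : ∃ g : A, P * g = g ∧ g * P = g ∧ J * star g = g * J ∧
      D * g + g * D = P := by
    refine ⟨(1 / 2 : ℂ) • (k + J * star k * J), ?_, ?_, ?_, ?_⟩
    · simp only [mul_smul_comm, mul_add, mul_assoc, k1, R h.PJ]
    · simp only [smul_mul_assoc, add_mul, mul_assoc, k2, h.JP]
    · simp [mul_add, add_mul, mul_assoc, h.sJ, R h.JJ, h.JJ, R k1, k3, add_comm]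
    · have : D * (k + J * star k * J) + (k + J * star k * J) * D = (2 : ℂ) • P := by
        rw [two_smul]
        linear_combination (norm := noncomm_ring) hk - h.JD * star k * J + J * star k * JD'
          + J * hk' * J + h.JP * J + h.JJ
      rw [mul_smul_comm, smul_mul_assoc, ← smul_add, this, smul_smul]
      norm_num
  refine ⟨g * D * g, by simp only [mul_assoc, R g1], by simp only [mul_assoc, g2], ?_, ?_, ?_⟩
  · linear_combination (norm := noncomm_ring) g * g4 * g * D * g - g * g * D * g4 * g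
      + g * g * h.DD * g * g + g * g1 * D * g - g * g * h.DP * g
  · rw [star_mul, star_mul]
    linear_combination (norm := noncomm_ring) g3 * star D * star g + g * h.JD * star g
      + g * D * g3
  · linear_combination (norm := noncomm_ring) g4 * D * g - g * h.DD * g + h.PD * g + g * D * g4
      - g * h.DD * g + g * h.DP + g4

theorem sig_ee (i : Fin 4) {x : A} (hx : x ∈ S.K) (hs : star x = x) :
    S.sig (ee i i x) = S.sig x :=
  S.congr_inv (g' := star (Base.s i : A)) hx hs (by rw [Base.s_self, one_mul])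

theorem sig_diag {x y : A} (hx : x ∈ S.K) (hs : star x = x) (hy : y ∈ S.K) (hs' : star y = y) :
    S.sig (ee 0 0 x + ee 1 1 y) = S.sig x + S.sig y := by
  rw [S.add _ (ee_mem _ _ _ hx) _ (ee_mem _ _ _ hy) (by rw [star_ee, hs]) (by rw [star_ee, hs'])
    (ee 0 0 1) (ee_D 0 Base.one_mem) (by simp [ee_mul]) (by simp [ee_mul]), sig_ee S 0 hx hs,
    sig_ee S 1 hy hs']

end Tw

theorem Form.βp {p β γ : A} (h : Form p β γ) : β * p = β := by
  simpa [h.hs, Base.star_eq _ h.pD] using congrArg star h.pβ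

theorem Form.star_γ {p β γ : A} (h : Form p β γ) : star γ = γ := by
  have h1 : star γ * β = p := by simpa [h.hs, Base.star_eq _ h.pD] using congrArg star h.βγ
  have h2 : star γ * p = star γ := by simpa [Base.star_eq _ h.pD] using congrArg star h.pγ
  rw [← h2, ← h.βγ, ← mul_assoc, h1, h.pγ]

theorem Form.map {p β γ : A} (h : Form p β γ) (σ : A →⋆ₐ[ℂ] A) (hp : σ p = p) :
    Form p (σ β) (σ γ) :=
  ⟨h.pD, by rw [← map_star, h.hs], by rw [← hp, ← map_mul, h.pβ], by rw [← hp, ← map_mul, h.pγ],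
    by rw [← hp, ← map_mul, h.γp], by rw [← map_mul, h.βγ, hp], by rw [← map_mul, h.γβ, hp]⟩

open Tw

/-- instant form.  `D = ee 0 0 d + ee 0 1 φ + ee 1 1 d*`, `J = bd.φ`; choose a contraction `K` of
`D` with `J K* J = K`, `K K = 0` (symmetrise, then replace `h` by `h D h`); `β = (D+K) J`,
`γ = J (D+K)`.  The pair `K` is returned so that the statement can be transported. -/
theorem Cx.exists_instant {C : Cx A} (hC : C.OK) (hp : C.Poinc) :
    ∃ K : A, C.bd.p * K = K ∧ K * C.bd.p = K ∧ K * K = 0 ∧ C.bd.φ * star K = K * C.bd.φ ∧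
      C.form * C.bd.φ * K + K * (C.form * C.bd.φ) = C.bd.p := by
  obtain ⟨k, hk⟩ := Cx.bd_ctr hC hp
  refine (rel hC).inst (k := Complex.I • k) ?_
  rw [form_mul hC, mul_smul_comm, smul_mul_assoc, ← hk]
  simp only [Cx.bd, mul_smul_comm, smul_mul_assoc]
/-- Here `C.form * C.bd.φ = D`. -/
theorem Cx.instant_form {C : Cx A} (hC : C.OK) {K : A} (h1 : C.bd.p * K = K) (h2 : K * C.bd.p = K)
    (h3 : K * K = 0) (h4 : C.bd.φ * star K = K * C.bd.φ)
    (h5 : C.form * C.bd.φ * K + K * (C.form * C.bd.φ) = C.bd.p) :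
    Form C.bd.p (C.form + K * C.bd.φ) (C.bd.φ * (C.form * C.bd.φ + K)) := by
  have h := rel hC
  have e := form_eq hC
  obtain ⟨D, hD⟩ : ∃ D, D = C.form * C.bd.φ := ⟨_, rfl⟩
  rw [← hD] at h h5 e ⊢
  have sq : (D + K) * (D + K) = C.bd.p := by
    linear_combination (norm := noncomm_ring) h.DD + h5 + h3
  refine ⟨(hC.bd).pD, by rw [star_add, hC.form_star, star_mul, h.sJ, h4], ?_, ?_, ?_, ?_, ?_⟩
  · rw [← e]
    linear_combination (norm := noncomm_ring) h.PD * C.bd.φ + h1 * C.bd.φ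
  · rw [R h.PJ]
  · linear_combination (norm := noncomm_ring) C.bd.φ * h.DP + C.bd.φ * h2
  · rw [← e]
    linear_combination (norm := noncomm_ring) (D + K) * h.JJ * (D + K) + h.DP * (D + K)
      + h2 * (D + K) + sq
  · rw [← e]
    linear_combination (norm := noncomm_ring) C.bd.φ * sq * C.bd.φ + h.JP * C.bd.φ + h.JJ
/-- With `F = D J`, `G = K J`: `F + G` is mutually congruent to `ee 0 0 F + ee 1 1 G`
(via `g = s 0 D K + s 1 K D`, left inverse `(s 0)* + (s 1)*` ), and `G = K F K*`, `F = D G D*`. -/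
theorem Sig.instant {C : Cx A} (hC : C.OK) (hK : C.p ∈ S.K) {K : A} (h1 : C.bd.p * K = K)
    (h2 : K * C.bd.p = K) (h3 : K * K = 0) (h4 : C.bd.φ * star K = K * C.bd.φ)
    (h5 : C.form * C.bd.φ * K + K * (C.form * C.bd.φ) = C.bd.p) :
    S.sig (C.form + K * C.bd.φ) = 2 • S.sig C.form := by
  have h := rel hC
  have e := form_eq hC
  have sF := hC.form_star
  have mF := hC.form_mem hK
  obtain ⟨D, hD⟩ : ∃ D, D = C.form * C.bd.φ := ⟨_, rfl⟩
  rw [← hD] at h h5 e
  obtain ⟨G, hG⟩ : ∃ G, G = K * C.bd.φ := ⟨_, rfl⟩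
  have sG : star G = G := by rw [hG, star_mul, h.sJ, h4]
  have a1 : D * K * C.form = C.form := by
    rw [← e]
    linear_combination (norm := noncomm_ring) h5 * D * C.bd.φ - K * h.DD * C.bd.φ + h.PD * C.bd.φ
  have a2 : D * K * G = 0 := by
    rw [hG]
    linear_combination (norm := noncomm_ring) D * h3 * C.bd.φ
  have a3 : K * D * C.form = 0 := by
    rw [← e]
    linear_combination (norm := noncomm_ring) K * h.DD * C.bd.φ
  have a4 : K * D * G = G := by
    rw [hG]
    linear_combination (norm := noncomm_ring) K * h5 * C.bd.φ - h3 * D * C.bd.φ + h2 * C.bd.φ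
  have b1 : C.form * star (D * K) = C.form := by simpa only [star_mul, sF] using congrArg star a1
  have b2 : G * star (D * K) = 0 := by
    simpa only [star_mul, sG, star_zero] using congrArg star a2
  have b3 : C.form * star (K * D) = 0 := by
    simpa only [star_mul, sF, star_zero] using congrArg star a3
  have b4 : G * star (K * D) = G := by simpa only [star_mul, sG] using congrArg star a4
  have eG : K * C.form * star K = G := by
    rw [← a4, hG, ← e]
    linear_combination (norm := noncomm_ring) K * D * h4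
  have c1 := S.congr_inv (g := K) (g' := D) mF sF a1
  rw [eG] at c1
  have mG : G ∈ S.K := eG ▸ S.K.mul_mem_right _ _ (S.K.mul_mem_left _ _ mF)
  have c2 := S.congr_inv (g := Base.s 0 * (D * K) + Base.s 1 * (K * D))
    (g' := star (Base.s 0 : A) + star (Base.s 1 : A)) (S.K.add_mem mF mG)
    (by rw [star_add, sF, sG]) (by
      simp only [mul_add, add_mul, R (Base.s_self _), R (Base.s_ne 0 1 (by decide)),
        R (Base.s_ne 1 0 (by decide)), one_mul, zero_mul, a1, a2, a3, a4, add_zero, zero_add])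
  have e2 : (Base.s 0 * (D * K) + Base.s 1 * (K * D)) * (C.form + G) *
      star (Base.s 0 * (D * K) + Base.s 1 * (K * D)) = ee 0 0 C.form + ee 1 1 G := by
    rw [star_add, star_mul (Base.s 0), star_mul (Base.s 1), ee, ee]
    linear_combination (norm := noncomm_ring)
      (Base.s 0 * (a1 + a2) + Base.s 1 * (a3 + a4)) *
        (star (D * K) * star (Base.s 0 : A) + star (K * D) * star (Base.s 1 : A))
      + Base.s 0 * b1 * star (Base.s 0 : A) + Base.s 0 * b3 * star (Base.s 1 : A)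
      + Base.s 1 * b2 * star (Base.s 0 : A) + Base.s 1 * b4 * star (Base.s 1 : A)
  rw [e2, sig_diag S mF sF mG sG, c1] at c2
  rw [← hG, ← c2, two_nsmul]

/-- the difference form -/
def dform (Q β' β γ : A) : A :=
  ee 0 0 (Q * γ * β' * γ * Q) + ee 1 0 (Q * β' * γ * Q) + ee 0 1 (Q * γ * β' * Q) + ee 1 1 (β' - β)

namespace Tw

/-- the full difference form -/
def full (β' β γ : A) : A :=
  ee 0 0 (γ * β' * γ) + ee 1 0 (β' * γ) + ee 0 1 (γ * β') + ee 1 1 (β' - β)

section
variable {p P β β' γ γ' : A}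

theorem full_star (h : Form p β γ) (h' : Form p β' γ') : star (full β' β γ) = full β' β γ := by
  simp only [full, star_add, star_ee, star_mul, star_sub, h.hs, h'.hs, h.star_γ, mul_assoc]
  abel

theorem full_cmp (h : Form p β γ) (h' : Form p β' γ') (hP : P ∈ (Base.D : Set A))
    (he : P * β' = P * β) :
    (ee 0 0 (p - P) + ee 1 1 (p - P)) * full β' β γ * (ee 0 0 (p - P) + ee 1 1 (p - P)) =
      dform (p - P) β' β γ := by
  have he' : β' * P = β * P := by
    simpa [h.hs, h'.hs, Base.star_eq _ hP] using congrArg star he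
  have e : (p - P) * (β' - β) * (p - P) = β' - β := by
    linear_combination (norm := noncomm_ring) (h'.pβ - h.pβ - he) * (p - P) + h'.βp - h.βp - he'
  obtain ⟨Q, hQ⟩ : ∃ Q, Q = p - P := ⟨_, rfl⟩
  rw [← hQ] at e ⊢
  rw [mul_assoc] at e
  simp [full, dform, mul_add, add_mul, ee_mul, mul_assoc, e]
  abel

theorem full_32 (h : Form p β γ) (hP : P ∈ (Base.D : Set A)) (hPp : P * p = P)
    (he : P * β' = P * β) :
    ee 1 1 P * full β' β γ * (ee 0 0 (p - P) + ee 1 1 (p - P)) = 0 := by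
  have e1 : P * (β' * γ) = P := by rw [R he, mul_assoc, h.βγ, hPp]
  have e2 : P * (β' - β) = 0 := by rw [mul_sub, he, sub_self]
  have e3 : P * (p - P) = 0 := by rw [mul_sub, hPp, Base.idem _ hP, sub_self]
  simp [full, mul_add, ee_mul, e1, e2, e3]

end

end Tw

/-- `H = ee 0 0 (γ β' γ) + ee 1 0 (β' γ) + ee 0 1 (γ β') + ee 1 1 (β' - β)` is congruent to
`ee 0 0 β' - ee 1 1 β` via `g = ee 0 0 γ + ee 1 0 p + ee 1 1 p`; reduce it with
`W₁ = ee 0 0 P`, `W₃ = ee 1 1 P`, `W₂ = ee 0 0 Q + ee 1 1 Q`, `N' = ee 0 1 P`, `R = 0`. -/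
theorem Sig.dform {p P β β' γ γ' : A} (h : Form p β γ) (h' : Form p β' γ') (hp : p ∈ S.K)
    (hP : P ∈ (Base.D : Set A)) (hPp : P * p = P) (he : P * β' = P * β) :
    S.sig (dform (p - P) β' β γ) = S.sig β' - S.sig β := by
  have sp := Base.star_eq _ h.pD
  have iP := Base.idem _ hP
  have m : β ∈ S.K := h.pβ ▸ S.K.mul_mem_right _ _ hp
  have m' : β' ∈ S.K := h'.pβ ▸ S.K.mul_mem_right _ _ hp
  have mX := S.K.add_mem (ee_mem _ 0 0 m') (ee_mem _ 1 1 (S.K.neg_mem m))
  have c1 := S.congr_inv (g := ee 0 0 γ + ee 1 0 p + ee 1 1 p)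
    (g' := ee 0 0 β - ee 1 0 β + ee 1 1 p) mX (by simp [star_ee, h.hs, h'.hs]) (by
      simp [mul_add, add_mul, sub_mul, ee_mul, h.βγ, Base.idem _ h.pD, h.pβ, h'.pβ])
  have e : (ee 0 0 γ + ee 1 0 p + ee 1 1 p) * (ee 0 0 β' + ee 1 1 (-β)) *
      star (ee 0 0 γ + ee 1 0 p + ee 1 1 p) = full β' β γ := by
    simp [full, mul_add, add_mul, ee_mul, star_ee, sp, h.star_γ, h.pβ, h'.pβ, h.βp, h'.βp,
      mul_assoc, ee_sub, ee_neg]
    abel
  have mH : full β' β γ ∈ S.K := e ▸ S.K.mul_mem_right _ _ (S.K.mul_mem_left _ _ mX)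
  rw [e, sig_diag S m' h'.hs (S.K.neg_mem m) (by rw [star_neg, h.hs]), S.neg _ m h.hs,
    ← sub_eq_add_neg] at c1
  have hQ := D_sub h.pD hP hPp
  have e1 : P * (β' * γ) = P := by rw [R he, mul_assoc, h.βγ, hPp]
  have e2 : P * (β' - β) = 0 := by rw [mul_sub, he, sub_self]
  have e3 : P * (p - P) = 0 := by rw [mul_sub, hPp, iP, sub_self]
  have e4 : (p - P) * P = 0 := by rw [Base.comm _ hQ _ hP, e3]
  rw [← full_cmp h h' hP he, ← c1]
  refine (S.reduce (W₁ := ee 0 0 P) (W₃ := ee 1 1 P) (N' := ee 0 1 P) (R := 0) mH (full_star h h')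
    (ee_D 0 hP) (D_add (ee_D 0 hQ) (ee_D 1 hQ) (by simp [ee_mul])) (ee_D 1 hP)
    (by simp [mul_add, ee_mul, e3]) (by simp [ee_mul]) (by simp [add_mul, ee_mul, e4]) ?_
    (full_32 h hP hPp he) (by simp [full, mul_add, ee_mul, e2]) (by simp [ee_mul, iP])
    (by simp [ee_mul, iP]) (mul_zero _) (by simp [full, mul_add, ee_mul, e1, e2, iP])
    (zero_mul _)).symm
  have : ee 0 0 P + (ee 0 0 (p - P) + ee 1 1 (p - P)) + ee 1 1 P = ee 0 0 p + ee 1 1 p := by
    simp only [ee_sub]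
    abel
  rw [this]
  simp [full, mul_add, add_mul, mul_sub, ee_mul, mul_assoc, R h.pγ, R h'.pβ, h.pβ, h'.pβ]
/-- the inverse is the `W₂` block of the inverse of `H` -/
theorem Form.dform {p P β β' γ γ' : A} (h : Form p β γ) (h' : Form p β' γ')
    (hP : P ∈ (Base.D : Set A)) (hPp : P * p = P) (he : P * β' = P * β) :
    ∃ γ'', Form (ee 0 0 (p - P) + ee 1 1 (p - P)) (dform (p - P) β' β γ) γ'' := by
  have sp := Base.star_eq _ h.pD
  have sP := Base.star_eq _ hP
  have iP := Base.idem _ hP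
  have hQ := D_sub h.pD hP hPp
  have e3 : P * (p - P) = 0 := by rw [mul_sub, hPp, iP, sub_self]
  have e5 : p * (p - P) = p - P := by
    rw [mul_sub, Base.idem _ h.pD, Base.comm _ h.pD _ hP, hPp]
  have e6 : P * (β * γ' * β - β) = 0 := by
    linear_combination (norm := noncomm_ring) -he * γ' * β + P * h'.βγ * β + P * h.pβ
  obtain ⟨W, hW⟩ : ∃ W, W = ee 0 0 (p - P) + ee 1 1 (p - P) := ⟨_, rfl⟩
  obtain ⟨G, hG⟩ : ∃ G, G = ee 0 0 (β * γ' * β - β) + ee 0 1 p + ee 1 0 p - ee 1 1 γ := ⟨_, rfl⟩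
  have WD : W ∈ (Base.D : Set A) := hW ▸ D_add (ee_D 0 hQ) (ee_D 1 hQ) (by simp [ee_mul])
  have sW := Base.star_eq _ WD
  have iW := Base.idem _ WD
  have sG : star G = G := by
    simp only [hG, star_add, star_sub, star_ee, star_mul, h.hs, sp, h.star_γ, h'.star_γ, mul_assoc]
    abel
  have a1 : full β' β γ * G = ee 0 0 p + ee 1 1 p := by
    simp [full, hG, mul_add, add_mul, mul_sub, sub_mul, ee_mul, mul_assoc, R h.γβ, h.γβ, h.βγ,
      R h'.pγ, R h'.βγ, h.pβ, h.βp, h'.βp, h.γp, ee_sub]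
    abel
  have a2 : W * full β' β γ * ee 1 1 P = 0 := by
    have := congrArg star (full_32 h hP hPp he)
    rw [← hW] at this
    simpa [full_star h h', sW, star_ee, sP, mul_assoc] using this
  have a3 : ee 0 0 P * G * W = 0 := by
    have t : ee 0 0 P * G = ee 0 1 P := by
      simp [hG, mul_add, ee_mul, hPp, mul_sub (ee 0 0 P), e6]
    simp [t, hW, mul_add, ee_mul, e3]
  have a4 : W = ee 0 0 p + ee 1 1 p - ee 0 0 P - ee 1 1 P := by
    simp only [hW, ee_sub]
    abel
  have a5 : (ee 0 0 p + ee 1 1 p) * W = W := by simp [hW, mul_add, add_mul, ee_mul, e5]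
  have a6 : (ee 0 0 p + ee 1 1 p) * G = G := by
    simp [hG, mul_add, add_mul, mul_sub, ee_mul, mul_assoc, R h.pβ, h.pβ, h.pγ, Base.idem _ h.pD]
  have a7 : W * full β' β γ * W * (W * G * W) = W := by
    linear_combination (norm := noncomm_ring) W * full β' β γ * iW * G * W
      + W * full β' β γ * a4 * G * W + W * full β' β γ * a6 * W - W * full β' β γ * a3
      - a2 * G * W + W * a1 * W + W * a5 + iW
  rw [← full_cmp h h' hP he, ← hW]
  refine ⟨W * G * W, WD, by simp [sW, full_star h h', mul_assoc],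
    by simp only [mul_assoc, R iW], by simp only [mul_assoc, R iW], by simp only [mul_assoc, iW],
    a7, ?_⟩
  simpa [sW, sG, full_star h h', mul_assoc] using congrArg star a7

/-- chart on which `τ` is inner -/
structure Inner (τ : A →⋆ₐ[ℂ] A) (E : ℝ → A) (w : A) : Prop where
  loc : Loc E
  u1 : star w * w = 1
  u2 : w * star w = 1
  τw : τ w = w
  cm : ∀ P ∈ (Base.D : Set A), w * P = P * w
  inn : ∀ x, E 1 * τ x * w = w * (E 1 * x)

theorem Tw.iter {τ : A →⋆ₐ[ℂ] A} (hτ : BaseHom τ) (hD : ∀ P ∈ (Base.D : Set A), τ P = P) (a : ℕ) :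
    ∃ σ : A →⋆ₐ[ℂ] A, (∀ x, τ^[a] x = σ x) ∧ BaseHom σ ∧ ∀ P ∈ (Base.D : Set A), σ P = P := by
  have h : ∃ σ : A →⋆ₐ[ℂ] A, ∀ x, τ^[a] x = σ x := by
    induction a with
    | zero => exact ⟨StarAlgHom.id ℂ A, fun _ => rfl⟩
    | succ a ih =>
      obtain ⟨σ, h⟩ := ih
      exact ⟨τ.comp σ, fun x => by rw [Function.iterate_succ_apply', h]; rfl⟩
  obtain ⟨σ, h⟩ := h
  have h1 : ∀ x, τ x = x → σ x = x := fun x hx => by rw [← h, Function.iterate_fixed hx]
  exact ⟨σ, h, ⟨fun P hP => by rwa [h1 P (hD P hP)], fun i => h1 _ (hτ.hs i)⟩,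
    fun P hP => h1 P (hD P hP)⟩

/-- elements killed by all regions below the level one -/
def Tw.out {E : ℝ → A} (h : Loc E) : TwoSidedIdeal A :=
  TwoSidedIdeal.mk' {x | ∀ a : ℝ, a < 1 → E a * x = 0} (fun _ _ => mul_zero _)
    (fun hx hy a ha => by rw [mul_add, hx a ha, hy a ha, add_zero])
    (fun hx a ha => by rw [mul_neg, hx a ha, neg_zero])
    (fun {y x} hx a ha => by
      have h1 := hx ((a + 1) / 2) (by linarith)
      have h2 := h.loc' (a := a) (b := (a + 1) / 2) (by linarith) y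
      linear_combination (norm := noncomm_ring) h2 * x + E a * y * h1)
    (fun hx a ha => by rw [← mul_assoc, hx a ha, zero_mul])

theorem Tw.mem_out {E : ℝ → A} (h : Loc E) (x : A) :
    x ∈ Tw.out h ↔ ∀ a : ℝ, a < 1 → E a * x = 0 := by simp [Tw.out]

/-- induction on the list of charts, generalising the form: all `sig (τ^[a] β)` agree -/
theorem Sig.twist_form {τ : A →⋆ₐ[ℂ] A} (hτ : BaseHom τ) (hD : ∀ P ∈ (Base.D : Set A), τ P = P)
    {m : ℕ} (hm : m ≠ 0) (hτm : ∀ x, τ^[m] x = x) (L : List ((ℝ → A) × A))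
    (hL : ∀ z ∈ L, Inner τ z.1 z.2) (B : TwoSidedIdeal A) (hB : B ≤ S.K)
    (hcov : ∀ x ∈ B, (∀ z ∈ L, ∀ a : ℝ, a < 1 → z.1 a * x = 0) → S.sig x = 0)
    {p β γ : A} (h : Form p β γ) (hp : p ∈ B) (a : ℕ) :
    S.sig (τ^[a + 1] β) = S.sig (τ^[a] β) := by
  have mem : ∀ {B : TwoSidedIdeal A} {p β γ : A}, Form p β γ → p ∈ B → ∀ a, τ^[a] β ∈ B :=
    fun {B p β γ} h hp a => by
      obtain ⟨σ, h1, -, h2⟩ := iter hτ hD a
      rw [h1, ← (h.map σ (h2 p h.pD)).pβ]
      exact B.mul_mem_right _ _ hp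
  induction L generalizing B p β γ a with
  | nil => rw [hcov _ (mem h hp _) (by simp), hcov _ (mem h hp _) (by simp)]
  | cons z L ih =>
    obtain ⟨E, w⟩ := z
    have hz : Inner τ E w := hL _ List.mem_cons_self
    have cm' : ∀ P ∈ (Base.D : Set A), ∀ y, P * (star w * y) = star w * (P * y) := fun P hP y => by
      have : P * star w = star w * P := by
        simpa [Base.star_eq _ hP] using congrArg star (hz.cm P hP)
      rw [← mul_assoc, this, mul_assoc]
    have hτp := h.map τ (hD p h.pD)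
    have h' : Form p (star w * τ β * w) (star w * τ γ * w) := by
      refine ⟨h.pD, by simp [hτp.hs, mul_assoc], ?_, ?_, ?_, ?_, ?_⟩
      · simp only [mul_assoc, cm' p h.pD, R hτp.pβ]
      · simp only [mul_assoc, cm' p h.pD, R hτp.pγ]
      · simp only [mul_assoc, hz.cm p h.pD, R hτp.γp]
      · simp only [mul_assoc, R hz.u2, one_mul, R hτp.βγ, ← hz.cm p h.pD, R hz.u1]
      · simp only [mul_assoc, R hz.u2, one_mul, R hτp.γβ, ← hz.cm p h.pD, R hz.u1]
    have hP : E 1 * p ∈ (Base.D : Set A) := Base.mul_mem _ (hz.loc.1 1) _ h.pD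
    have hPp : E 1 * p * p = E 1 * p := by rw [mul_assoc, Base.idem _ h.pD]
    have he : E 1 * p * (star w * τ β * w) = E 1 * p * β := by
      rw [mul_assoc (E 1), h'.pβ, mul_assoc (E 1), h.pβ, mul_assoc, cm' _ (hz.loc.1 1),
        ← mul_assoc (E 1), hz.inn, R hz.u1, one_mul]
    obtain ⟨γ'', h''⟩ := h.dform h' hP hPp he
    have hQ : p - E 1 * p ∈ B ⊓ out hz.loc := by
      refine (TwoSidedIdeal.mem_inf _).2 ⟨B.sub_mem hp (B.mul_mem_left _ _ hp),
        (mem_out _ _).2 fun a ha => ?_⟩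
      linear_combination (norm := noncomm_ring) hz.loc.loc' ha 1 * p
    have key := fun a => ih (fun z hz => hL z (List.mem_cons_of_mem _ hz)) (B ⊓ out hz.loc)
      (inf_le_left.trans hB) (fun x hx hx' => hcov x ((TwoSidedIdeal.mem_inf _).1 hx).1 fun z hz' =>
        (List.mem_cons.1 hz').elim (fun e => e ▸ (mem_out _ _).1 ((TwoSidedIdeal.mem_inf _).1 hx).2)
          (hx' z)) h'' (TwoSidedIdeal.add_mem _ (ee_mem _ _ _ hQ) (ee_mem _ _ _ hQ)) a
    have val : ∀ a, S.sig (τ^[a] (Vale.Agent.P228.dform (p - E 1 * p) (star w * τ β * w) β γ)) =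
        S.sig (τ^[a + 1] β) - S.sig (τ^[a] β) := fun a => by
      obtain ⟨σ, h1, h2, h3⟩ := iter hτ hD a
      have hw : σ w = w := by rw [← h1, Function.iterate_fixed hz.τw]
      have e : σ (Vale.Agent.P228.dform (p - E 1 * p) (star w * τ β * w) β γ) =
          Vale.Agent.P228.dform (p - E 1 * p) (σ (star w * τ β * w)) (σ β) (σ γ) := by
        simp only [Vale.Agent.P228.dform, map_add, h2.ee, map_mul σ, map_sub σ _ β,
          h3 _ (D_sub h.pD hP hPp)]
      have e2 : σ (star w * τ β * w) = star w * τ^[a + 1] β * star (star w) := by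
        rw [Function.iterate_succ_apply, h1, map_mul, map_mul, map_star, hw, star_star]
      have hs : star (τ^[a + 1] β) = τ^[a + 1] β := by
        rw [Function.iterate_succ_apply, h1, ← map_star, hτp.hs]
      rw [h1, e, S.dform (h.map σ (h3 p h.pD)) (h'.map σ (h3 p h.pD)) (hB hp) hP hPp
        (by rw [← h3 _ hP, ← map_mul, he, map_mul]), e2, h1,
        S.congr_inv (g' := w) (hB (mem h hp _)) hs (by rw [hz.u2, one_mul])]
    simp only [val] at key
    have c1 : ∀ a, S.sig (τ^[a + 1] β) - S.sig (τ^[a] β) = S.sig (τ^[1] β) - S.sig β := fun a => by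
      induction a with
      | zero => rfl
      | succ a ih => rw [key, ih]
    have c2 : ∀ a, S.sig (τ^[a] β) = S.sig β + a • (S.sig (τ^[1] β) - S.sig β) := fun a => by
      induction a with
      | zero => simp
      | succ a ih => rw [succ_nsmul, ← add_assoc, ← ih, ← c1 a, add_sub_cancel]
    have c3 := c2 m
    rw [hτm, left_eq_add] at c3
    rw [← sub_eq_zero, c1, S.tf m _ hm c3]

theorem Sig.twist {τ : A →⋆ₐ[ℂ] A} (hτ : BaseHom τ) (hD : ∀ P ∈ (Base.D : Set A), τ P = P)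
    {m : ℕ} (hm : m ≠ 0) (hτm : ∀ x, τ^[m] x = x) (L : List ((ℝ → A) × A))
    (hL : ∀ z ∈ L, Inner τ z.1 z.2) (B : TwoSidedIdeal A) (hB : B ≤ S.K)
    (hcov : ∀ x ∈ B, (∀ z ∈ L, ∀ a : ℝ, a < 1 → z.1 a * x = 0) → S.sig x = 0)
    {C : Cx A} (hC : C.OK) (hp : C.Poinc) (hCB : C.p ∈ B) :
    S.sig (τ C.form) = S.sig C.form := by
  obtain ⟨K, h1, h2, h3, h4, h5⟩ := Cx.exists_instant hC hp
  have c1 := S.twist_form hτ hD hm hτm L hL B hB hcov (Cx.instant_form hC h1 h2 h3 h4 h5)
    (B.add_mem (ee_mem _ _ _ hCB) (ee_mem _ _ _ hCB)) 0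
  have e1 : (C.map τ).bd.p = τ C.bd.p := by simp only [Cx.bd, Cx.map, map_add, hτ.ee]
  have e2 : (C.map τ).bd.φ = τ C.bd.φ := by simp only [Cx.bd, Cx.map, map_add, hτ.ee]
  have c2 := S.instant (C := C.map τ) (hC.map hτ) (K := τ K)
    (by rw [Cx.map, hD _ hC.pD]; exact hB hCB) (by rw [e1, ← map_mul, h1])
    (by rw [e1, ← map_mul, h2]) (by rw [← map_mul, h3, map_zero])
    (by rw [e2, ← map_star, ← map_mul, h4, map_mul])
    (by rw [e1, e2, Cx.form_map hτ, ← h5]; simp only [map_add, map_mul])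
  rw [e2, Cx.form_map hτ, ← map_mul, ← map_add] at c2
  rw [zero_add, Function.iterate_one, Function.iterate_zero_apply, c2,
    S.instant hC (hB hCB) h1 h2 h3 h4 h5, ← sub_eq_zero, ← smul_sub] at c1
  exact sub_eq_zero.1 (S.tf 2 _ two_ne_zero c1)

end Vale.Agent.P228
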