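import Vale.Agent.P228.LD
import Vale.Agent.P228.Twist

/-! The twist is locally inner near the free centre. -/

set_option linter.unusedSectionVars false

namespace Vale.Agent.P228

open Filter Topology

universe u

variable {p n : ℕ} [Fact p.Prime]

namespace LD

variable (L : LD.{u} p n)

/-- finite net of the free region (total boundedness of bounded sets of `Fin n → ℝ` and `uc`) -/
theorem exists_net {ε : ℝ} (hε : 0 < ε) : ∃ N : List L.Ω, (∀ c ∈ N, ‖L.t c - L.y0‖ ≤ L.ρ0) ∧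
    ∀ w, ‖L.t w - L.y0‖ ≤ L.ρ0 → ∃ c ∈ N, L.ρ w c ≤ ε := by
  obtain ⟨δ, hδ, hu⟩ := L.uc ε hε
  have hb : TotallyBounded (L.e '' {w | ‖L.t w - L.y0‖ ≤ L.ρ0}) := by
    refine (isCompact_closedBall (0 : Fin n → ℝ) 6).totallyBounded.subset ?_
    rintro _ ⟨w, hw, rfl⟩
    refine mem_closedBall_zero_iff.2 (L.prop w ?_)
    have h1 : ‖L.t w - L.y0‖ ≤ L.ρ0 := hw
    linarith [norm_sub_norm_le (L.t w) L.y0, L.y0_le]
  obtain ⟨u, hu1, hu2, hu3⟩ := Metric.finite_approx_of_totallyBounded hb δ hδ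
  obtain ⟨v, hv1, hv2, rfl⟩ := hu2.exists_subset_finite_image_eq hu1
  refine ⟨hv2.toFinset.toList, fun c hc => hv1 (by simpa using hc), fun w hw => ?_⟩
  obtain ⟨_, ⟨c, hc, rfl⟩, h⟩ := Set.mem_iUnion₂.1 (hu3 ⟨w, hw, rfl⟩)
  refine ⟨c, by simpa using hc, hu _ _ ?_⟩
  rw [← dist_eq_norm]
  exact (Metric.mem_ball.1 h).le

/-- orbit neighbourhood of `c` -/
def orbNb (c : L.Ω) (s : ℝ) : Set L.Ω := {w | ∃ h : ℤ, L.ρ w ((L.g ^ h) c) ≤ s * (L.r0 / 8)}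

open Classical in
noncomputable def sheet (c w : L.Ω) : ℤ := if h : w ∈ L.orbNb c 2 then h.choose else 0

/-- uses `free` at `c` -/
theorem sheet_spec {c : L.Ω} (hc : ‖L.t c - L.y0‖ ≤ L.ρ0) {w : L.Ω} {h : ℤ}
    (hw : L.ρ w ((L.g ^ h) c) ≤ 2 * (L.r0 / 8)) : (p : ℤ) ∣ L.sheet c w - h := by
  have h1 : w ∈ L.orbNb c 2 := ⟨h, hw⟩
  have h2 : L.ρ w ((L.g ^ L.sheet c w) c) ≤ 2 * (L.r0 / 8) := by
    rw [sheet, dif_pos h1]
    exact h1.choose_spec
  by_contra h3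
  have h4 := L.free c hc _ h3
  rw [← L.ρ_zpow h, ← Equiv.Perm.mul_apply, ← zpow_add, add_sub_cancel] at h4
  have h5 := L.ρ_tri ((L.g ^ L.sheet c w) c) w ((L.g ^ h) c)
  rw [L.ρ_comm _ w] at h5
  linarith [L.r0_pos]

theorem tw_sep {δ : ℝ} {c : L.Ω} {a b : ℝ} {x y : Pos n} (hx : L.pt δ x ∉ L.orbNb c b)
    (hy : L.pt δ y ∈ L.orbNb c a) : L.W δ x y ((b - a) * (L.r0 / 8)) = ⊥ := by
  refine Submodule.span_eq_bot.2 ?_
  rintro _ ⟨h, H, rfl⟩
  obtain ⟨h', H'⟩ := hy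
  refine (hx ⟨h + h', ?_⟩).elim
  have h1 := L.ρ_tri (L.pt δ x) ((L.g ^ h) (L.pt δ y)) ((L.g ^ (h + h')) c)
  rw [zpow_add, Equiv.Perm.mul_apply, L.ρ_zpow] at h1
  rw [zpow_add, Equiv.Perm.mul_apply]
  linarith

theorem tw_key {δ : ℝ} {c : L.Ω} (hc : ‖L.t c - L.y0‖ ≤ L.ρ0) {x y : Pos n}
    (hx : L.pt δ x ∈ L.orbNb c 1) {f : ZMod p → ℂ} (hf : f ∈ L.W δ x y (L.r0 / 8)) (a : ZMod p) :
    f (a + 1) * chi p (L.sheet c (L.pt δ y)) 1 = chi p (L.sheet c (L.pt δ x)) 1 * f a := by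
  induction hf using Submodule.span_induction with
  | mem f hf =>
    obtain ⟨h, H, rfl⟩ := hf
    obtain ⟨h0, H0⟩ := hx
    have hr := L.r0_pos
    have d1 := L.sheet_spec hc (w := L.pt δ x) (h := h0) (by linarith)
    have d2 := L.sheet_spec hc (w := L.pt δ y) (h := h0 - h) (by
      rw [← L.ρ_zpow h, ← Equiv.Perm.mul_apply _ (L.g ^ (h0 - h)), ← zpow_add, add_sub_cancel]
      have := L.ρ_tri ((L.g ^ h) (L.pt δ y)) (L.pt δ x) ((L.g ^ h0) c)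
      rw [L.ρ_comm _ (L.pt δ x)] at this
      linarith)
    have e : L.sheet c (L.pt δ x) = h + L.sheet c (L.pt δ y)
        + (L.sheet c (L.pt δ x) - h0 - (L.sheet c (L.pt δ y) - (h0 - h))) := by ring
    rw [e, chi_add, chi_of_dvd (dvd_sub d1 d2), mul_one, chi_add, chi_succ, Pi.mul_apply]
    ring
  | zero => simp
  | add f g _ _ hf hg => rw [Pi.add_apply, Pi.add_apply, add_mul, mul_add, hf, hg]
  | smul b f _ hf => rw [Pi.smul_apply, Pi.smul_apply, smul_eq_mul, smul_eq_mul, mul_assoc, hf,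
      mul_left_comm]

end LD

namespace Setup

variable (Z : Setup.{u} p n)

noncomputable def chartE (k : ℕ) (c : (Z.L k).Ω) (s : ℝ) : Z.fine.A :=
  Z.fine.pr fun j => {x | j.1 = k ∧ (Z.L k).pt (Z.δ j) x.1 ∈ (Z.L k).orbNb c s}

noncomputable def chartW (k : ℕ) (c : (Z.L k).Ω) : Z.fine.A :=
  Z.fine.dg fun j x => chi p ((Z.L k).sheet c ((Z.L k).pt (Z.δ j) x.1)) 1

/-- For `inn`: on a row `x` in `orbNb c 1` an entry function `f` lies in the span of `chi h` with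
`ρ (pt x) (g^h (pt y)) ≤ r0/8`, and for each such `h` one has `p ∣ sheet x - h - sheet y`;
prove `f (c+1) * chi (sheet y) 1 = chi (sheet x) 1 * f c` by `Submodule.span_induction`. -/
theorem inner (k : ℕ) {c : (Z.L k).Ω} (hc : ‖(Z.L k).t c - (Z.L k).y0‖ ≤ (Z.L k).ρ0) :
    Inner Z.τ (Z.chartE k c) (Z.chartW k c) := by
  have hr := (Z.L k).r0_pos
  have hu : ∀ h : ℤ, star (chi p h 1) * chi p h 1 = 1 := fun h => by
    have h1 := congrFun (chi_add (p := p) (-h) h) 1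
    rw [neg_add_cancel, chi_of_dvd (dvd_zero _), chi_neg] at h1
    exact h1.symm
  refine ⟨?_, ?_, ?_, rfl, fun P hP => Z.fine.dg_comm _ hP, fun x => ?_⟩
  · refine Z.fine.loc_pr (S := fun s j =>
      {x | j.1 = k ∧ (Z.L k).pt (Z.δ j) x.1 ∈ (Z.L k).orbNb c s}) fun a b hab =>
      ⟨fun _ => (b - a) * ((Z.L k).r0 / 8),
        Z.fine.adm_const (mul_pos (sub_pos.2 hab) (by linarith)),
        Eventually.of_forall fun j x hx y hy => ?_⟩
    obtain ⟨k', i⟩ := j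
    obtain ⟨rfl, hy⟩ := hy
    exact (Z.L k').tw_sep (fun h => hx ⟨rfl, h⟩) hy
  · rw [chartW, Ctl.star_dg, Ctl.dg_mul, ← Z.fine.dg_one]
    exact congrArg _ (funext fun j => funext fun x => hu _)
  · rw [chartW, Ctl.star_dg, Ctl.dg_mul, ← Z.fine.dg_one]
    exact congrArg _ (funext fun j => funext fun x => (mul_comm _ _).trans (hu _))
  · obtain ⟨T, rfl⟩ := Z.fine.cl_surj x
    obtain ⟨T', e1, e2⟩ : ∃ T' : Z.fine.ctrl, Z.τ (Z.fine.cl T) = Z.fine.cl T' ∧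
        ∀ j a, T'.1 j a = T.1 j (a + 1) := ⟨_, Ctl.hom_cl _ _ T, fun _ _ => rfl⟩
    rw [e1, chartE, chartW, Ctl.pr, Ctl.dg, ← map_mul, ← map_mul, ← map_mul, ← map_mul]
    refine Z.fine.cl_eq.2 fun r hr' => ?_
    filter_upwards [T.2 (min r ((Z.L k).r0 / 8)) (lt_min hr' (by linarith))] with j hj x y hy
    funext a
    change (Op.pr {x | j.1 = k ∧ (Z.L k).pt (Z.δ j) x.1 ∈ (Z.L k).orbNb c 1} * T'.1 j a
        * Op.diag (fun x => chi p ((Z.L k).sheet c ((Z.L k).pt (Z.δ j) x.1)) 1)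
      - Op.diag (fun x => chi p ((Z.L k).sheet c ((Z.L k).pt (Z.δ j) x.1)) 1)
        * (Op.pr {x | j.1 = k ∧ (Z.L k).pt (Z.δ j) x.1 ∈ (Z.L k).orbNb c 1} * T.1 j a)).ent x y = 0
    rw [e2, Op.ent_sub, Op.ent_mul_diag, Op.ent_diag_mul, Op.pr, Op.ent_diag_mul, Op.ent_diag_mul]
    by_cases hx : x ∈ {x : Cell n | j.1 = k ∧ (Z.L k).pt (Z.δ j) x.1 ∈ (Z.L k).orbNb c 1}
    · rw [Set.indicator_of_mem hx, Pi.one_apply, one_mul, one_mul, sub_eq_zero]
      have h1 := Z.fine.mono _ _ _ _ _ (min_le_right r _)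
        (hj x y (Or.inr (by linarith [min_le_left r ((Z.L k).r0 / 8)])))
      obtain ⟨k', i⟩ := j
      obtain ⟨rfl, hx⟩ := hx
      exact (Z.L k').tw_key hc hx h1 a
    · rw [Set.indicator_of_notMem hx, zero_mul, zero_mul, zero_mul, mul_zero, sub_self]

theorem tw_cover {α : Type*} (N : List α) (B : α → ℕ × ℕ → Set (Cell n)) {x : Z.fine.A}
    (S : ℕ × ℕ → Set (Cell n)) (hS : Z.fine.pr S * x = x) (hB : ∀ c ∈ N, Z.fine.pr (B c) * x = 0) :
    Z.fine.pr (fun j => {y | y ∈ S j ∧ ∀ c ∈ N, y ∉ B c j}) * x = x := by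
  induction N with
  | nil => simpa using hS
  | cons c N ih =>
    have h1 := ih fun c' hc' => hB c' (List.mem_cons_of_mem _ hc')
    have h2 : Z.fine.pr (fun j => (B c j)ᶜ) * x = x := by
      rw [Ctl.pr_compl, sub_mul, one_mul, hB c List.mem_cons_self, sub_zero]
    have e : (fun j => {y | y ∈ S j ∧ ∀ c' ∈ c :: N, y ∉ B c' j})
        = fun j => {y | y ∈ S j ∧ ∀ c ∈ N, y ∉ B c j} ∩ (B c j)ᶜ := by
      funext j
      ext y
      simp only [List.forall_mem_cons, Set.mem_ofPred_eq, Set.mem_inter_iff, Set.mem_compl_iff]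
      tauto
    rw [e, ← Ctl.pr_mul, mul_assoc, h2, h1]

/-- `Sig.twist` for the signature along `lK k`, the list of charts of a net with `ε = r0/16`, and
the ideal `idF ⊓ ⨅ l, idB _ (1/2)`; covering condition by `exists_cube`, `sigF_empty`. -/
theorem twist_k (k : ℕ) (C : Cx Z.fine.A) (hC : C.OK) (hp : C.Poinc) (hF : C.p ∈ Z.fine.idF)
    (hB : ∀ l, C.p ∈ idB (Z.loc0 l).slab (1 / 2)) :
    Z.fine.sigF 0 (Z.τ C.form) =ᶠ[lK k] Z.fine.sigF 0 C.form := by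
  classical
  have hr := (Z.L k).r0_pos
  obtain ⟨N, hN1, hN2⟩ := (Z.L k).exists_net (ε := 1 / 2 * ((Z.L k).r0 / 8)) (by linarith)
  refine Germ.coe_eq.1 ((Z.fine.sig 0 (lK k) (lK_le k)).twist (τ := Z.τ) (Ctl.baseHom_hom _ _)
    (by rintro _ ⟨S, rfl⟩; rfl) (Fact.out : p.Prime).ne_zero Z.τ_iter
    (N.map fun c => (Z.chartE k c, Z.chartW k c)) ?_
    (Z.fine.idF ⊓ ⨅ l, idB (Z.loc0 l).slab (1 / 2)) ?_ ?_ hC hp ?_)
  · intro z hz
    obtain ⟨c, hc, rfl⟩ := List.mem_map.1 hz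
    exact Z.inner k (hN1 c hc)
  · refine TwoSidedIdeal.le_iff.2 fun x hx => ?_
    obtain ⟨h1, h2⟩ := (TwoSidedIdeal.mem_inf _).1 hx
    refine Z.hK0 x h1 fun l => ?_
    obtain ⟨a, ha, e⟩ := (mem_idB _ _ x).1 ((TwoSidedIdeal.mem_iInf _).1 h2 l)
    exact (mem_idB _ _ x).2 ⟨a, by linarith, e⟩
  · intro x hx h0
    obtain ⟨h1, h2⟩ := (TwoSidedIdeal.mem_inf _).1 hx
    obtain ⟨a, ha, S, e1, e2⟩ := Z.fine.exists_cube Z.loc0 h1 ((TwoSidedIdeal.mem_iInf _).1 h2)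
    have e3 := Z.tw_cover N (fun c j =>
      {x | j.1 = k ∧ (Z.L k).pt (Z.δ j) x.1 ∈ (Z.L k).orbNb c (1 / 2)}) _ e1
      fun c hc => h0 _ (List.mem_map.2 ⟨c, hc, rfl⟩) (1 / 2) (by norm_num)
    have e4 := Z.fine.sigF_empty 0 (x := x) (S := fun j => (S j).filter fun y =>
      ∀ c ∈ N, ¬ (j.1 = k ∧ (Z.L k).pt (Z.δ j) y.1 ∈ (Z.L k).orbNb c (1 / 2)))
      ⟨max a (1 / 2), max_lt (by linarith) (by norm_num), fun j y hy => by
        have hy := (Finset.mem_filter.1 hy).1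
        refine (pi_norm_le_iff_of_nonneg (le_trans (by norm_num) (le_max_right _ _))).2 fun l => ?_
        have b := ld_recentre_le (Z.L j.1).ρ0_pos (Z.ld_y0 j.1 l) a
        rw [Real.norm_eq_abs, abs_le]
        exact ⟨b.2.trans (e2 j y hy l).1.le, (e2 j y hy l).2.trans b.1⟩⟩
      (by
        refine Eq.trans (congrArg (fun S' => Z.fine.pr S' * x) (funext fun j => ?_)) e3
        ext y
        simp only [Finset.coe_filter, Set.mem_ofPred_eq, Finset.mem_coe])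
    refine Germ.coe_eq.2 (eventually_map.2 ?_)
    filter_upwards [eventually_lP.1 e4 k] with i hi
    refine hi (Finset.filter_eq_empty_iff.2 fun y hy hn => ?_)
    obtain ⟨c, hc, h3⟩ := hN2 ((Z.L k).pt (Z.δ (k, i)) y.1) (by
      refine (pi_norm_le_iff_of_nonneg (Z.L k).ρ0_pos.le).2 fun l => ?_
      obtain ⟨b1, b2⟩ := e2 (k, i) y hy l
      have hρ := (Z.L k).ρ0_pos
      have ha0 : 0 ≤ a := by
        by_contra hc
        have := recentre_lt (a := a) (b := -a) hρ (Z.ld_y0 k l) (by linarith)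
        exact absurd (b1.trans_le b2) (not_lt.2 this.le)
      have ha1 : |a| ≤ 1 / 2 := by rw [abs_of_nonneg ha0]; linarith
      have b3 : (Z.L k).y0 l + (Z.L k).ρ0 * -a < (Z.L k).t ((Z.L k).pt (Z.δ (k, i)) y.1) l :=
        (if_pos (by rwa [abs_neg])).symm.trans_lt b1
      have b4 : (Z.L k).t ((Z.L k).pt (Z.δ (k, i)) y.1) l ≤ (Z.L k).y0 l + (Z.L k).ρ0 * a :=
        b2.trans_eq (if_pos ha1)
      rw [Pi.sub_apply, Real.norm_eq_abs, abs_le]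
      constructor <;> nlinarith)
    exact hn c hc ⟨rfl, 0, by simpa using h3⟩
  · exact (TwoSidedIdeal.mem_inf _).2 ⟨hF, (TwoSidedIdeal.mem_iInf _).2 hB⟩

end Setup

end Vale.Agent.P228
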