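import Vale.Agent.P228.LD

/-! The index of the cubical complex in the coarse ring. -/

set_option linter.unusedSectionVars false

namespace Vale.Agent.P228

open Filter Topology

universe u

variable {p n : ℕ} [Fact p.Prime]

theorem wl_pr_emb (f : Cell n → Cell n) (hf hR) (S : Set (Cell n)) :
    Op.pr S * Op.emb f hf hR = Op.emb f hf hR * Op.pr (f ⁻¹' S) := Op.ext fun x y => by
  rw [Op.pr, Op.pr, Op.ent_diag_mul, Op.ent_mul_diag, Op.ent_emb]
  split_ifs with e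
  · subst e; by_cases h : f y ∈ S <;> simp [h]
  · simp

section
variable {κ J : Type} [Fintype κ] (C : Ctl n κ J)

theorem wl_cst_emb (f : Cell n → Cell n) (hf hR) (S : J → Set (Cell n)) :
    C.pr S * C.cst (Op.emb f hf hR) = C.cst (Op.emb f hf hR) * C.pr fun j => f ⁻¹' S j := by
  rw [Ctl.pr, Ctl.pr, Ctl.cst, StarAlgHom.comp_apply, ← map_mul, ← map_mul]
  exact congrArg _ (C.ext_fam fun j c => wl_pr_emb _ hf hR _)

theorem wl_shifts : Shifts fun l : Fin n => C.cst (Op.sh l) where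
  u1 l := by rw [← map_star, ← map_mul, shifts_sh.u1, map_one]
  u2 l := by rw [← map_star, ← map_mul, shifts_sh.u2, map_one]
  cm l l' := by rw [← map_mul, ← map_mul, shifts_sh.cm]
  cs l i := by rw [← C.baseHom_cst.hs, ← map_mul, ← map_mul, shifts_sh.cs]

theorem wl_map : (C0 n).map C.cst =
    St ((List.finRange n).map fun l => C.cst (Op.sh l)) (C.cst (q0 n)) := by
  rw [C0, StJ, St_map C.baseHom_cst, List.map_map]; rfl

theorem wl_q0 (l : Fin n) :
    C.cst (Op.sh l) * C.cst (q0 n) = C.cst (q0 n) * C.cst (Op.sh l) := by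
  rw [← map_mul, ← map_mul, sh_q0]

theorem wl_good : ((C0 n).map C.cst).Good := by
  rw [wl_map]
  exact St_good (wl_shifts C) (C.baseHom_cst.hD _ (Op.pr_D _)) _ fun l _ => wl_q0 C l

theorem wl_mem : C.cst (C0 n).p ∈ C.idF := by
  change ((C0 n).map C.cst).p ∈ _
  rw [wl_map]
  exact St_mem _ (C.label_mem_idF [])

theorem wl_slab (l : Fin n) (a : ℝ) : slab (C.half l fun _ a => a) a =
    C.pr fun j => {x | C.t j x.1 l ≤ a} ∩ {x | C.t j x.1 l ≤ -a}ᶜ := by
  rw [slab, Ctl.half, Ctl.half, ← C.pr_compl, C.pr_mul]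

end

namespace Setup

variable (Z : Setup.{u} p n)

noncomputable def lo (j : ℕ × ℕ) (l : Fin n) : ℤ :=
  ⌊((Z.L j.1).y1 l - (Z.L j.1).R1 / 2) / Z.δ j⌋
noncomputable def hi (j : ℕ × ℕ) (l : Fin n) : ℤ :=
  max (Z.lo j l + 1) ⌊((Z.L j.1).y1 l + (Z.L j.1).R1 / 2) / Z.δ j⌋

noncomputable def Λ (l : Fin n) : Z.coarse.A :=
  Z.coarse.pr fun j => {x | Z.lo j l ≤ x.1 l ∧ x.1 l < Z.hi j l}

theorem shifts : Shifts fun l : Fin n => Z.coarse.cst (Op.sh l) := wl_shifts _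

noncomputable def wlT (j : ℕ × ℕ) (l : Fin n) (m : ℤ) : ℝ :=
  (Z.L j.1).R1⁻¹ * (Z.δ j * m - (Z.L j.1).y1 l)

theorem wl_t (j : ℕ × ℕ) (z : Pos n) (l : Fin n) : Z.coarse.t j z l = Z.wlT j l (z l) := rfl

theorem wl_mono (j : ℕ × ℕ) (l : Fin n) {m m' : ℤ} (h : m ≤ m') : Z.wlT j l m ≤ Z.wlT j l m' := by
  have h1 := (Z.L j.1).R1_pos
  have h2 := Z.δ_pos j
  have h3 : (m : ℝ) ≤ m' := by exact_mod_cast h
  unfold wlT
  gcongr

theorem wl_lt (j : ℕ × ℕ) (l : Fin n) : Z.lo j l < Z.hi j l :=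
  lt_of_lt_of_le (Int.lt_succ _) (le_max_left _ _)

theorem wl_bounds : ∀ᶠ j in lC, ∀ l, -(5 / 8) ≤ Z.wlT j l (Z.lo j l) ∧
    Z.wlT j l (Z.lo j l) ≤ -(1 / 2) ∧ 3 / 8 ≤ Z.wlT j l (Z.hi j l) ∧
    Z.wlT j l (Z.hi j l) ≤ 1 / 2 := by
  refine eventually_lC.2 (Eventually.of_forall fun k => ?_)
  have hR := (Z.L k).R1_pos
  filter_upwards [(Z.hδ k).eventually (ge_mem_nhds (by positivity : 0 < (Z.L k).R1 / 8))]
    with i hi l
  have hd := Z.δ_pos (k, i)
  have fl : ∀ x : ℝ, Z.δ (k, i) * (⌊x / Z.δ (k, i)⌋ : ℤ) ≤ x ∧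
      x ≤ Z.δ (k, i) * (⌊x / Z.δ (k, i)⌋ : ℤ) + Z.δ (k, i) := fun x => by
    have h1 := (le_div_iff₀ hd).1 (Int.floor_le (x / Z.δ (k, i)))
    have h2 := (div_lt_iff₀ hd).1 (Int.lt_floor_add_one (x / Z.δ (k, i)))
    constructor <;> linarith
  have up : ∀ (m : ℤ) (b : ℝ), Z.δ (k, i) * m - (Z.L k).y1 l ≤ (Z.L k).R1 * b →
      Z.wlT (k, i) l m ≤ b := fun m b h => (inv_mul_le_iff₀ hR).2 h
  have dn : ∀ (m : ℤ) (b : ℝ), (Z.L k).R1 * b ≤ Z.δ (k, i) * m - (Z.L k).y1 l →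
      b ≤ Z.wlT (k, i) l m := fun m b h => (le_inv_mul_iff₀ hR).2 h
  obtain ⟨a1, a2⟩ := fl ((Z.L k).y1 l - (Z.L k).R1 / 2)
  obtain ⟨b1, b2⟩ := fl ((Z.L k).y1 l + (Z.L k).R1 / 2)
  refine ⟨dn _ _ ?_, up _ _ ?_, le_trans (dn _ _ ?_) (Z.wl_mono _ l (le_max_right _ _)),
    up _ _ ?_⟩
  · unfold lo; linarith
  · unfold lo; linarith
  · linarith
  · unfold Setup.hi
    rcases max_choice (Z.lo (k, i) l + 1) ⌊((Z.L k).y1 l + (Z.L k).R1 / 2) / Z.δ (k, i)⌋
      with h | h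
    · rw [h]; unfold lo; push_cast; linarith
    · rw [h]; linarith

theorem push_Λ (l : Fin n) : Z.coarse.cst (Op.sh l) * Z.Λ l * star (Z.coarse.cst (Op.sh l)) =
    Z.coarse.pr fun j => {x | Z.lo j l < x.1 l ∧ x.1 l ≤ Z.hi j l} := by
  rw [Λ, Op.sh, Ctl.cst_push]
  congr 1
  funext j
  ext x
  constructor
  · rintro ⟨y, ⟨h1, h2⟩, rfl⟩
    simp only [Set.mem_ofPred_eq, Pi.add_apply, Pi.single_eq_same]
    omega
  · rintro ⟨h1, h2⟩
    refine ⟨(x.1 - Pi.single l 1, x.2), ?_, by simp⟩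
    simp only [Set.mem_ofPred_eq, Pi.sub_apply, Pi.single_eq_same]
    omega
theorem wp_eq (l : Fin n) : wp (Z.coarse.cst (Op.sh l)) (Z.Λ l) =
    Z.coarse.pr fun j => {x | x.1 l = Z.hi j l} := by
  rw [wp, push_Λ, Λ, ← Ctl.pr_compl, Ctl.pr_mul]
  congr 1
  funext j
  ext x
  have := Z.wl_lt j l
  simp only [Set.mem_inter_iff, Set.mem_compl_iff, Set.mem_ofPred_eq]
  omega
theorem wm_eq (l : Fin n) : wm (Z.coarse.cst (Op.sh l)) (Z.Λ l) =
    Z.coarse.pr fun j => {x | x.1 l = Z.lo j l} := by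
  rw [wm, push_Λ, Λ, ← Ctl.pr_compl, Ctl.pr_mul]
  congr 1
  funext j
  ext x
  have := Z.wl_lt j l
  simp only [Set.mem_inter_iff, Set.mem_compl_iff, Set.mem_ofPred_eq]
  omega

/-- eventually `δ ≤ R1/8`, so the walls sit at coarse coordinate within `1/8` of `∓1/2` -/
theorem walls : Walls (fun l : Fin n => Z.coarse.cst (Op.sh l)) Z.Λ
    fun l => fr (Z.locC l) 0 0 1 where
  ΛD l := Ctl.pr_D _ _
  TD l := by rw [push_Λ]; exact Ctl.pr_D _ _
  cs l i := wl_cst_emb Z.coarse _ (Op.cons_inj i) ⟨0, by simp⟩ _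
  cT l l' h := by
    rw [Λ, Op.sh, wl_cst_emb]
    congr 2
    funext j
    ext x
    simp [h]
  hI l := by
    refine (mem_idI (Z.locC l).slab 0 _).2 ⟨1 / 4, by norm_num, ?_⟩
    rw [push_Λ, Λ, wl_slab, Ctl.pr_mul, ← Ctl.pr_compl, Ctl.pr_mul]
    refine Ctl.pr_eq_zero _ ?_
    filter_upwards [Z.wl_bounds] with j hj x _
    obtain ⟨-, b2, b3, -⟩ := hj l
    rintro ⟨⟨h1, h2⟩, h3⟩
    simp only [Set.mem_inter_iff, Set.mem_compl_iff, Set.mem_ofPred_eq, wl_t] at h1 h2 h3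
    rcases le_or_gt (x.1 l) (Z.lo j l) with h | h
    · exact h2 ((Z.wl_mono j l h).trans (by linarith))
    · have h4 : Z.hi j l ≤ x.1 l := by omega
      linarith [Z.wl_mono j l h4]
  hB l := by
    refine (mem_idB (Z.locC l).slab 1 _).2 ⟨3 / 4, by norm_num, ?_⟩
    rw [Λ, wl_slab]
    refine Ctl.pr_mul_of_subset _ ?_
    filter_upwards [Z.wl_bounds] with j hj x _
    obtain ⟨b1, -, -, b4⟩ := hj l
    rintro ⟨h1, h2⟩
    simp only [Set.mem_inter_iff, Set.mem_compl_iff, Set.mem_ofPred_eq, wl_t, not_le]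
    constructor
    · linarith [Z.wl_mono j l h2.le]
    · linarith [Z.wl_mono j l h1]
  hp l := by
    have : (1 - (fr (Z.locC l) 0 0 1).χ) * wp (Z.coarse.cst (Op.sh l)) (Z.Λ l) = 0 := by
      change (1 - (1 - Z.coarse.half l (fun _ a => a) 0)) * _ = 0
      rw [sub_sub_cancel, wp_eq, Ctl.half, Ctl.pr_mul]
      refine Ctl.pr_eq_zero _ ?_
      filter_upwards [Z.wl_bounds] with j hj x _
      obtain ⟨-, -, b3, -⟩ := hj l
      rintro ⟨h1, h2⟩
      simp only [Set.mem_ofPred_eq, wl_t] at h1 h2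
      rw [h2] at h1
      linarith
    rw [this]
    exact TwoSidedIdeal.zero_mem _
  hm l := by
    have : (fr (Z.locC l) 0 0 1).χ * wm (Z.coarse.cst (Op.sh l)) (Z.Λ l) = 0 := by
      change (1 - Z.coarse.half l (fun _ a => a) 0) * _ = 0
      rw [wm_eq, Ctl.half, ← Ctl.pr_compl, Ctl.pr_mul]
      refine Ctl.pr_eq_zero _ ?_
      filter_upwards [Z.wl_bounds] with j hj x _
      obtain ⟨-, b2, -, -⟩ := hj l
      rintro ⟨h1, h2⟩
      simp only [Set.mem_compl_iff, Set.mem_ofPred_eq, wl_t] at h1 h2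
      rw [h2] at h1
      exact h1 (by linarith)
    rw [this]
    exact TwoSidedIdeal.zero_mem _

/-- induction on `J`; at the end a single cell, `sigF_single` -/
theorem pt_aux (J : List (Fin n)) (hJ : J.Nodup) (c : ℕ × ℕ → Pos n)
    (hc : ∀ j l, c j l = Z.lo j l ∨ c j l = Z.hi j l) :
    Pt (Z.coarse.sig 0 lC le_rfl) 1 (fun l : Fin n => Z.coarse.cst (Op.sh l)) Z.Λ J
      (Z.coarse.pr fun j => {x | x.2 = [] ∧ ∀ l, l ∉ J → x.1 l = c j l}) := by
  induction J generalizing c with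
  | nil =>
    have e : ee 0 0 (Z.coarse.pr fun j => {x | x.2 = [] ∧ ∀ l, l ∉ ([] : List (Fin n)) →
        x.1 l = c j l}) = Z.coarse.pr fun j => {((c j, [0]) : Cell n)} := by
      refine (Z.coarse.cst_push _ (Op.cons_inj 0) ⟨0, by simp⟩ _).trans ?_
      congr 1
      funext j
      ext x
      constructor
      · rintro ⟨y, ⟨h1, h2⟩, rfl⟩
        exact Prod.ext (funext fun l => h2 l (by simp)) (by simp [h1])
      · rintro rfl
        exact ⟨(c j, []), ⟨rfl, fun _ _ => rfl⟩, rfl⟩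
    change ((Z.coarse.sigF 0 _ : ℕ × ℕ → ℤ) : Germ lC ℤ) = 1
    rw [e, ← Germ.coe_one]
    refine Germ.coe_eq.2 (Z.coarse.sigF_single 0 (fun j => (c j, [0])) (a := 5 / 8)
      (by norm_num) ?_)
    filter_upwards [Z.wl_bounds] with j hj
    refine (pi_norm_le_iff_of_nonneg (by norm_num)).2 fun l => ?_
    obtain ⟨b1, b2, b3, b4⟩ := hj l
    rw [wl_t, Real.norm_eq_abs, abs_le]
    rcases hc j l with h | h <;> rw [h] <;> constructor <;> linarith
  | cons l J ih =>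
    obtain ⟨hl, hJ'⟩ := List.nodup_cons.1 hJ
    have key : ∀ v : ℕ × ℕ → ℤ, (∀ j, v j = Z.lo j l ∨ v j = Z.hi j l) →
        Pt (Z.coarse.sig 0 lC le_rfl) 1 (fun l : Fin n => Z.coarse.cst (Op.sh l)) Z.Λ J
          ((Z.coarse.pr fun j => {x | x.1 l = v j}) *
            Z.coarse.pr fun j => {x | x.2 = [] ∧ ∀ l', l' ∉ l :: J → x.1 l' = c j l'}) := by
      intro v hv
      have e : (fun j => ({x | x.1 l = v j} : Set (Cell n)) ∩
          {x | x.2 = [] ∧ ∀ l', l' ∉ l :: J → x.1 l' = c j l'}) =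
          fun j => {x | x.2 = [] ∧ ∀ l', l' ∉ J → x.1 l' = Function.update (c j) l (v j) l'} := by
        funext j
        ext x
        constructor
        · rintro ⟨h1, h2, h3⟩
          refine ⟨h2, fun l' h => ?_⟩
          by_cases e : l' = l
          · rw [e, Function.update_self]; exact h1
          · rw [Function.update_of_ne e]; exact h3 l' (by simp [e, h])
        · rintro ⟨h2, h3⟩
          refine ⟨by simpa using h3 l hl, h2, fun l' h => ?_⟩
          simp only [List.mem_cons, not_or] at h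
          rw [h3 l' h.2, Function.update_of_ne h.1]
      rw [Ctl.pr_mul, e]
      refine ih hJ' _ fun j l' => ?_
      by_cases e : l' = l
      · rw [e, Function.update_self]; exact hv j
      · rw [Function.update_of_ne e]; exact hc j l'
    refine ⟨?_, ?_⟩
    · rw [wp_eq]; exact key _ fun j => Or.inr rfl
    · rw [wm_eq]; exact key _ fun j => Or.inl rfl

theorem coarse_good : ((C0 n).map Z.coarse.cst).Good := wl_good _
theorem coarse_mem : Z.coarse.cst (C0 n).p ∈ Z.coarse.idF := wl_mem _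
theorem fine_good : ((C0 n).map Z.fine.cst).Good := wl_good _
theorem fine_mem : Z.fine.cst (C0 n).p ∈ Z.fine.idF := wl_mem _

theorem coarse_val : Val (Z.coarse.sig 0 lC le_rfl)
    ((List.finRange n).map fun l => fr (Z.locC l) 0 0 1) ((C0 n).map Z.coarse.cst)
    ((-2 : ℤ) ^ n • (1 : Germ lC ℤ)) := by
  have hp := Z.pt_aux (List.finRange n) (List.nodup_finRange n) Z.lo fun _ _ => Or.inl rfl
  have e : (Z.coarse.pr fun j => {x | x.2 = [] ∧ ∀ l, l ∉ List.finRange n → x.1 l = Z.lo j l})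
      = Z.coarse.cst (q0 n) := by
    rw [q0, Ctl.cst_pr]
    congr 1
    funext j
    ext x
    simp
  rw [e] at hp
  have := St_val (Z.coarse.sig 0 lC le_rfl) 1 Z.shifts Z.walls
    (fun l => fr_OK _ le_rfl le_rfl one_pos) (List.finRange n) (List.nodup_finRange n)
    (Z.coarse.baseHom_cst.hD _ (Op.pr_D _)) (fun l _ => wl_q0 _ l)
    (Z.coarse.label_mem_idF []) (fun x hx h => Z.hKC x hx fun l => h l (List.mem_finRange l)) hp
  rwa [List.length_finRange, ← q0, ← wl_map] at this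

end Setup

end Vale.Agent.P228
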