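import Vale.Agent.P228.Coarse
import Vale.Agent.P228.Walls
import Vale.Agent.P228.TwData
import Vale.Agent.P228.Abs

/-! The local theorem. -/

namespace Vale.Agent.P228

open Filter Topology

universe u

theorem ld_false {p n : ℕ} [Fact p.Prime] (L : ℕ → LD.{u} p n)
    (hη : Tendsto (fun k => (L k).η) atTop (𝓝 0)) : False := by
  obtain ⟨Z⟩ := exists_gsetup L hη
  have hτ : BaseHom Z.τ := Ctl.baseHom_hom _ _
  have hπ : BaseHom Z.π := Ctl.baseHom_hom _ _
  have key := abs_contra (Z.fine.sig 0 lC lC_le) (Z.coarse.sig 0 lC le_rfl) (List.finRange n)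
    Z.loc0 Z.loc1 Z.locC Z.half_eq (G := Z.fine.idF)
    (fun x hx h => Z.hK0 x hx fun l => h l (List.mem_finRange l))
    (fun x hx h => Z.hK1 x hx fun l => h l (List.mem_finRange l)) (G' := Z.coarse.idF)
    (fun x hx h => Z.hKC x hx fun l => h l (List.mem_finRange l)) hτ
    (by rintro _ ⟨S, rfl⟩; rfl)
    (fun C hC hp hF hB => Germ.coe_eq.2 (Filter.Eventually.filter_mono lC_le
      (eventually_lP.2 fun k => Z.twist_k k C hC hp hF fun l => hB l (List.mem_finRange l))))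
    hπ Z.π_half
    (fun x hx hs h => Germ.coe_eq.2 (Z.π_sig x hx hs fun l => h l (List.mem_finRange l)))
    Z.fine_good Z.fine_mem rfl Z.coarse_good Z.coarse_mem Z.avgData chi_one_ne Z.τ_a Z.π_a
    Z.coarse_val
  have h2 : ((fun _ => (-2 : ℤ) ^ n : ℕ × ℕ → ℤ) : Germ lC ℤ) = ((fun _ => 0 : ℕ × ℕ → ℤ) : Germ lC ℤ) := by
    refine Eq.trans ?_ key
    rw [← Germ.coe_one, ← Germ.coe_smul]
    congr 1
    funext j
    simp
  obtain ⟨j, hj⟩ := (Germ.coe_eq.1 h2).exists
  exact absurd hj (pow_ne_zero _ (by norm_num))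

end Vale.Agent.P228
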