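import Vale.Agent.P228.TD

/-! Every point has a neighbourhood fixed by an open subgroup. -/

set_option linter.unusedSectionVars false

namespace Vale.Agent.P228

open Filter Topology

universe u

variable {p n : ℕ} [Fact p.Prime] {M : Type u} [TopologicalSpace M] [T2Space M]
  [AddAction ℤ_[p] M] [ContinuousVAdd ℤ_[p] M]

def Fix (M : Type u) [AddAction ℤ_[p] M] (c : ℤ_[p]) : Set M := {w | ∀ a, (c * a) +ᵥ w = w}

/-- a chart with values in `Fin n → ℝ`, centred at `x`, whose image contains a large cube -/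
theorem exists_chart [ChartedSpace (EuclideanSpace ℝ (Fin n)) M] (x : M) :
    ∃ φ : OpenPartialHomeomorph M (Fin n → ℝ), x ∈ φ.source ∧ φ x = 0 ∧
      Metric.closedBall 0 10 ⊆ φ.target := by
  let φ := (chartAt (EuclideanSpace ℝ (Fin n)) x).transHomeomorph
    (EuclideanSpace.equiv (Fin n) ℝ).toHomeomorph
  have hs : x ∈ φ.source := mem_chart_source _ x
  obtain ⟨r, hr, hb⟩ := Metric.isOpen_iff.1 φ.open_target _ (φ.map_source hs)
  have h0 : (20 / r : ℝ) ≠ 0 := by positivity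
  refine ⟨φ.transHomeomorph ((Homeomorph.subRight (φ x)).trans (Homeomorph.smulOfNeZero _ h0)),
    hs, ?_, fun w hw => hb ?_⟩
  · change (20 / r) • (φ x - φ x) = 0
    rw [sub_self, smul_zero]
  · change (20 / r)⁻¹ • w + φ x ∈ _
    rw [mem_ball_iff_norm, add_sub_cancel_right, norm_smul, inv_div,
      Real.norm_of_nonneg (by positivity)]
    nlinarith [mem_closedBall_zero_iff.1 hw]

/-- the saturation of a compact set -/
theorem isCompact_sat (c : ℤ_[p]) {K : Set M} (hK : IsCompact K) :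
    IsCompact {w | ∃ a : ℤ_[p], ∃ v ∈ K, w = (c * a) +ᵥ v} := by
  have h : Continuous fun q : ℤ_[p] × M => (c * q.1) +ᵥ q.2 := by fun_prop
  have e : {w | ∃ a : ℤ_[p], ∃ v ∈ K, w = (c * a) +ᵥ v} =
      (fun q : ℤ_[p] × M => (c * q.1) +ᵥ q.2) '' (Set.univ ×ˢ K) := by
    ext w
    constructor
    · rintro ⟨a, v, hv, rfl⟩
      exact ⟨(a, v), ⟨trivial, hv⟩, rfl⟩
    · rintro ⟨q, hq, rfl⟩
      exact ⟨q.1, q.2, hq.2, rfl⟩
  rw [e]
  exact (isCompact_univ.prod hK).image h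

/-- small subgroups move the points of a compact subset of a chart by a small amount -/
theorem lf_tube (φ : OpenPartialHomeomorph M (Fin n → ℝ)) {K : Set M} (hK : IsCompact K)
    (hs : K ⊆ φ.source) {ε : ℝ} (hε : 0 < ε) :
    ∃ k : ℕ, ∀ a : ℤ_[p], ∀ v ∈ K, ((p : ℤ_[p]) ^ k * a) +ᵥ v ∈ φ.source ∧
      ‖φ (((p : ℤ_[p]) ^ k * a) +ᵥ v) - φ v‖ ≤ ε := by
  have h1 : ∀ᶠ g in 𝓝 (0 : ℤ_[p]), ∀ v ∈ K, g +ᵥ v ∈ φ.source ∧ ‖φ (g +ᵥ v) - φ v‖ ≤ ε := by
    refine hK.eventually_forall_of_forall_eventually fun v hv => ?_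
    have h2 : Tendsto (fun q : ℤ_[p] × M => q.1 +ᵥ q.2) (𝓝 (0, v)) (𝓝 v) := by
      simpa using (continuous_vadd (M := ℤ_[p]) (X := M)).tendsto (0, v)
    have h3 : Tendsto (fun q : ℤ_[p] × M => q.2) (𝓝 (0, v)) (𝓝 v) := continuous_snd.tendsto _
    have h4 := φ.continuousAt (hs hv)
    have h5 := ((h4.tendsto.comp h2).sub (h4.tendsto.comp h3)).norm
    rw [sub_self, norm_zero] at h5
    exact (h2.eventually (φ.open_source.mem_nhds (hs hv))).and (h5.eventually_le_const hε)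
  obtain ⟨δ, hδ, h2⟩ := Metric.eventually_nhds_iff.1 h1
  obtain ⟨k, hk⟩ := PadicInt.exists_pow_neg_lt p hδ
  refine ⟨k, fun a => h2 ?_⟩
  rw [dist_zero_right, norm_mul, PadicInt.norm_p_pow]
  exact (mul_le_of_le_one_right (by positivity) a.norm_le_one).trans_lt hk

theorem lf_orb {c : ℤ_[p]} {e : M → Fin n → ℝ} {w : M} {ε : ℝ} (hε : 0 ≤ ε)
    (h : ∀ a : ℤ_[p], ‖e ((c * a) +ᵥ w) - e w‖ ≤ ε) : ‖orb c e w - e w‖ ≤ ε := by
  refine (pi_norm_le_iff_of_nonneg hε).2 fun l => ?_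
  have h1 : ∀ a : ℤ_[p], |e ((c * a) +ᵥ w) l - e w l| ≤ ε := fun a =>
    (norm_le_pi_norm (e ((c * a) +ᵥ w) - e w) l).trans (h a)
  have h2 : ∀ a : ℤ_[p], e ((c * a) +ᵥ w) l ≤ e w l + ε := fun a => by
    linarith [(abs_le.1 (h1 a)).2]
  have h3 : orb c e w l ≤ e w l + ε := ciSup_le h2
  have h4 : e ((c * 0) +ᵥ w) l ≤ orb c e w l :=
    le_ciSup (f := fun a : ℤ_[p] => e ((c * a) +ᵥ w) l) ⟨_, Set.forall_mem_range.2 h2⟩ 0
  rw [mul_zero, zero_vadd] at h4
  rw [Pi.sub_apply, Real.norm_eq_abs, abs_le]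
  constructor <;> linarith

/-- Otherwise for every `k` there is a point near `x` not fixed by `p^k`.  With
`K r = φ.symm '' closedBall 0 r`, for each `j` choose `k` such that `p^k ℤ_p` maps `K 9` into the
source and moves its points by at most `1/(16 (j+1))` (tube lemma); `Ω` is the saturation of `K 8`,
`R = 8`, `y1 = 0`, `R1 = 1/8`, `η = 1/(j+1)`; contradiction with `td_false`. -/
theorem exists_interior_fix [ChartedSpace (EuclideanSpace ℝ (Fin n)) M] (x : M) :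
    ∃ k : ℕ, x ∈ interior (Fix M ((p : ℤ_[p]) ^ k)) := by
  by_contra hcon
  push Not at hcon
  obtain ⟨φ, hs, h0, hb⟩ := exists_chart (n := n) x
  have ht : ∀ z : Fin n → ℝ, ‖z‖ ≤ 9 → z ∈ φ.target := fun z hz =>
    hb (mem_closedBall_zero_iff.2 (by linarith))
  have hK : ∀ r : ℝ, r ≤ 9 → IsCompact (φ.symm '' Metric.closedBall 0 r) := fun r hr =>
    (isCompact_closedBall _ _).image_of_continuousOn
      (φ.continuousOn_symm.mono fun z hz => ht z ((mem_closedBall_zero_iff.1 hz).trans hr))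
  have key : ∀ η : ℝ, 0 < η → η ≤ 1 → ∃ T : TD p n M, T.η = η := by
    intro η hη hη1
    obtain ⟨k, hk⟩ := lf_tube (p := p) φ (hK 9 le_rfl) (by
      rintro _ ⟨z, hz, rfl⟩
      exact φ.map_target (ht z (mem_closedBall_zero_iff.1 hz))) (ε := η * (1 / 8)) (by positivity)
    obtain ⟨c, hc⟩ : ∃ c, c = (p : ℤ_[p]) ^ k := ⟨_, rfl⟩
    have hx := hcon k
    rw [← hc] at hk hx
    let Ω : Set M := {w | ∃ a : ℤ_[p], ∃ v ∈ φ.symm '' Metric.closedBall 0 8, w = (c * a) +ᵥ v}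
    have hΩ : ∀ w ∈ Ω, w ∈ φ.source ∧ ∀ a, ‖φ ((c * a) +ᵥ w) - φ w‖ ≤ η * (1 / 8) := by
      rintro _ ⟨a, _, ⟨z, hz, rfl⟩, rfl⟩
      have hz' := mem_closedBall_zero_iff.1 hz
      obtain ⟨h1, h2⟩ := hk a _ ⟨z, mem_closedBall_zero_iff.2 (by linarith), rfl⟩
      rw [φ.right_inv (ht z (by linarith))] at h2
      refine ⟨h1, fun b => (hk b _ ⟨_, mem_closedBall_zero_iff.2 ?_, φ.left_inv h1⟩).2⟩
      linarith [norm_le_insert' (φ ((c * a) +ᵥ φ.symm z)) z]
    have horb : ∀ w ∈ Ω, ‖orb c φ w - φ w‖ ≤ η * (1 / 8) := fun w hw =>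
      lf_orb (by positivity) (hΩ w hw).2
    have hmem : ∀ z : Fin n → ℝ, ‖z‖ ≤ 8 → φ.symm z ∈ Ω := fun z hz =>
      ⟨0, _, ⟨z, mem_closedBall_zero_iff.2 hz, rfl⟩, by rw [mul_zero, zero_vadd]⟩
    obtain ⟨x0, hx0, hx0'⟩ : ∃ x0 ∈ φ.source ∩ φ ⁻¹' Metric.ball 0 (1 / 4), x0 ∉ Fix M c := by
      by_contra h
      push Not at h
      refine hx (mem_interior_iff_mem_nhds.2 (mem_of_superset
        ((φ.isOpen_inter_preimage Metric.isOpen_ball).mem_nhds ⟨hs, ?_⟩) h))
      rw [Set.mem_preimage, h0]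
      exact Metric.mem_ball_self (by norm_num)
    have hx0n : ‖φ x0‖ < 1 / 4 := mem_ball_zero_iff.1 hx0.2
    refine ⟨{ c := c, Ω := Ω, cpt := isCompact_sat c (hK 8 (by norm_num)), inv := ?_, e := φ
              cont := φ.continuousOn.mono fun w hw => (hΩ w hw).1
              inj := φ.injOn.mono fun w hw => (hΩ w hw).1
              R := 8, R_ge := by norm_num
              surj := fun z hz => ⟨_, hmem z hz, φ.right_inv (ht z (by linarith))⟩
              ext := ?_, prop := ?_, x0 := x0, x0_mem := ?_, x0_le := hx0n.le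
              x0_ne := not_forall.1 hx0', y1 := 0, R1 := 1 / 8, R1_pos := by norm_num
              y1_le := by norm_num, η := η, η_nonneg := hη.le
              c1 := fun w hw _ => horb w hw, c2 := fun w hw _ => horb w hw }, rfl⟩
    · rintro a _ ⟨b, v, hv, rfl⟩
      exact ⟨a + b, v, hv, by rw [mul_add, add_vadd]⟩
    · intro z hz w hw _
      have h1 := (hΩ w hw).2 1
      rw [mul_one] at h1
      have h2 := norm_sub_le (z - φ w + φ (c +ᵥ w)) (φ (c +ᵥ w) - φ w)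
      rw [show z - φ w + φ (c +ᵥ w) - (φ (c +ᵥ w) - φ w) = z by abel] at h2
      linarith
    · intro w hw h
      have h1 := norm_le_insert (orb c φ w) (φ w)
      linarith [horb w hw]
    · have := hmem (φ x0) (by linarith)
      rwa [φ.left_inv hx0.1] at this
  choose T hT using fun j : ℕ => key (1 / ((j : ℝ) + 1)) Nat.one_div_pos_of_nat
    (by rw [div_le_one (by positivity)]; linarith [Nat.cast_nonneg (α := ℝ) j])
  exact td_false T (by simpa only [hT] using tendsto_one_div_add_atTop_nhds_zero_nat)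

end Vale.Agent.P228
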