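import Vale.Agent.P228.LD

/-! Quantitative control of single operators; construction of the chain approximations. -/

set_option linter.unusedSectionVars false

namespace Vale.Agent.P228

open Filter Topology

universe u

variable {p n : ℕ} [Fact p.Prime]

theorem mem_box {δ D : ℝ} (hδ : 0 < δ) (hD : 0 ≤ D) (v : Fin n → ℝ) (x : Pos n) :
    x ∈ Set.Icc (fun l => ⌈(v l - D) / δ⌉) (fun l => ⌊(v l + D) / δ⌋) ↔ ‖rp δ x - v‖ ≤ D := by
  rw [pi_norm_le_iff_of_nonneg hD, Set.mem_Icc, Pi.le_def, Pi.le_def, ← forall_and]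
  refine forall_congr' fun l => ?_
  rw [Int.ceil_le, Int.le_floor, div_le_iff₀ hδ, le_div_iff₀ hδ, Real.norm_eq_abs, abs_le,
    Pi.sub_apply, rp]
  constructor <;> rintro ⟨a, b⟩ <;> constructor <;> linarith

/-- use the box `⌈(δ y - D)/δ⌉ ≤ · ≤ ⌊(δ y + D)/δ⌋` -/
theorem Hull.dist {H c : Op n} (h : Hull H c) {δ D : ℝ} (hδ : 0 < δ) (hD : 0 ≤ D) (y : Cell n)
    (hy : ∀ y' : Cell n, ‖y'.1 - y.1‖ ≤ n → ∀ x, c.ent x y' ≠ 0 → ‖rp δ x.1 - rp δ y.1‖ ≤ D)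
    (x : Cell n) (hx : H.ent x y ≠ 0) : ‖rp δ x.1 - rp δ y.1‖ ≤ D :=
  (mem_box hδ hD _ _).1 (h y _ _ (fun y' h1 x' h2 => (mem_box hδ hD _ _).2 (hy y' h1 x' h2)) x hx)

theorem rp_sub_le {δ R : ℝ} (hδ : 0 < δ) {x y : Pos n} (h : ‖x - y‖ ≤ R) :
    ‖rp δ x - rp δ y‖ ≤ δ * R := by
  have hR : 0 ≤ R := (norm_nonneg _).trans h
  refine (pi_norm_le_iff_of_nonneg (by positivity)).2 fun l => ?_
  have h1 := (norm_le_pi_norm (x - y) l).trans h
  rw [Pi.sub_apply, Int.norm_eq_abs, Int.cast_sub] at h1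
  rw [Pi.sub_apply, rp, rp, ← mul_sub, Real.norm_eq_abs, abs_mul, abs_of_pos hδ]
  exact mul_le_mul_of_nonneg_left h1 hδ.le

namespace LD

variable {L : LD.{u} p n} {δ s s' : ℝ} {h h' : ℤ} {T S : Op n}

theorem t_near {w w' : L.Ω} (H : L.ρ w ((L.g ^ h) w') ≤ s) :
    ‖L.t w'‖ ≤ ‖L.t w‖ + s ∧ ‖L.t w‖ ≤ ‖L.t w'‖ + s := by
  have h1 := (L.t_le _ _).trans H
  rw [L.t_zpow] at h1
  have a := norm_sub_norm_le (L.t w) (L.t w')
  have b := norm_sub_norm_le (L.t w') (L.t w)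
  rw [norm_sub_rev] at b
  constructor <;> linarith

theorem Nr.mono (H : L.Nr δ h s T) (hs : s ≤ s') : L.Nr δ h s' T := fun x y hxy e =>
  (H x y (hxy.imp (fun a => by linarith) (fun a => by linarith)) e).trans hs

theorem Nr.mul (hs : 0 ≤ s) (hs' : 0 ≤ s') (H : L.Nr δ h s T) (H' : L.Nr δ h' s' S) :
    L.Nr δ (h + h') (s + s') (T * S) := by
  intro x z hxz e
  obtain ⟨y, a, b⟩ := Op.ent_mul_ne e
  have key : L.ρ (L.pt δ x.1) ((L.g ^ h) (L.pt δ y.1)) ≤ s ∧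
      L.ρ (L.pt δ y.1) ((L.g ^ h') (L.pt δ z.1)) ≤ s' := by
    rcases hxz with c | c
    · have h1 := H x y (Or.inl (by linarith)) a
      exact ⟨h1, H' y z (Or.inl (by linarith [(t_near h1).1])) b⟩
    · have h1 := H' y z (Or.inr (by linarith)) b
      exact ⟨H x y (Or.inr (by linarith [(t_near h1).2])) a, h1⟩
  have h2 := L.ρ_tri (L.pt δ x.1) ((L.g ^ h) (L.pt δ y.1)) ((L.g ^ (h + h')) (L.pt δ z.1))
  rw [zpow_add, Equiv.Perm.mul_apply, L.ρ_zpow] at h2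
  rw [zpow_add, Equiv.Perm.mul_apply]
  linarith [key.1, key.2]

theorem Nr.star (H : L.Nr δ h s T) : L.Nr δ (-h) s (star T) := by
  intro x y hxy e
  rw [Op.ent_star] at e
  have h1 := H y x hxy.symm (fun h0 => e (by rw [h0, star_zero]))
  rw [← L.ρ_zpow h, ← Equiv.Perm.mul_apply, ← zpow_add, add_neg_cancel, zpow_zero,
    Equiv.Perm.one_apply, L.ρ_comm]
  exact h1

theorem Nr.sub (H : L.Nr δ h s T) (H' : L.Nr δ h s S) : L.Nr δ h s (T - S) := by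
  intro x y hxy e
  rw [Op.ent_sub] at e
  by_cases a : T.ent x y = 0
  · exact H' x y hxy fun b => e (by rw [a, b, sub_zero])
  · exact H x y hxy a

theorem Nr.smul (c : ℂ) (H : L.Nr δ h s T) : L.Nr δ h s (c • T) := fun x y hxy e =>
  H x y hxy fun a => e (by rw [Op.ent_smul, a, mul_zero])

theorem nr_diag (hs : 0 ≤ s) (f : Cell n → ℂ) : L.Nr δ 0 s (Op.diag f) := by
  intro x y _ e
  by_cases a : x = y
  · rw [a, zpow_zero, Equiv.Perm.one_apply, L.ρ_self]; exact hs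
  · exact absurd (by rw [Op.ent_diag, if_neg a]) e

theorem Nr.pow (hs : 0 ≤ s) (H : L.Nr δ 1 s T) (m : ℕ) : L.Nr δ m (m * s) (T ^ m) := by
  induction m with
  | zero =>
    rw [pow_zero, ← Op.diag_one, Nat.cast_zero, Nat.cast_zero, zero_mul]
    exact nr_diag le_rfl _
  | succ m ih =>
    rw [pow_succ, Nat.cast_succ, Nat.cast_succ, add_mul, one_mul]
    exact ih.mul (by positivity) hs H

theorem Nr.shift (H : L.Nr δ h s T) (hs' : 0 ≤ s') (hq : ∀ w, L.ρ ((L.g ^ h) w) w ≤ s') :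
    L.Nr δ 0 (s + s') T := by
  intro x y hxy e
  have h1 := H x y (hxy.imp (fun a => by linarith) (fun a => by linarith)) e
  rw [zpow_zero, Equiv.Perm.one_apply]
  exact (L.ρ_tri _ _ _).trans (add_le_add h1 (hq _))

/-- a point at distance at most one from a point of norm at most six is seen by the section -/
theorem e_pt_of_near (L : LD.{u} p n) {x : Pos n} {v : Fin n → ℝ} (hv : ‖v‖ ≤ 6)
    (hx : ‖rp δ x - v‖ ≤ 1) : L.e (L.pt δ x) = rp δ x :=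
  L.sec_in _ (by linarith [norm_sub_norm_le (rp δ x) v])

theorem near_pt (L : LD.{u} p n) (hs : 0 < s) : ∃ ε > 0, ∀ (δ : ℝ) (x y : Pos n),
    (‖L.t (L.pt δ x)‖ ≤ 1 ∨ ‖L.t (L.pt δ y)‖ ≤ 1) → ‖rp δ x - rp δ y‖ ≤ ε →
      L.ρ (L.pt δ x) (L.pt δ y) ≤ s := by
  obtain ⟨ε, hε, h⟩ := L.uc s hs
  refine ⟨min ε 1, by positivity, fun δ x y hxy hd => h _ _ ?_⟩
  have h1 := hd.trans (min_le_right _ _)
  have key : L.e (L.pt δ x) = rp δ x ∧ L.e (L.pt δ y) = rp δ y := by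
    rcases hxy with a | a
    · exact ⟨(L.pt_region a).1, L.e_pt_of_near (L.pt_region a).2 (by rwa [norm_sub_rev])⟩
    · exact ⟨L.e_pt_of_near (L.pt_region a).2 h1, (L.pt_region a).1⟩
  rw [key.1, key.2]
  exact hd.trans (min_le_left _ _)

theorem mul_le_of_le_div {δ ε R : ℝ} (hδ : 0 < δ) (h : δ ≤ ε / (|R| + 1)) : δ * R ≤ ε := by
  rw [le_div_iff₀ (by positivity)] at h
  nlinarith [le_abs_self R]

theorem nr_const (L : LD.{u} p n) (T : Op n) (hs : 0 < s) :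
    ∃ δ₀ > 0, ∀ δ, 0 < δ → δ ≤ δ₀ → L.Nr δ 0 s T := by
  obtain ⟨R, hR⟩ := T.range
  obtain ⟨ε, hε, h⟩ := L.near_pt hs
  refine ⟨ε / (|R| + 1), by positivity, fun δ h0 h1 x y hxy e => ?_⟩
  rw [zpow_zero, Equiv.Perm.one_apply]
  exact h δ _ _ (hxy.imp (fun a => by linarith) (fun a => by linarith))
    ((rp_sub_le h0 (hR x y e)).trans (mul_le_of_le_div h0 h1))

theorem round_near {δ : ℝ} (hδ : 0 < δ) (v : Fin n → ℝ) :
    ‖rp δ (fun l => round (v l / δ)) - v‖ ≤ δ := by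
  refine (pi_norm_le_iff_of_nonneg hδ.le).2 fun l => ?_
  have h1 := abs_sub_round (v l / δ)
  have e : rp δ (fun l => round (v l / δ)) l - v l = -(δ * (v l / δ - round (v l / δ))) := by
    rw [rp]; field_simp; ring
  rw [Pi.sub_apply, e, norm_neg, Real.norm_eq_abs, abs_mul, abs_of_pos hδ]
  nlinarith

theorem norm_le_of_rp {δ R : ℝ} (hδ : 0 < δ) {x y : Pos n} (h : ‖rp δ x - rp δ y‖ ≤ R) :
    ‖x - y‖ ≤ R / δ := by
  have hR : 0 ≤ R := (norm_nonneg _).trans h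
  refine (pi_norm_le_iff_of_nonneg (by positivity)).2 fun l => ?_
  have h1 := (norm_le_pi_norm _ l).trans h
  rw [Pi.sub_apply, rp, rp, ← mul_sub, Real.norm_eq_abs, abs_mul, abs_of_pos hδ] at h1
  rw [Pi.sub_apply, Int.norm_eq_abs, Int.cast_sub, le_div_iff₀ hδ, mul_comm]
  exact h1

/-- `G z = round (gh (rp δ z) / δ)`; by the hull property nonzero entries `γ x y` satisfy
`‖rp δ x - gh (rp δ y)‖ ≤ ω(δ (n+1)) + δ`; then use `gh_in`, `prop`, `uc`. -/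
theorem exists_gamma_nr (L : LD.{u} p n) (hs : 0 < s) :
    ∃ δ₀ > 0, ∀ δ, 0 < δ → δ ≤ δ₀ → ∃ G γ, IsGamma G γ ∧ L.Nr δ 1 s γ := by
  obtain ⟨ε, hε, huc⟩ := L.uc s hs
  obtain ⟨R, hR⟩ := L.gh_bdd
  have hm : 0 < min ε 1 / 2 := by positivity
  obtain ⟨η, hη, hg⟩ := Metric.uniformContinuous_iff_le.1 L.gh_uc _ hm
  refine ⟨min (min ε 1 / 2) (η / (|(n : ℝ) + 1| + 1)), by positivity, fun δ h0 h1 => ?_⟩
  have hb : ∃ R' : ℝ, ∀ z : Pos n,
      ‖(fun l => round (L.gh (rp δ z) l / δ)) - z‖ ≤ R' := ⟨(δ + R) / δ, fun z =>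
    norm_le_of_rp h0 ((norm_sub_le_norm_sub_add_norm_sub _ (L.gh (rp δ z)) _).trans
      (add_le_add (round_near h0 _) (hR _)))⟩
  obtain ⟨γ, hγ⟩ := exists_gamma _ hb
  refine ⟨_, γ, hγ, fun x y hxy e => ?_⟩
  have hD : 0 ≤ min ε 1 := by positivity
  have h2 : ‖rp δ x.1 - L.gh (rp δ y.1)‖ ≤ min ε 1 := by
    refine (mem_box h0 hD _ _).1 (hγ.hull y _ _ (fun z hz => (mem_box h0 hD _ _).2 ?_) x e)
    have a := round_near h0 (L.gh (rp δ z))
    have b : dist (rp δ z) (rp δ y.1) ≤ η := by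
      rw [dist_eq_norm]
      exact (rp_sub_le h0 hz).trans (mul_le_of_le_div h0 (h1.trans (min_le_right _ _)))
    have c := hg b
    rw [dist_eq_norm] at c
    have d := h1.trans (min_le_left _ _)
    refine (norm_sub_le_norm_sub_add_norm_sub _ (L.gh (rp δ z)) _).trans ?_
    linarith
  have h3 := h2.trans (min_le_right _ _)
  have key : L.e (L.pt δ x.1) = rp δ x.1 ∧ L.gh (rp δ y.1) = L.e (L.g (L.pt δ y.1)) := by
    rcases hxy with a | a
    · have b := L.pt_region (show ‖L.t (L.pt δ x.1)‖ ≤ 1 by linarith)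
      refine ⟨b.1, L.gh_in _ (Or.inr ?_)⟩
      have c := norm_sub_norm_le (L.gh (rp δ y.1)) (rp δ x.1)
      rw [norm_sub_rev] at c
      linarith [b.2]
    · have b := L.pt_region (show ‖L.t (L.pt δ y.1)‖ ≤ 1 by linarith)
      have c : L.gh (rp δ y.1) = L.e (L.g (L.pt δ y.1)) := L.gh_in _ (Or.inl (by linarith [b.2]))
      refine ⟨L.e_pt_of_near ?_ h3, c⟩
      rw [c]
      exact L.prop _ (by rw [L.t_inv]; linarith)
  rw [zpow_one]
  refine huc _ _ ?_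
  rw [key.1, ← key.2]
  exact h2.trans (min_le_left _ _)

/-- column control of homotopies -/
theorem nr_hull (L : LD.{u} p n) {r : ℝ} (hr : 0 < r) :
    ∃ s > 0, ∃ δ₀ > 0, ∀ δ, 0 < δ → δ ≤ δ₀ → ∀ H c : Op n, Hull H c → L.Nr δ 0 s c →
      ∀ x y : Cell n, ‖L.t (L.pt δ y.1)‖ + r ≤ 1 → H.ent x y ≠ 0 →
        L.ρ (L.pt δ x.1) (L.pt δ y.1) ≤ r := by
  obtain ⟨ε, hε, h⟩ := L.near_pt hr
  obtain ⟨ε', hε', h'⟩ := L.near_pt (show 0 < r / 3 by positivity)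
  refine ⟨min (r / 3) (ε / 2), by positivity, min ε' (ε / 2) / (|(n : ℝ)| + 1), by positivity,
    fun δ h0 h1 H c hH hc x y hy e => ?_⟩
  have s1 := min_le_left (r / 3) (ε / 2)
  have s2 := min_le_right (r / 3) (ε / 2)
  refine h δ _ _ (Or.inr (by linarith)) (hH.dist h0 hε.le y (fun y' hy' x' e' => ?_) x e)
  have a := (rp_sub_le h0 hy').trans (mul_le_of_le_div h0 h1)
  have b := h' δ y'.1 y.1 (Or.inr (by linarith)) (a.trans (min_le_left _ _))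
  have b' : ‖L.t (L.pt δ y'.1)‖ ≤ ‖L.t (L.pt δ y.1)‖ + r / 3 :=
    (t_near (h := 0) (by rwa [zpow_zero, Equiv.Perm.one_apply])).2
  have d := hc x' y' (Or.inr (by linarith)) e'
  have d' := (t_near d).2
  rw [zpow_zero, Equiv.Perm.one_apply] at d
  have f := (L.e_le _ _).trans d
  rw [(L.pt_region (show ‖L.t (L.pt δ x'.1)‖ ≤ 1 by linarith)).1,
    (L.pt_region (show ‖L.t (L.pt δ y'.1)‖ ≤ 1 by linarith)).1] at f
  refine (norm_sub_le_norm_sub_add_norm_sub _ (rp δ y'.1) _).trans ?_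
  linarith [a.trans (min_le_right _ _)]

end LD

structure GSetup (p n : ℕ) [Fact p.Prime] extends Setup.{u} p n where
  q : ℕ × ℕ → ℕ
  γ : ℕ × ℕ → Op n
  r : ℕ → ℝ
  r_pos : ∀ i, 0 < r i
  hr : Tendsto r atTop (𝓝 0)
  q_pos : ∀ j, 0 < q j
  q_dvd : ∀ j, p ∣ q j
  q_small : ∀ j w, (L j.1).ρ (((L j.1).g ^ q j) w) w ≤ r j.2
  isγ : ∀ j, ∃ G, IsGamma G (γ j)
  nr : ∀ j, (L j.1).Nr (δ j) 1 (r j.2 / q j) (γ j)

theorem exists_gsetup (L : ℕ → LD.{u} p n) (hη : Tendsto (fun k => (L k).η) atTop (𝓝 0)) :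
    Nonempty (GSetup.{u} p n) := by
  have rpos : ∀ i : ℕ, (0 : ℝ) < 1 / ((i : ℝ) + 1) := fun i => by positivity
  choose q q0 q1 q2 using fun j : ℕ × ℕ => (L j.1).small _ (rpos j.2)
  have hs : ∀ j : ℕ × ℕ, (0 : ℝ) < 1 / ((j.2 : ℝ) + 1) / q j := fun j =>
    div_pos (rpos _) (Nat.cast_pos.2 (q0 j))
  choose d d0 hd using fun j : ℕ × ℕ => (L j.1).exists_gamma_nr (hs j)
  have dpos : ∀ j : ℕ × ℕ, 0 < min (d j) (1 / ((j.2 : ℝ) + 1)) := fun j => lt_min (d0 j) (rpos _)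
  choose G γ h1 h2 using fun j : ℕ × ℕ => hd j _ (dpos j) (min_le_left _ _)
  exact ⟨{
    L := L
    hη := hη
    δ := fun j => min (d j) (1 / ((j.2 : ℝ) + 1))
    δ_pos := dpos
    hδ := fun k => squeeze_zero (fun i => (dpos (k, i)).le) (fun i => min_le_right _ _)
      tendsto_one_div_add_atTop_nhds_zero_nat
    q := q
    γ := γ
    r := fun i => 1 / ((i : ℝ) + 1)
    r_pos := rpos
    hr := tendsto_one_div_add_atTop_nhds_zero_nat
    q_pos := q0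
    q_dvd := q1
    q_small := q2
    isγ := fun j => ⟨G j, h1 j⟩
    nr := h2 }⟩

theorem Setup.fine_htp (Z : Setup.{u} p n) (c H : ℕ × ℕ → Op n) (d e : Op n)
    (hc : ∀ k, ∀ s > 0, ∀ᶠ i in atTop, (Z.L k).Nr (Z.δ (k, i)) 0 s (c (k, i)))
    (hH : ∀ j, Hull (H j) (c j)) (he : ∀ j, c j = d * H j + H j * e) (z : ℕ × ℕ → ℂ)
    (T : Z.fine.ctrl) (hT : ∀ j k, T.1 j k = z j • c j) :
    Htp (Z.fine.cst d) (Z.fine.cst e) (Z.fine.cl T) 0 := by
  refine Z.fine.htp_of_col d e T (fun j _ => z j • H j) (fun r hr => eventually_lP.2 fun k => ?_)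
    fun j k => by rw [hT, he j, smul_add, mul_smul_comm, smul_mul_assoc]
  obtain ⟨s, hs, δ₀, h0, h⟩ := (Z.L k).nr_hull hr
  filter_upwards [hc k s hs, (Z.hδ k).eventually (ge_mem_nhds h0)] with i h1 h2 x y hy
  rw [entF_const, Op.ent_smul]
  by_cases a : (H (k, i)).ent x y = 0
  · rw [a, mul_zero, zero_smul]; exact zero_mem _
  · refine Submodule.smul_mem _ _ (Submodule.subset_span ⟨0, ?_, (chi_of_dvd (dvd_zero _)).symm⟩)
    rw [zpow_zero, Equiv.Perm.one_apply]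
    exact h _ (Z.δ_pos _) h2 _ _ (hH _) h1 x y hy a

end Vale.Agent.P228
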