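import Vale.Agent.P228.LocFix

/-! Newman type theorem: the interior of the fixed set is closed. -/

set_option linter.unusedSectionVars false

namespace Vale.Agent.P228

open Filter Topology

universe u

variable {p n : ℕ} [Fact p.Prime] {M : Type u} [TopologicalSpace M] [T2Space M]
  [AddAction ℤ_[p] M] [ContinuousVAdd ℤ_[p] M]

namespace Newman

/-- The part of the new coordinate which does not depend on the coordinate `l`. -/
noncomputable def cf (u : Fin n → ℝ) (l : Fin n) (v : Fin n → ℝ) : ℝ :=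
  ∑ i ∈ Finset.univ.erase l, (2 * u i * v i + v i ^ 2) + ‖Function.update v l 0‖

theorem cf_update (u : Fin n → ℝ) (l : Fin n) (v : Fin n → ℝ) (a : ℝ) :
    cf u l (Function.update v l a) = cf u l v := by
  unfold cf
  rw [Function.update_idem]
  congr 1
  exact Finset.sum_congr rfl fun i hi => by
    rw [Function.update_of_ne (Finset.ne_of_mem_erase hi)]

theorem continuous_cf (u : Fin n → ℝ) (l : Fin n) : Continuous (cf u l) := by
  unfold cf
  fun_prop

theorem lam_inv (s : ℝ) : (2 * (2 * s + |s|) - |2 * s + abs s|) / 3 = s := by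
  rcases le_total 0 s with h | h
  · rw [abs_of_nonneg h, abs_of_nonneg (by linarith)]
    ring
  · rw [abs_of_nonpos h, abs_of_nonpos (by linarith)]
    ring

theorem inv_lam (t : ℝ) : 2 * ((2 * t - |t|) / 3) + |(2 * t - abs t) / 3| = t := by
  rcases le_total 0 t with h | h
  · rw [abs_of_nonneg h, abs_of_nonneg (by linarith)]
    ring
  · rw [abs_of_nonpos h, abs_of_nonpos (by linarith)]
    ring

/-- The straightening homeomorphism. -/
noncomputable def str (u : Fin n → ℝ) (l : Fin n) (hu : u l ≠ 0) : (Fin n → ℝ) ≃ₜ (Fin n → ℝ) where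
  toFun v := Function.update v l (2 * (u l * v l) + |u l * v l| + cf u l v)
  invFun z := Function.update z l ((2 * (z l - cf u l z) - |z l - cf u l z|) / 3 / u l)
  left_inv v := by
    simp only [Function.update_idem, Function.update_self, cf_update, add_sub_cancel_right]
    rw [lam_inv, mul_div_cancel_left₀ _ hu, Function.update_eq_self]
  right_inv z := by
    simp only [Function.update_idem, Function.update_self, cf_update]
    rw [mul_div_cancel₀ _ hu, inv_lam, sub_add_cancel, Function.update_eq_self]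
  continuous_toFun := by
    have := continuous_cf u l
    fun_prop
  continuous_invFun := by
    have := continuous_cf u l
    fun_prop

theorem str_apply (u : Fin n → ℝ) (l : Fin n) (hu : u l ≠ 0) (v : Fin n → ℝ) :
    str u l hu v = Function.update v l (2 * (u l * v l) + |u l * v l| + cf u l v) := rfl

theorem str_cone (u : Fin n → ℝ) (l : Fin n) (hu : u l ≠ 0) {v : Fin n → ℝ}
    (h1 : 0 ≤ ∑ i, (2 * u i * v i + v i ^ 2)) (h2 : |v l| ≤ |u l|) :
    ‖str u l hu v‖ ≤ str u l hu v l := by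
  have h3 : ‖Function.update v l 0‖ ≤ 2 * (u l * v l) + |u l * v l| + cf u l v := by
    rw [← Finset.add_sum_erase _ _ (Finset.mem_univ l)] at h1
    have h4 : v l ^ 2 ≤ |u l * v l| := by
      rw [abs_mul, ← sq_abs, sq]
      exact mul_le_mul_of_nonneg_right h2 (abs_nonneg _)
    unfold cf
    linarith
  have h5 := (norm_nonneg _).trans h3
  rw [str_apply, Function.update_self]
  refine (pi_norm_le_iff_of_nonneg h5).2 fun i => ?_
  by_cases hi : i = l
  · rw [hi, Function.update_self, Real.norm_of_nonneg h5]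
  · refine le_trans ?_ ((norm_le_pi_norm (Function.update v l 0) i).trans h3)
    rw [Function.update_of_ne hi, Function.update_of_ne hi]

theorem isClosed_fix (c : ℤ_[p]) : IsClosed (Fix M c) := by
  have : Fix M c = ⋂ a : ℤ_[p], {w : M | (c * a) +ᵥ w = w} := by
    ext w
    simp [Fix]
  rw [this]
  exact isClosed_iInter fun a => isClosed_eq (continuous_const_vadd _) continuous_id

theorem tube (c : ℤ_[p]) (φ : OpenPartialHomeomorph M (Fin n → ℝ)) {x : M} (hx : x ∈ φ.source)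
    (h0 : φ x = 0) (hf : x ∈ Fix M c) {W : Set M} (hW : W ∈ 𝓝 x) :
    ∃ r > 0, ∀ z : Fin n → ℝ, ‖z‖ ≤ r → z ∈ φ.target ∧ ∀ a, (c * a) +ᵥ φ.symm z ∈ W := by
  have h1 : ∀ᶠ v in 𝓝 x, ∀ a ∈ (Set.univ : Set ℤ_[p]), (c * a) +ᵥ v ∈ W := by
    refine isCompact_univ.eventually_forall_of_forall_eventually fun a _ => ?_
    have hc : Continuous fun q : M × ℤ_[p] => (c * q.2) +ᵥ q.1 := by fun_prop
    exact hc.continuousAt.preimage_mem_nhds (by rw [hf a]; exact hW)
  have ht : (0 : Fin n → ℝ) ∈ φ.target := h0 ▸ φ.map_source hx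
  have h2 : Tendsto φ.symm (𝓝 0) (𝓝 x) := by
    have := φ.tendsto_symm hx
    rwa [h0] at this
  obtain ⟨r, hr, h3⟩ := Metric.nhds_basis_closedBall.eventually_iff.1
    ((φ.open_target.eventually_mem ht).and (h2.eventually h1))
  exact ⟨r, hr, fun z hz => ⟨(h3 (mem_closedBall_zero_iff.2 hz)).1,
    fun a => (h3 (mem_closedBall_zero_iff.2 hz)).2 a (Set.mem_univ a)⟩⟩

theorem le_norm_clamp {R : ℝ} (hR : 0 ≤ R) {z : Fin n → ℝ} (hz : R < ‖z‖) : R ≤ ‖clamp R z‖ := by
  by_contra h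
  refine hz.not_ge ((pi_norm_le_iff_of_nonneg hR).2 fun i => ?_)
  have h1 := abs_lt.1 ((norm_le_pi_norm (clamp R z) i).trans_lt (not_le.1 h))
  simp only [clamp, lt_max_iff, lt_irrefl, false_or, lt_min_iff, max_lt_iff, min_lt_iff] at h1
  exact abs_le.2 ⟨h1.1.2.le, h1.2.2.le⟩

end Newman

open Newman

/-- Cone coordinates.  Pick `y ∉ N` with `‖y‖ < 1/(n+1)`, minimise `∑ (w i - y i)^2` over the
compact set `N ∩ closedBall 0 3`, minimiser `x'`, `u = x' - y ≠ 0`, `u l ≠ 0`.  For `v = w - x'`: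
`2 ⟨u,v⟩ + |v|² ≥ 0`.  With `λ s = 2 s + |s|` put `Θ w = update v l (λ (u l * v l) + F v)`, where
`F v = ∑_{i ≠ l} (2 u i v i + v i ^ 2) + ‖update v l 0‖` does not depend on `v l`.
The open segment from `y` to `x'` avoids `N`.  Take `r = min 1 |u l|`. -/
theorem exists_cone {N : Set (Fin n → ℝ)} (hN : IsCompact (N ∩ Metric.closedBall 0 3))
    (h0 : (0 : Fin n → ℝ) ∈ N) (hc : (0 : Fin n → ℝ) ∈ closure Nᶜ) :
    ∃ x' ∈ N, x' ∈ closure Nᶜ ∧ ‖x'‖ ≤ 2 ∧ ∃ (Θ : (Fin n → ℝ) ≃ₜ (Fin n → ℝ)) (l : Fin n) (r : ℝ), 0 < r ∧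
      Θ x' = 0 ∧ ∀ w ∈ N, ‖w - x'‖ ≤ r → ‖Θ w‖ ≤ Θ w l := by
  have hn : (0 : ℝ) < 1 / (n + 1) := by positivity
  obtain ⟨y, hy, hy'⟩ := Metric.mem_closure_iff.1 hc _ hn
  rw [dist_comm, dist_zero_right] at hy'
  have hy1 : ‖y‖ ≤ 1 := hy'.le.trans ((div_le_one (by positivity)).2 (by simp))
  obtain ⟨x, ⟨hxN, hx3⟩, hmin⟩ := hN.exists_isMinOn ⟨0, h0, by simp⟩
    (f := fun w => ∑ i, (w i - y i) ^ 2) (by fun_prop)
  have hq : ∑ i, (x i - y i) ^ 2 ≤ 1 := by
    have h1 : ∑ i, (x i - y i) ^ 2 ≤ ∑ i, ((0 : Fin n → ℝ) i - y i) ^ 2 := hmin ⟨h0, by simp⟩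
    have h2 : ∀ i, ((0 : Fin n → ℝ) i - y i) ^ 2 ≤ 1 / (n + 1) := fun i => by
      have h3 : |y i| ≤ ‖y‖ := norm_le_pi_norm y i
      rw [Pi.zero_apply, zero_sub, neg_sq, ← sq_abs]
      nlinarith [abs_nonneg (y i)]
    refine h1.trans ((Finset.sum_le_sum fun i _ => h2 i).trans ?_)
    simp only [Finset.sum_const, Finset.card_univ, Fintype.card_fin, nsmul_eq_mul]
    rw [mul_one_div, div_le_one (by positivity)]
    simp
  have hx2 : ‖x‖ ≤ 2 := (pi_norm_le_iff_of_nonneg zero_le_two).2 fun i => by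
    have h1 : (x i - y i) ^ 2 ≤ 1 := (Finset.single_le_sum (f := fun i => (x i - y i) ^ 2)
      (fun _ _ => sq_nonneg _) (Finset.mem_univ i)).trans hq
    have h2 := abs_le.1 ((sq_le_one_iff_abs_le_one _).1 h1)
    have h3 := abs_le.1 ((norm_le_pi_norm y i).trans hy1)
    exact abs_le.2 ⟨by linarith, by linarith⟩
  obtain ⟨l, hl⟩ : ∃ l, (x - y) l ≠ 0 := by
    by_contra h
    push Not at h
    exact hy ((sub_eq_zero.1 (funext h)) ▸ hxN)
  refine ⟨x, hxN, ?_, hx2, (Homeomorph.subRight x).trans (str (x - y) l hl), l, min 1 |(x - y) l|,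
    lt_min one_pos (abs_pos.2 hl), ?_, fun w hw hwr => ?_⟩
  · have hq0 : 0 < ∑ i, (x i - y i) ^ 2 := Finset.sum_pos' (fun _ _ => sq_nonneg _)
      ⟨l, Finset.mem_univ l, sq_pos_of_ne_zero hl⟩
    have h1 : Tendsto (fun t : ℝ => y + t • (x - y)) (𝓝[<] 1) (𝓝 x) := by
      have h2 : Continuous fun t : ℝ => y + t • (x - y) := by fun_prop
      have h3 := h2.tendsto 1
      simp only [one_smul, add_sub_cancel] at h3
      exact h3.mono_left nhdsWithin_le_nhds
    refine mem_closure_of_tendsto h1 ?_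
    filter_upwards [Ioo_mem_nhdsLT zero_lt_one] with t ht hN'
    have h4 : ‖y + t • (x - y)‖ ≤ 3 := by
      have h5 : y + t • (x - y) = (1 - t) • y + t • x := by module
      rw [h5]
      refine (norm_add_le _ _).trans ?_
      rw [norm_smul, norm_smul, Real.norm_of_nonneg (sub_pos.2 ht.2).le,
        Real.norm_of_nonneg ht.1.le]
      nlinarith [ht.1, ht.2]
    have h6 : ∑ i, (x i - y i) ^ 2 ≤ ∑ i, ((y + t • (x - y)) i - y i) ^ 2 :=
      hmin ⟨hN', mem_closedBall_zero_iff.2 h4⟩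
    simp only [Pi.add_apply, Pi.smul_apply, Pi.sub_apply, smul_eq_mul, add_sub_cancel_left,
      mul_pow, ← Finset.mul_sum] at h6
    have h7 : t ^ 2 < 1 := by nlinarith [ht.1, ht.2]
    nlinarith
  · change str (x - y) l hl (x - x) = 0
    rw [sub_self, str_apply]
    simp [cf]
  · change ‖str (x - y) l hl (w - x)‖ ≤ str (x - y) l hl (w - x) l
    refine str_cone _ l hl ?_ (((norm_le_pi_norm (w - x) l).trans hwr).trans (min_le_right _ _))
    have h1 : ‖w‖ ≤ 3 := by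
      have := norm_le_insert' w x
      have := hwr.trans (min_le_left _ _)
      linarith
    have h2 : ∑ i, (x i - y i) ^ 2 ≤ ∑ i, (w i - y i) ^ 2 := hmin ⟨hw, mem_closedBall_zero_iff.2 h1⟩
    rw [← sub_nonneg, ← Finset.sum_sub_distrib] at h2
    refine h2.trans_eq (Finset.sum_congr rfl fun i _ => ?_)
    simp only [Pi.sub_apply]
    ring

/-- a chart at a fixed point of the frontier in which the complement of the interior of the fixed
set lies in the cone -/
theorem exists_cone_chart [ChartedSpace (EuclideanSpace ℝ (Fin n)) M] {U : Set M} (hU : IsOpen U)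
    {x : M} (hx : x ∈ closure U) (hx' : x ∉ U) :
    ∃ (φ : OpenPartialHomeomorph M (Fin n → ℝ)) (x' : M) (l : Fin n), x' ∈ φ.source ∧ φ x' = 0 ∧
      x' ∈ closure U ∧ x' ∉ U ∧ ∀ w ∈ φ.source, w ∉ U → ‖φ w‖ ≤ φ w l := by
  obtain ⟨φ, hs, h0, hb⟩ := exists_chart (n := n) x
  have hb3 : Metric.closedBall (0 : Fin n → ℝ) 3 ⊆ φ.target :=
    (Metric.closedBall_subset_closedBall (by norm_num)).trans hb
  obtain ⟨z, hz, hzc, -, Θ, l, r, hr, hΘ, hcone⟩ := exists_cone (N := φ.target ∩ φ.symm ⁻¹' Uᶜ)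
    (by
      have h1 : φ.target ∩ φ.symm ⁻¹' Uᶜ ∩ Metric.closedBall 0 3 =
          Metric.closedBall 0 3 ∩ φ.symm ⁻¹' Uᶜ :=
        Set.ext fun w => ⟨fun h => ⟨h.2, h.1.2⟩, fun h => ⟨⟨hb3 h.1, h.2⟩, h.1⟩⟩
      rw [h1]
      exact (isCompact_closedBall _ _).of_isClosed_subset
        ((φ.continuousOn_symm.mono hb3).preimage_isClosed_of_isClosed Metric.isClosed_closedBall
          hU.isClosed_compl) Set.inter_subset_left)
    ⟨h0 ▸ φ.map_source hs, by rw [Set.mem_preimage, ← h0, φ.left_inv hs]; exact hx'⟩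
    (by
      have h1 := (φ.continuousAt hs).continuousWithinAt.mem_closure_image
        (φ.open_source.inter_closure ⟨hs, hx⟩)
      rw [h0] at h1
      refine closure_mono ?_ h1
      rintro _ ⟨w, hw, rfl⟩ h
      exact h.2 (by rw [φ.left_inv hw.1]; exact hw.2))
  have ho : IsOpen (φ.source ∩ φ ⁻¹' Metric.ball z r) :=
    φ.isOpen_inter_preimage Metric.isOpen_ball
  refine ⟨(φ.restrOpen _ ho).transHomeomorph Θ, φ.symm z, l, ⟨φ.map_target hz.1,
    φ.map_target hz.1, ?_⟩, ?_, ?_, hz.2, fun w hw hwU => ?_⟩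
  · rw [Set.mem_preimage, φ.right_inv hz.1]
    exact Metric.mem_ball_self hr
  · change Θ (φ (φ.symm z)) = 0
    rw [φ.right_inv hz.1, hΘ]
  · have h1 := (φ.continuousAt_symm hz.1).continuousWithinAt.mem_closure_image
      (φ.open_target.inter_closure ⟨hz.1, hzc⟩)
    refine closure_mono ?_ h1
    rintro _ ⟨w, hw, rfl⟩
    by_contra h
    exact hw.2 ⟨hw.1, h⟩
  · have h1 : w ∈ φ.source := hw.1
    exact hcone (φ w) ⟨φ.map_source h1, by rw [Set.mem_preimage, φ.left_inv h1]; exact hwU⟩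
      (mem_ball_iff_norm.1 hw.2.2).le

/-- In a cone chart at `x'` (a fixed point, since `Fix` is closed) choose `r₁` such that the
saturation `Ω` of `φ.symm '' closedBall 0 r₁` lies in the source, then `r₂ ≤ r₁/7` such that the
saturation of `φ.symm '' closedBall 0 (7 r₂)` lies in `{‖φ‖ < r₁}`.  Use `e = r₂⁻¹ • φ`,
`R = r₁ / r₂`, `y1 = -(1/4) e_l`, `R1 = 1/16`, `η = 0`, constant sequence in `td_false`.
Points outside `U = interior Fix` have their orbits outside `U`, hence in the cone; `orb = e` on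
`U`.  For `ext`: if `w ∉ U` then `e w l = R`, `z l ≥ R` and `e (c w) l > 7`. -/
theorem isClosed_interior_fix [ChartedSpace (EuclideanSpace ℝ (Fin n)) M] (c : ℤ_[p]) :
    IsClosed (interior (Fix M c)) := by
  set U := interior (Fix M c) with hU
  by_contra hcl
  obtain ⟨x₁, hx₁, hx₁'⟩ : ∃ x ∈ closure U, x ∉ U := by
    by_contra h
    push Not at h
    exact hcl (isClosed_of_closure_subset h)
  obtain ⟨φ, x, l, hs, h0, hxc, hxU, hcone⟩ := exists_cone_chart (n := n) isOpen_interior hx₁ hx₁'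
  have hf : x ∈ Fix M c := closure_minimal interior_subset (isClosed_fix c) hxc
  have hnb : ∀ r > 0, φ.source ∩ φ ⁻¹' Metric.ball 0 r ∈ 𝓝 x := fun r hr =>
    (φ.isOpen_inter_preimage Metric.isOpen_ball).mem_nhds
      ⟨hs, by rw [Set.mem_preimage, h0]; exact Metric.mem_ball_self hr⟩
  obtain ⟨r₁, hr₁, h₁⟩ := tube c φ hs h0 hf (φ.open_source.mem_nhds hs)
  obtain ⟨r₃, hr₃, h₃⟩ := tube c φ hs h0 hf (hnb r₁ hr₁)
  obtain ⟨r₂, hr₂, ha, hb⟩ : ∃ r₂ > 0, 7 * r₂ ≤ r₁ ∧ 7 * r₂ ≤ r₃ :=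
    ⟨min r₁ r₃ / 7, by positivity, by linarith [min_le_left r₁ r₃],
      by linarith [min_le_right r₁ r₃]⟩
  let Ω : Set M := {w | ∃ a : ℤ_[p], ∃ v ∈ φ.symm '' Metric.closedBall 0 r₁, w = (c * a) +ᵥ v}
  let e : M → Fin n → ℝ := fun w => r₂⁻¹ • φ w
  have hΩ : IsCompact Ω := isCompact_sat c ((isCompact_closedBall _ _).image_of_continuousOn
    (φ.continuousOn_symm.mono fun z hz => (h₁ z (mem_closedBall_zero_iff.1 hz)).1))
  have hΩs : Ω ⊆ φ.source := by
    rintro _ ⟨a, _, ⟨z, hz, rfl⟩, rfl⟩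
    exact (h₁ z (mem_closedBall_zero_iff.1 hz)).2 a
  have hinv : ∀ a, ∀ w ∈ Ω, (c * a) +ᵥ w ∈ Ω := by
    rintro a _ ⟨b, v, hv, rfl⟩
    exact ⟨a + b, v, hv, by rw [mul_add, add_vadd]⟩
  have hmem : ∀ z : Fin n → ℝ, ‖z‖ ≤ r₁ → φ.symm z ∈ Ω := fun z hz =>
    ⟨0, _, ⟨z, mem_closedBall_zero_iff.2 hz, rfl⟩, by rw [mul_zero, zero_vadd]⟩
  have hcont : ContinuousOn e Ω := (φ.continuousOn.mono hΩs).const_smul r₂⁻¹
  have hne : ∀ w, ‖e w‖ = ‖φ w‖ / r₂ := fun w => by
    rw [norm_smul, norm_inv, Real.norm_of_nonneg hr₂.le, div_eq_inv_mul]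
  have hce : ∀ w ∈ Ω, w ∉ U → ‖e w‖ ≤ e w l := fun w hw hwU => by
    rw [hne, div_eq_inv_mul]
    exact mul_le_mul_of_nonneg_left (hcone w (hΩs hw) hwU) (inv_pos.2 hr₂).le
  have horbU : ∀ w ∈ U, orb c e w = e w := fun w hw => by
    funext i
    have : ∀ a, (c * a) +ᵥ w = w := interior_subset hw
    simp only [orb, this, ciSup_const]
  have horb : ∀ w ∈ Ω, e w l ≤ orb c e w l := fun w hw => by
    obtain ⟨B, hB⟩ := hΩ.exists_bound_of_continuousOn hcont
    have h1 : BddAbove (Set.range fun a : ℤ_[p] => e ((c * a) +ᵥ w) l) := by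
      refine ⟨B, ?_⟩
      rintro _ ⟨a, rfl⟩
      exact (le_abs_self _).trans ((norm_le_pi_norm _ l).trans (hB _ (hinv a w hw)))
    have h2 := le_ciSup h1 0
    rwa [mul_zero, zero_vadd] at h2
  have hR : 7 ≤ r₁ / r₂ := (le_div_iff₀ hr₂).2 ha
  have hback : ∀ w : M, (c * -1) +ᵥ (c +ᵥ w) = w := fun w => by
    rw [← add_vadd, mul_neg_one, neg_add_cancel, zero_vadd]
  obtain ⟨x0, hx0, hx0'⟩ : ∃ x0 ∈ φ.source ∩ φ ⁻¹' Metric.ball 0 (r₂ / 4), x0 ∉ Fix M c := by
    by_contra h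
    push Not at h
    exact hxU (mem_interior_iff_mem_nhds.2 (mem_of_superset (hnb _ (by positivity)) h))
  have hx0n : ‖φ x0‖ < r₂ / 4 := mem_ball_zero_iff.1 hx0.2
  have hy : ∀ v : Fin n → ℝ, 0 ≤ v l → ¬ ‖v - Pi.single l (-(1 / 4))‖ ≤ 2 * (1 / 16) := by
    intro v hv h
    have h1 := (le_abs_self _).trans ((norm_le_pi_norm _ l).trans h)
    simp only [Pi.sub_apply, Pi.single_eq_same] at h1
    linarith
  refine td_false (fun _ => (
    { c := c, Ω := Ω, cpt := hΩ, inv := hinv, e := e, cont := hcont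
      inj := fun w hw w' hw' h =>
        φ.injOn (hΩs hw) (hΩs hw') (smul_right_injective _ (inv_pos.2 hr₂).ne' h)
      R := r₁ / r₂, R_ge := hR, surj := ?_, ext := ?_, prop := ?_, x0 := x0, x0_mem := ?_
      x0_le := ?_, x0_ne := not_forall.1 hx0', y1 := Pi.single l (-(1 / 4)), R1 := 1 / 16
      R1_pos := by norm_num, y1_le := ?_, η := 0, η_nonneg := le_rfl, c1 := ?_, c2 := ?_ } :
      TD p n M)) tendsto_const_nhds
  · intro z hz
    have h1 : ‖r₂ • z‖ ≤ r₁ := by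
      rw [norm_smul, Real.norm_of_nonneg hr₂.le, mul_comm]
      exact (le_div_iff₀ hr₂).1 hz
    refine ⟨_, hmem _ h1, ?_⟩
    simp only [e]
    rw [φ.right_inv (h₁ _ h1).1, smul_smul, inv_mul_cancel₀ hr₂.ne', one_smul]
  · intro z hz w hw hew
    by_cases hwU : w ∈ U
    · have h1 : c * 1 +ᵥ w = w := interior_subset hwU 1
      rw [mul_one] at h1
      rw [h1, sub_add_cancel]
      linarith
    have h1 : r₁ / r₂ ≤ ‖e w‖ := hew ▸ le_norm_clamp (by linarith) hz
    have h2 : r₁ / r₂ ≤ max (-(r₁ / r₂)) (min (r₁ / r₂) (z l)) := by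
      have := h1.trans (hce w hw hwU)
      rwa [hew] at this
    have h3 : e w l ≤ z l := by
      rw [hew]
      rcases le_max_iff.1 h2 with h | h
      · linarith
      · exact max_le (by linarith [le_min_iff.1 h]) (min_le_right _ _)
    have hcw : c +ᵥ w ∈ Ω := by simpa using hinv 1 w hw
    have hcU : c +ᵥ w ∉ U := fun h => by
      have h4 : (c * -1) +ᵥ (c +ᵥ w) = c +ᵥ w := interior_subset h (-1)
      rw [hback] at h4
      exact hwU (h4 ▸ h)
    have h5 : 7 < ‖e (c +ᵥ w)‖ := by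
      by_contra h
      rw [not_lt, hne, div_le_iff₀ hr₂] at h
      have h6 := ((h₃ _ (h.trans hb)).2 (-1)).2
      rw [φ.left_inv (hΩs hcw), hback] at h6
      rw [hne] at h1
      exact (div_lt_div_of_pos_right (mem_ball_zero_iff.1 h6) hr₂).not_ge h1
    refine lt_of_lt_of_le ?_
      ((le_abs_self _).trans (norm_le_pi_norm (z - e w + e (c +ᵥ w)) l))
    have := hce _ hcw hcU
    simp only [Pi.add_apply, Pi.sub_apply]
    linarith
  · intro w hw h
    by_cases hwU : w ∈ U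
    · rw [horbU w hwU] at h
      linarith
    · have h1 := (le_abs_self _).trans ((norm_le_pi_norm _ l).trans h)
      linarith [hce w hw hwU, horb w hw]
  · have := hmem (φ x0) (by linarith)
    rwa [φ.left_inv hx0.1] at this
  · rw [hne, div_le_iff₀ hr₂]
    linarith
  · rw [Pi.norm_single]
    norm_num
  · intro w hw h
    by_cases hwU : w ∈ U
    · simp [horbU w hwU]
    · exact absurd h (hy _ (((norm_nonneg _).trans (hce w hw hwU)).trans (horb w hw)))
  · intro w hw h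
    by_cases hwU : w ∈ U
    · simp [horbU w hwU]
    · exact absurd h (hy _ ((norm_nonneg _).trans (hce w hw hwU)))

theorem hilbert_smith [ChartedSpace (EuclideanSpace ℝ (Fin n)) M] [ConnectedSpace M] :
    ¬ FaithfulVAdd ℤ_[p] M := by
  intro hf
  obtain ⟨x⟩ : Nonempty M := inferInstance
  obtain ⟨k, hk⟩ := exists_interior_fix (p := p) (n := n) x
  have hu := IsClopen.eq_univ ⟨isClosed_interior_fix (n := n) ((p : ℤ_[p]) ^ k), isOpen_interior⟩
    ⟨x, hk⟩
  have : ((p : ℤ_[p]) ^ k * 1) = 0 := FaithfulVAdd.eq_of_vadd_eq_vadd (P := M) fun w => by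
    have hw : w ∈ Fix M ((p : ℤ_[p]) ^ k) := interior_subset (hu ▸ Set.mem_univ w)
    rw [hw 1, zero_vadd]
  rw [mul_one] at this
  exact pow_ne_zero k (Nat.cast_ne_zero.2 (Fact.out : p.Prime).ne_zero) this

end Vale.Agent.P228
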