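import Vale.Agent.P228.Step

/-! Null-cobordisms, part A: compression along a slab. -/

set_option linter.unusedSectionVars false

namespace Vale.Agent.P228

variable {A : Type*} [Ring A] [StarRing A] [Algebra ℂ A] [StarModule ℂ A] [Base A]

section
variable {I G : TwoSidedIdeal A} {C T : Cx A} {pF pG : A}

theorem NullData.cpxF (h : NullData I G C T pF pG) : Cpx pF (pF * T.d * pF) := by
  have FF := Base.idem _ h.FD
  refine ⟨h.FD, ?_, ?_, ?_⟩
  · rw [← mul_assoc, ← mul_assoc, FF]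
  · rw [mul_assoc, FF]
  · rw [← h.sub]
    calc _ = T.d * (pF * T.d * pF) := by noncomm_ring
      _ = 0 := by rw [← h.sub, ← mul_assoc, h.ok.dd, zero_mul]
theorem NullData.cpxG (h : NullData I G C T pF pG) : Cpx pG (pG * T.d * pG) :=
  h.ok.toCpx.cmp h.GD h.quo
/-- block `(F,G)` of `T.d φ + φ T.d* = 0` -/
theorem NullData.rel (h : NullData I G C T pF pG) :
    pF * T.d * pF * (pF * T.φ * pG) + pF * T.φ * pG * star (pG * T.d * pG) = 0 := by
  have FF := Base.idem _ h.FD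
  have GG := Base.idem _ h.GD
  have e1 : star (pG * T.d * pG) = star T.d * pG := by
    rw [← h.quo, star_mul, Base.star_eq _ h.GD]
  have e2 : pG * (star T.d * pG) = star T.d * pG := by
    rw [← e1]
    exact h.cpxG.dual.pd
  rw [e1]
  calc _ = pF * T.d * (pF * pF * T.φ * pG) + pF * T.φ * (pG * (star T.d * pG)) := by noncomm_ring
    _ = pF * (T.d * T.φ + T.φ * star T.d) * pG := by rw [FF, ← h.φG, e2]; noncomm_ring
    _ = 0 := by rw [h.ok.cyc]; simp
theorem NullData.cpx_cone (h : NullData I G C T pF pG) :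
    Cpx (pF + pG) (pF * T.d * pF + pF * T.φ * pG + star (pG * T.d * pG)) :=
  Cpx.ext h.cpxF h.cpxG.dual h.FG (by rw [← mul_assoc, ← mul_assoc, Base.idem _ h.FD])
    (by rw [mul_assoc, Base.idem _ h.GD]) h.rel

end

private theorem na_orth {p q x y : A} (ho : p * q = 0) (hx : x * p = x) (hy : q * y = y) :
    x * y = 0 := by
  rw [← hx, ← hy, mul_assoc, ← mul_assoc p, ho, zero_mul, mul_zero]

private theorem na_far {M : ℝ → A} (hM : Loc M) {s t : ℝ} (hst : s < t) {P y : A}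
    (hP : P ∈ (Base.D : Set A)) (h1 : M s * P = P) (h2 : M t * y = 0) (d : A) :
    P * d * y = 0 := by
  have e1 : P * M s = P := by rw [Base.comm _ hP _ (hM.1 s), h1]
  have e2 : (1 - M t) * y = y := by rw [sub_mul, one_mul, h2, sub_zero]
  calc _ = P * M s * d * ((1 - M t) * y) := by rw [e1, e2]
    _ = P * (M s * d * (1 - M t)) * y := by noncomm_ring
    _ = 0 := by rw [hM.loc' hst]; simp

private theorem na_in {p P d : A} (h1 : P * p = P) (h1' : p * P = P)
    (h2 : P * (p * d * p) = P * (p * d * p) * P) : P * d * (p - P) = 0 := by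
  have e1 : P * (p * d * p) = P * d * p := by rw [← mul_assoc, ← mul_assoc, h1]
  rw [e1, mul_assoc (P * d), h1'] at h2
  rw [mul_sub, h2, sub_self]

/-- From `hf.geo` get `r < r₁` with `M r₁ (p - P) = 0` and `a₁ < a` with `M a₁ P = P`; shrink `r₁`
below `a` and enlarge `a₁` above `r₁`.  Cut `F` between `r < r₂ < r₃ < r₁` (projection `PF`) and `G`
between `a₁ < a₂ < a₃ < a` (projection `PG`); the new data are `T.cmp (PF + P + PG)`, `PF`, `PG`. -/
theorem NullData.cmp {G : TwoSidedIdeal A} {C T : Cx A} {pF pG P : A} {f : Frame A} (hf : f.OK)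
    (hC : C.OK) (hP : f.Slab C P) (h : NullData ⊥ G C T pF pG) :
    ∃ T' pF' pG', NullData f.I (G ⊓ f.B) (C.cmp P) T' pF' pG' := by
  obtain ⟨M, r, a, hM, hra, hI, hB⟩ := hf.geo
  obtain ⟨r₁, hr₁, i1⟩ := (hI _).1 hP.inI
  obtain ⟨a₁, ha₁, i2⟩ := (hB _).1 hP.inB
  obtain ⟨r₃, l1, l2⟩ := exists_between (lt_min hr₁ hra)
  obtain ⟨r₂, l3, l4⟩ := exists_between l1
  obtain ⟨l5, l6⟩ := lt_min_iff.1 l2
  obtain ⟨a₂, l7, l8⟩ := exists_between (max_lt ha₁ l6)
  obtain ⟨a₃, l9, l10⟩ := exists_between l8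
  obtain ⟨l11, l12⟩ := max_lt_iff.1 l7
  obtain ⟨F, hF, f1, f2, f3, f4⟩ := h.cutF M hM _ _ l4
  obtain ⟨Q, hQ, g1, g2, g3, g4⟩ := h.cutG M hM _ _ l9
  have cm := Base.comm (A := A)
  have hp := hC.pD
  have hPD := hP.PD
  have p1 := hP.Pp
  have f1' : pF * F = F := by rw [cm _ h.FD _ hF, f1]
  have g1' : pG * Q = Q := by rw [cm _ h.GD _ hQ, g1]
  have p1' : C.p * P = P := by rw [cm _ hp _ hPD, p1]
  have FF := Base.idem _ h.FD
  have GG := Base.idem _ h.GD
  have pp := Base.idem _ hp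
  have Fp := h.Fp
  have Gp := h.Gp
  have FG := h.FG
  have pF' : C.p * pF = 0 := by rw [cm _ hp _ h.FD, Fp]
  have pG' : C.p * pG = 0 := by rw [cm _ hp _ h.GD, Gp]
  have GF : pG * pF = 0 := by rw [cm _ h.GD _ h.FD, FG]
  have FP : F * P = 0 := na_orth Fp f1 p1'
  have FQ : F * Q = 0 := na_orth FG f1 g1'
  have PQ : P * Q = 0 := na_orth pG' p1 g1'
  have QP : Q * P = 0 := na_orth Gp g1 p1'
  have hW : F + P + Q ∈ (Base.D : Set A) :=
    D_add (D_add hF hPD FP) hQ (by rw [add_mul, FQ, PQ, add_zero])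
  obtain ⟨W, eW⟩ : ∃ W, W = F + P + Q := ⟨_, rfl⟩
  have WpF : W * pF = F := by
    rw [eW, add_mul, add_mul, f1, na_orth pF' p1 FF, na_orth GF g1 FF, add_zero, add_zero]
  have Wp : W * C.p = P := by
    rw [eW, add_mul, add_mul, p1, na_orth Fp f1 pp, na_orth Gp g1 pp, add_zero, zero_add]
  have WpG : W * pG = Q := by
    rw [eW, add_mul, add_mul, g1, na_orth FG f1 GG, na_orth pG' p1 GG, add_zero, zero_add]
  rw [← eW] at hW
  have WF : W * F = F := by rw [← f1', ← mul_assoc, WpF, f1', Base.idem _ hF]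
  have WP : W * P = P := by rw [← p1', ← mul_assoc, Wp, p1', Base.idem _ hPD]
  have WQ : W * Q = Q := by rw [← g1', ← mul_assoc, WpG, g1', Base.idem _ hQ]
  have FW : F * W = F := by rw [cm _ hF _ hW, WF]
  have PW : P * W = P := by rw [cm _ hPD _ hW, WP]
  have QW : Q * W = Q := by rw [cm _ hQ _ hW, WQ]
  have pGW : pG * W = Q := by rw [cm _ h.GD _ hW, WpG]
  have Wt : W * T.p = W := by rw [h.tp, mul_add, mul_add, WpF, Wp, WpG, eW]
  have et : T.p - W = (pF - F) + (C.p - P) + (pG - Q) := by rw [h.tp, eW]; abel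
  have sF : pF * (pF - F) = pF - F := by rw [mul_sub, FF, f1']
  have sp : C.p * (C.p - P) = C.p - P := by rw [mul_sub, pp, p1']
  have Qd : Q * T.d * pG = Q * T.d := by
    rw [← g1, mul_assoc Q pG, mul_assoc Q, ← h.quo]
  have dF : ∀ x, pF * x = x → pF * (T.d * x) = T.d * x := by
    intro x hx
    rw [← hx, ← mul_assoc T.d, ← mul_assoc, ← mul_assoc, ← h.sub]
  have Wd : W * T.d = W * T.d * W := by
    have e : W * T.d * (T.p - W) = 0 := by
      rw [et]
      conv_lhs => rw [eW]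
      simp only [add_mul, mul_add]
      rw [na_in f1 f1' f2, na_far hM l5 hF f4 i1, na_far hM l12 hF f4 g3,
        na_in p1 p1' (by rw [h.md]; exact hP.Pd), na_far hM l11 hPD i2 g3,
        na_in g1 g1' g2, na_orth GF Qd sF, na_orth Gp Qd sp, mul_assoc,
        na_orth pF' p1 (dF _ sF)]
      simp
    rw [mul_sub, mul_assoc W T.d T.p, h.ok.dp, sub_eq_zero] at e
    exact e
  have iF : pF - F ∈ f.I := (hI _).2 ⟨_, l3, f3⟩
  have iG : pG - Q ∈ f.I := (hI _).2 ⟨_, l1.trans l12, g3⟩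
  have cc : ∀ {X Y : A} (x : A), X * W = X → W * Y = Y → X * (W * x * W) * Y = X * x * Y := by
    intro X Y x h1 h2
    calc _ = X * W * x * (W * Y) := by noncomm_ring
      _ = _ := by rw [h1, h2]
  have cc' : ∀ {X Y p q : A} (x : A), X * p = X → q * Y = Y → X * (p * x * q) * Y = X * x * Y := by
    intro X Y p q x h1 h2
    calc _ = X * p * x * (q * Y) := by noncomm_ring
      _ = _ := by rw [h1, h2]
  refine ⟨T.cmp W, F, Q, h.ok.cmp hW Wd, hF, hQ, FP, QP, FQ, eW, ?_, ?_, ?_, ?_, ?_, ?_, ?_, ?_,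
    ?_, ?_⟩ <;> simp only [Cx.cmp]
  · refine (TwoSidedIdeal.mem_inf _).2 ⟨?_, (hB _).2 ⟨a₃, l10, ?_⟩⟩
    · rw [← Wt]
      exact G.mul_mem_left _ _ h.inG
    · have u1 : M a₃ * F = F := by rw [← f4, ← mul_assoc, hM.mono (l12.trans l9).le]
      have u2 : M a₃ * P = P := by rw [← i2, ← mul_assoc, hM.mono (l11.trans l9).le]
      rw [eW, mul_add, mul_add, u1, u2, g4]
  · rw [cc _ FW WF, mul_assoc, WF, mul_assoc, ← dF _ f1', ← mul_assoc, WpF, mul_assoc]
  · rw [cc _ QW WQ, ← mul_assoc, ← mul_assoc, QW, ← Qd, mul_assoc, pGW, Qd]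
  · rw [cc _ PW WP, ← h.md, cc' _ p1 p1']
  · rw [cc _ PW WP, ← h.mφ, cc' _ p1 p1']
  · have e : T.φ * Q = pF * (T.φ * Q) := by
      rw [← g1', ← mul_assoc, ← mul_assoc, ← mul_assoc, ← h.φG]
    rw [cc _ FW WQ, mul_assoc, WQ, mul_assoc, e, ← mul_assoc, WpF, mul_assoc]
  · refine CtrI.cmp h.ok.toCpx hW Wt ?_ ((ctrI_bot.1 h.ctr).ctrI _)
    rw [et]
    exact f.I.add_mem (f.I.add_mem iF hP.inI) iG
  · have u1 : (F + Q) * pF = F := by rw [add_mul, f1, na_orth GF g1 FF, add_zero]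
    have u2 : (F + Q) * pG = Q := by rw [add_mul, g1, na_orth FG f1 GG, zero_add]
    have hFQ := D_add hF hQ FQ
    have u3 : pF * (F + Q) = F := by rw [cm _ h.FD _ hFQ, u1]
    have u4 : pG * (F + Q) = Q := by rw [cm _ h.GD _ hFQ, u2]
    have H := CtrI.cmp (I := f.I) h.cpx_cone hFQ (by rw [mul_add, u1, u2])
      (by rw [add_sub_add_comm]; exact f.I.add_mem iF iG) ((ctrI_bot.1 h.cone).ctrI _)
    have e : (F + Q) * (pF * T.d * pF + pF * T.φ * pG + star (pG * T.d * pG)) * (F + Q) =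
        F * T.d * F + F * T.φ * Q + star (Q * T.d * Q) := by
      simp only [star_mul, Base.star_eq _ h.GD, Base.star_eq _ hQ]
      calc _ = (F + Q) * pF * T.d * (pF * (F + Q)) + (F + Q) * pF * T.φ * (pG * (F + Q)) +
            (F + Q) * pG * star T.d * (pG * (F + Q)) := by noncomm_ring
        _ = _ := by rw [u1, u2, u3, u4]; noncomm_ring
    rw [cc _ FW WF, cc _ FW WQ, cc _ QW WQ, ← e]
    exact H
  · have H := h.cutF.cmp h.cpxF hF f1 f2
    rwa [cc _ FW WF, ← cc' _ f1 f1']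
  · have H := h.cutG.cmp h.cpxG hQ g1 g2
    rwa [cc _ QW WQ, ← cc' _ g1 g1']

end Vale.Agent.P228
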