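import Vale.Agent.P228.NullA

/-! Null-cobordisms, part B: boundary and sign change. -/

set_option linter.unusedSectionVars false

namespace Vale.Agent.P228

variable {A : Type*} [Ring A] [StarRing A] [Algebra ℂ A] [StarModule ℂ A] [Base A]

/-- the four-slot complex built from `T` (slots `2,0,1,3`) -/
noncomputable def Cx.four (T : Cx A) : Cx A :=
  ⟨ee 2 2 T.p + ee 0 0 T.p + ee 1 1 T.p + ee 3 3 T.p,
    -(Complex.I • ee 2 2 (star T.d)) + ee 2 1 T.p + Complex.I • ee 0 0 T.d + Complex.I • ee 0 1 T.φ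
      - ee 0 3 T.p + Complex.I • ee 1 1 (star T.d) - Complex.I • ee 3 3 T.d,
    ee 2 3 T.p + ee 3 2 T.p + ee 0 1 T.p + ee 1 0 T.p⟩

theorem Cx.OK.four {T : Cx A} (h : T.OK) : T.four.OK := by
  have hpp := h.toCpx.pp
  have hpd := h.pd
  have hdp := h.dp
  have hdd := h.dd
  have hpd' := h.toCpx.dual.pd
  have hdp' := h.toCpx.dual.dp
  have hdd' := h.toCpx.dual.dd
  have hpφ := h.pφ
  have hφp := h.φp
  have hc : T.d * T.φ = -(T.φ * star T.d) := eq_neg_of_add_eq_zero_left h.cyc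
  have hD := fun i => ee_D i h.pD
  refine ⟨⟨?_, ?_, ?_, ?_⟩, ?_, ?_, ?_⟩
  · refine D_add (D_add (D_add (hD 2) (hD 0) ?_) (hD 1) ?_) (hD 3) ?_ <;> simp [add_mul, ee_mul]
  · simp [Cx.four, mul_add, add_mul, mul_sub, ee_mul, *]
  · simp [Cx.four, mul_add, add_mul, sub_mul, ee_mul, *]
    abel
  · simp [Cx.four, mul_add, add_mul, mul_sub, sub_mul, ee_mul, smul_smul, ee_neg, *]
    abel
  · simp only [Cx.four, star_add, star_ee, h.toCpx.star_p]
    abel
  · simp [Cx.four, mul_add, add_mul, ee_mul, *]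
  · simp [Cx.four, mul_add, add_mul, mul_sub, sub_mul, ee_mul, star_ee, h.φs, h.toCpx.star_p, *]
    abel

/-- `K = - ee 3 0 p + ee 1 2 p + I • ee 3 2 φ` -/
theorem Cx.OK.four_ctr {T : Cx A} (h : T.OK) : Ctr T.four.p T.four.d := by
  have hpp := h.toCpx.pp
  have hpd := h.pd
  have hdp := h.dp
  have hpd' := h.toCpx.dual.pd
  have hdp' := h.toCpx.dual.dp
  have hpφ := h.pφ
  have hφp := h.φp
  have hc : T.d * T.φ = -(T.φ * star T.d) := eq_neg_of_add_eq_zero_left h.cyc
  refine ⟨-ee 3 0 T.p + ee 1 2 T.p + Complex.I • ee 3 2 T.φ, ?_⟩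
  simp [Cx.four, mul_add, add_mul, mul_sub, sub_mul, ee_mul, smul_smul, ee_neg, *]
  abel

private theorem orth_symm {P Q : A} (hP : P ∈ (Base.D : Set A)) (hQ : Q ∈ (Base.D : Set A))
    (h : P * Q = 0) : Q * P = 0 := by
  rw [Base.comm _ hQ _ hP, h]

private theorem null_abs {G : TwoSidedIdeal A} {B T : Cx A} {F H x y t u : A} {f : Frame A}
    (hf : f.OK) (hT : T.OK) (hB : B.OK) (hF : F ∈ (Base.D : Set A)) (hH : H ∈ (Base.D : Set A))
    (hFB : F * B.p = 0) (hHB : H * B.p = 0) (hFH : F * H = 0) (hp : T.p = F + B.p + H)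
    (hG : T.p ∈ G) (hx : T.d * F = x) (hFx : F * x = x) (hy : H * T.d = y) (hyH : y * H = y)
    (hm : B.p * T.d * B.p = B.d) (hφ : T.φ = B.φ + t + star t) (hFt : F * t = t)
    (htH : t * H = t) (ht1 : t * star t = F) (ht2 : star t * t = H) (hcF : CtrI f.I F x)
    (hcB : CtrI f.I B.p B.d) (hcH : CtrI f.I H y) (hcT : Ctr T.p T.d) (hkF : Cut F x)
    (hkH : Cut H y) (hu : f.Chi B.p B.d u) : Null G (B.flip u) := by
  have hFF := Base.idem _ hF
  have hHH := Base.idem _ hH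
  have hBB := hB.toCpx.pp
  have hBF := orth_symm hF hB.pD hFB
  have hBH := orth_symm hH hB.pD hHB
  have hHF := orth_symm hF hH hFH
  have sF := Base.star_eq _ hF
  have sH := Base.star_eq _ hH
  have sB := hB.toCpx.star_p
  have hxF : x * F = x := by rw [← hx, mul_assoc, hFF]
  have hHy : H * y = y := by rw [← hy, ← mul_assoc, hHH]
  have hBx : B.p * x = 0 := by rw [← hFx, ← mul_assoc, hBF, zero_mul]
  have hyB : y * B.p = 0 := by rw [← hyH, mul_assoc, hHB, mul_zero]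
  have hyF : y * F = 0 := by rw [← hyH, mul_assoc, hHF, mul_zero]
  have cF : Cpx F x := ⟨hF, hFx, hxF, by
    rw [← hx, mul_assoc, hx, hFx, ← hx, ← mul_assoc, hT.dd, zero_mul]⟩
  have cH : Cpx H y := ⟨hH, hHy, hyH, by
    rw [← hy, ← mul_assoc, hy, hyH, ← hy, mul_assoc, hT.dd, mul_zero]⟩
  have hdd : ∀ P Q : A, P * T.d * F * T.d * Q + P * T.d * B.p * T.d * Q +
      P * T.d * H * T.d * Q = 0 := by
    intro P Q
    have : P * (T.d * T.p * T.d) * Q = 0 := by rw [hT.dp, hT.dd, mul_zero, zero_mul]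
    rw [← this, hp]
    noncomm_ring
  set a := F * T.d * B.p with ha
  have ha1 : F * a = a := by rw [ha, ← mul_assoc, ← mul_assoc, hFF]
  have ha2 : a * B.p = a := by rw [ha, mul_assoc, hBB]
  have ha3 : x * a + a * B.d = 0 := by
    have h1 := hdd F B.p
    have h2 : F * T.d * H * T.d * B.p = 0 := by
      rw [mul_assoc _ H, hy, mul_assoc, hyB, mul_zero]
    have h3 : x * a = F * T.d * F * T.d * B.p := by
      rw [ha, ← mul_assoc, ← mul_assoc, hxF, mul_assoc F T.d F, hx, hFx]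
    have h4 : a * B.d = F * T.d * B.p * T.d * B.p := by
      rw [← hm, ← mul_assoc, ← mul_assoc, ha2]
    rw [h3, h4, ← h1, h2, add_zero]
  have cFB := cF.ext hB.toCpx hFB ha1 ha2 ha3
  have kFB := hcF.ext cF hB.toCpx hFB ha1 ha2 ha3 hcB
  have hFBH : (F + B.p) * H = 0 := by rw [add_mul, hFH, hBH, add_zero]
  set b := (F + B.p) * T.d * H with hb
  have hb1 : (F + B.p) * b = b := by rw [hb, ← mul_assoc, ← mul_assoc, cFB.pp]
  have hb2 : b * H = b := by rw [hb, mul_assoc, hHH]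
  have hxa : (F + B.p) * T.d * (F + B.p) = x + a + B.d := by
    rw [mul_add, mul_assoc _ T.d F, hx, add_mul, hFx, hBx, add_zero, add_mul, add_mul, hm,
      add_assoc]
  have hb3 : (x + a + B.d) * b + b * y = 0 := by
    have h1 := hdd (F + B.p) H
    have h3 : (x + a + B.d) * b = (F + B.p) * T.d * (F + B.p) * T.d * H := by
      rw [hb, ← mul_assoc, ← mul_assoc, cFB.dp, hxa]
    have h4 : b * y = (F + B.p) * T.d * H * T.d * H := by
      rw [mul_assoc _ H T.d, hy, mul_assoc _ y H, hyH, hb, mul_assoc _ H y, hHy]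
    rw [h3, h4, ← h1]
    noncomm_ring
  have hd : T.d = x + a + B.d + b + y := by
    have h1 : T.d =
        (F + B.p) * T.d * (F + B.p) + (F + B.p) * T.d * H + H * T.d * (F + B.p + H) :=
      calc T.d = T.p * T.d * T.p := by rw [hT.pd, hT.dp]
        _ = (F + B.p + H) * T.d * (F + B.p + H) := by rw [hp]
        _ = _ := by noncomm_ring
    rw [h1, hxa, hy, ← hb, mul_add, mul_add, hyF, hyB, hyH, zero_add, zero_add]
  obtain ⟨uF, huF⟩ := hf.exists_chi cF hcF
  obtain ⟨uG, huG⟩ := hf.exists_chi cH hcH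
  obtain ⟨k, hk1, hk2, hk⟩ := hf.chi_ext cF hB.toCpx hFB ha1 ha2 ha3 hcF huF hu
  obtain ⟨l, hl1, hl2, hl⟩ := hf.chi_ext cFB cH hFBH hb1 hb2 hb3 kFB hk huG
  rw [← hp, ← hd] at hl
  set U := uF + k + u + l + uG with hU
  have z : ∀ {P Q w : A}, P * Q = 0 → Q * w = w → P * w = 0 := fun h1 h2 => by
    rw [← h2, ← mul_assoc, h1, zero_mul]
  have z' : ∀ {P Q w : A}, P * Q = 0 → w * P = w → w * Q = 0 := fun h1 h2 => by
    rw [← h2, mul_assoc, h1, mul_zero]
  have hUF : U * F = uF := by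
    rw [hU, add_mul, add_mul, add_mul, add_mul, huF.up, z' hBF hk2, z' hBF hu.up, z' hHF hl2,
      z' hHF huG.up, add_zero, add_zero, add_zero, add_zero]
  have hHFB : H * (F + B.p) = 0 := by rw [mul_add, hHF, hHB, add_zero]
  have hHU : H * U = uG := by
    rw [hU, mul_add, mul_add, mul_add, mul_add, huG.pu, z hHF huF.pu, z hHF hk1, z hHB hu.pu,
      z hHFB hl1, zero_add, zero_add, zero_add, zero_add]
  have hBU : B.p * U = u + B.p * l := by
    rw [hU, mul_add, mul_add, mul_add, mul_add, hu.pu, z hBF huF.pu, z hBF hk1, z hBH huG.pu,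
      zero_add, zero_add, add_zero]
  have hUH : star U * H = star uG := by
    rw [← hHU, star_mul, sH]
  have hHt : H * star t = star t := by rw [← sH, ← star_mul, htH]
  have htF : star t * F = star t := by rw [← sF, ← star_mul, hFt]
  have hφH : T.φ * H = t := by
    rw [hφ, add_mul, add_mul, htH, z' hBH hB.φp, z' hFH htF, zero_add, add_zero]
  have hHu : H * star uG = star uG := (huG.star hf cH).pu
  have huH : star uG * H = star uG := (huG.star hf cH).up
  have hφ' : (T.flip U).φ * H = t - (2 : ℂ) • (uF * t * star uG) := by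
    change (T.φ - (2 : ℂ) • (U * T.φ * star U)) * H = _
    rw [sub_mul, hφH, smul_mul_assoc, mul_assoc _ (star U), hUH, ← hHu, ← mul_assoc,
      mul_assoc U, hφH, hHu, ← hUF, mul_assoc U F, hFt]
  have hFφ' : F * (t - (2 : ℂ) • (uF * t * star uG)) = t - (2 : ℂ) • (uF * t * star uG) := by
    rw [mul_sub, hFt, mul_smul_comm, ← mul_assoc, ← mul_assoc, huF.pu]
  have hFd : F * T.d * F = x := by rw [mul_assoc, hx, hFx]
  have hHd : H * T.d * H = y := by rw [hy, hyH]
  have hcy : x * t = t * -star y := by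
    have h1 : F * (T.d * T.φ + T.φ * star T.d) * H = 0 := by rw [hT.cyc, mul_zero, zero_mul]
    have h2 : F * T.φ = t := by
      rw [hφ, mul_add, mul_add, hFt, z hFB hB.pφ, z hFH hHt, zero_add, add_zero]
    have h3 : star T.d * H = star y := by rw [← hy, star_mul, sH]
    rw [mul_add, add_mul, mul_assoc, mul_assoc, hφH, ← mul_assoc F T.φ, h2, mul_assoc t, h3,
      ← hFt, ← mul_assoc T.d, hx, ← mul_assoc, hFx, hFt] at h1
    rw [mul_neg]
    exact eq_neg_of_add_eq_zero_left h1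
  have hHE := hf.flip_HE cF cH.dual.neg hcF hFt htH hcy hHt htF ht1 ht2 huF
    (huG.star hf cH).neg_d
  refine ⟨T.flip U, F, H, hT.flip hl.pu hl.ch, hF, hH, hFB, hHB, hFH, hp, hG, ?_, ?_, hm, ?_, ?_,
    hcT.ctrI ⊥, ?_, ?_, ?_⟩
  · change T.d * F = F * T.d * F
    rw [hFd, hx]
  · change H * T.d = H * T.d * H
    rw [hHd, hy]
  · change B.p * (T.φ - (2 : ℂ) • (U * T.φ * star U)) * B.p = B.φ - (2 : ℂ) • (u * B.φ * star u)
    have h1 : B.p * T.φ = B.φ := by
      rw [hφ, mul_add, mul_add, hB.pφ, z hBF hFt, z hBH hHt, add_zero, add_zero]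
    have h2 : H * T.φ = star t := by
      rw [hφ, mul_add, mul_add, hHt, z hHB hB.pφ, z hHF hFt, zero_add, zero_add]
    have h3 : B.p * U * T.φ = u * B.φ + B.p * l * star t := by
      rw [hBU, add_mul, ← hu.up, mul_assoc u, h1, hu.up, ← hl2, ← mul_assoc, mul_assoc _ H, h2,
        mul_assoc _ H, hHt]
    have h4 : star U * B.p = star u + star l * B.p := by
      rw [← sB, ← star_mul, hBU, star_add, star_mul, sB]
    have h5 : B.p * star u = star u := (hu.star hf hB.toCpx).pu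
    have h6 : H * star l = star l := by rw [← sH, ← star_mul, hl2]
    have h7 : B.φ * star l = 0 := z (z' hBH hB.φp) h6
    have h8 : star t * star u = 0 := z (z' hFB htF) h5
    have h9 : star t * star l = 0 := z (z' hFH htF) h6
    have h10 : B.p * (U * T.φ * star U) * B.p = u * B.φ * star u := by
      calc B.p * (U * T.φ * star U) * B.p = (B.p * U * T.φ) * (star U * B.p) := by noncomm_ring
        _ = u * B.φ * star u + u * (B.φ * star l) * B.p + B.p * l * (star t * star u) +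
            B.p * l * (star t * star l) * B.p := by
          rw [h3, h4]
          noncomm_ring
        _ = _ := by simp [h7, h8, h9]
    rw [mul_sub, sub_mul, h1, hB.φp, mul_smul_comm, smul_mul_assoc, h10]
  · rw [mul_assoc, hφ', hFφ']
  · change CtrI ⊥ (F + H) (F * T.d * F + F * (T.flip U).φ * H + star (H * T.d * H))
    rw [hFd, hHd, mul_assoc, hφ', hFφ']
    have := (hHE.ctr cF cH.dual.neg hFH).ctrI ⊥
    rwa [sub_neg_eq_add] at this
  · change Cut F (F * T.d * F)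
    rwa [hFd]
  · change Cut H (H * T.d * H)
    rwa [hHd]

private theorem cpx_ee (i : Fin 4) {p d : A} (h : Cpx p d) : Cpx (ee i i p) (ee i i d) :=
  h.conj (mono_s i) (by rw [Base.s_self, one_mul])

private theorem ctr_ee (i : Fin 4) {I : TwoSidedIdeal A} {p d : A} (h : Cpx p d)
    (hc : CtrI I p d) : CtrI I (ee i i p) (ee i i d) :=
  hc.conj h (by rw [Base.s_self, one_mul])

/-- a two-step complex placed in the slots `0` and `1` -/
private theorem slots {I : TwoSidedIdeal A} {p q d e a : A} (hp : Cpx p d) (hq : Cpx q e)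
    (hpq : p * q = 0) (h1 : p * a = a) (h2 : a * q = a) (hc : d * a + a * e = 0)
    (h : CtrI I (p + q) (d + a + e)) (hk : Cut p d) (hk' : Cut q e) :
    Cpx (ee 0 0 p + ee 1 1 q) (Complex.I • (ee 0 0 d + ee 0 1 a + ee 1 1 e)) ∧
    CtrI I (ee 0 0 p + ee 1 1 q) (Complex.I • (ee 0 0 d + ee 0 1 a + ee 1 1 e)) ∧
    Cut (ee 0 0 p + ee 1 1 q) (Complex.I • (ee 0 0 d + ee 0 1 a + ee 1 1 e)) := by
  have o1 : ee 0 0 p * ee 1 1 q = 0 := by simp [ee_mul]
  have o2 : ee 0 0 p * ee 0 1 a = ee 0 1 a := by simp [ee_mul, h1]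
  have o3 : ee 0 1 a * ee 1 1 q = ee 0 1 a := by simp [ee_mul, h2]
  refine ⟨((cpx_ee 0 hp).ext (cpx_ee 1 hq) o1 o2 o3 ?_).smul _, CtrI.smul Complex.I_ne_zero ?_,
    (Cut.ext (cpx_ee 0 hp) (cpx_ee 1 hq) o1 o2 o3 (hk.ee 0 hp) (hk'.ee 1 hq)).smul _⟩
  · rw [ee_mul_same, ee_mul_same, ← ee_add, hc, ee_zero]
  have hqp := orth_symm hp.pD hq.pD hpq
  have hpp := hp.pp
  have hqq := hq.pp
  have z : ∀ {P Q w : A}, P * Q = 0 → Q * w = w → P * w = 0 := fun h1 h2 => by
    rw [← h2, ← mul_assoc, h1, zero_mul]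
  have z' : ∀ {P Q w : A}, P * Q = 0 → w * P = w → w * Q = 0 := fun h1 h2 => by
    rw [← h2, mul_assoc, h1, mul_zero]
  have hs : star (Base.s 0 * p + Base.s 1 * q : A) =
      p * star (Base.s 0 : A) + q * star (Base.s 1 : A) := by
    rw [star_add, star_mul, star_mul, hp.star_p, hq.star_p]
  have key : ∀ w : A, (Base.s 0 * p + Base.s 1 * q) * w * star (Base.s 0 * p + Base.s 1 * q : A) =
      ee 0 0 (p * w * p) + ee 0 1 (p * w * q) + ee 1 0 (q * w * p) + ee 1 1 (q * w * q) := by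
    intro w
    rw [hs]
    unfold ee
    noncomm_ring
  have hv : star (Base.s 0 * p + Base.s 1 * q : A) * (Base.s 0 * p + Base.s 1 * q) * (p + q) =
      p + q := by
    have h3 : star (Base.s 0 * p + Base.s 1 * q : A) * (Base.s 0 * p + Base.s 1 * q) =
        p * (star (Base.s 0 : A) * Base.s 0) * p + p * (star (Base.s 0 : A) * Base.s 1) * q +
          q * (star (Base.s 1 : A) * Base.s 0) * p + q * (star (Base.s 1 : A) * Base.s 1) * q := by
      rw [hs]
      noncomm_ring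
    rw [h3, Base.s_self, Base.s_self, Base.s_ne 0 1 (by decide), Base.s_ne 1 0 (by decide)]
    simp [mul_add, add_mul, hpp, hqq, hpq, hqp]
  have h3 := h.conj (hp.ext hq hpq h1 h2 hc) hv
  rw [key, key] at h3
  simpa [mul_add, add_mul, hpp, hqq, hpq, hqp, hp.pd, hp.dp, hq.pd, hq.dp, h1, h2, z hqp hp.pd,
    z hqp h1, z hpq hq.pd, z' hpq hp.dp, z' hqp h2, z' hqp hq.dp] using h3

theorem NullData.bd {G : TwoSidedIdeal A} {C T : Cx A} {pF pG u : A} {f : Frame A} (hf : f.OK)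
    (hC : C.OK) (hcut : Cut C.p C.d) (hctr : CtrI f.I C.bd.p C.bd.d)
    (hu : f.Chi C.bd.p C.bd.d u) (h : NullData f.I G C T pF pG) :
    Null G (C.bd.flip u) := by
  have hT := h.ok
  have cF := h.cpxF
  have cG := h.cpxG
  have hrel := h.rel
  have hcone := h.cone
  have kF := h.cutF
  have kG := h.cutG
  have hsub := h.sub
  have hquo := h.quo
  have hφG := h.φG
  have FF := cF.pp
  have GG := cG.pp
  have cc := hC.toCpx.pp
  have Fc := h.Fp
  have Gc := h.Gp
  have FG := h.FG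
  have cF' := orth_symm h.FD hC.pD Fc
  have cG' := orth_symm h.GD hC.pD Gc
  have GF := orth_symm h.FD h.GD FG
  have sF := cF.star_p
  have sG := cG.star_p
  have sc := hC.toCpx.star_p
  have sp := hT.toCpx.star_p
  have hψ1 : pF * (pF * T.φ * pG) = pF * T.φ * pG := by rw [← mul_assoc, ← mul_assoc, FF]
  have hψ2 : pF * T.φ * pG * pG = pF * T.φ * pG := by rw [mul_assoc, GG]
  have kT : Cut T.p T.d := by
    have a1 : pF * (pF * T.d * C.p) = pF * T.d * C.p := by rw [← mul_assoc, ← mul_assoc, FF]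
    have a2 : pF * T.d * C.p * C.p = pF * T.d * C.p := by rw [mul_assoc, cc]
    have a3 : pF * T.d * pF * (pF * T.d * C.p) + pF * T.d * C.p * C.d = 0 := by
      have b1 : pF * (T.d * T.p * T.d) * C.p = 0 := by rw [hT.dp, hT.dd, mul_zero, zero_mul]
      have b2 : pG * T.d * C.p = 0 := by rw [hquo, mul_assoc, Gc, mul_zero]
      rw [h.tp] at b1
      rw [← h.md]
      calc _ = pF * T.d * (pF * pF) * T.d * C.p + pF * T.d * (C.p * C.p) * T.d * C.p +
            pF * T.d * (pG * T.d * C.p) := by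
            rw [b2]
            noncomm_ring
        _ = 0 := by
            rw [FF, cc, ← b1]
            noncomm_ring
    have c1 := cF.ext hC.toCpx Fc a1 a2 a3
    have k1 := Cut.ext cF hC.toCpx Fc a1 a2 kF hcut
    have k2 := Cut.ext (a := (pF + C.p) * T.d * pG) c1 cG (by rw [add_mul, FG, cG', add_zero])
      (by rw [← mul_assoc, ← mul_assoc, c1.pp]) (by rw [mul_assoc, GG]) k1 kG
    have b1 : C.p * T.d * pF = 0 := by
      rw [mul_assoc, hsub, ← mul_assoc, ← mul_assoc, cF', zero_mul, zero_mul]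
    have b2 : pG * T.d * pF = 0 := by rw [hquo, mul_assoc, GF, mul_zero]
    have b3 : pG * T.d * C.p = 0 := by rw [hquo, mul_assoc, Gc, mul_zero]
    have b4 : T.d = pF * T.d * pF + pF * T.d * C.p + C.d + (pF + C.p) * T.d * pG +
        pG * T.d * pG :=
      calc T.d = T.p * T.d * T.p := by rw [hT.pd, hT.dp]
        _ = (pF + C.p + pG) * T.d * (pF + C.p + pG) := by rw [h.tp]
        _ = pF * T.d * pF + pF * T.d * C.p + C.p * T.d * C.p + (pF + C.p) * T.d * pG +
            pG * T.d * pG + C.p * T.d * pF + pG * T.d * pF + pG * T.d * C.p := by noncomm_ring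
        _ = _ := by rw [b1, b2, b3, h.md, add_zero, add_zero, add_zero]
    rwa [← h.tp, ← b4] at k2
  generalize pF * T.d * pF = dF at *
  generalize pG * T.d * pG = dG at *
  generalize pF * T.φ * pG = ψ at *
  have pF1 : T.p * pF = pF := by rw [h.tp, add_mul, add_mul, FF, cF', GF, add_zero, add_zero]
  have pG1 : T.p * pG = pG := by rw [h.tp, add_mul, add_mul, FG, cG', GG, zero_add, zero_add]
  have pF2 : pF * T.p = pF := by rw [h.tp, mul_add, mul_add, FF, Fc, FG, add_zero, add_zero]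
  have pG2 : pG * T.p = pG := by rw [h.tp, mul_add, mul_add, GF, Gc, GG, zero_add, zero_add]
  have pc1 : T.p * C.p = C.p := by rw [h.tp, add_mul, add_mul, Fc, cc, Gc, add_zero, zero_add]
  have pc2 : C.p * T.p = C.p := by rw [h.tp, mul_add, mul_add, cF', cc, cG', add_zero, zero_add]
  have pp := hT.toCpx.pp
  have hsub' : pF * star T.d = star dF := by rw [← hsub, star_mul, sF]
  have hquo' : star T.d * pG = star dG := by rw [← hquo, star_mul, sG]
  have hφG' : pG * T.φ = star ψ := by rw [← hφG, star_mul, sG, hT.φs]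
  have hψ1' : star ψ * pF = star ψ := by rw [← sF, ← star_mul, hψ1]
  have hψ2' : pG * star ψ = star ψ := by rw [← sG, ← star_mul, hψ2]
  have hrel' : dG * star ψ + star ψ * star dF = 0 := by
    have := congrArg star hrel
    rwa [star_add, star_mul, star_mul, star_star, star_zero, add_comm] at this
  have hcone' : CtrI f.I (pG + pF) (dG + star ψ + star dF) := by
    have := hcone.dual hf.starI (cF.ext cG.dual FG hψ1 hψ2 hrel)
    rw [star_add, star_add, star_star] at this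
    rwa [add_comm pG, show dG + star ψ + star dF = star dF + star ψ + dG by abel]
  obtain ⟨s1, s2, s3⟩ := slots cF cG.dual FG hψ1 hψ2 hrel hcone kF (kG.dual cG)
  obtain ⟨t1, t2, t3⟩ := slots cG cF.dual GF hψ2' hψ1' hrel' hcone' kG (kF.dual cF)
  have e2 := ((cpx_ee 2 hT.toCpx.dual).smul Complex.I).neg
  have e3 := ((cpx_ee 3 hT.toCpx).smul Complex.I).neg
  have hI : -Complex.I ≠ 0 := neg_ne_zero.2 Complex.I_ne_zero
  have g2 := (ctr_ee 2 hT.toCpx.dual (h.ctr.dual hf.starI hT.toCpx)).smul hI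
  have g3 := (ctr_ee 3 hT.toCpx h.ctr).smul hI
  rw [neg_smul] at g2 g3
  have k2 := (((kT.dual hT.toCpx).ee 2 hT.toCpx.dual).smul Complex.I).neg
  have k3 := ((kT.ee 3 hT.toCpx).smul Complex.I).neg
  have o1 : ee 2 2 T.p * (ee 0 0 pF + ee 1 1 pG) = 0 := by simp [mul_add, ee_mul]
  have o2 : ee 2 2 T.p * ee 2 1 pG = ee 2 1 pG := by simp [ee_mul, pG1]
  have o3 : ee 2 1 pG * (ee 0 0 pF + ee 1 1 pG) = ee 2 1 pG := by simp [mul_add, ee_mul, GG]
  have o4 : -(Complex.I • ee 2 2 (star T.d)) * ee 2 1 pG +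
      ee 2 1 pG * Complex.I • (ee 0 0 dF + ee 0 1 ψ + ee 1 1 (star dG)) = 0 := by
    simp [mul_add, ee_mul, hquo', cG.dual.pd]
  have r1 : (ee 0 0 pG + ee 1 1 pF) * ee 3 3 T.p = 0 := by simp [add_mul, ee_mul]
  have r2 : (ee 0 0 pG + ee 1 1 pF) * -ee 0 3 pG = -ee 0 3 pG := by simp [add_mul, ee_mul, GG]
  have r3 : -ee 0 3 pG * ee 3 3 T.p = -ee 0 3 pG := by simp [ee_mul, pG2]
  have r4 : Complex.I • (ee 0 0 dG + ee 0 1 (star ψ) + ee 1 1 (star dF)) * -ee 0 3 pG +
      -ee 0 3 pG * -(Complex.I • ee 3 3 T.d) = 0 := by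
    simp [add_mul, ee_mul, hquo, cG.dp]
  have cX := e2.ext s1 o1 o2 o3 o4
  have cY := t1.ext e3 r1 r2 r3 r4
  have hpd := hT.pd
  have hdp' := hT.toCpx.dual.dp
  refine null_abs (t := ee 2 3 T.p + ee 0 1 pF + ee 1 0 pG) hf hT.four hC.bd cX.pD cY.pD
    ?_ ?_ ?_ ?_ ?_ ?_ cX.pd ?_ cY.dp ?_ ?_ ?_ ?_ ?_ ?_ (g2.ext e2 s1 o1 o2 o3 o4 s2) hctr
    (t2.ext t1 e3 r1 r2 r3 r4 g3) hT.four_ctr (Cut.ext e2 s1 o1 o2 o3 k2 s3)
    (Cut.ext t1 e3 r1 r2 r3 t3 k3) hu
  · simp [Cx.bd, mul_add, add_mul, ee_mul, Fc, Gc]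
  · simp [Cx.bd, mul_add, add_mul, ee_mul, Fc, Gc]
  · simp [mul_add, add_mul, ee_mul, FG, GF]
  · change ee 2 2 T.p + ee 0 0 T.p + ee 1 1 T.p + ee 3 3 T.p = _
    conv_lhs => rw [show ee 0 0 T.p = ee 0 0 (pF + C.p + pG) by rw [← h.tp],
      show ee 1 1 T.p = ee 1 1 (pF + C.p + pG) by rw [← h.tp]]
    simp only [Cx.bd, ee_add]
    abel
  · exact G.add_mem (G.add_mem (G.add_mem (ee_mem G _ _ h.inG) (ee_mem G _ _ h.inG))
      (ee_mem G _ _ h.inG)) (ee_mem G _ _ h.inG)
  · simp [Cx.four, mul_add, add_mul, sub_mul, ee_mul, hdp', pG1, hsub, hφG, hquo']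
    abel
  · simp [Cx.four, mul_add, add_mul, mul_sub, ee_mul, hpd, pG2, hquo, hφG', hsub']
    abel
  · have hmd' : C.p * star T.d * C.p = star C.d := by
      rw [← h.md, star_mul, star_mul, sc, mul_assoc]
    simp [Cx.four, Cx.bd, mul_add, add_mul, mul_sub, sub_mul, ee_mul, h.md, h.mφ, hmd',
      cc, pc1, pc2]
    abel
  · change ee 2 3 T.p + ee 3 2 T.p + ee 0 1 T.p + ee 1 0 T.p = _
    conv_lhs => rw [show ee 0 1 T.p = ee 0 1 (pF + C.p + pG) by rw [← h.tp],
      show ee 1 0 T.p = ee 1 0 (pF + C.p + pG) by rw [← h.tp]]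
    simp only [Cx.bd, ee_add, star_add, star_ee, sF, sG, sp]
    abel
  · simp [mul_add, add_mul, ee_mul, pp, FF, GG]
  · simp [mul_add, add_mul, ee_mul, pp, FF, GG]
    abel
  · simp [mul_add, add_mul, ee_mul, star_ee, sF, sG, sp, pp, FF, GG]
    abel
  · simp [mul_add, add_mul, ee_mul, star_ee, sF, sG, sp, pp, FF, GG]
    abel

theorem Null.step {G : TwoSidedIdeal A} {C C₁ : Cx A} {f : Frame A} (hf : f.OK) (hC : C.Good)
    (hs : Step f C C₁) (h : Null G C) : Null (G ⊓ f.B) C₁ := by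
  obtain ⟨P, u, hP, hu, rfl⟩ := hs
  obtain ⟨T, pF, pG, h⟩ := h
  obtain ⟨T', pF', pG', h'⟩ := h.cmp hf hC.ok hP
  exact h'.bd hf (hC.ok.cmp hP.PD hP.Pd) (hC.cut.cmp hC.ok.toCpx hP.PD hP.Pp hP.Pd)
    (hP.bd_ctrI hC.ok hC.poinc) hu

end Vale.Agent.P228
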