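import Vale.Agent.P228.Basic

/-! Bounded range, row and column finite operators on the labelled lattice. -/

set_option linter.unusedSectionVars false

namespace Vale.Agent.P228

open Finsupp

abbrev Pos (n : ℕ) := Fin n → ℤ
abbrev Cell (n : ℕ) := Pos n × List (Fin 4)
abbrev Ch (n : ℕ) := Cell n →₀ ℂ

variable {n : ℕ}

noncomputable def entE (T : Module.End ℂ (Ch n)) (x y : Cell n) : ℂ := T (single y 1) x

theorem apply_eq_sum (T : Module.End ℂ (Ch n)) (v : Ch n) (x : Cell n) :
    T v x = ∑ y ∈ v.support, entE T x y * v y := by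
  conv_lhs => rw [← v.sum_single, Finsupp.sum, map_sum, finsetSum_apply]
  refine Finset.sum_congr rfl fun y _ => ?_
  rw [← mul_one (v y), ← smul_eq_mul, ← smul_single, map_smul]
  simp [entE, mul_comm]

theorem entE_mul_ne {T S : Module.End ℂ (Ch n)} {x z : Cell n} (h : entE (T * S) x z ≠ 0) :
    ∃ y, entE T x y ≠ 0 ∧ entE S y z ≠ 0 := by
  rw [entE, Module.End.mul_apply, apply_eq_sum] at h
  obtain ⟨y, -, hy⟩ := Finset.exists_ne_zero_of_sum_ne_zero h
  exact ⟨y, left_ne_zero_of_mul hy, right_ne_zero_of_mul hy⟩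

def EE (n : ℕ) : Type := Module.End ℂ (Ch n)
noncomputable instance : Ring (EE n) := Module.End.instRing
noncomputable instance : Algebra ℂ (EE n) := Module.End.instAlgebra ℂ ℂ (Ch n)

noncomputable def opAlg (n : ℕ) : Subalgebra ℂ (EE n) where
  carrier := {T | (∀ x, {y | entE T x y ≠ 0}.Finite) ∧
    ∃ R : ℝ, ∀ x y, entE T x y ≠ 0 → ‖x.1 - y.1‖ ≤ R}
  mul_mem' := by
    rintro T S ⟨h1, R, hR⟩ ⟨h2, R', hR'⟩
    refine ⟨fun x => ((h1 x).biUnion fun y _ => h2 y).subset fun z hz => ?_, R + R',
      fun x z hz => ?_⟩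
    · obtain ⟨y, a, b⟩ := entE_mul_ne hz
      exact Set.mem_biUnion a b
    · obtain ⟨y, a, b⟩ := entE_mul_ne hz
      exact (norm_sub_le_norm_sub_add_norm_sub _ y.1 _).trans (add_le_add (hR _ _ a) (hR' _ _ b))
  add_mem' := by
    rintro T S ⟨h1, R, hR⟩ ⟨h2, R', hR'⟩
    have key : ∀ x y, entE (T + S : EE n) x y ≠ 0 → entE T x y ≠ 0 ∨ entE S x y ≠ 0 := by
      intro x y h
      by_contra hc
      push Not at hc
      exact h ((by rw [hc.1, hc.2, add_zero] : entE T x y + entE S x y = 0))
    refine ⟨fun x => ((h1 x).union (h2 x)).subset fun z hz => key _ _ hz, max R R',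
      fun x z hz => (key _ _ hz).elim (fun a => (hR _ _ a).trans (le_max_left _ _))
        (fun a => (hR' _ _ a).trans (le_max_right _ _))⟩
  algebraMap_mem' := by
    intro c
    have key : ∀ x y : Cell n, entE (algebraMap ℂ (Module.End ℂ (Ch n)) c) x y ≠ 0 → y = x := by
      intro x y h
      by_contra hc
      exact h (by simp [entE, Module.algebraMap_end_apply, hc])
    exact ⟨fun x => (Set.finite_singleton x).subset fun y hy => key _ _ hy, 0,
      fun x y h => by simp [key _ _ h]⟩

def Op (n : ℕ) : Type := ↥(opAlg n)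

noncomputable instance : Ring (Op n) := Subalgebra.toRing (opAlg n)
noncomputable instance : Algebra ℂ (Op n) := Subalgebra.algebra (opAlg n)

namespace Op

/-- the underlying linear map -/
noncomputable def lin : Op n →ₐ[ℂ] Module.End ℂ (Ch n) where
  toFun T := T.1
  map_one' := rfl
  map_mul' _ _ := rfl
  map_zero' := rfl
  map_add' _ _ := rfl
  commutes' _ := rfl

noncomputable def ent (T : Op n) (x y : Cell n) : ℂ := entE (lin T) x y

theorem ent_def (T : Op n) (x y : Cell n) : T.ent x y = lin T (single y 1) x := rfl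

theorem lin_apply (T : Op n) (v : Ch n) (x : Cell n) :
    lin T v x = ∑ y ∈ v.support, T.ent x y * v y := apply_eq_sum _ _ _

theorem lin_inj {T S : Op n} (h : lin T = lin S) : T = S := Subtype.ext h

theorem ext {T S : Op n} (h : ∀ x y, T.ent x y = S.ent x y) : T = S := by
  refine lin_inj (LinearMap.ext fun v => Finsupp.ext fun x => ?_)
  simp only [lin_apply, h]

theorem row_finite (T : Op n) (x : Cell n) : {y | T.ent x y ≠ 0}.Finite := T.2.1 x

theorem col_finite (T : Op n) (y : Cell n) : {x | T.ent x y ≠ 0}.Finite :=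
  (lin T (single y 1)).hasFiniteSupport

theorem range (T : Op n) : ∃ R : ℝ, ∀ x y, T.ent x y ≠ 0 → ‖x.1 - y.1‖ ≤ R := T.2.2

theorem entE_comb (m : Cell n → Cell n → ℂ) (hc : ∀ y, {x | m x y ≠ 0}.Finite) (x y : Cell n) :
    entE (Finsupp.linearCombination ℂ fun y => Finsupp.ofSupportFinite (fun x => m x y) (hc y))
      x y = m x y := by
  rw [entE, linearCombination_single, one_smul]; rfl

/-- operator with prescribed entries -/
noncomputable def ofFun (m : Cell n → Cell n → ℂ) (hc : ∀ y, {x | m x y ≠ 0}.Finite)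
    (hr : ∀ x, {y | m x y ≠ 0}.Finite) (hR : ∃ R : ℝ, ∀ x y, m x y ≠ 0 → ‖x.1 - y.1‖ ≤ R) : Op n :=
  ⟨Finsupp.linearCombination ℂ fun y => Finsupp.ofSupportFinite (fun x => m x y) (hc y),
    by simpa only [entE_comb] using hr, by simpa only [entE_comb] using hR⟩

@[simp] theorem ent_ofFun (m : Cell n → Cell n → ℂ) (hc hr hR) (x y : Cell n) :
    (ofFun m hc hr hR).ent x y = m x y := entE_comb m hc x y

@[simp] theorem ent_add (T S : Op n) (x y) : (T + S).ent x y = T.ent x y + S.ent x y := by
  simp [ent_def]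
@[simp] theorem ent_sub (T S : Op n) (x y) : (T - S).ent x y = T.ent x y - S.ent x y := by
  simp [ent_def]
@[simp] theorem ent_neg (T : Op n) (x y) : (-T).ent x y = -T.ent x y := by simp [ent_def]
@[simp] theorem ent_zero (x y) : (0 : Op n).ent x y = 0 := by simp [ent_def]
@[simp] theorem ent_smul (c : ℂ) (T : Op n) (x y) : (c • T).ent x y = c * T.ent x y := by
  simp [ent_def]
theorem ent_sum {α : Type*} (s : Finset α) (T : α → Op n) (x y) :
    (∑ a ∈ s, T a).ent x y = ∑ a ∈ s, (T a).ent x y := by
  simp [ent_def, finsetSum_apply]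
open Classical in
theorem ent_one (x y) : (1 : Op n).ent x y = if x = y then 1 else 0 := by
  simp [ent_def, single_apply, eq_comm]

theorem ent_mul (T S : Op n) (x z : Cell n) (s : Finset (Cell n))
    (hs : ∀ y, T.ent x y ≠ 0 → S.ent y z ≠ 0 → y ∈ s) :
    (T * S).ent x z = ∑ y ∈ s, T.ent x y * S.ent y z := by
  classical
  rw [ent_def, map_mul, Module.End.mul_apply, lin_apply]
  have e1 : ∑ y ∈ s ∩ (lin S (single z 1)).support, T.ent x y * S.ent y z =
      ∑ y ∈ (lin S (single z 1)).support, T.ent x y * S.ent y z := by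
    refine Finset.sum_subset Finset.inter_subset_right fun y hy hy' => ?_
    by_contra h
    exact hy' (Finset.mem_inter.2 ⟨hs y (left_ne_zero_of_mul h) (right_ne_zero_of_mul h), hy⟩)
  have e2 : ∑ y ∈ s ∩ (lin S (single z 1)).support, T.ent x y * S.ent y z =
      ∑ y ∈ s, T.ent x y * S.ent y z := by
    refine Finset.sum_subset Finset.inter_subset_left fun y hy hy' => ?_
    by_contra h
    exact hy' (Finset.mem_inter.2 ⟨hy, mem_support_iff.2 (right_ne_zero_of_mul h)⟩)
  exact e1.symm.trans e2

theorem ent_mul_ne {T S : Op n} {x z : Cell n} (h : (T * S).ent x z ≠ 0) :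
    ∃ y, T.ent x y ≠ 0 ∧ S.ent y z ≠ 0 :=
  entE_mul_ne (T := lin T) (S := lin S) (by rw [← map_mul]; exact h)

noncomputable instance : Star (Op n) :=
  ⟨fun T => ofFun (fun x y => star (T.ent y x)) (fun y => by simpa using T.row_finite y)
    (fun x => by simpa using T.col_finite x)
    (by obtain ⟨R, h⟩ := T.range
        exact ⟨R, fun x y hh => by rw [norm_sub_rev]; exact h _ _ (by simpa using hh)⟩)⟩

@[simp] theorem ent_star (T : Op n) (x y) : (star T).ent x y = star (T.ent y x) :=
  ent_ofFun _ _ _ _ _ _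

noncomputable instance : StarRing (Op n) where
  star_involutive T := ext fun x y => by simp
  star_mul T S := ext fun x y => by
    rw [ent_star, ent_mul T S y x (T.row_finite y).toFinset (fun z h _ => by simpa using h),
      ent_mul _ _ x y (T.row_finite y).toFinset (fun z _ h => by simpa using h), star_sum]
    simp [mul_comm]
  star_add T S := ext fun x y => by simp

instance : StarModule ℂ (Op n) where
  star_smul c T := ext fun x y => by simp

open Classical in
/-- diagonal operator -/
noncomputable def diag (f : Cell n → ℂ) : Op n :=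
  ofFun (fun x y => if x = y then f x else 0)
    (fun y => (Set.finite_singleton y).subset fun x h => by by_contra hc; exact h (if_neg hc))
    (fun x => (Set.finite_singleton x).subset fun y h => by
      by_contra hc; exact h (if_neg fun e => hc e.symm))
    ⟨0, fun x y h => by by_cases e : x = y <;> simp_all⟩

open Classical in
theorem ent_diag (f : Cell n → ℂ) (x y) : (diag f).ent x y = if x = y then f x else 0 :=
  ent_ofFun _ _ _ _ _ _

@[simp] theorem ent_diag_mul (f : Cell n → ℂ) (T : Op n) (x y) :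
    (diag f * T).ent x y = f x * T.ent x y := by
  rw [ent_mul _ _ _ _ {x} fun z h _ => by by_contra hc; exact h (by rw [ent_diag, if_neg]; simpa [eq_comm] using hc)]
  simp [ent_diag]

@[simp] theorem ent_mul_diag (f : Cell n → ℂ) (T : Op n) (x y) :
    (T * diag f).ent x y = T.ent x y * f y := by
  rw [ent_mul _ _ _ _ {y} fun z _ h => by by_contra hc; exact h (by rw [ent_diag, if_neg]; simpa using hc)]
  simp [ent_diag]

theorem diag_mul (f g : Cell n → ℂ) : diag f * diag g = diag (f * g) :=
  ext fun x y => by rw [ent_diag_mul, ent_diag, ent_diag]; split_ifs <;> simp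
theorem diag_one : diag (1 : Cell n → ℂ) = 1 := ext fun x y => by rw [ent_diag, ent_one]; rfl
theorem diag_sub (f g : Cell n → ℂ) : diag (f - g) = diag f - diag g :=
  ext fun x y => by rw [ent_sub, ent_diag, ent_diag, ent_diag]; split_ifs <;> simp
theorem diag_add (f g : Cell n → ℂ) : diag (f + g) = diag f + diag g :=
  ext fun x y => by rw [ent_add, ent_diag, ent_diag, ent_diag]; split_ifs <;> simp
theorem star_diag (f : Cell n → ℂ) : star (diag f) = diag (star f) :=
  ext fun x y => by
    rw [ent_star, ent_diag, ent_diag]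
    by_cases h : x = y
    · subst h; simp
    · simp [h, Ne.symm h]

/-- projection onto a set of cells -/
noncomputable def pr (S : Set (Cell n)) : Op n := diag (S.indicator 1)

theorem pr_mul (S S' : Set (Cell n)) : pr S * pr S' = pr (S ∩ S') := by
  rw [pr, pr, pr, diag_mul, Set.inter_indicator_one]
theorem pr_univ : pr (Set.univ : Set (Cell n)) = 1 := by rw [pr, Set.indicator_univ, diag_one]
theorem pr_compl (S : Set (Cell n)) : pr Sᶜ = 1 - pr S := by
  rw [pr, pr, ← diag_one, ← diag_sub, Set.indicator_compl]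
theorem star_pr (S : Set (Cell n)) : star (pr S) = pr S := by
  rw [pr, star_diag]; congr 1; funext x; by_cases h : x ∈ S <;> simp [h]
theorem pr_empty : pr (∅ : Set (Cell n)) = 0 := by
  rw [← Set.compl_univ, pr_compl, pr_univ, sub_self]

open Classical in
/-- operator induced by an injective map of bounded displacement -/
noncomputable def emb (f : Cell n → Cell n) (hf : Function.Injective f)
    (hR : ∃ R : ℝ, ∀ y, ‖(f y).1 - y.1‖ ≤ R) : Op n :=
  ofFun (fun x y => if x = f y then 1 else 0)
    (fun y => (Set.finite_singleton (f y)).subset fun x h => by by_contra hc; exact h (if_neg hc))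
    (fun x => ((Set.finite_singleton x).preimage hf.injOn).subset fun y h => by
      by_contra hc; exact h (if_neg fun e => hc e.symm))
    (by obtain ⟨R, h⟩ := hR
        exact ⟨R, fun x y hh => by by_cases e : x = f y <;> simp_all⟩)

open Classical in
theorem ent_emb (f : Cell n → Cell n) (hf hR) (x y) :
    (emb f hf hR).ent x y = if x = f y then 1 else 0 := ent_ofFun _ _ _ _ _ _

@[simp] theorem ent_mul_emb (f : Cell n → Cell n) (hf hR) (T : Op n) (x y) :
    (T * emb f hf hR).ent x y = T.ent x (f y) := by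
  rw [ent_mul _ _ _ _ {f y} fun z _ h => by by_contra hc; exact h (by rw [ent_emb, if_neg]; simpa using hc)]
  simp [ent_emb]

@[simp] theorem ent_star_emb_mul (f : Cell n → Cell n) (hf hR) (T : Op n) (x y) :
    (star (emb f hf hR) * T).ent x y = T.ent (f x) y := by
  rw [ent_mul _ _ _ _ {f x} fun z h _ => by
    by_contra hc; exact h (by rw [ent_star, ent_emb, if_neg, star_zero]; simpa using hc)]
  simp [ent_emb]

theorem lin_emb (f : Cell n → Cell n) (hf hR) (y : Cell n) (c : ℂ) :
    lin (emb f hf hR) (single y c) = single (f y) c := by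
  classical
  ext x
  rw [← mul_one c, ← smul_eq_mul, ← smul_single, map_smul, Finsupp.smul_apply, ← ent_def, ent_emb]
  simp [single_apply, eq_comm]

theorem star_emb_mul_emb (f : Cell n → Cell n) (hf hR) : star (emb f hf hR) * emb f hf hR = 1 :=
  ext fun x y => by rw [ent_star_emb_mul, ent_emb, ent_one]; simp [hf.eq_iff]

theorem emb_pull (f : Cell n → Cell n) (hf hR) (S : Set (Cell n)) :
    star (emb f hf hR) * pr S * emb f hf hR = pr (f ⁻¹' S) :=
  ext fun x y => by
    rw [ent_mul_emb, ent_star_emb_mul, pr, pr, ent_diag, ent_diag]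
    by_cases h : f x ∈ S <;> simp [hf.eq_iff, h]

theorem emb_push (f : Cell n → Cell n) (hf hR) (S : Set (Cell n)) :
    emb f hf hR * pr S * star (emb f hf hR) = pr (f '' S) := by
  have h1 : emb f hf hR * pr S = pr (f '' S) * emb f hf hR := ext fun x y => by
    rw [ent_mul_emb, pr, pr, ent_mul_diag, ent_diag, ent_emb]
    by_cases e : x = f y
    · subst e; by_cases h : y ∈ S <;> simp [hf.mem_set_image, h]
    · simp [e]
  have h2 : emb f hf hR * star (emb f hf hR) = pr (Set.range f) := ext fun x y => by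
    rw [pr, ent_diag]
    by_cases h : x ∈ Set.range f
    · obtain ⟨z, rfl⟩ := h
      rw [ent_mul _ _ _ _ {z} fun w h _ => by
        by_contra hc
        exact h (by rw [ent_emb, if_neg]; simpa [hf.eq_iff, eq_comm] using hc)]
      simp [ent_emb, eq_comm]
    · rw [ent_mul _ _ _ _ ∅ fun w h' _ => by
        exact h' (by rw [ent_emb, if_neg]; rintro rfl; exact h ⟨_, rfl⟩) |>.elim]
      simp [h]
  rw [h1, mul_assoc, h2, pr_mul, Set.inter_eq_left.2 (Set.image_subset_range _ _)]

theorem cons_inj (i : Fin 4) : Function.Injective fun x : Cell n => ((x.1, i :: x.2) : Cell n) :=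
  fun x y h => by ext1 <;> simp_all

theorem sh_inj (l : Fin n) :
    Function.Injective fun x : Cell n => ((x.1 + Pi.single l 1, x.2) : Cell n) :=
  fun x y h => by ext1 <;> simp_all

/-- prepend a letter to the label -/
noncomputable def cons (i : Fin 4) : Op n :=
  emb (fun x => (x.1, i :: x.2)) (cons_inj i) ⟨0, by simp⟩

/-- unit shift in direction `l` -/
noncomputable def sh (l : Fin n) : Op n :=
  emb (fun x => (x.1 + Pi.single l 1, x.2)) (sh_inj l) ⟨1, by simp [Pi.norm_single]⟩

noncomputable instance : Base (Op n) where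
  D := Set.range pr
  one_mem := ⟨_, pr_univ⟩
  star_eq := by rintro _ ⟨S, rfl⟩; exact star_pr S
  idem := by rintro _ ⟨S, rfl⟩; rw [pr_mul, Set.inter_self]
  comm := by rintro _ ⟨S, rfl⟩ _ ⟨S', rfl⟩; rw [pr_mul, pr_mul, Set.inter_comm]
  mul_mem := by rintro _ ⟨S, rfl⟩ _ ⟨S', rfl⟩; exact ⟨_, (pr_mul _ _).symm⟩
  compl_mem := by rintro _ ⟨S, rfl⟩; exact ⟨_, pr_compl _⟩
  s := cons
  s_self := fun i => star_emb_mul_emb _ _ _
  s_ne := fun i j h => ext fun x y => by
    rw [cons, cons, ent_star_emb_mul, ent_emb]; simp [h]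
  s_push := by rintro i _ ⟨S, rfl⟩; exact ⟨_, (emb_push _ _ _ _).symm⟩
  s_pull := by rintro i _ ⟨S, rfl⟩; exact ⟨_, (emb_pull _ _ _ _).symm⟩

theorem s_eq (i : Fin 4) : (Base.s i : Op n) = cons i := rfl
theorem pr_D (S : Set (Cell n)) : pr S ∈ (Base.D : Set (Op n)) := ⟨S, rfl⟩

end Op

end Vale.Agent.P228
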