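import Vale.Agent.P228.NullA

/-! Ring-level signature lemmas. -/

set_option linter.unusedSectionVars false
set_option linter.unusedVariables false

namespace Vale.Agent.P228

variable {A : Type*} [Ring A] [StarRing A] [Algebra ℂ A] [StarModule ℂ A] [Base A]
variable {Γ : Type*} [AddCommGroup Γ] (S : Sig A Γ)

theorem Sig.sig_zero : S.sig 0 = 0 := by
  have h := S.add 0 S.K.zero_mem 0 S.K.zero_mem (star_zero _) (star_zero _) 1 Base.one_mem
    (zero_mul _) (zero_mul _)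
  rw [add_zero] at h
  exact left_eq_add.1 h
/-- invertible congruence on a support `W` -/
theorem Sig.congr_inv {x g g' : A} (hx : x ∈ S.K) (hs : star x = x) (h : g' * g * x = x) :
    S.sig (g * x * star g) = S.sig x := by
  have h' : x * star g * star g' = x := by simpa [hs, mul_assoc] using congrArg star h
  refine S.congr x hx hs g g' ?_
  linear_combination (norm := noncomm_ring) -h * star g * star g' - h'
/-- hyperbolic forms: conjugate by `W₁ - W₃` and use `tf 2` -/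
theorem Sig.hyp {N W₁ W₃ : A} (hN : N ∈ S.K) (hN' : star N ∈ S.K) (h1 : W₁ ∈ (Base.D : Set A))
    (h3 : W₃ ∈ (Base.D : Set A)) (ho : W₁ * W₃ = 0) (hl : W₃ * N = N) (hr : N * W₁ = N) :
    S.sig (N + star N) = 0 := by
  have s1 := Base.star_eq _ h1
  have s3 := Base.star_eq _ h3
  have i1 := Base.idem _ h1
  have i3 := Base.idem _ h3
  have ho' : W₃ * W₁ = 0 := by rw [Base.comm _ h3 _ h1, ho]
  have a1 : W₁ * N = 0 := by rw [← hl, ← mul_assoc, ho, zero_mul]
  have a2 : N * W₃ = 0 := by rw [← hr, mul_assoc, ho, mul_zero]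
  have b1 : star N * W₁ = 0 := by simpa [s1] using congrArg star a1
  have b2 : W₃ * star N = 0 := by simpa [s3] using congrArg star a2
  have b3 : star N * W₃ = star N := by simpa [s3] using congrArg star hl
  have b4 : W₁ * star N = star N := by simpa [s1] using congrArg star hr
  have hx := S.K.add_mem hN hN'
  have hs : star (N + star N) = N + star N := by simp [add_comm]
  have e1 : (W₁ - W₃) * (N + star N) = star N - N := by
    linear_combination (norm := noncomm_ring) a1 + b4 - hl - b2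
  have h := S.congr_inv (g := W₁ - W₃) (g' := W₁ - W₃) hx hs (by
    rw [mul_assoc, e1]
    linear_combination (norm := noncomm_ring) b4 - a1 - b2 + hl)
  have e2 : (star N - N) * star (W₁ - W₃) = -(N + star N) := by
    rw [star_sub, s1, s3]
    linear_combination (norm := noncomm_ring) b1 - b3 - hr + a2
  rw [e1, e2, S.neg _ hx hs] at h
  exact S.tf 2 _ two_ne_zero (by rw [two_nsmul]; nth_rewrite 1 [← h]; exact neg_add_cancel _)
/-- sublagrangian reduction.  With `N = W₃ H W₁`, `Q = N' N`, `Qh = Q + W₂ + W₃`, `Sx = 1 - R`: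
`H = Sx* (Qh* H Qh) Sx`, and with `Y = N'* (H W₂ + (1/2) H Q)`,
`(1-Y)* (Qh* H Qh) (1-Y) = W₂ H W₂ + N + N*`, `Y * Y = 0`. -/
theorem Sig.reduce {H W₁ W₂ W₃ N' R : A} (hH : H ∈ S.K) (hs : star H = H)
    (h1 : W₁ ∈ (Base.D : Set A)) (h2 : W₂ ∈ (Base.D : Set A)) (h3 : W₃ ∈ (Base.D : Set A))
    (h12 : W₁ * W₂ = 0) (h13 : W₁ * W₃ = 0) (h23 : W₂ * W₃ = 0) (hW : (W₁ + W₂ + W₃) * H = H)
    (h32 : W₃ * H * W₂ = 0) (h33 : W₃ * H * W₃ = 0) (hN1 : W₁ * N' = N') (hN3 : N' * W₃ = N')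
    (hR : H * R = 0) (hR1 : W₁ * R = W₁ - N' * (W₃ * H * W₁)) (hRW : R * W₁ = R) :
    S.sig H = S.sig (W₂ * H * W₂) := by
  have s1 := Base.star_eq _ h1
  have s2 := Base.star_eq _ h2
  have s3 := Base.star_eq _ h3
  have i1 := Base.idem _ h1
  have i2 := Base.idem _ h2
  have i3 := Base.idem _ h3
  have h31 : W₃ * W₁ = 0 := by rw [Base.comm _ h3 _ h1, h13]
  have h32' : W₃ * W₂ = 0 := by rw [Base.comm _ h3 _ h2, h23]
  have hW' : H * (W₁ + W₂ + W₃) = H := by simpa [hs, s1, s2, s3] using congrArg star hW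
  have h23' : W₂ * H * W₃ = 0 := by simpa [hs, s2, s3, mul_assoc] using congrArg star h32
  obtain ⟨N, hN⟩ : ∃ N, N = W₃ * H * W₁ := ⟨_, rfl⟩
  have sN : star N = W₁ * H * W₃ := by simp [hN, hs, s1, s3, mul_assoc]
  obtain ⟨Q, hQ⟩ : ∃ Q, Q = N' * N := ⟨_, rfl⟩
  rw [← hN, ← hQ] at hR1
  have n1 : N * W₁ = N := by rw [hN, mul_assoc, i1]
  have n3 : W₃ * N = N := by rw [hN, ← mul_assoc, ← mul_assoc, i3]
  have q1 : W₁ * Q = Q := by rw [hQ, ← mul_assoc, hN1]
  have q2 : Q * W₁ = Q := by rw [hQ, mul_assoc, n1]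
  have q3 : Q * W₃ = 0 := by rw [← q2, mul_assoc, h13, mul_zero]
  have nR : N * R = 0 := by
    rw [hN]
    linear_combination (norm := noncomm_ring) W₃ * hW' * R + W₃ * hR - h32 * R - h33 * R
  have qR : Q * R = 0 := by rw [hQ, mul_assoc, nR, mul_zero]
  have nQ : W₃ * H * Q = N := by
    have : N * Q = N := by
      linear_combination (norm := noncomm_ring) N * hR1 - n1 * R - nR + n1
    rw [← q1, ← mul_assoc, ← hN, this]
  have nQ' : star Q * H * W₃ = star N := by simpa [hs, s3, mul_assoc] using congrArg star nQ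
  have e1 : H * (Q + W₂ + W₃) * (1 - R) = H := by
    linear_combination (norm := noncomm_ring) hW' + H * hR1 - hW' * R - hR - H * qR
  have c1 := S.congr_inv (g := star (Q + W₂ + W₃)) (g' := star (1 - R)) hH hs (by
    have := congrArg star e1
    rwa [star_mul, star_mul, hs, ← mul_assoc] at this)
  rw [star_star] at c1
  obtain ⟨H₁, hH₁⟩ : ∃ H₁, H₁ = star (Q + W₂ + W₃) * H * (Q + W₂ + W₃) := ⟨_, rfl⟩
  rw [← hH₁] at c1
  have m1 : H₁ ∈ S.K := hH₁ ▸ S.K.mul_mem_right _ _ (S.K.mul_mem_left _ _ hH)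
  have sH : star H₁ = H₁ := by rw [hH₁, star_mul, star_mul, star_star, hs, mul_assoc]
  have e2 : H₁ = star Q * H * Q + star Q * H * W₂ + star N + W₂ * H * Q + W₂ * H * W₂ + N := by
    rw [hH₁, star_add, star_add, s2, s3]
    linear_combination (norm := noncomm_ring) nQ' + h23' + nQ + h32 + h33
  have e3 : H₁ * W₃ = star N := by
    rw [hH₁, star_add, star_add, s2, s3]
    linear_combination (norm := noncomm_ring) (star Q + W₂ + W₃) * H * (q3 + h23 + i3) + nQ' + h23'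
      + h33
  obtain ⟨Y, hY⟩ : ∃ Y, Y = star N' * (H * W₂ + (1 / 2 : ℂ) • (H * Q)) := ⟨_, rfl⟩
  have y1 : W₃ * Y = Y := by
    have : W₃ * star N' = star N' := by simpa [s3] using congrArg star hN3
    rw [hY, ← mul_assoc, this]
  have y2 : Y * W₃ = 0 := by
    rw [hY]
    simp [mul_assoc, add_mul, h23, q3]
  have y3 : Y * Y = 0 := by rw [← y1, mul_assoc, ← mul_assoc Y, y2]; simp
  obtain ⟨U, hU⟩ : ∃ U, U = (1 / 2 : ℂ) • (star Q * H * Q) := ⟨_, rfl⟩
  have u1 : U + U = star Q * H * Q := by rw [hU, ← add_smul]; norm_num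
  have u2 : star U = U := by simp [hU, hs, mul_assoc]
  have y4 : H₁ * Y = star Q * H * W₂ + U := by
    rw [← y1, ← mul_assoc, e3, hY, ← mul_assoc, ← star_mul, ← hQ, hU]
    simp [mul_add, mul_assoc]
  have y5 : star Y * H₁ = W₂ * H * Q + U := by
    simpa [sH, hs, s2, u2, mul_assoc] using congrArg star y4
  have y6 : star Y * H₁ * Y = 0 := by
    have t1 : star Y * W₃ = star Y := by simpa [s3] using congrArg star y1
    have t2 : W₃ * star N = 0 := by rw [sN, ← mul_assoc, ← mul_assoc, h31]; simp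
    linear_combination (norm := noncomm_ring) -star Y * H₁ * y1 + star Y * e3 * Y
      - t1 * star N * Y + star Y * t2 * Y
  have c2 := S.congr_inv (g := star (1 - Y)) (g' := star (1 + Y)) m1 sH (by
    have : (1 - Y) * (1 + Y) = 1 := by linear_combination (norm := noncomm_ring) -y3
    rw [← star_mul, this, star_one, one_mul])
  have e4 : star (1 - Y) * H₁ * star (star (1 - Y)) = W₂ * H * W₂ + (N + star N) := by
    rw [star_star, star_sub, star_one]
    linear_combination (norm := noncomm_ring) e2 - y4 - y5 + y6 - u1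
  have mN : N ∈ S.K := hN ▸ S.K.mul_mem_right _ _ (S.K.mul_mem_left _ _ hH)
  have mN' : star N ∈ S.K := sN ▸ S.K.mul_mem_right _ _ (S.K.mul_mem_left _ _ hH)
  rw [e4, S.add _ (S.K.mul_mem_right _ _ (S.K.mul_mem_left _ _ hH)) _ (S.K.add_mem mN mN')
    (by simp [hs, s2, mul_assoc]) (by simp [add_comm]) W₂ h2 (by rw [mul_assoc, i2])
    (by rw [add_mul, sN, mul_assoc _ W₃, h32', ← n1, mul_assoc, h12]; simp),
    S.hyp mN mN' h1 h3 h13 n3 n1, add_zero] at c2
  rw [c2, c1]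

variable {C D : Cx A}

theorem Cx.OK.form_star (h : C.OK) : star C.form = C.form := by
  simp only [Cx.form, star_add, star_ee, star_star, h.φs]
  abel
theorem Cx.OK.form_mem {G : TwoSidedIdeal A} (h : C.OK) (hG : C.p ∈ G) : C.form ∈ G := by
  refine G.add_mem (G.add_mem (ee_mem _ _ _ ?_) (ee_mem _ _ _ ?_)) (ee_mem _ _ _ ?_)
  · exact h.pφ ▸ G.mul_mem_right _ _ hG
  · exact h.pd ▸ G.mul_mem_right _ _ hG
  · exact h.toCpx.dual.pd ▸ G.mul_mem_right _ _ hG
theorem Sig.form_add (hC : C.OK) (hD : D.OK) (ho : C.p * D.p = 0) (h1 : C.p ∈ S.K)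
    (h2 : D.p ∈ S.K) : S.sig (C.add D).form = S.sig C.form + S.sig D.form := by
  have ho' : D.p * C.p = 0 := by rw [Base.comm _ hD.pD _ hC.pD, ho]
  have Z : ∀ x, x * D.p = x → x * C.p = 0 := fun x hx => by rw [← hx, mul_assoc, ho', mul_zero]
  have e : (C.add D).form = C.form + D.form := by
    simp only [Cx.form, Cx.add, star_add, ee_add]
    abel
  rw [e]
  refine S.add _ (hC.form_mem h1) _ (hD.form_mem h2) hC.form_star hD.form_star
    (ee 0 0 C.p + ee 1 1 C.p) (D_add (ee_D 0 hC.pD) (ee_D 1 hC.pD) (by simp [ee_mul])) ?_ ?_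
  · simp [Cx.form, mul_add, add_mul, ee_mul, hC.φp, hC.dp, hC.toCpx.dual.dp, add_assoc, add_comm,
      add_left_comm]
  · simp [Cx.form, mul_add, add_mul, ee_mul, Z _ hD.φp, Z _ hD.dp, Z _ hD.toCpx.dual.dp]
/-- `form (conj ε v C) = ε • v₁ (form C) v₁*` with `v₁ = ee 0 0 v + ε • ee 1 1 v` -/
theorem Sig.form_conj {ε : ℤ} (hε : ε = 1 ∨ ε = -1) {v : A} (hC : C.OK) (h1 : C.p ∈ S.K)
    (hv : star v * v * C.p = C.p) : S.sig (C.conj ε v).form = ε • S.sig C.form := by
  have V : ∀ x, C.p * x = x → star v * (v * x) = x := fun x hx => by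
    rw [← hx, ← mul_assoc, ← mul_assoc, hv]
  have hm := hC.form_mem h1
  rcases hε with rfl | rfl
  · have h := S.congr_inv (g := ee 0 0 v + ee 1 1 v) (g' := ee 0 0 (star v) + ee 1 1 (star v))
      hm hC.form_star (by
        simp [Cx.form, mul_add, add_mul, ee_mul, mul_assoc, V _ hC.pφ, V _ hC.pd,
          V _ hC.toCpx.dual.pd])
    rw [one_smul, ← h]
    congr 1
    simp [Cx.form, Cx.conj, mul_add, add_mul, ee_mul, mul_assoc, star_ee, add_assoc, add_comm,
      add_left_comm]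
  · have h := S.congr_inv (g := ee 0 0 v - ee 1 1 v) (g' := ee 0 0 (star v) - ee 1 1 (star v))
      hm hC.form_star (by
        simp [Cx.form, mul_add, add_mul, mul_sub, sub_mul, ee_mul, mul_assoc, V _ hC.pφ, V _ hC.pd,
          V _ hC.toCpx.dual.pd])
    rw [neg_smul, one_smul, ← h, ← S.neg _ (S.K.mul_mem_right _ _ (S.K.mul_mem_left _ _ hm))
      (by rw [star_mul, star_mul, star_star, hC.form_star, mul_assoc])]
    congr 1
    simp [Cx.form, Cx.conj, mul_add, add_mul, mul_sub, sub_mul, ee_mul, mul_assoc, star_ee, ee_neg]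
    abel
/-- contractible complexes: with `d k + k d = p` and `x = -(1/2)(φ k* - k φ)` one has
`φ + d x* + x d* = 0`; conjugate by `1 + ee 0 1 x` and use `Sig.hyp`. -/
theorem Sig.form_ctr (hC : C.OK) (h1 : C.p ∈ S.K) (h : Ctr C.p C.d) : S.sig C.form = 0 := by
  obtain ⟨k, hk⟩ := h
  have hk' : star k * star C.d + star C.d * star k = C.p := by
    simpa [hC.toCpx.star_p] using congrArg star hk
  obtain ⟨x, hx⟩ : ∃ x, x = (1 / 2 : ℂ) • (k * C.φ - C.φ * star k) := ⟨_, rfl⟩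
  have sx : star x = -x := by simp [hx, hC.φs, ← smul_neg]
  have e1 : C.φ + C.d * star x + x * star C.d = 0 := by
    have e2 : (k * C.φ - C.φ * star k) * star C.d - C.d * (k * C.φ - C.φ * star k) =
        (-2 : ℂ) • C.φ := by
      rw [neg_smul, two_smul]
      linear_combination (norm := noncomm_ring) k * hC.cyc + hC.cyc * star k - hk * C.φ
        - C.φ * hk' - hC.pφ - hC.φp
    have e3 : x * star C.d - C.d * x = -C.φ := by
      rw [hx, smul_mul_assoc, mul_smul_comm, ← smul_sub, e2, smul_smul]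
      norm_num
    rw [sx]
    linear_combination (norm := noncomm_ring) e3
  have h := S.congr_inv (g := 1 + ee 0 1 x) (g' := 1 - ee 0 1 x) (hC.form_mem h1) hC.form_star (by
    have : (1 - ee 0 1 x) * (1 + ee 0 1 x) = 1 := by simp [mul_add, sub_mul, ee_mul]
    rw [this, one_mul])
  have e4 : (1 + ee 0 1 x) * C.form * star (1 + ee 0 1 x) =
      ee 0 0 (C.φ + C.d * star x + x * star C.d) + (ee 0 1 C.d + star (ee 0 1 C.d)) := by
    simp [Cx.form, mul_add, add_mul, ee_mul, star_ee, ee_add]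
    abel
  have m1 : C.d ∈ S.K := hC.pd ▸ S.K.mul_mem_right _ _ h1
  have m2 : star C.d ∈ S.K := hC.toCpx.dual.pd ▸ S.K.mul_mem_right _ _ h1
  rw [e4, e1, ee_zero, zero_add, S.hyp (ee_mem _ _ _ m1) (star_ee 0 1 C.d ▸ ee_mem _ _ _ m2)
    (ee_D 1 hC.pD) (ee_D 0 hC.pD) (by simp [ee_mul]) (by simp [ee_mul, hC.pd])
    (by simp [ee_mul, hC.dp])] at h
  exact h.symm
/-- `Sig.reduce` for `H = T.form`, `W₁ = ee 0 0 pF + ee 1 1 pG`, `W₂ = ee 0 0 p + ee 1 1 p`,
`W₃ = ee 0 0 pG + ee 1 1 pF`, `α = s 0 pF + s 1 pG`, `β = s 0 pG + s 1 pF`, `K'` the adjoint of a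
supported contraction of the cone, `N' = α K' β*`, `R = J D β K' α*` where
`D = ee 0 0 d + ee 0 1 φ + ee 1 1 d*`, `J = ee 0 1 1 + ee 1 0 1`, `H = D J`. -/
theorem Sig.form_null (hC : C.OK) (h : Null S.K C) : S.sig C.form = 0 := by
  obtain ⟨T, pF, pG, h⟩ := h
  have sF := Base.star_eq _ h.FD
  have sG := Base.star_eq _ h.GD
  have sp := hC.toCpx.star_p
  have iF := Base.idem _ h.FD
  have iG := Base.idem _ h.GD
  have FG := h.FG
  have GF : pG * pF = 0 := by rw [Base.comm _ h.GD _ h.FD, h.FG]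
  have pF0 : C.p * pF = 0 := by rw [Base.comm _ hC.pD _ h.FD, h.Fp]
  have pG0 : C.p * pG = 0 := by rw [Base.comm _ hC.pD _ h.GD, h.Gp]
  have R : ∀ {a b c : A}, a * b = c → ∀ y, a * (b * y) = c * y := fun h y => by
    rw [← mul_assoc, h]
  have z1 : pG * (T.d * C.p) = 0 := by rw [← mul_assoc, h.quo, mul_assoc, h.Gp, mul_zero]
  have z2 : pG * (T.d * pF) = 0 := by rw [← mul_assoc, h.quo, mul_assoc, GF, mul_zero]
  have z3 : pF * (star T.d * C.p) = 0 := by
    have : C.p * (T.d * pF) = 0 := by rw [h.sub, mul_assoc, R pF0, zero_mul]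
    simpa [sF, sp, mul_assoc] using congrArg star this
  have z4 : pF * (star T.d * pG) = 0 := by simpa [sF, sG, mul_assoc] using congrArg star z2
  have z5 : pG * (T.φ * C.p) = 0 := by
    have : C.p * (T.φ * pG) = 0 := by rw [h.φG, mul_assoc, R pF0, zero_mul]
    simpa [sG, sp, h.ok.φs, mul_assoc] using congrArg star this
  have z6 : pG * (T.φ * pG) = 0 := by rw [h.φG, mul_assoc, R GF, zero_mul]
  obtain ⟨K, k1, k2, k3⟩ := h.cone.supp h.cpx_cone
  obtain ⟨δ, hδ⟩ : ∃ δ, δ = pF * star T.d * pF + pG * T.φ * pF + pG * T.d * pG := ⟨_, rfl⟩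
  have k4 : star K * (pF + pG) = star K := by simpa [sF, sG] using congrArg star k1
  have k5 : δ * star K + star K * δ = pF + pG := by
    rw [TwoSidedIdeal.mem_bot, sub_eq_zero] at k3
    have := congrArg star k3
    rw [add_comm]
    simpa [hδ, sF, sG, h.ok.φs, mul_assoc] using this
  have hT := S.form_ctr h.ok h.inG (ctrI_bot.1 h.ctr)
  have e0 : (ee 0 0 C.p + ee 1 1 C.p) * T.form * (ee 0 0 C.p + ee 1 1 C.p) = C.form := by
    have : C.p * star T.d * C.p = star C.d := by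
      simpa [sp, mul_assoc] using congrArg star h.md
    simp [Cx.form, mul_add, add_mul, ee_mul, h.md, h.mφ, this, add_assoc, add_comm, add_left_comm]
  have e1 : (ee 0 0 pG + ee 1 1 pF) * T.form * (ee 0 0 pF + ee 1 1 pG) =
      (ee 0 2 pG + ee 1 2 pF) * ee 2 2 δ * (ee 2 0 pF + ee 2 1 pG) := by
    simp [Cx.form, hδ, mul_add, add_mul, ee_mul, mul_assoc, R iF, R iG, R FG, R GF, iF, iG, FG, GF]
  have e2 : (ee 0 0 pF + ee 1 1 pG) * (ee 1 0 T.d + ee 1 1 T.φ + ee 0 1 (star T.d)) *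
      (ee 0 2 pG + ee 1 2 pF) = (ee 0 2 pF + ee 1 2 pG) * ee 2 2 δ := by
    simp [hδ, mul_add, add_mul, ee_mul, mul_assoc, R iF, R iG, R FG, R GF, ee_add]
    abel
  have e3 : ee 2 2 (star K) * (ee 2 0 pG + ee 2 1 pF) * (ee 0 2 pG + ee 1 2 pF) =
      ee 2 2 (star K) := by
    have := congrArg (ee 2 2) k4
    rw [mul_add, ee_add, add_comm] at this
    simp [mul_add, add_mul, ee_mul, mul_assoc, iF, iG, this]
  have e4 : (ee 0 2 pF + ee 1 2 pG) * (ee 2 2 δ * ee 2 2 (star K) + ee 2 2 (star K) * ee 2 2 δ) *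
      (ee 2 0 pF + ee 2 1 pG) = ee 0 0 pF + ee 1 1 pG := by
    rw [ee_mul_same, ee_mul_same, ← ee_add, k5]
    simp [mul_add, add_mul, ee_mul, iF, iG, FG, GF]
  have e5 : T.form * (ee 1 0 T.d + ee 1 1 T.φ + ee 0 1 (star T.d)) = 0 := by
    have := congrArg (ee 0 1) h.ok.cyc
    rw [ee_add, ee_zero] at this
    simp [Cx.form, mul_add, add_mul, ee_mul, h.ok.dd, h.ok.toCpx.dual.dd, this]
  have e6 : (ee 2 0 pF + ee 2 1 pG) * (ee 0 0 pF + ee 1 1 pG) = ee 2 0 pF + ee 2 1 pG := by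
    simp [mul_add, add_mul, ee_mul, iF, iG]
  rw [← e0, ← hT]
  refine (S.reduce (W₁ := ee 0 0 pF + ee 1 1 pG) (W₃ := ee 0 0 pG + ee 1 1 pF)
    (N' := (ee 0 2 pF + ee 1 2 pG) * ee 2 2 (star K) * (ee 2 0 pG + ee 2 1 pF))
    (R := (ee 1 0 T.d + ee 1 1 T.φ + ee 0 1 (star T.d)) * (ee 0 2 pG + ee 1 2 pF) *
      ee 2 2 (star K) * (ee 2 0 pF + ee 2 1 pG)) (h.ok.form_mem h.inG) h.ok.form_star
    (D_add (ee_D 0 h.FD) (ee_D 1 h.GD) (by simp [ee_mul]))
    (D_add (ee_D 0 hC.pD) (ee_D 1 hC.pD) (by simp [ee_mul]))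
    (D_add (ee_D 0 h.GD) (ee_D 1 h.FD) (by simp [ee_mul])) ?_ ?_ ?_ ?_ ?_ ?_ ?_ ?_ ?_ ?_ ?_).symm
  · simp [mul_add, add_mul, ee_mul, h.Fp, h.Gp]
  · simp [mul_add, add_mul, ee_mul, FG, GF]
  · simp [mul_add, add_mul, ee_mul, pF0, pG0]
  · have : ee 0 0 pF + ee 1 1 pG + (ee 0 0 C.p + ee 1 1 C.p) + (ee 0 0 pG + ee 1 1 pF) =
        ee 0 0 T.p + ee 1 1 T.p := by
      rw [h.tp]
      simp only [ee_add]
      abel
    rw [this]
    simp [Cx.form, mul_add, add_mul, ee_mul, h.ok.pφ, h.ok.pd, h.ok.toCpx.dual.pd]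
  · simp [Cx.form, mul_add, add_mul, ee_mul, mul_assoc, z1, z3, z5]
  · simp [Cx.form, mul_add, add_mul, ee_mul, mul_assoc, z2, z4, z6]
  · rw [← mul_assoc, ← mul_assoc]
    simp [mul_add, add_mul, ee_mul, iF, iG]
  · rw [mul_assoc]
    simp [mul_add, add_mul, ee_mul, iF, iG]
  · rw [mul_assoc, mul_assoc, ← mul_assoc, e5, zero_mul]
  · rw [e1]
    linear_combination (norm := noncomm_ring) e2 * ee 2 2 (star K) * (ee 2 0 pF + ee 2 1 pG) + e4
      + (ee 0 2 pF + ee 1 2 pG) * e3 * ee 2 2 δ * (ee 2 0 pF + ee 2 1 pG)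
  · rw [mul_assoc, e6]

end Vale.Agent.P228
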