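import Vale.Agent.P228.Hty
import Vale.Agent.P228.Cut

/-! The reduction step: existence, preservation, naturality. -/

set_option linter.unusedSectionVars false

namespace Vale.Agent.P228

variable {A : Type*} [Ring A] [StarRing A] [Algebra ℂ A] [StarModule ℂ A] [Base A]
variable {C C' C₁ D D' : Cx A} {f : Frame A} {fs : List (Frame A)} {P u v : A}

private theorem cpx_ee {p d : A} (i : Fin 4) (h : Cpx p d) : Cpx (ee i i p) (ee i i d) :=
  ⟨ee_D i h.pD, by rw [ee_mul_same, h.pd], by rw [ee_mul_same, h.dp],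
    by rw [ee_mul_same, h.dd, ee_zero]⟩

private theorem ee_orth (x y : A) : ee 0 0 x * ee 1 1 y = 0 := ee_mul_ne _ _ (by decide) _ _

theorem Cx.OK.cmp (h : C.OK) (hP : P ∈ (Base.D : Set A)) (hPd : P * C.d = P * C.d * P) :
    (C.cmp P).OK := by
  have hs := Base.star_eq P hP
  have hPP := Base.idem P hP
  refine ⟨h.toCpx.cmp hP hPd, ?_, ?_, ?_⟩
  · change star (P * C.φ * P) = P * C.φ * P
    simp [hs, h.φs, mul_assoc]
  · change P * (P * C.φ * P) = P * C.φ * P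
    rw [← mul_assoc, ← mul_assoc, hPP]
  · change P * C.d * P * (P * C.φ * P) + P * C.φ * P * star (P * C.d * P) = 0
    rw [← hPd, star_mul, hs]
    have h1 : star C.d * P = P * (star C.d * P) := by
      simpa [hs, mul_assoc] using congrArg star hPd
    have h2 : P * C.d * (P * C.φ * P) = P * C.d * P * C.φ * P := by noncomm_ring
    have h3 : P * C.φ * P * (star C.d * P) = P * C.φ * (P * (star C.d * P)) := by noncomm_ring
    have h4 : P * C.d * C.φ * P + P * C.φ * (star C.d * P) =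
        P * (C.d * C.φ + C.φ * star C.d) * P := by noncomm_ring
    rw [h2, h3, ← hPd, ← h1, h4, h.cyc]
    simp

theorem Cx.OK.bd (h : C.OK) : C.bd.OK := by
  have hp := h.toCpx
  have hd := hp.dual
  refine ⟨Cpx.smul (Cpx.ext (cpx_ee 0 hp) (cpx_ee 1 hd) (ee_orth _ _) ?_ ?_ ?_) _, ?_, ?_, ?_⟩
  · rw [ee_mul_same, h.pφ]
  · rw [ee_mul_same, h.φp]
  · rw [ee_mul_same, ee_mul_same, ← ee_add, h.cyc, ee_zero]
  · simp [Cx.bd, star_ee, hp.star_p, add_comm]
  · simp [Cx.bd, mul_add, add_mul, ee_mul, hp.pp]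
  · simp only [Cx.bd, star_smul, star_add, star_ee, star_star, h.φs, smul_mul_assoc,
      mul_smul_comm]
    simp [mul_add, add_mul, ee_mul, hp.pd, hp.dp, hd.pd, hd.dp, h.pφ, h.φp]
    abel

theorem Cx.OK.flip (h : C.OK) (h1 : C.p * u = u) (hc : C.d * u = u * C.d) : (C.flip u).OK := by
  refine ⟨h.toCpx, ?_, ?_, ?_⟩
  · simp [Cx.flip, h.φs, mul_assoc]
  · change C.p * (C.φ - (2 : ℂ) • (u * C.φ * star u)) = C.φ - (2 : ℂ) • (u * C.φ * star u)
    rw [mul_sub, mul_smul_comm, h.pφ, ← mul_assoc, ← mul_assoc, h1]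
  · change C.d * (C.φ - (2 : ℂ) • (u * C.φ * star u)) +
      (C.φ - (2 : ℂ) • (u * C.φ * star u)) * star C.d = 0
    have h2 : star u * star C.d = star C.d * star u := by simpa using congrArg star hc
    have h3 : C.d * (u * C.φ * star u) + u * C.φ * star u * star C.d = 0 := by
      have h4 : u * C.d * C.φ * star u + u * C.φ * (star C.d * star u) =
          u * (C.d * C.φ + C.φ * star C.d) * star u := by noncomm_ring
      rw [← mul_assoc, ← mul_assoc, hc, mul_assoc (u * C.φ), h2, h4, h.cyc]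
      simp
    rw [mul_sub, sub_mul, mul_smul_comm, smul_mul_assoc, sub_add_sub_comm, ← smul_add, h3, h.cyc]
    simp

/-- `HE.conj` with `s 0`, `s 1`, then `HE.ctr` and `CtrI.smul` -/
theorem Cx.bd_ctr (h : C.OK) (hp : C.Poinc) : Ctr C.bd.p C.bd.d := by
  have h1 : HE (ee 0 0 C.p) (ee 0 0 C.d) (ee 1 1 C.p) (ee 1 1 (-star C.d)) (ee 0 1 C.φ) :=
    HE.conj h.toCpx h.toCpx.dual.neg hp (by rw [Base.s_self, one_mul])
      (by rw [Base.s_self, one_mul])
  have h2 := h1.ctr (cpx_ee 0 h.toCpx) (cpx_ee 1 h.toCpx.dual.neg) (ee_orth _ _)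
  rw [ee_neg, sub_neg_eq_add] at h2
  exact ctrI_bot.1 ((ctrI_bot.2 h2).smul Complex.I_ne_zero)

/-- `(C.cmp P).bd` is the compression of `C.bd` by `ee 0 0 P + ee 1 1 P`; use `CtrI.cmp` -/
theorem Frame.Slab.bd_ctrI (hP : f.Slab C P) (h : C.OK) (hp : C.Poinc) :
    CtrI f.I (C.cmp P).bd.p (C.cmp P).bd.d := by
  have h1 := CtrI.cmp (P := ee 0 0 P + ee 1 1 P) h.bd.toCpx
    (D_add (ee_D 0 hP.PD) (ee_D 1 hP.PD) (ee_orth _ _))
    (by simp [Cx.bd, mul_add, add_mul, ee_mul, hP.Pp])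
    (by
      have h2 : C.bd.p - (ee 0 0 P + ee 1 1 P) = ee 0 0 (C.p - P) + ee 1 1 (C.p - P) := by
        simp only [Cx.bd, ee_sub]
        abel
      rw [h2]
      exact f.I.add_mem (ee_mem _ _ _ hP.inI) (ee_mem _ _ _ hP.inI))
    ((Cx.bd_ctr h hp).ctrI f.I)
  have h2 : (ee 0 0 P + ee 1 1 P) * C.bd.d * (ee 0 0 P + ee 1 1 P) = (C.cmp P).bd.d := by
    simp only [Cx.bd, Cx.cmp, smul_mul_assoc, mul_smul_comm]
    simp [mul_add, add_mul, ee_mul, Base.star_eq P hP.PD, mul_assoc, add_assoc]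
  rw [h2] at h1
  exact h1

theorem Cx.bd_cut (h : C.OK) (hc : Cut C.p C.d) : Cut C.bd.p C.bd.d :=
  Cut.smul _ (Cut.ext (cpx_ee 0 h.toCpx) (cpx_ee 1 h.toCpx.dual) (ee_orth _ _)
    (by rw [ee_mul_same, h.pφ]) (by rw [ee_mul_same, h.φp]) (hc.ee 0 h.toCpx)
    ((hc.dual h.toCpx).ee 1 h.toCpx.dual))

/-- Poincare property from `Frame.OK.flip_HE` with `f = g = J`, `w = star u` -/
theorem Step.good (hf : f.OK) (hC : C.Good) (h : Step f C C₁) : C₁.Good := by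
  obtain ⟨P, u, hP, hu, rfl⟩ := h
  have h1 := hC.ok.cmp hP.PD hP.Pd
  have h2 := h1.bd
  have hJ : (C.cmp P).bd.φ * (C.cmp P).bd.φ = (C.cmp P).bd.p := by
    simp [Cx.bd, mul_add, add_mul, ee_mul, h1.toCpx.pp, add_comm]
  refine ⟨h2.flip hu.pu hu.ch, ?_,
    Cx.bd_cut h1 (hC.cut.cmp hC.ok.toCpx hP.PD hP.Pp hP.Pd)⟩
  exact hf.flip_HE h2.toCpx h2.toCpx.dual.neg (hP.bd_ctrI hC.ok hC.poinc) h2.pφ h2.φp
    (by rw [mul_neg, eq_neg_iff_add_eq_zero]; exact h2.cyc) h2.pφ h2.φp hJ hJ hu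
    (hu.star hf h2.toCpx).neg_d

theorem Step.mem {G : TwoSidedIdeal A} (h : Step f C C₁) (hG : C.p ∈ G) : C₁.p ∈ G := by
  obtain ⟨P, u, hP, -, rfl⟩ := h
  have h1 : P ∈ G := hP.Pp ▸ G.mul_mem_left _ _ hG
  exact G.add_mem (ee_mem _ _ _ h1) (ee_mem _ _ _ h1)

theorem Step.memB (h : Step f C C₁) : C₁.p ∈ f.B := by
  obtain ⟨P, u, hP, -, rfl⟩ := h
  exact f.B.add_mem (ee_mem _ _ _ hP.inB) (ee_mem _ _ _ hP.inB)

theorem Frame.OK.exists_slab (hf : f.OK) (hC : C.Good) : ∃ P, f.Slab C P := by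
  obtain ⟨M, r, a, hM, hra, hI, hB⟩ := hf.geo
  obtain ⟨P, h1, h2, h3, h4, h5⟩ := hC.cut M hM ((2 * r + a) / 3) ((r + 2 * a) / 3) (by linarith)
  exact ⟨P, h1, h2, h3, (hI _).2 ⟨_, by linarith, h4⟩, (hB _).2 ⟨_, by linarith, h5⟩⟩

theorem Frame.Slab.exists_step (hf : f.OK) (hC : C.Good) (hP : f.Slab C P) :
    ∃ u, f.Chi (C.cmp P).bd.p (C.cmp P).bd.d u :=
  hf.exists_chi (hC.ok.cmp hP.PD hP.Pd).bd.toCpx (hP.bd_ctrI hC.ok hC.poinc)

theorem Red.good (hfs : ∀ f ∈ fs, f.OK) (hC : C.Good) (h : Red fs C C') : C'.Good := by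
  induction fs generalizing C with
  | nil => exact (show C' = C from h) ▸ hC
  | cons f fs ih =>
    obtain ⟨C₁, h1, h2⟩ := h
    exact ih (fun g hg => hfs g (List.mem_cons_of_mem _ hg))
      (h1.good (hfs f List.mem_cons_self) hC) h2

theorem Red.mem {G : TwoSidedIdeal A} (h : Red fs C C') (hG : C.p ∈ G) : C'.p ∈ G := by
  induction fs generalizing C with
  | nil => exact (show C' = C from h) ▸ hG
  | cons f fs ih =>
    obtain ⟨C₁, h1, h2⟩ := h
    exact ih h2 (h1.mem hG)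

theorem Red.memB (h : Red fs C C') : ∀ f ∈ fs, C'.p ∈ f.B := by
  induction fs generalizing C with
  | nil => simp
  | cons f fs ih =>
    obtain ⟨C₁, h1, h2⟩ := h
    intro g hg
    rcases List.mem_cons.1 hg with rfl | hg
    · exact h2.mem h1.memB
    · exact ih h2 g hg

theorem exists_red (hfs : ∀ f ∈ fs, f.OK) (hC : C.Good) : ∃ C', Red fs C C' := by
  induction fs generalizing C with
  | nil => exact ⟨C, rfl⟩
  | cons f fs ih =>
    have hf := hfs f List.mem_cons_self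
    obtain ⟨P, hP⟩ := hf.exists_slab hC
    obtain ⟨u, hu⟩ := hP.exists_step hf hC
    have h1 : Step f C ((C.cmp P).bd.flip u) := ⟨P, u, hP, hu, rfl⟩
    obtain ⟨C', h2⟩ := ih (fun g hg => hfs g (List.mem_cons_of_mem _ hg)) (h1.good hf hC)
    exact ⟨C', _, h1, h2⟩

end Vale.Agent.P228
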