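import Vale.Agent.P228.StepA

/-! The reduction step: existence, preservation, naturality. -/

set_option linter.unusedSectionVars false

namespace Vale.Agent.P228

variable {A : Type*} [Ring A] [StarRing A] [Algebra ℂ A] [StarModule ℂ A] [Base A]
variable {C C' C₁ D D' : Cx A} {f : Frame A} {fs : List (Frame A)} {P u v : A}

private theorem sb_l {p x : A} (hv : star v * v * p = p) (hx : p * x = x) :
    star v * (v * x) = x := by
  rw [← hx, ← mul_assoc, ← mul_assoc, hv]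

private theorem sb_r {p x : A} (hp : star p = p) (hv : star v * v * p = p) (hx : x * p = x) :
    x * star v * v = x := by
  have := congrArg star hv
  simp only [star_mul, star_star, hp] at this
  rw [← hx, mul_assoc, mul_assoc, this]

private theorem sb_conj_mul {x y w w' : A} (hy : star v * (v * y) = y) :
    w * x * star v * (v * y * star w') = w * (x * y) * star w' := by
  calc _ = w * x * (star v * (v * y)) * star w' := by noncomm_ring
    _ = _ := by rw [hy]; noncomm_ring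

private theorem sb_orth {p q x y : A} (ho : p * q = 0) (hx : x * p = x) (hy : q * y = y) :
    x * y = 0 := by
  rw [← hx, ← hy, mul_assoc, ← mul_assoc p, ho, zero_mul, mul_zero]

private theorem sb_orth' {p q : A} (hp : p ∈ (Base.D : Set A)) (hq : q ∈ (Base.D : Set A))
    (ho : p * q = 0) : q * p = 0 := by rw [Base.comm _ hq _ hp, ho]

theorem Cx.OK.conj {ε : ℤ} (h : C.OK) (hm : Mono v) (hv : star v * v * C.p = C.p) :
    (C.conj ε v).OK := by
  refine ⟨h.toCpx.conj hm hv, ?_, ?_, ?_⟩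
  · simp only [Cx.conj, star_zsmul, star_mul, star_star, h.φs, mul_assoc]
  · simp only [Cx.conj, mul_smul_comm]
    rw [sb_conj_mul (sb_l hv h.pφ), h.pφ]
  · simp only [Cx.conj, mul_smul_comm, smul_mul_assoc, star_mul, star_star]
    rw [sb_conj_mul (sb_l hv h.pφ), ← mul_assoc v (star C.d),
      sb_conj_mul (sb_l hv h.toCpx.dual.pd), ← smul_add, ← add_mul, ← mul_add, h.cyc]
    simp
theorem Cx.Good.conj {ε : ℤ} (hε : ε = 1 ∨ ε = -1) (h : C.Good) (hm : Mono v)
    (hv : star v * v * C.p = C.p) : (C.conj ε v).Good := by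
  refine ⟨h.ok.conj hm hv, ?_, h.cut.conj h.ok.toCpx hm hv⟩
  have H := HE.conj h.ok.toCpx h.ok.toCpx.dual.neg h.poinc hv hv
  have e : v * -star C.d * star v = -star (v * C.d * star v) := by simp [mul_assoc]
  rw [e] at H
  rcases hε with rfl | rfl
  · simpa [Cx.Poinc, Cx.conj] using H
  · simpa [Cx.Poinc, Cx.conj] using H.smul_f (z := -1) (by simp)
theorem Cx.OK.add (h : C.OK) (h' : D.OK) (ho : C.p * D.p = 0) : (C.add D).OK := by
  have ho' := sb_orth' h.pD h'.pD ho
  refine ⟨?_, ?_, ?_, ?_⟩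
  · simpa [Cx.add] using Cpx.ext (a := 0) h.toCpx h'.toCpx ho (by simp) (by simp) (by simp)
  · simp only [Cx.add, star_add, h.φs, h'.φs]
  · simp only [Cx.add, mul_add, add_mul, h.pφ, h'.pφ, sb_orth ho h.toCpx.pp h'.pφ,
      sb_orth ho' h'.toCpx.pp h.pφ, add_zero, zero_add]
  · simp only [Cx.add, star_add, mul_add, add_mul, sb_orth ho h.dp h'.pφ, sb_orth ho' h'.dp h.pφ,
      sb_orth ho h.φp h'.toCpx.dual.pd, sb_orth ho' h'.φp h.toCpx.dual.pd, add_zero, zero_add]
    rw [add_add_add_comm, h.cyc, h'.cyc, add_zero]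

private theorem sb_htp {p d e q d' e' x y : A} (hd : Cpx p d) (he : Cpx p e) (hd' : Cpx q d')
    (he' : Cpx q e') (ho : p * q = 0) (hs : p * (x - y) * p = x - y) (h : Htp d e x y) :
    Htp (d + d') (e + e') x y := by
  obtain ⟨k, hk⟩ := h
  have ho' := sb_orth' hd.pD hd'.pD ho
  refine ⟨p * k * p, ?_⟩
  have e1 : d' * p = 0 := sb_orth ho' hd'.dp hd.pp
  have e2 : p * e' = 0 := sb_orth ho hd.pp he'.pd
  calc x - y = p * (d * k + k * e) * p := by rw [← hk, hs]
    _ = p * d * k * p + p * k * (e * p) := by noncomm_ring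
    _ = d * p * k * p + d' * p * k * p + (p * k * (p * e) + p * k * (p * e')) := by
        rw [hd.pd, hd.dp, he.pd, he.dp, e1, e2]; simp
    _ = _ := by noncomm_ring

private theorem sb_he {p d e x q d' e' x' : A} (hd : Cpx p d) (he : Cpx p e) (hd' : Cpx q d')
    (he' : Cpx q e') (ho : p * q = 0) (h : HE p d p e x) (h' : HE q d' q e' x') :
    HE (p + q) (d + d') (p + q) (e + e') (x + x') := by
  have ho' := sb_orth' hd.pD hd'.pD ho
  obtain ⟨a1, a2, a3, g, a4, a5, a6, a7, a8⟩ := h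
  obtain ⟨b1, b2, b3, g', b4, b5, b6, b7, b8⟩ := h'
  have s : ∀ {r y z : A}, r * r = r → r * y = y → z * r = z → r * (y * z - r) * r = y * z - r := by
    intro r y z h0 h1 h2
    rw [mul_sub, sub_mul, ← mul_assoc, h1, mul_assoc, h2, h0, h0]
  refine ⟨?_, ?_, ?_, g + g', ?_, ?_, ?_, ?_, ?_⟩
  · simp only [mul_add, add_mul, a1, b1, sb_orth ho hd.pp b1, sb_orth ho' hd'.pp a1, add_zero,
      zero_add]
  · simp only [mul_add, add_mul, a2, b2, sb_orth ho a2 hd'.pp, sb_orth ho' b2 hd.pp, add_zero,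
      zero_add]
  · simp only [mul_add, add_mul, a3, b3, sb_orth ho hd.dp b1, sb_orth ho' hd'.dp a1,
      sb_orth ho a2 he'.pd, sb_orth ho' b2 he.pd, add_zero, zero_add]
  · simp only [mul_add, add_mul, a4, b4, sb_orth ho hd.pp b4, sb_orth ho' hd'.pp a4, add_zero,
      zero_add]
  · simp only [mul_add, add_mul, a5, b5, sb_orth ho a5 hd'.pp, sb_orth ho' b5 hd.pp, add_zero,
      zero_add]
  · simp only [mul_add, add_mul, a6, b6, sb_orth ho he.dp b4, sb_orth ho' he'.dp a4,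
      sb_orth ho a5 hd'.pd, sb_orth ho' b5 hd.pd, add_zero, zero_add]
  · have e1 : (x + x') * (g + g') = x * g + x' * g' := by
      simp only [mul_add, add_mul, sb_orth ho a2 b4, sb_orth ho' b2 a4, add_zero, zero_add]
    rw [e1]
    have h2 := sb_htp hd' hd' hd hd ho' (s hd'.pp b1 b5) b7
    rw [add_comm d' d] at h2
    exact (sb_htp hd hd hd' hd' ho (s hd.pp a1 a5) a7).add h2
  · have e1 : (g + g') * (x + x') = g * x + g' * x' := by
      simp only [mul_add, add_mul, sb_orth ho a5 b1, sb_orth ho' b5 a1, add_zero, zero_add]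
    rw [e1]
    have h2 := sb_htp he' he' he he ho' (s hd'.pp b4 b2) b8
    rw [add_comm e' e] at h2
    exact (sb_htp he he he' he' ho (s hd.pp a4 a2) a8).add h2

theorem Cx.Good.add (h : C.Good) (h' : D.Good) (ho : C.p * D.p = 0) : (C.add D).Good := by
  refine ⟨h.ok.add h'.ok ho, ?_, ?_⟩
  · have H := sb_he h.ok.toCpx h.ok.toCpx.dual.neg h'.ok.toCpx h'.ok.toCpx.dual.neg ho h.poinc
      h'.poinc
    rw [← neg_add, ← star_add] at H
    exact H
  · simpa [Cx.add] using Cut.ext (a := 0) h.ok.toCpx h'.ok.toCpx ho (by simp) (by simp) h.cut h'.cut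
theorem Cx.conj_neg_one (C : Cx A) : C.conj (-1) 1 = C.neg := by
  simp [Cx.conj, Cx.neg]
theorem Cx.Good.neg (h : C.Good) : C.neg.Good := by
  rw [← Cx.conj_neg_one]
  exact h.conj (Or.inr rfl) (mono_D Base.one_mem) (by simp)
theorem Cx.Good.res {ω : A} (h : C.Good) (hω : ω ∈ (Base.D : Set A)) (h2 : ω * C.d = C.d * ω)
    (h3 : ω * C.φ = C.φ * ω) : (C.res ω).Good := by
  have hp := h.ok.toCpx
  have ww := Base.idem _ hω
  have sw := Base.star_eq _ hω
  have h1 := Base.comm _ hω _ hp.pD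
  have h4 : ω * star C.d = star C.d * ω := by
    have := congrArg star h2
    simp only [star_mul, sw] at this
    exact this.symm
  have m : ∀ {x : A} (y : A), ω * x = x * ω → ω * x * (ω * y) = ω * (x * y) := by
    intro x y hx
    calc _ = ω * (x * ω) * y := by noncomm_ring
      _ = ω * ω * (x * y) := by rw [← hx]; noncomm_ring
      _ = _ := by rw [ww]
  have hD := Base.mul_mem _ hω _ hp.pD
  have e1 : ω * C.p * C.d * (ω * C.p) = ω * C.d := by
    rw [mul_assoc ω C.p, hp.pd, m _ h2, hp.dp]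
  have e2 : star (ω * C.d) = ω * star C.d := by rw [star_mul, sw, h4]
  refine ⟨⟨⟨hD, ?_, ?_, ?_⟩, ?_, ?_, ?_⟩, ?_, ?_⟩
  · simp only [Cx.res]; rw [m _ h1, hp.pd]
  · simp only [Cx.res]; rw [m _ h2, hp.dp]
  · simp only [Cx.res]; rw [m _ h2, hp.dd, mul_zero]
  · simp only [Cx.res]; rw [star_mul, sw, h.ok.φs, h3]
  · simp only [Cx.res]; rw [m _ h1, h.ok.pφ]
  · simp only [Cx.res]; rw [e2, m _ h2, m _ h3, ← mul_add, h.ok.cyc, mul_zero]
  · have H := HE.res h.poinc ww h1 h2 h1 (by rw [mul_neg, neg_mul, h4]) h3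
    rw [mul_neg, ← e2] at H
    exact H
  · have H := h.cut.cmp hp hD (by rw [mul_assoc, hp.pp]) (by rw [e1, mul_assoc, hp.pd])
    rw [e1] at H
    exact H

/-- the doubled monomial map -/
theorem mono_dbl {ε : ℤ} (hε : ε = 1 ∨ ε = -1) (hm : Mono v) :
    Mono (ee 0 0 v + ε • ee 1 1 v) := by
  intro Q hQ
  have cr : ∀ i j : Fin 4, i ≠ j → star (Base.s i : A) * Q * Base.s j = 0 := by
    intro i j hij
    have h1 := Base.s_push i _ (Base.one_mem (A := A))
    rw [mul_one] at h1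
    have h2 := Base.comm _ h1 _ hQ
    calc _ = star (Base.s i : A) * Base.s i * star (Base.s i : A) * Q * Base.s j := by
          rw [Base.s_self, one_mul]
      _ = star (Base.s i : A) * (Base.s i * star (Base.s i : A) * Q) * Base.s j := by noncomm_ring
      _ = star (Base.s i : A) * Q * Base.s i * (star (Base.s i : A) * Base.s j) := by
          rw [h2]; noncomm_ring
      _ = 0 := by rw [Base.s_ne _ _ hij, mul_zero]
  have k : ∀ i j : Fin 4, ee i i v * Q * ee j j (star v) =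
      ee i j (v * (star (Base.s i : A) * Q * Base.s j) * star v) := by
    intro i j
    unfold ee
    noncomm_ring
  have e : (ee 0 0 v + ε • ee 1 1 v) * Q * star (ee 0 0 v + ε • ee 1 1 v) =
      ee 0 0 (v * (star (Base.s 0 : A) * Q * Base.s 0) * star v) +
        ee 1 1 (v * (star (Base.s 1 : A) * Q * Base.s 1) * star v) := by
    rcases hε with rfl | rfl <;>
      simp [star_ee, mul_add, add_mul, k, cr 0 1 (by decide), cr 1 0 (by decide)]
  rw [e]
  exact D_add (ee_D 0 (hm _ (Base.s_pull 0 Q hQ))) (ee_D 1 (hm _ (Base.s_pull 1 Q hQ)))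
    (ee_mul_ne _ _ (by decide) _ _)

private theorem sb_cmp_conj {ε : ℤ} (hC : C.OK) (hP : P ∈ (Base.D : Set A)) (hPp : P * C.p = P)
    (hv : star v * v * C.p = C.p) :
    (C.conj ε v).cmp (v * P * star v) = (C.cmp P).conj ε v := by
  have pP : C.p * P = P := by rw [Base.comm _ hC.pD _ hP, hPp]
  simp only [Cx.conj, Cx.cmp, mul_smul_comm, smul_mul_assoc]
  rw [sb_conj_mul (sb_l hv hC.pd), sb_conj_mul (sb_l hv pP), sb_conj_mul (sb_l hv hC.pφ),
    sb_conj_mul (sb_l hv pP)]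

private theorem sb_bd_conj {ε : ℤ} (hε : ε = 1 ∨ ε = -1) (X : Cx A) (v : A) :
    (X.conj ε v).bd = X.bd.conj ε (ee 0 0 v + ε • ee 1 1 v) := by
  rcases hε with rfl | rfl <;>
    simp [Cx.conj, Cx.bd, star_ee, mul_add, add_mul, ee_mul, ee_neg, mul_assoc] <;>
    exact ⟨by abel, by abel⟩

private theorem sb_flip_conj {ε : ℤ} {X : Cx A} (hX : X.OK) (hu : u * X.p = u)
    (hv : star v * v * X.p = X.p) :
    (X.conj ε v).flip (v * u * star v) = (X.flip u).conj ε v := by
  have h1 : X.p * star u = star u := by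
    have := congrArg star hu
    rwa [star_mul, hX.toCpx.star_p] at this
  simp only [Cx.conj, Cx.flip, mul_smul_comm, smul_mul_assoc, star_mul, star_star]
  rw [sb_conj_mul (sb_l hv hX.pφ), ← mul_assoc v (star u), sb_conj_mul (sb_l hv h1), mul_sub,
    sub_mul, smul_sub, mul_smul_comm, smul_mul_assoc, smul_comm]

private theorem sb_chi_conj {p d : A} (hf : f.OK) (hp : Cpx p d) (hv : star v * v * p = p)
    (h : f.Chi p d u) : f.Chi (v * p * star v) (v * d * star v) (v * u * star v) := by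
  refine ⟨?_, ?_, ?_, ?_⟩
  · rw [sb_conj_mul (sb_l hv h.pu), h.pu]
  · rw [sb_conj_mul (sb_l hv hp.pp), h.up]
  · rw [sb_conj_mul (sb_l hv h.pu), sb_conj_mul (sb_l hv hp.pd), h.ch]
  · have e : v * u * star v - f.χ * (v * p * star v) =
        v * (u - f.χ * p) * star v - (f.χ * v - v * f.χ) * (p * star v) := by noncomm_ring
    rw [e]
    exact f.N.sub_mem (f.N.mul_mem_right _ _ (f.N.mul_mem_left _ _ h.md))
      (f.N.mul_mem_right _ _ (hf.χc v))

private theorem sb_step_conj {ε : ℤ} (hε : ε = 1 ∨ ε = -1) (hf : f.OK) (hC : C.OK) (hm : Mono v)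
    (hv : star v * v * C.p = C.p) (h : Step f C C₁) :
    star (ee 0 0 v + ε • ee 1 1 v) * (ee 0 0 v + ε • ee 1 1 v) * C₁.p = C₁.p ∧
      Step f (C.conj ε v) (C₁.conj ε (ee 0 0 v + ε • ee 1 1 v)) := by
  obtain ⟨P, u, hP, hu, rfl⟩ := h
  have pP : C.p * P = P := by rw [Base.comm _ hC.pD _ hP.PD, hP.Pp]
  have vP := sb_l hv pP
  have hX := (hC.cmp hP.PD hP.Pd).bd
  have h1 : star (ee 0 0 v + ε • ee 1 1 v) * (ee 0 0 v + ε • ee 1 1 v) * (C.cmp P).bd.p =
      (C.cmp P).bd.p := by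
    rcases hε with rfl | rfl <;>
      simp [Cx.cmp, Cx.bd, star_ee, mul_add, add_mul, ee_mul, mul_assoc, vP]
  refine ⟨h1, v * P * star v, (ee 0 0 v + ε • ee 1 1 v) * u * star (ee 0 0 v + ε • ee 1 1 v),
    ⟨hm _ hP.PD, ?_, ?_, ?_, ?_⟩, ?_, ?_⟩
  · simp only [Cx.conj]
    rw [sb_conj_mul (sb_l hv hC.toCpx.pp), hP.Pp]
  · simp only [Cx.conj]
    rw [sb_conj_mul (sb_l hv hC.pd), sb_conj_mul vP, ← hP.Pd]
  · simp only [Cx.conj]
    rw [← sub_mul, ← mul_sub]
    exact f.I.mul_mem_right _ _ (f.I.mul_mem_left _ _ hP.inI)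
  · exact f.B.mul_mem_right _ _ (f.B.mul_mem_left _ _ hP.inB)
  · rw [sb_cmp_conj hC hP.PD hP.Pp hv, sb_bd_conj hε]
    exact sb_chi_conj hf hX.toCpx h1 hu
  · rw [sb_cmp_conj hC hP.PD hP.Pp hv, sb_bd_conj hε, sb_flip_conj hX hu.up h1]

/-- invariance under monomial isomorphisms and sign; at each step `v` is replaced by
`ee 0 0 v + ε • ee 1 1 v`, the slab by `v P v*` and `u` by `v₁ u v₁*` -/
theorem Red.conj {ε : ℤ} (hε : ε = 1 ∨ ε = -1) (hfs : ∀ f ∈ fs, f.OK) (hC : C.Good) (hm : Mono v)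
    (hv : star v * v * C.p = C.p) (h : Red fs C C') :
    ∃ v', Mono v' ∧ star v' * v' * C'.p = C'.p ∧ Red fs (C.conj ε v) (C'.conj ε v') := by
  induction fs generalizing C v with
  | nil =>
    obtain rfl : C' = C := h
    exact ⟨v, hm, hv, rfl⟩
  | cons f fs ih =>
    obtain ⟨C₁, h1, h2⟩ := h
    have hf := hfs f List.mem_cons_self
    obtain ⟨k1, k2⟩ := sb_step_conj hε hf hC.ok hm hv h1
    obtain ⟨v', m1, m2, m3⟩ := ih (fun g hg => hfs g (List.mem_cons_of_mem _ hg)) (h1.good hf hC)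
      (mono_dbl hε hm) k1 h2
    exact ⟨v', m1, m2, _, k2, m3⟩

private theorem sb_bd_add (X Y : Cx A) : (X.add Y).bd = X.bd.add Y.bd := by
  simp only [Cx.add, Cx.bd, star_add, ee_add, smul_add, Cx.mk.injEq]
  refine ⟨by abel, by abel, by abel⟩

private theorem sb_step_add {D₁ : Cx A} (hC : C.OK) (hD : D.OK) (ho : C.p * D.p = 0)
    (h : Step f C C₁) (h' : Step f D D₁) :
    C₁.p * D₁.p = 0 ∧ Step f (C.add D) (C₁.add D₁) := by
  obtain ⟨P, u, hP, hu, rfl⟩ := h
  obtain ⟨Q, w, hQ, hw, rfl⟩ := h'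
  have ho' := sb_orth' hC.pD hD.pD ho
  have pP : C.p * P = P := by rw [Base.comm _ hC.pD _ hP.PD, hP.Pp]
  have qQ : D.p * Q = Q := by rw [Base.comm _ hD.pD _ hQ.PD, hQ.Pp]
  have PQ : P * Q = 0 := sb_orth ho hP.Pp qQ
  have hX := (hC.cmp hP.PD hP.Pd).bd
  have hY := (hD.cmp hQ.PD hQ.Pd).bd
  have h1 : (C.cmp P).bd.p * (D.cmp Q).bd.p = 0 := by
    simp [Cx.cmp, Cx.bd, mul_add, add_mul, ee_mul, PQ]
  have h1' := sb_orth' hX.pD hY.pD h1
  have e : ∀ {x y : A}, C.p * x = x → x * C.p = x → D.p * y = y → y * D.p = y →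
      (P + Q) * (x + y) = P * x + Q * y ∧
      (P + Q) * (x + y) * (P + Q) = P * x * P + Q * y * Q := by
    intro x y a1 a2 b1 b2
    have e1 : (P + Q) * (x + y) = P * x + Q * y := by
      simp only [mul_add, add_mul, sb_orth ho hP.Pp b1, sb_orth ho' hQ.Pp a1, add_zero, zero_add]
    refine ⟨e1, ?_⟩
    rw [e1]
    simp only [mul_add, add_mul, mul_assoc, sb_orth ho a2 qQ, sb_orth ho' b2 pP, mul_zero,
      add_zero, zero_add]
  have ec : (C.add D).cmp (P + Q) = (C.cmp P).add (D.cmp Q) := by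
    simp only [Cx.add, Cx.cmp]
    rw [(e hC.pd hC.dp hD.pd hD.dp).2, (e hC.pφ hC.φp hD.pφ hD.φp).2]
  refine ⟨h1, P + Q, u + w, ⟨D_add hP.PD hQ.PD PQ, ?_, ?_, ?_, f.B.add_mem hP.inB hQ.inB⟩, ?_, ?_⟩
  · simp only [Cx.add]
    rw [(e hC.toCpx.pp hC.toCpx.pp hD.toCpx.pp hD.toCpx.pp).1, hP.Pp, hQ.Pp]
  · simp only [Cx.add]
    rw [(e hC.pd hC.dp hD.pd hD.dp).2, (e hC.pd hC.dp hD.pd hD.dp).1, ← hP.Pd, ← hQ.Pd]
  · simp only [Cx.add]
    rw [add_sub_add_comm]
    exact f.I.add_mem hP.inI hQ.inI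
  · rw [ec, sb_bd_add]
    generalize (C.cmp P).bd = X at *
    generalize (D.cmp Q).bd = Y at *
    refine ⟨?_, ?_, ?_, ?_⟩
    · simp only [Cx.add, mul_add, add_mul, hu.pu, hw.pu, sb_orth h1 hX.toCpx.pp hw.pu,
        sb_orth h1' hY.toCpx.pp hu.pu, add_zero, zero_add]
    · simp only [Cx.add, mul_add, add_mul, hu.up, hw.up, sb_orth h1 hu.up hY.toCpx.pp,
        sb_orth h1' hw.up hX.toCpx.pp, add_zero, zero_add]
    · simp only [Cx.add, mul_add, add_mul, hu.ch, hw.ch, sb_orth h1 hu.up hY.pd,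
        sb_orth h1' hw.up hX.pd, sb_orth h1 hX.dp hw.pu, sb_orth h1' hY.dp hu.pu, add_zero,
        zero_add]
    · simp only [Cx.add]
      rw [mul_add, add_sub_add_comm]
      exact f.N.add_mem hu.md hw.md
  · rw [ec, sb_bd_add]
    generalize (C.cmp P).bd = X at *
    generalize (D.cmp Q).bd = Y at *
    have s1 : X.p * star u = star u := by
      have := congrArg star hu.up
      rwa [star_mul, hX.toCpx.star_p] at this
    have s2 : Y.p * star w = star w := by
      have := congrArg star hw.up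
      rwa [star_mul, hY.toCpx.star_p] at this
    simp only [Cx.add, Cx.flip, star_add, mul_add, add_mul, sb_orth h1 hu.up hY.pφ,
      sb_orth h1' hw.up hX.pφ, add_zero, zero_add, mul_assoc, sb_orth h1 hX.φp s2,
      sb_orth h1' hY.φp s1, mul_zero, smul_add, Cx.mk.injEq, true_and]
    abel

/-- orthogonal sums -/
theorem Red.add (hfs : ∀ f ∈ fs, f.OK) (hC : C.Good) (hD : D.Good) (ho : C.p * D.p = 0)
    (h : Red fs C C') (h' : Red fs D D') :
    C'.p * D'.p = 0 ∧ Red fs (C.add D) (C'.add D') := by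
  induction fs generalizing C D with
  | nil =>
    obtain rfl : C' = C := h
    obtain rfl : D' = D := h'
    exact ⟨ho, rfl⟩
  | cons f fs ih =>
    obtain ⟨C₁, h1, h2⟩ := h
    obtain ⟨D₁, h1', h2'⟩ := h'
    have hf := hfs f List.mem_cons_self
    obtain ⟨k1, k2⟩ := sb_step_add hC.ok hD.ok ho h1 h1'
    obtain ⟨m1, m2⟩ := ih (fun g hg => hfs g (List.mem_cons_of_mem _ hg)) (h1.good hf hC)
      (h1'.good hf hD) k1 h2 h2'
    exact ⟨m1, _, k2, m2⟩

end Vale.Agent.P228
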