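import Vale.Agent.P228.Basic

/-! The reduction step: existence, preservation, naturality. -/

set_option linter.unusedSectionVars false

namespace Vale.Agent.P228

variable {A : Type*} [Ring A] [StarRing A] [Algebra ℂ A] [StarModule ℂ A] [Base A]
variable {C C' C₁ D D' : Cx A} {f : Frame A} {fs : List (Frame A)} {P u v : A}

section Hom
variable {A' : Type*} [Ring A'] [StarRing A'] [Algebra ℂ A'] [StarModule ℂ A'] [Base A']
variable {h : A →⋆ₐ[ℂ] A'}

theorem BaseHom.ee (hh : BaseHom h) (i j : Fin 4) (x : A) : h (ee i j x) = ee i j (h x) := by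
  simp only [P228.ee, map_mul, map_star, hh.hs]

theorem Htp.map (h : A →⋆ₐ[ℂ] A') {d e x y : A} (H : Htp d e x y) :
    Htp (h d) (h e) (h x) (h y) := by
  obtain ⟨k, hk⟩ := H
  exact ⟨h k, by simpa using congrArg h hk⟩

theorem Cx.OK.map (hh : BaseHom h) (hC : C.OK) : (C.map h).OK :=
  ⟨⟨hh.hD _ hC.pD, by simpa [Cx.map] using congrArg h hC.pd,
    by simpa [Cx.map] using congrArg h hC.dp, by simpa [Cx.map] using congrArg h hC.dd⟩,
    by simpa [Cx.map, map_star] using congrArg h hC.φs, by simpa [Cx.map] using congrArg h hC.pφ,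
    by simpa [Cx.map, map_star] using congrArg h hC.cyc⟩

theorem Cx.Poinc.map (h : A →⋆ₐ[ℂ] A') (hC : C.Poinc) : (C.map h).Poinc := by
  obtain ⟨h1, h2, h3, g, h4, h5, h6, h7, h8⟩ := hC
  exact ⟨by simpa [Cx.map] using congrArg h h1, by simpa [Cx.map] using congrArg h h2,
    by simpa [Cx.map, map_star] using congrArg h h3, h g, by simpa [Cx.map] using congrArg h h4,
    by simpa [Cx.map] using congrArg h h5, by simpa [Cx.map, map_star] using congrArg h h6,
    by simpa [Cx.map] using h7.map h, by simpa [Cx.map, map_star] using h8.map h⟩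

theorem Cx.form_map (hh : BaseHom h) (C : Cx A) : (C.map h).form = h C.form := by
  simp only [Cx.form, Cx.map, map_add, hh.ee, map_star]

private theorem cmp_map (h : A →⋆ₐ[ℂ] A') (C : Cx A) (P : A) :
    (C.cmp P).map h = (C.map h).cmp (h P) := by
  simp only [Cx.cmp, Cx.map, map_mul]

private theorem bd_map (hh : BaseHom h) (C : Cx A) : C.bd.map h = (C.map h).bd := by
  simp only [Cx.bd, Cx.map, map_add, map_smul, hh.ee, map_star]

private theorem flip_map (h : A →⋆ₐ[ℂ] A') (C : Cx A) (u : A) :
    (C.flip u).map h = (C.map h).flip (h u) := by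
  simp only [Cx.flip, Cx.map, map_sub, map_smul, map_mul, map_star]

private theorem step_map (hh : BaseHom h) {f' : Frame A'} (hf : Frame.Map h f f')
    (H : Step f C C₁) : Step f' (C.map h) (C₁.map h) := by
  obtain ⟨P, u, hP, hu, rfl⟩ := H
  refine ⟨h P, h u, ⟨hh.hD _ hP.PD, by simpa [Cx.map] using congrArg h hP.Pp,
    by simpa [Cx.map] using congrArg h hP.Pd, by simpa [Cx.map] using hf.hI _ hP.inI,
    hf.hB _ hP.inB⟩, ?_, by rw [flip_map, bd_map hh, cmp_map]⟩
  rw [← cmp_map, ← bd_map hh]
  generalize (C.cmp P).bd = E at hu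
  refine ⟨by simpa [Cx.map] using congrArg h hu.pu, by simpa [Cx.map] using congrArg h hu.up,
    by simpa [Cx.map] using congrArg h hu.ch, ?_⟩
  have h1 : h u - f'.χ * (E.map h).p = h (u - f.χ * E.p) + (h f.χ - f'.χ) * h E.p := by
    simp only [Cx.map, map_sub, map_mul]
    noncomm_ring
  rw [h1]
  exact f'.N.add_mem (hf.hN _ hu.md) (f'.N.mul_mem_right _ _ hf.hχ)

theorem Red.map (hh : BaseHom h) {fs' : List (Frame A')} (hf : List.Forall₂ (Frame.Map h) fs fs')
    (H : Red fs C C') : Red fs' (C.map h) (C'.map h) := by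
  induction hf generalizing C with
  | nil => exact congrArg (Cx.map h) (show C' = C from H)
  | cons h1 _ ih =>
    obtain ⟨C₁, h2, h3⟩ := H
    exact ⟨_, step_map hh h1 h2, ih h3⟩

theorem St_map (hh : BaseHom h) (Ts : List A) (q : A) :
    (St Ts q).map h = St (Ts.map h) (h q) := by
  induction Ts with
  | nil => simp [St, Cx.map]
  | cons T Ts ih =>
    rw [List.map_cons, St, St, ← ih]
    simp only [Cx.susp, Cx.map, map_add, map_sub, map_smul, map_mul, map_one, hh.ee, map_star]

theorem AvgData.map (h : A →⋆ₐ[ℂ] A') {a e b : A} (H : AvgData C a e b) :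
    AvgData (C.map h) (h a) (h e) (h b) :=
  ⟨by simpa [Cx.map] using congrArg h H.pa, by simpa [Cx.map] using congrArg h H.ap,
    by simpa [Cx.map] using congrArg h H.da, by simpa [Cx.map] using congrArg h H.pe,
    by simpa [Cx.map] using congrArg h H.ep, by simpa [Cx.map] using congrArg h H.de,
    by simpa [Cx.map] using congrArg h H.db, by simpa [Cx.map] using congrArg h H.eb,
    by simpa [Cx.map] using congrArg h H.ae, by simpa [Cx.map] using H.hae.map h,
    by simpa [Cx.map, map_star] using H.hφ.map h⟩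

theorem Cx.tw_map (h : A →⋆ₐ[ℂ] A') (C : Cx A) (e : A) :
    (C.tw e).map h = (C.map h).tw (h e) := by
  simp only [Cx.tw, Cx.map, map_sub, map_add, map_mul, map_star]

end Hom

end Vale.Agent.P228
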