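import Vale.Agent.P228.Step

/-! Rewriting rules for the suspension and a two-step comparison lemma. -/

set_option linter.unusedSectionVars false

namespace Vale.Agent.P228

namespace Susp

variable {A : Type*} [Ring A] [StarRing A] [Algebra ℂ A] [StarModule ℂ A] [Base A]

theorem ass {a b c : A} (h : a * b = c) (x : A) : a * (b * x) = c * x := by
  rw [← mul_assoc, h]

/-- commutation rules -/
structure R (p d φ T Λ L : A) : Prop where
  pD : p ∈ (Base.D : Set A)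
  LD : Λ ∈ (Base.D : Set A)
  MD : L ∈ (Base.D : Set A)
  sp : star p = p
  sf : star φ = φ
  sL : star Λ = Λ
  sM : star L = L
  rpp : p * p = p
  rpd : p * d = d
  rdp : d * p = d
  rpD : p * star d = star d
  rDp : star d * p = star d
  rpf : p * φ = φ
  rfp : φ * p = φ
  rTp : T * p = p * T
  rSp : star T * p = p * star T
  rLp : Λ * p = p * Λ
  rMp : L * p = p * L
  rTd : T * d = d * T
  rSd : star T * d = d * star T
  rLd : Λ * d = d * Λ
  rMd : L * d = d * L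
  rTD : T * star d = star d * T
  rSD : star T * star d = star d * star T
  rLD : Λ * star d = star d * Λ
  rMD : L * star d = star d * L
  rTf : T * φ = φ * T
  rSf : star T * φ = φ * star T
  rLf : Λ * φ = φ * Λ
  rMf : L * φ = φ * L
  rdd : d * d = 0
  rDD : star d * star d = 0
  rdf : d * φ = -(φ * star d)
  rTL : T * Λ = L * T
  rSM : star T * L = Λ * star T
  rML : L * Λ = Λ * L
  rLL : Λ * Λ = Λ
  rMM : L * L = L
  rTS : T * star T = 1
  rST : star T * T = 1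

variable {p d φ T Λ L : A}

theorem R.rSLM (h : R p d φ T Λ L) : star T * (Λ * L) = Λ * star T * Λ := by
  rw [← h.rML, ← mul_assoc, h.rSM]

theorem R.all (h : R p d φ T Λ L) :
    (p * p = p) ∧ (∀ x, p * (p * x) = p * x) ∧
    (p * d = d) ∧ (∀ x, p * (d * x) = d * x) ∧
    (d * p = d) ∧ (∀ x, d * (p * x) = d * x) ∧
    (p * star d = star d) ∧ (∀ x, p * (star d * x) = star d * x) ∧
    (star d * p = star d) ∧ (∀ x, star d * (p * x) = star d * x) ∧
    (p * φ = φ) ∧ (∀ x, p * (φ * x) = φ * x) ∧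
    (φ * p = φ) ∧ (∀ x, φ * (p * x) = φ * x) ∧
    (T * p = p * T) ∧ (∀ x, T * (p * x) = p * T * x) ∧
    (star T * p = p * star T) ∧ (∀ x, star T * (p * x) = p * star T * x) ∧
    (Λ * p = p * Λ) ∧ (∀ x, Λ * (p * x) = p * Λ * x) ∧
    (L * p = p * L) ∧ (∀ x, L * (p * x) = p * L * x) ∧
    (T * d = d * T) ∧ (∀ x, T * (d * x) = d * T * x) ∧
    (star T * d = d * star T) ∧ (∀ x, star T * (d * x) = d * star T * x) ∧
    (Λ * d = d * Λ) ∧ (∀ x, Λ * (d * x) = d * Λ * x) ∧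
    (L * d = d * L) ∧ (∀ x, L * (d * x) = d * L * x) ∧
    (T * star d = star d * T) ∧ (∀ x, T * (star d * x) = star d * T * x) ∧
    (star T * star d = star d * star T) ∧ (∀ x, star T * (star d * x) = star d * star T * x) ∧
    (Λ * star d = star d * Λ) ∧ (∀ x, Λ * (star d * x) = star d * Λ * x) ∧
    (L * star d = star d * L) ∧ (∀ x, L * (star d * x) = star d * L * x) ∧
    (T * φ = φ * T) ∧ (∀ x, T * (φ * x) = φ * T * x) ∧
    (star T * φ = φ * star T) ∧ (∀ x, star T * (φ * x) = φ * star T * x) ∧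
    (Λ * φ = φ * Λ) ∧ (∀ x, Λ * (φ * x) = φ * Λ * x) ∧
    (L * φ = φ * L) ∧ (∀ x, L * (φ * x) = φ * L * x) ∧
    (d * d = 0) ∧ (∀ x, d * (d * x) = 0 * x) ∧
    (star d * star d = 0) ∧ (∀ x, star d * (star d * x) = 0 * x) ∧
    (d * φ = -(φ * star d)) ∧ (∀ x, d * (φ * x) = -(φ * star d) * x) ∧
    (T * Λ = L * T) ∧ (∀ x, T * (Λ * x) = L * T * x) ∧
    (star T * L = Λ * star T) ∧ (∀ x, star T * (L * x) = Λ * star T * x) ∧
    (L * Λ = Λ * L) ∧ (∀ x, L * (Λ * x) = Λ * L * x) ∧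
    (Λ * Λ = Λ) ∧ (∀ x, Λ * (Λ * x) = Λ * x) ∧
    (L * L = L) ∧ (∀ x, L * (L * x) = L * x) ∧
    (T * star T = 1) ∧ (∀ x, T * (star T * x) = 1 * x) ∧
    (star T * T = 1) ∧ (∀ x, star T * (T * x) = 1 * x) ∧
    (star T * (Λ * L) = Λ * star T * Λ) ∧ (∀ x, star T * (Λ * (L * x)) = Λ * star T * Λ * x) ∧
    star p = p ∧ star φ = φ ∧ star Λ = Λ ∧ star L = L :=
  ⟨h.rpp, ass h.rpp,
   h.rpd, ass h.rpd,
   h.rdp, ass h.rdp,
   h.rpD, ass h.rpD,
   h.rDp, ass h.rDp,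
   h.rpf, ass h.rpf,
   h.rfp, ass h.rfp,
   h.rTp, ass h.rTp,
   h.rSp, ass h.rSp,
   h.rLp, ass h.rLp,
   h.rMp, ass h.rMp,
   h.rTd, ass h.rTd,
   h.rSd, ass h.rSd,
   h.rLd, ass h.rLd,
   h.rMd, ass h.rMd,
   h.rTD, ass h.rTD,
   h.rSD, ass h.rSD,
   h.rLD, ass h.rLD,
   h.rMD, ass h.rMD,
   h.rTf, ass h.rTf,
   h.rSf, ass h.rSf,
   h.rLf, ass h.rLf,
   h.rMf, ass h.rMf,
   h.rdd, ass h.rdd,
   h.rDD, ass h.rDD,
   h.rdf, ass h.rdf,
   h.rTL, ass h.rTL,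
   h.rSM, ass h.rSM,
   h.rML, ass h.rML,
   h.rLL, ass h.rLL,
   h.rMM, ass h.rMM,
   h.rTS, ass h.rTS,
   h.rST, ass h.rST,
   h.rSLM, fun x => by rw [← h.rSLM, mul_assoc, mul_assoc],
   h.sp, h.sf, h.sL, h.sM⟩

theorem comm_star {T x : A} (u1 : star T * T = 1) (u2 : T * star T = 1) (h : T * x = x * T) :
    star T * x = x * star T := by
  calc star T * x = star T * (x * T) * star T := by
        rw [mul_assoc, mul_assoc, u2, mul_one]
    _ = x * star T := by rw [← h, ← mul_assoc, u1, one_mul]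

theorem star_comm' {a x : A} (h : star a * x = x * star a) : a * star x = star x * a := by
  simpa using (congrArg star h).symm

theorem conj_comm {T Λ x : A} (h1 : T * x = x * T) (h2 : star T * x = x * star T)
    (h3 : Λ * x = x * Λ) : T * Λ * star T * x = x * (T * Λ * star T) := by
  rw [mul_assoc, h2, ← mul_assoc, mul_assoc T, h3, ← mul_assoc, h1]
  simp only [mul_assoc]

theorem mkR {C : Cx A} (hC : C.OK) (hT : C.Sh T) (hΛ : Λ ∈ (Base.D : Set A))
    (hL : T * Λ * star T ∈ (Base.D : Set A)) (cd : Λ * C.d = C.d * Λ) (cφ : Λ * C.φ = C.φ * Λ) :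
    R C.p C.d C.φ T Λ (T * Λ * star T) := by
  have hp := hC.toCpx
  have sL := Base.star_eq _ hΛ
  have Sp := comm_star hT.u1 hT.u2 hT.cp
  have Sd := comm_star hT.u1 hT.u2 hT.cd
  have Sf := comm_star hT.u1 hT.u2 hT.cφ
  have TD : T * star C.d = star C.d * T := star_comm' Sd
  have SD := comm_star hT.u1 hT.u2 TD
  have LD : Λ * star C.d = star C.d * Λ := star_comm' (by rw [sL]; exact cd)
  exact
    { pD := hp.pD, LD := hΛ, MD := hL, sp := hp.star_p, sf := hC.φs, sL := sL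
      sM := Base.star_eq _ hL, rpp := hp.pp, rpd := hp.pd, rdp := hp.dp, rpD := hp.dual.pd
      rDp := hp.dual.dp, rpf := hC.pφ, rfp := hC.φp, rTp := hT.cp, rSp := Sp
      rLp := Base.comm _ hΛ _ hp.pD, rMp := Base.comm _ hL _ hp.pD, rTd := hT.cd, rSd := Sd
      rLd := cd, rMd := conj_comm hT.cd Sd cd, rTD := TD, rSD := SD, rLD := LD
      rMD := conj_comm TD SD LD, rTf := hT.cφ, rSf := Sf, rLf := cφ
      rMf := conj_comm hT.cφ Sf cφ, rdd := hp.dd, rDD := hp.dual.dd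
      rdf := eq_neg_of_add_eq_zero_left hC.cyc
      rTL := by rw [mul_assoc (T * Λ), hT.u1, mul_one]
      rSM := by rw [← mul_assoc, ← mul_assoc, hT.u1, one_mul]
      rML := Base.comm _ hL _ hΛ, rLL := Base.idem _ hΛ, rMM := Base.idem _ hL
      rTS := hT.u2, rST := hT.u1 }

/-! ### Matrix units and equivalences -/

variable {q e f : A}

theorem s_ee (i j : Fin 4) (x : A) :
    star (Base.s i : A) * ee i j x = x * star (Base.s j : A) := by
  unfold ee
  rw [← mul_assoc, ← mul_assoc, Base.s_self, one_mul]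

theorem un_ee (i j : Fin 4) (x : A) :
    star (Base.s i : A) * ee i j x * star (star (Base.s j : A)) = x := by
  rw [s_ee, star_star, mul_assoc, Base.s_self, mul_one]

theorem ss_ee (i j : Fin 4) (x : A) :
    star (star (Base.s i : A)) * star (Base.s i : A) * ee i j x = ee i j x := by
  rw [mul_assoc, s_ee, star_star, ← mul_assoc]
  rfl

theorem cpx_ee (i : Fin 4) (hp : Cpx p d) : Cpx (ee i i p) (ee i i d) :=
  hp.conj (mono_s i) (by rw [Base.s_self, one_mul])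

theorem he_ee (i j : Fin 4) (hp : Cpx p d) (hq : Cpx q e) (h : HE p d q e f) :
    HE (ee i i p) (ee i i d) (ee j j q) (ee j j e) (ee i j f) :=
  h.conj hp hq (by rw [Base.s_self, one_mul]) (by rw [Base.s_self, one_mul])

theorem he_un (i j : Fin 4) (hp : Cpx p d) (hq : Cpx q e)
    (h : HE (ee i i p) (ee i i d) (ee j j q) (ee j j e) (ee i j f)) : HE p d q e f := by
  have := h.conj (cpx_ee i hp) (cpx_ee j hq) (ss_ee i i p) (ss_ee j j q)
  simpa only [un_ee] using this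

theorem he_left (i : Fin 4) (hp : Cpx p d) (hq : Cpx q e)
    (h : HE (ee i i p) (ee i i d) q e f) : HE p d q e (star (Base.s i : A) * f) := by
  have := h.conj (w := 1) (cpx_ee i hp) hq (ss_ee i i p) (by simp)
  simpa only [un_ee, star_one, one_mul, mul_one] using this

theorem cone_cpx (hp : Cpx p d) (hq : Cpx q e) (h1 : p * f = f) (h2 : f * q = f)
    (hc : d * f = f * e) :
    Cpx (ee 0 0 p + ee 1 1 q) (ee 0 0 d + ee 0 1 f - ee 1 1 e) := by
  rw [sub_eq_add_neg]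
  refine Cpx.ext (cpx_ee 0 hp) (cpx_ee 1 hq).neg ?_ ?_ ?_ ?_ <;> simp [ee_mul, h1, h2, hc]

theorem cone_ctr (hp : Cpx p d) (hq : Cpx q e) (h : HE p d q e f) :
    Ctr (ee 0 0 p + ee 1 1 q) (ee 0 0 d + ee 0 1 f - ee 1 1 e) :=
  (he_ee 0 1 hp hq h).ctr (cpx_ee 0 hp) (cpx_ee 1 hq) (by simp [ee_mul])

theorem orth_l {p₁ p₂ x y : A} (h : p₁ * p₂ = 0) (hx : x * p₁ = x) (hy : p₂ * y = y) :
    x * y = 0 := by
  rw [← hx, ← hy, mul_assoc, ← mul_assoc p₁, h, zero_mul, mul_zero]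

/-- a filtered map that is an equivalence on the graded pieces is an equivalence -/
theorem he_filt {p₁ d₁ p₂ d₂ a q₁ e₁ q₂ e₂ b f₁ f₂ : A} (hp1 : Cpx p₁ d₁) (hp2 : Cpx p₂ d₂)
    (hq1 : Cpx q₁ e₁) (hq2 : Cpx q₂ e₂) (hpp : p₁ * p₂ = 0) (hqq : q₁ * q₂ = 0)
    (ha1 : p₁ * a = a) (ha2 : a * p₂ = a) (hac : d₁ * a + a * d₂ = 0)
    (hb1 : q₁ * b = b) (hb2 : b * q₂ = b) (hbc : e₁ * b + b * e₂ = 0)
    (h1 : HE p₁ d₁ q₁ e₁ f₁) (h2 : HE p₂ d₂ q₂ e₂ f₂) (hc : a * f₂ = f₁ * b) :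
    HE (p₁ + p₂) (d₁ + a + d₂) (q₁ + q₂) (e₁ + b + e₂) (f₁ + f₂) := by
  have hpp' : p₂ * p₁ = 0 := by rw [Base.comm _ hp2.pD _ hp1.pD, hpp]
  have hqq' : q₂ * q₁ = 0 := by rw [Base.comm _ hq2.pD _ hq1.pD, hqq]
  have hP := Cpx.ext hp1 hp2 hpp ha1 ha2 hac
  have hQ := Cpx.ext hq1 hq2 hqq hb1 hb2 hbc
  have c1 := cone_cpx hp1 hq1 h1.1 h1.2.1 h1.2.2.1
  have c2 := cone_cpx hp2 hq2 h2.1 h2.2.1 h2.2.2.1
  have k1 := (cone_ctr hp1 hq1 h1).ctrI ⊥
  have k2 := (cone_ctr hp2 hq2 h2).ctrI ⊥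
  have k := CtrI.ext (a := ee 0 0 a - ee 1 1 b) c1 c2
    (by simp [mul_add, add_mul, ee_mul, hpp, hqq])
    (by simp [mul_sub, add_mul, ee_mul, ha1, hb1])
    (by simp [mul_add, add_mul, sub_eq_add_neg, ee_mul, ha2, hb2])
    (by
      have e1 : ee 0 0 (d₁ * a) + ee 0 0 (a * d₂) = 0 := by rw [← ee_add, hac, ee_zero]
      have e2 : ee 1 1 (e₁ * b) + ee 1 1 (b * e₂) = 0 := by rw [← ee_add, hbc, ee_zero]
      simp only [mul_add, add_mul, mul_sub, sub_mul, ee_mul, Fin.reduceEq, if_true, if_false, hc]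
      rw [eq_neg_of_add_eq_zero_left e1, eq_neg_of_add_eq_zero_left e2]
      abel) k1 k2
  rw [ctrI_bot] at k
  refine he_un 0 1 hP hQ (HE.of_ctr (cpx_ee 0 hP) (cpx_ee 1 hQ) (by simp [ee_mul]) ?_ ?_ ?_ ?_)
  · simp [ee_mul, mul_add, add_mul, h1.1, h2.1, orth_l hpp hp1.pp h2.1, orth_l hpp' hp2.pp h1.1]
  · simp [ee_mul, mul_add, add_mul, h1.2.1, h2.2.1, orth_l hqq h1.2.1 hq2.pp,
      orth_l hqq' h2.2.1 hq1.pp]
  · simp only [ee_mul, if_true, mul_add, add_mul, h1.2.2.1, h2.2.2.1, hc, orth_l hpp hp1.dp h2.1,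
      orth_l hpp' ha2 h1.1, orth_l hpp' hp2.dp h1.1, orth_l hqq h1.2.1 hq2.pd,
      orth_l hqq' h2.2.1 hq1.pd, orth_l hqq' h2.2.1 hb1]
    congr 1
    abel
  · have e1 : ee 0 0 (p₁ + p₂) + ee 1 1 (q₁ + q₂) =
        ee 0 0 p₁ + ee 1 1 q₁ + (ee 0 0 p₂ + ee 1 1 q₂) := by
      simp only [ee_add]; abel
    have e2 : ee 0 0 (d₁ + a + d₂) + ee 0 1 (f₁ + f₂) - ee 1 1 (e₁ + b + e₂) =
        ee 0 0 d₁ + ee 0 1 f₁ - ee 1 1 e₁ + (ee 0 0 a - ee 1 1 b) +
          (ee 0 0 d₂ + ee 0 1 f₂ - ee 1 1 e₂) := by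
      simp only [ee_add]; abel
    rw [e1, e2]
    exact k

/-- congruent forms along homotopic chain maps -/
theorem form_htp {a b J : A} (hab : Htp d e a b) (ha : d * a = a * e) (hb : d * b = b * e)
    (hJ : e * J + J * star e = 0) : Htp d (-star d) (a * J * star a) (b * J * star b) := by
  have hJ' : e * J = -(J * star e) := eq_neg_of_add_eq_zero_left hJ
  have ha' : star a * star d = star e * star a := by simpa using congrArg star ha
  have h1 : Htp d (-star d) (a * (J * star a)) (b * (J * star a)) :=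
    hab.mul_right (by rw [← mul_assoc, hJ', mul_neg, mul_assoc J (star a), ha', neg_mul, mul_assoc])
  have h2 : Htp d (-star d) (b * J * star a) (b * J * star b) := by
    have := (hab.star.neg_d).mul_left (c := d) (u := b * J)
      (by rw [← mul_assoc, hb, mul_assoc, hJ', mul_neg, mul_neg, mul_assoc])
    exact this
  rw [← mul_assoc, ← mul_assoc] at h1
  exact h1.trans h2

end Susp

end Vale.Agent.P228
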