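import Vale.Agent.P228.SuspA

/-! Poincare-Lefschetz duality for the interval, in explicit form. -/

set_option linter.unusedSectionVars false

namespace Vale.Agent.P228

namespace Susp

variable {A : Type*} [Ring A] [StarRing A] [Algebra ℂ A] [StarModule ℂ A] [Base A]
variable {p d φ T Λ L : A}

theorem ee_D2 {x y : A} (hx : x ∈ (Base.D : Set A)) (hy : y ∈ (Base.D : Set A)) :
    ee 0 0 x + ee 1 1 y ∈ (Base.D : Set A) :=
  D_add (ee_D 0 hx) (ee_D 1 hy) (by simp [ee_mul])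

theorem susp_OK (h : R p d φ T Λ L) : (Cx.susp T ⟨p, d, φ⟩).OK := by
  refine ⟨⟨ee_D2 h.pD h.pD, ?_, ?_, ?_⟩, ?_, ?_, ?_⟩ <;>
    simp [Cx.susp, mul_add, add_mul, mul_sub, sub_mul, ee_mul, ee_add, ee_sub, ee_neg, star_ee,
      mul_assoc, h.all] <;> module

/-- a projection commuting with the data cuts out a complex -/
theorem cpx_w {w d : A} (hp : p ∈ (Base.D : Set A)) (hw : w ∈ (Base.D : Set A))
    (pd : p * d = d) (dp : d * p = d) (dd : d * d = 0) (wd : w * d = d * w) :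
    Cpx (p * w) (d * w) := by
  have ww := Base.idem _ hw
  have wp := Base.comm _ hw _ hp
  refine ⟨Base.mul_mem _ hp _ hw, ?_, ?_, ?_⟩ <;>
    simp [mul_assoc, ass wd, ass wp, ass pd, ass dp, ass dd, ww]

theorem he_w {w : A} (h : R p d φ T Λ L) (H : HE p d p (-star d) φ) (hw : w ∈ (Base.D : Set A))
    (wd : w * d = d * w) (wD : w * star d = star d * w) (wf : w * φ = φ * w) :
    HE (p * w) (d * w) (p * w) (-(star d * w)) (φ * w) := by
  have wp := Base.comm _ hw _ h.pD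
  have := H.res (Base.idem _ hw) wp wd wp (by rw [mul_neg, neg_mul, wD]) wf
  rwa [wp, wd, wf, mul_neg, wD] at this

theorem lef (h : R p d φ T Λ L) (H : HE p d p (-star d) φ) :
    HE (ee 0 0 (p * (Λ + L * (1 - Λ))) + ee 1 1 (p * Λ))
      ((Cx.susp T ⟨p, d, φ⟩).d * (ee 0 0 (p * (Λ + L * (1 - Λ))) + ee 1 1 (p * Λ)))
      (ee 0 0 (p * (Λ * L)) + ee 1 1 (p * Λ))
      (-(star (Cx.susp T ⟨p, d, φ⟩).d * (ee 0 0 (p * (Λ * L)) + ee 1 1 (p * Λ))))
      ((Cx.susp T ⟨p, d, φ⟩).φ * (ee 0 0 (p * (Λ * L)) + ee 1 1 (p * Λ))) := by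
  have hI : Complex.I ≠ 0 := Complex.I_ne_zero
  have hI' : -Complex.I ≠ 0 := neg_ne_zero.2 hI
  have D0 : Λ * L ∈ (Base.D : Set A) := Base.mul_mem _ h.LD _ h.MD
  have Dm : Λ * (1 - L) ∈ (Base.D : Set A) := Base.mul_mem _ h.LD _ (Base.compl_mem _ h.MD)
  have cL := cpx_w h.pD h.MD h.rpd h.rdp h.rdd h.rMd
  have cL' := (cpx_w h.pD h.MD h.rpD h.rDp h.rDD h.rMD).neg
  have cΛ := cpx_w h.pD h.LD h.rpd h.rdp h.rdd h.rLd
  have cΛ' := (cpx_w h.pD h.LD h.rpD h.rDp h.rDD h.rLD).neg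
  have c0 := cpx_w h.pD D0 h.rpd h.rdp h.rdd (by simp [mul_assoc, h.all])
  have c0' := (cpx_w h.pD D0 h.rpD h.rDp h.rDD (by simp [mul_assoc, h.all])).neg
  have cm := cpx_w h.pD Dm h.rpd h.rdp h.rdd (by simp [mul_assoc, mul_sub, sub_mul, h.all])
  -- first graded piece
  have i1 : HE (p * L) (-(star d * L)) (p * Λ) (-(star d * Λ)) (p * (L * T)) :=
    HE.of_iso (g := p * (Λ * star T)) cL' cΛ' (by simp [mul_assoc, h.all])
      (by simp [mul_assoc, h.all]) (by simp [mul_assoc, h.all]) (by simp [mul_assoc, h.all])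
      (by simp [mul_assoc, h.all]) (by simp [mul_assoc, h.all])
      (by rw [← h.rTL]; simp only [mul_assoc, ass h.rSp, ass h.rLp, ass h.rpp, ass h.rST,
        one_mul, h.rLL])
  have h1 := (he_ee 0 1 cL cΛ' ((he_w h H h.MD h.rMd h.rMD h.rMf).comp i1)).smul_d hI
  -- second graded piece
  have h2a := (he_ee 1 0 c0 c0' (he_w h H D0 (by simp [mul_assoc, h.all])
    (by simp [mul_assoc, h.all]) (by simp [mul_assoc, h.all]))).smul_d hI'
  have c2 : Cpx (ee 0 0 (p * (Λ * (1 - L))) + ee 1 1 (p * Λ))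
      (Complex.I • ee 0 0 (d * (Λ * (1 - L))) + -ee 0 1 (p * (Λ * (1 - L))) +
        (-Complex.I) • ee 1 1 (d * Λ)) := by
    refine Cpx.ext ((cpx_ee 0 cm).smul _) ((cpx_ee 1 cΛ).smul _) ?_ ?_ ?_ ?_ <;>
      simp [mul_sub, sub_mul, ee_mul, ee_sub, mul_assoc, h.all, smul_sub]
  have i2 : HE (ee 0 0 (p * (Λ * (1 - L))) + ee 1 1 (p * Λ))
      (Complex.I • ee 0 0 (d * (Λ * (1 - L))) + -ee 0 1 (p * (Λ * (1 - L))) +
        (-Complex.I) • ee 1 1 (d * Λ))
      (ee 1 1 (p * (Λ * L))) ((-Complex.I) • ee 1 1 (d * (Λ * L))) (ee 1 1 (p * (Λ * L))) := by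
    refine ⟨?_, ?_, ?_, ee 1 1 (p * (Λ * L)), ?_, ?_, ?_, ⟨ee 1 0 (p * (Λ * (1 - L))), ?_⟩,
      ⟨0, ?_⟩⟩ <;>
      simp [mul_add, add_mul, mul_sub, sub_mul, ee_mul, ee_sub, mul_assoc, h.all, smul_sub]
    abel
  have h2 := i2.comp h2a
  have c1 := (cpx_ee 0 cL).smul Complex.I
  have q1 := (cpx_ee 1 cΛ').smul Complex.I
  have q2 := (cpx_ee 0 c0').smul (-Complex.I)
  have h3 := he_filt (a := ee 0 1 (p * (L * T - Λ * L)))
    (b := -ee 1 0 (p * (Λ * (star T * Λ) - Λ * L))) c1 c2 q1 q2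
    (by simp [mul_add, mul_sub, ee_mul, ee_sub, mul_assoc, h.all])
    (by simp [ee_mul])
    (by simp [mul_sub, ee_mul, ee_sub, mul_assoc, h.all])
    (by simp [mul_add, mul_sub, sub_mul, ee_mul, ee_sub, mul_assoc, h.all])
    (by simp [mul_add, mul_sub, sub_mul, ee_mul, ee_sub, mul_assoc, h.all, smul_sub])
    (by simp [mul_sub, ee_mul, ee_sub, mul_assoc, h.all])
    (by simp [mul_sub, sub_mul, ee_mul, ee_sub, mul_assoc, h.all])
    (by simp [mul_sub, sub_mul, ee_mul, ee_sub, ee_neg, mul_assoc, h.all, smul_sub])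
    h1 h2
    (by simp [mul_sub, sub_mul, ee_mul, ee_sub, mul_assoc, h.all])
  have cP := Cpx.ext (a := ee 0 1 (p * (L * T - Λ * L))) c1 c2
    (by simp [mul_add, mul_sub, ee_mul, ee_sub, mul_assoc, h.all])
    (by simp [mul_sub, ee_mul, ee_sub, mul_assoc, h.all])
    (by simp [mul_add, mul_sub, sub_mul, ee_mul, ee_sub, mul_assoc, h.all])
    (by simp [mul_add, mul_sub, sub_mul, ee_mul, ee_sub, mul_assoc, h.all, smul_sub])
  have cQ := Cpx.ext (a := -ee 1 0 (p * (Λ * (star T * Λ) - Λ * L))) q1 q2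
    (by simp [ee_mul])
    (by simp [mul_sub, ee_mul, ee_sub, mul_assoc, h.all])
    (by simp [mul_sub, sub_mul, ee_mul, ee_sub, mul_assoc, h.all])
    (by simp [mul_sub, sub_mul, ee_mul, ee_sub, ee_neg, mul_assoc, h.all, smul_sub])
  have e1 : ee 0 0 (p * (Λ + L * (1 - Λ))) + ee 1 1 (p * Λ) =
      ee 0 0 (p * L) + (ee 0 0 (p * (Λ * (1 - L))) + ee 1 1 (p * Λ)) := by
    simp [mul_add, mul_sub, ee_add, ee_sub, h.all]
    abel
  have e2 : (Cx.susp T ⟨p, d, φ⟩).d * (ee 0 0 (p * (Λ + L * (1 - Λ))) + ee 1 1 (p * Λ)) =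
      Complex.I • ee 0 0 (d * L) + ee 0 1 (p * (L * T - Λ * L)) +
        (Complex.I • ee 0 0 (d * (Λ * (1 - L))) + -ee 0 1 (p * (Λ * (1 - L))) +
          (-Complex.I) • ee 1 1 (d * Λ)) := by
    simp [Cx.susp, mul_add, add_mul, mul_sub, sub_mul, ee_mul, ee_add, ee_sub, mul_assoc, h.all]
    module
  have e3 : ee 0 0 (p * (Λ * L)) + ee 1 1 (p * Λ) = ee 1 1 (p * Λ) + ee 0 0 (p * (Λ * L)) :=
    add_comm _ _
  have e4 : -(star (Cx.susp T ⟨p, d, φ⟩).d * (ee 0 0 (p * (Λ * L)) + ee 1 1 (p * Λ))) =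
      Complex.I • ee 1 1 (-(star d * Λ)) + -ee 1 0 (p * (Λ * (star T * Λ) - Λ * L)) +
        (-Complex.I) • ee 0 0 (-(star d * (Λ * L))) := by
    simp [Cx.susp, mul_add, add_mul, mul_sub, sub_mul, ee_mul, ee_add, ee_sub, ee_neg, star_ee,
      mul_assoc, h.all]
    module
  rw [e2, e4, e1, e3]
  refine h3.of_htp cP cQ ⟨(1 / 2 : ℂ) • ee 1 1 (φ * Λ), ?_⟩ ?_ ?_ <;>
    simp [Cx.susp, mul_add, add_mul, mul_sub, sub_mul, ee_mul, ee_add, ee_sub, ee_neg,
      mul_assoc, h.all] <;> module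

/-! ### The connecting map -/

theorem II (x : A) : Complex.I • Complex.I • x = -x := by
  rw [smul_smul, Complex.I_mul_I, neg_one_smul]

/-- abstract form: the connecting map of a Poincare pair is an equivalence -/
theorem conn_HE {C : Cx A} {X P δ : A} (hC : C.OK) (hX : Cpx X δ) (hP : P ∈ (Base.D : Set A))
    (XP : X * P = 0) (Pd : P * C.d = P * C.d * P) (dX : C.d * X = Complex.I • δ)
    (dP : (X + P) * (C.d * P) = C.d * P) (fP : (X + P) * (C.φ * P) = C.φ * P)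
    (cQ : Cpx (X + P) (C.d * (X + P))) (cP : Cpx P (-(star C.d * P)))
    (H : HE (X + P) (C.d * (X + P)) P (-(star C.d * P)) (C.φ * P)) :
    HE X δ (C.cmp P).bd.p (C.cmp P).bd.d
      (X * (C.d * P * star (Base.s 0 : A) + C.φ * P * star (Base.s 1 : A))) := by
  have hB := (hC.cmp hP Pd).bd.toCpx
  have sP := Base.star_eq _ hP
  have PP := Base.idem _ hP
  have XX := hX.pp
  have k := ((cone_ctr cQ cP H).ctrI ⊥).smul (neg_ne_zero.2 Complex.I_ne_zero)
  rw [ctrI_bot] at k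
  have DP : star C.d * P = P * (star C.d * P) := by
    simpa [sP, mul_assoc] using congrArg star Pd
  have sD : star (P * C.d * P) = star C.d * P := by
    rw [star_mul, star_mul, sP, ← DP]
  have dP' : P * (C.d * P) = C.d * P - X * (C.d * P) := by rw [eq_sub_iff_add_eq', ← add_mul, dP]
  have fP' : P * (C.φ * P) = C.φ * P - X * (C.φ * P) := by rw [eq_sub_iff_add_eq', ← add_mul, fP]
  have dδ : δ = (-Complex.I) • (C.d * X) := by rw [dX, neg_smul, II, neg_neg]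
  have XdX : X * C.d * X = C.d * X := by rw [mul_assoc, dX, mul_smul_comm, hX.pd]
  have key : HE (ee 0 0 X) (ee 0 0 δ) (C.cmp P).bd.p (C.cmp P).bd.d
      ((-Complex.I) • (ee 0 0 (X * (C.d * P)) + ee 0 1 (X * (C.φ * P)))) := by
    refine HE.of_ctr (cpx_ee 0 hX) hB ?_ ?_ ?_ ?_ ?_
    · simp [Cx.bd, Cx.cmp, mul_add, ee_mul, XP]
    · simp [mul_add, ee_mul, ass XX]
    · simp [Cx.bd, Cx.cmp, mul_add, add_mul, ee_mul, mul_assoc, PP]
    · have a1 : C.d * (X * (C.d * P)) = -(X * (C.d * (P * (C.d * P)))) := by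
        have : X * (C.d * ((X + P) * (C.d * P))) = 0 := by rw [dP, ass hC.dd]; simp
        rw [add_mul, mul_add, mul_add, ← mul_assoc, ← mul_assoc, XdX, mul_assoc] at this
        exact eq_neg_of_add_eq_zero_left this
      have a2 : C.d * (X * (C.φ * P)) =
          -(X * (C.d * (P * (C.φ * P)))) - X * (C.φ * (P * (star C.d * P))) := by
        have : X * (C.d * ((X + P) * (C.φ * P))) + X * (C.φ * (star C.d * P)) = 0 := by
          rw [fP, ← mul_add, ← mul_assoc, ← mul_assoc, ← add_mul, hC.cyc]; simp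
        rw [add_mul, mul_add, mul_add, ← mul_assoc, ← mul_assoc, XdX, mul_assoc] at this
        rw [← DP, ← sub_eq_zero, ← this]
        abel
      rw [dδ]
      simp [Cx.bd, Cx.cmp, mul_add, add_mul, ee_mul, ee_smul, ee_neg, ee_sub, mul_assoc, ass PP,
        ass XX, sP, a1, a2, II]
      module
    · have e1 : ee 0 0 X + (C.cmp P).bd.p = ee 0 0 (X + P) + ee 1 1 P := by
        simp [Cx.bd, Cx.cmp, ee_add, add_assoc]
      have e2 : ee 0 0 δ + (-Complex.I) • (ee 0 0 (X * (C.d * P)) + ee 0 1 (X * (C.φ * P))) -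
          (C.cmp P).bd.d = (-Complex.I) • (ee 0 0 (C.d * (X + P)) + ee 0 1 (C.φ * P) -
            ee 1 1 (-(star C.d * P))) := by
        rw [dδ]
        simp only [Cx.bd, Cx.cmp, sD]
        simp only [mul_assoc, dP', fP', mul_add, ee_add, ee_sub, ee_neg, ee_smul]
        module
      rw [e1, e2]
      exact k
  have := (he_left 0 hX hB key).smul_f Complex.I_ne_zero
  simpa [mul_add, s_ee, II, mul_assoc] using this

end Susp

end Vale.Agent.P228
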