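import Vale.Agent.P228.LT

/-! Topological local data. -/

set_option linter.unusedSectionVars false

namespace Vale.Agent.P228

open Filter Topology

universe u

variable {p n : ℕ} [Fact p.Prime] {M : Type u} [TopologicalSpace M] [AddAction ℤ_[p] M]
  [ContinuousVAdd ℤ_[p] M]

/-- coordinatewise truncation -/
def clamp (R : ℝ) (z : Fin n → ℝ) : Fin n → ℝ := fun l => max (-R) (min R (z l))

/-- coordinatewise supremum over the orbit of `c ℤ_p` -/
noncomputable def orb (c : ℤ_[p]) (e : M → Fin n → ℝ) (w : M) : Fin n → ℝ :=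
  fun l => ⨆ a : ℤ_[p], e ((c * a) +ᵥ w) l

structure TD (p n : ℕ) [Fact p.Prime] (M : Type u) [TopologicalSpace M] [AddAction ℤ_[p] M] where
  c : ℤ_[p]
  Ω : Set M
  cpt : IsCompact Ω
  inv : ∀ a, ∀ w ∈ Ω, (c * a) +ᵥ w ∈ Ω
  e : M → Fin n → ℝ
  cont : ContinuousOn e Ω
  inj : Set.InjOn e Ω
  R : ℝ
  R_ge : 7 ≤ R
  surj : ∀ z, ‖z‖ ≤ R → ∃ w ∈ Ω, e w = z
  ext : ∀ z, R < ‖z‖ → ∀ w ∈ Ω, e w = clamp R z → 7 < ‖z - e w + e (c +ᵥ w)‖
  prop : ∀ w ∈ Ω, ‖orb c e w‖ ≤ 1 → ‖e w‖ ≤ 6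
  x0 : M
  x0_mem : x0 ∈ Ω
  x0_le : ‖e x0‖ ≤ 1 / 4
  x0_ne : ∃ a, (c * a) +ᵥ x0 ≠ x0
  y1 : Fin n → ℝ
  R1 : ℝ
  R1_pos : 0 < R1
  y1_le : ‖y1‖ + 2 * R1 ≤ 1 / 2
  η : ℝ
  η_nonneg : 0 ≤ η
  c1 : ∀ w ∈ Ω, ‖orb c e w - y1‖ ≤ 2 * R1 → ‖orb c e w - e w‖ ≤ η * R1
  c2 : ∀ w ∈ Ω, ‖e w - y1‖ ≤ 2 * R1 → ‖orb c e w - e w‖ ≤ η * R1

theorem fix_of_unit (c : ℤ_[p]) (w : M) [T1Space M] {u : ℤ_[p]} (hu : ‖u‖ = 1)
    (hw : (c * u) +ᵥ w = w) (a : ℤ_[p]) : (c * a) +ᵥ w = w := by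
  obtain ⟨v, rfl⟩ := PadicInt.isUnit_iff.2 hu
  have hc : IsClosed {b : ℤ_[p] | (c * v * b) +ᵥ w = w} :=
    isClosed_singleton.preimage (f := fun b : ℤ_[p] => (c * v * b) +ᵥ w) (by fun_prop)
  have h1 : ∀ k : ℕ, (c * v * (k : ℤ_[p])) +ᵥ w = w := fun k => by
    induction k with
    | zero => rw [Nat.cast_zero, mul_zero, zero_vadd]
    | succ k ih => rw [Nat.cast_succ, mul_add, mul_one, add_vadd, hw, ih]
  have h2 := PadicInt.denseRange_natCast.induction_on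
    (p := fun b : ℤ_[p] => (c * v * b) +ᵥ w = w) ((v⁻¹ : ℤ_[p]ˣ) * a) hc h1
  rwa [mul_assoc, Units.mul_inv_cancel_left] at h2

theorem norm_int_eq_one {h : ℤ} (hh : ¬ (p : ℤ) ∣ h) : ‖(h : ℤ_[p])‖ = 1 :=
  le_antisymm (PadicInt.norm_le_one _)
    (not_lt.1 fun h1 => hh ((PadicInt.norm_int_lt_one_iff_dvd h).1 h1))

/-- if an integer prime to `p` fixes `w` then everything does: the stabiliser is a closed subgroup
containing `ℤ h`, which is dense -/
theorem fix_of_int (c : ℤ_[p]) (w : M) [T1Space M] {h : ℤ} (hh : ¬ (p : ℤ) ∣ h)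
    (hw : (c * h) +ᵥ w = w) (a : ℤ_[p]) : (c * a) +ᵥ w = w :=
  fix_of_unit c w (norm_int_eq_one hh) hw a

theorem clamp_of_le {R : ℝ} {z : Fin n → ℝ} (hz : ‖z‖ ≤ R) : clamp R z = z := by
  funext l
  have h := abs_le.1 ((norm_le_pi_norm z l).trans hz)
  simp only [clamp]
  rw [min_eq_right h.2, max_eq_right h.1]

theorem norm_clamp_le {R : ℝ} (hR : 0 ≤ R) (z : Fin n → ℝ) : ‖clamp R z‖ ≤ R :=
  (pi_norm_le_iff_of_nonneg hR).2 fun l => abs_le.2
    ⟨le_max_left _ _, max_le (by linarith) (min_le_left _ _)⟩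

theorem norm_clamp_ge {R : ℝ} (hR : 0 ≤ R) {z : Fin n → ℝ} (hz : R < ‖z‖) :
    R ≤ ‖clamp R z‖ := by
  by_contra h
  refine hz.not_ge ((pi_norm_le_iff_of_nonneg hR).2 fun i => ?_)
  have h1 := abs_lt.1 ((norm_le_pi_norm (clamp R z) i).trans_lt (not_le.1 h))
  simp only [clamp, lt_max_iff, lt_irrefl, false_or, lt_min_iff, max_lt_iff, min_lt_iff] at h1
  exact abs_le.2 ⟨h1.1.2.le, h1.2.2.le⟩

theorem lip_clamp (R : ℝ) : LipschitzWith 1 (clamp R : (Fin n → ℝ) → Fin n → ℝ) :=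
  LipschitzWith.of_dist_le_mul fun z z' => by
    rw [NNReal.coe_one, one_mul]
    refine (dist_pi_le_iff dist_nonneg).2 fun l => le_trans ?_ (dist_le_pi_dist z z' l)
    have h := ((LipschitzWith.id.const_min R).const_max (-R)).dist_le_mul (z l) (z' l)
    rwa [NNReal.coe_one, one_mul] at h

namespace TD

variable (T : TD p n M)

/-- the action on the subtype -/
noncomputable def act (a : ℤ_[p]) (w : T.Ω) : T.Ω := ⟨(T.c * a) +ᵥ (w : M), T.inv a w w.2⟩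

theorem act_act (a b : ℤ_[p]) (w : T.Ω) : T.act a (T.act b w) = T.act (a + b) w :=
  Subtype.ext (by simp only [act, mul_add, add_vadd])

theorem act_zero (w : T.Ω) : T.act 0 w = w :=
  Subtype.ext (by simp only [act, mul_zero, zero_vadd])

/-- the generator -/
noncomputable def g : Equiv.Perm T.Ω where
  toFun := T.act 1
  invFun := T.act (-1)
  left_inv w := by rw [act_act, neg_add_cancel, act_zero]
  right_inv w := by rw [act_act, add_neg_cancel, act_zero]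

theorem g_zpow (h : ℤ) : ∀ w : T.Ω, (T.g ^ h) w = T.act h w := by
  induction h using Int.induction_on with
  | zero => intro w; rw [zpow_zero, Int.cast_zero, act_zero]; rfl
  | succ k ih =>
    intro w
    rw [zpow_add_one, Equiv.Perm.mul_apply, ih, Int.cast_add, Int.cast_one, ← act_act]
    rfl
  | pred k ih =>
    intro w
    rw [zpow_sub_one, Equiv.Perm.mul_apply, ih, Int.cast_sub, Int.cast_one, sub_eq_add_neg,
      ← act_act]
    rfl

/-- the coordinates along the orbit -/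
noncomputable def E (a : ℤ_[p]) (w : T.Ω) : Fin n → ℝ := T.e (T.act a w)

theorem E_zero (w : T.Ω) : T.E 0 w = T.e w := by rw [E, act_zero]

theorem E_act (a b : ℤ_[p]) (w : T.Ω) : T.E a (T.act b w) = T.E (a + b) w := by
  rw [E, act_act, E]

theorem cont_e : Continuous fun w : T.Ω => T.e w := T.cont.domRestrict

theorem cont_E : Continuous fun x : ℤ_[p] × T.Ω => T.E x.1 x.2 :=
  T.cont_e.comp (f := fun x : ℤ_[p] × T.Ω => T.act x.1 x.2)
    (Continuous.subtype_mk (by fun_prop) _)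

theorem exists_bound : ∃ B, ∀ w : T.Ω, ‖T.e w‖ ≤ B := by
  obtain ⟨B, hB⟩ := T.cpt.exists_bound_of_continuousOn T.cont
  exact ⟨B, fun w => hB w w.2⟩

/-- the invariant distance -/
noncomputable def ρ (w w' : T.Ω) : ℝ := ⨆ a, ‖T.E a w - T.E a w'‖

theorem le_ρ (a : ℤ_[p]) (w w' : T.Ω) : ‖T.E a w - T.E a w'‖ ≤ T.ρ w w' := by
  obtain ⟨B, hB⟩ := T.exists_bound
  refine le_ciSup (f := fun a => ‖T.E a w - T.E a w'‖) ⟨B + B, ?_⟩ a
  rintro _ ⟨b, rfl⟩
  exact (norm_sub_le _ _).trans (add_le_add (hB _) (hB _))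

theorem ρ_act (b : ℤ_[p]) (w w' : T.Ω) : T.ρ (T.act b w) (T.act b w') = T.ρ w w' := by
  simp only [ρ, E_act]
  exact (Equiv.addRight b).iSup_comp (g := fun a => ‖T.E a w - T.E a w'‖)

/-- the invariant coordinates -/
noncomputable def t (w : T.Ω) : Fin n → ℝ := orb T.c T.e w

theorem t_apply (w : T.Ω) (l : Fin n) : T.t w l = ⨆ a, T.E a w l := rfl

theorem le_t (a : ℤ_[p]) (w : T.Ω) (l : Fin n) : T.E a w l ≤ T.t w l := by
  obtain ⟨B, hB⟩ := T.exists_bound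
  refine le_ciSup (f := fun a => T.E a w l) ⟨B, ?_⟩ a
  rintro _ ⟨b, rfl⟩
  exact (le_abs_self _).trans ((norm_le_pi_norm (T.E b w) l).trans (hB _))

theorem t_act (b : ℤ_[p]) (w : T.Ω) : T.t (T.act b w) = T.t w := by
  funext l
  simp only [t_apply, E_act]
  exact (Equiv.addRight b).iSup_comp (g := fun a => T.E a w l)

theorem ρ_comm (w w' : T.Ω) : T.ρ w w' = T.ρ w' w := by
  simp only [ρ, norm_sub_rev (T.E _ w)]

theorem t_sub_le (w w' : T.Ω) (l : Fin n) : T.t w l - T.t w' l ≤ T.ρ w w' := by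
  rw [sub_le_iff_le_add, t_apply]
  refine ciSup_le fun a => ?_
  have h1 := (le_abs_self _).trans ((norm_le_pi_norm (T.E a w - T.E a w') l).trans (T.le_ρ a w w'))
  rw [Pi.sub_apply] at h1
  linarith [T.le_t a w' l]

theorem t_le (w w' : T.Ω) : ‖T.t w - T.t w'‖ ≤ T.ρ w w' :=
  (pi_norm_le_iff_of_nonneg ((norm_nonneg _).trans (T.le_ρ 0 w w'))).2 fun l =>
    abs_sub_le_iff.2 ⟨T.t_sub_le w w' l, T.ρ_comm w' w ▸ T.t_sub_le w' w l⟩

theorem t_of_fix {w : T.Ω} (hw : ∀ a, T.act a w = w) : T.t w = T.e w := by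
  funext l
  simp only [t_apply, E, hw, ciSup_const]

variable [T2Space M]

theorem uc_E {ε : ℝ} (hε : 0 < ε) : ∃ δ > 0, ∀ (a b : ℤ_[p]) (w w' : T.Ω), ‖a - b‖ ≤ δ →
    ‖T.e w - T.e w'‖ ≤ δ → ‖T.E a w - T.E b w'‖ ≤ ε := by
  have : CompactSpace T.Ω := isCompact_iff_compactSpace.1 T.cpt
  have hemb : IsEmbedding fun w : T.Ω => T.e w :=
    (T.cont_e.isClosedEmbedding fun w w' h => Subtype.ext (T.inj w.2 w'.2 h)).isEmbedding
  let : MetricSpace T.Ω := hemb.comapMetricSpace _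
  have h1 : UniformContinuous fun x : ℤ_[p] × T.Ω => T.E x.1 x.2 :=
    CompactSpace.uniformContinuous_of_continuous T.cont_E
  obtain ⟨δ, hδ, h2⟩ := Metric.uniformContinuous_iff_le.1 h1 ε hε
  refine ⟨δ, hδ, fun a b w w' hab hw => ?_⟩
  rw [← dist_eq_norm] at hab hw ⊢
  exact h2 (a := (a, w)) (b := (b, w')) (max_le hab hw)

theorem uc_ρ (ε : ℝ) (hε : 0 < ε) :
    ∃ δ > 0, ∀ w w' : T.Ω, ‖T.e w - T.e w'‖ ≤ δ → T.ρ w w' ≤ ε := by
  obtain ⟨δ, hδ, h⟩ := T.uc_E hε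
  exact ⟨δ, hδ, fun w w' hw => ciSup_le fun a =>
    h a a w w' (by rw [sub_self, norm_zero]; exact hδ.le) hw⟩

theorem cont_t : Continuous T.t := by
  refine continuous_iff_continuousAt.2 fun w => Metric.tendsto_nhds.2 fun ε hε => ?_
  obtain ⟨δ, hδ, h⟩ := T.uc_ρ (ε / 2) (by positivity)
  filter_upwards [Metric.tendsto_nhds.1 (T.cont_e.tendsto w) δ hδ] with w' hw'
  rw [dist_eq_norm] at hw' ⊢
  linarith [T.t_le w' w, h w' w hw'.le]

theorem small (ε : ℝ) (hε : 0 < ε) :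
    ∃ q : ℕ, 0 < q ∧ p ∣ q ∧ ∀ w : T.Ω, T.ρ ((T.g ^ q) w) w ≤ ε := by
  obtain ⟨δ, hδ, h⟩ := T.uc_E hε
  have hp : (p : ℕ).Prime := Fact.out
  obtain ⟨k, hk⟩ := ((tendsto_pow_atTop_nhds_zero_of_lt_one (norm_nonneg (p : ℤ_[p]))
    (by rw [PadicInt.norm_p]; exact inv_lt_one_of_one_lt₀ (by exact_mod_cast hp.one_lt))).eventually (ge_mem_nhds hδ)).exists_forall_of_atTop
  refine ⟨p ^ (k + 1), pow_pos hp.pos _, dvd_pow_self _ k.succ_ne_zero, fun w =>
    ciSup_le fun a => ?_⟩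
  rw [← zpow_natCast, g_zpow, E_act]
  refine h _ _ w w ?_ (by rw [sub_self, norm_zero]; exact hδ.le)
  rw [add_sub_cancel_left, Int.cast_natCast, Nat.cast_pow, norm_pow]
  exact hk _ k.le_succ

theorem exists_ρ0 : ∃ ρ0 > 0, ρ0 ≤ 1 / 4 ∧
    ∀ w : T.Ω, ‖T.t w - T.e T.x0‖ ≤ ρ0 → ¬ ∀ a, T.act a w = w := by
  have : CompactSpace T.Ω := isCompact_iff_compactSpace.1 T.cpt
  have hc : IsClosed {w : T.Ω | ∀ a, T.act a w = w} := by
    rw [Set.ofPred_forall]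
    exact isClosed_iInter fun a =>
      isClosed_eq (Continuous.subtype_mk (by fun_prop) _) continuous_id
  obtain ⟨r, hr, h⟩ := hc.isCompact.exists_forall_le' (f := fun w : T.Ω => ‖T.e w - T.e T.x0‖)
    (T.cont_e.sub continuous_const).norm.continuousOn (a := 0) fun w hw => by
      refine norm_pos_iff.2 (sub_ne_zero.2 fun h => ?_)
      obtain ⟨a, ha⟩ := T.x0_ne
      have h1 := congrArg Subtype.val (hw a)
      rw [← T.inj w.2 T.x0_mem h] at ha
      exact ha h1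
  refine ⟨min (r / 2) (1 / 4), by positivity, min_le_right _ _, fun w hw hf => ?_⟩
  rw [T.t_of_fix hf] at hw
  linarith [h w hf, min_le_left (r / 2) (1 / 4)]

theorem exists_r0 {ρ0 : ℝ} (h : ∀ w : T.Ω, ‖T.t w - T.e T.x0‖ ≤ ρ0 → ¬ ∀ a, T.act a w = w) :
    ∃ r0 > 0, ∀ w : T.Ω, ‖T.t w - T.e T.x0‖ ≤ ρ0 → ∀ h : ℤ, ¬ (p : ℤ) ∣ h →
      r0 ≤ T.ρ ((T.g ^ h) w) w := by
  have : CompactSpace T.Ω := isCompact_iff_compactSpace.1 T.cpt
  have hc : IsClosed {x : ℤ_[p] × T.Ω | ‖x.1‖ = 1 ∧ ‖T.t x.2 - T.e T.x0‖ ≤ ρ0} :=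
    (isClosed_eq continuous_fst.norm continuous_const).inter
      (isClosed_le ((T.cont_t.comp continuous_snd).sub continuous_const).norm continuous_const)
  have hf : Continuous fun x : ℤ_[p] × T.Ω => ‖T.E x.1 x.2 - T.e x.2‖ :=
    (T.cont_E.sub (T.cont_e.comp continuous_snd)).norm
  obtain ⟨r, hr, h1⟩ := hc.isCompact.exists_forall_le' hf.continuousOn (a := 0) fun x hx => by
      refine norm_pos_iff.2 (sub_ne_zero.2 fun h2 => h x.2 hx.2 fun a => Subtype.ext ?_)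
      exact fix_of_unit T.c x.2.1 hx.1 (T.inj (T.act x.1 x.2).2 x.2.2 h2) a
  refine ⟨r, hr, fun w hw k hk => le_trans ?_ (T.le_ρ 0 _ _)⟩
  rw [g_zpow, E_act, zero_add, E_zero]
  exact h1 (k, w) ⟨norm_int_eq_one hk, hw⟩

theorem exists_sec : ∃ s : (Fin n → ℝ) → T.Ω, ∀ z, T.e (s z) = clamp T.R z := by
  choose s hs hs' using fun z : Fin n → ℝ =>
    T.surj _ (norm_clamp_le (by linarith [T.R_ge]) z)
  exact ⟨fun z => ⟨s z, hs z⟩, hs'⟩

theorem uc_gh {s : (Fin n → ℝ) → T.Ω} (hs : ∀ z, T.e (s z) = clamp T.R z) :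
    UniformContinuous fun z => z - clamp T.R z + T.E 1 (s z) := by
  refine (uniformContinuous_id.sub (lip_clamp T.R).uniformContinuous).add
    (Metric.uniformContinuous_iff_le.2 fun ε hε => ?_)
  obtain ⟨δ, hδ, h⟩ := T.uc_E hε
  refine ⟨δ, hδ, fun {z z'} hz => ?_⟩
  rw [dist_eq_norm]
  refine h 1 1 _ _ (by rw [sub_self, norm_zero]; exact hδ.le) ?_
  have h1 := (lip_clamp T.R).dist_le_mul z z'
  rw [NNReal.coe_one, one_mul, dist_eq_norm] at h1
  rw [hs, hs]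
  exact h1.trans hz

end TD

/-- `Ω` as a subtype, `g = c +ᵥ ·`, `ρ w w' = ⨆ a, ‖e ((c a) w) - e ((c a) w')‖`, `t = orb c e`,
`sec z` a preimage of `clamp R z`, `gh z = z - clamp R z + e (g (sec z))`, `y0 = e x0`, `ρ0` below
the distance from `y0` to the compact set `e (Fix ∩ Ω)` and below `1/4`; `r0`, `uc`, `small` by
compactness of `ℤ_p × Ω`. -/
theorem TD.exists_LD [T2Space M] (T : TD p n M) : ∃ L : LD.{u} p n, L.η = T.η := by
  obtain ⟨s, hs⟩ := T.exists_sec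
  obtain ⟨ρ0, hρ0, hρ0', h0⟩ := T.exists_ρ0
  obtain ⟨r0, hr0, h1⟩ := T.exists_r0 h0
  obtain ⟨B, hB⟩ := T.exists_bound
  have hR := T.R_ge
  refine ⟨{ Ω := T.Ω, g := T.g, ρ := T.ρ, ρ_self := fun w => ?_, ρ_comm := T.ρ_comm
            ρ_tri := fun w w' w'' => ciSup_le fun a => (norm_sub_le_norm_sub_add_norm_sub _ _ _).trans
              (add_le_add (T.le_ρ a w w') (T.le_ρ a w' w''))
            ρ_inv := T.ρ_act 1, e := fun w => T.e w, t := T.t, e_le := fun w w' => ?_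
            t_le := T.t_le, t_inv := T.t_act 1, uc := T.uc_ρ, small := T.small, sec := s
            sec_in := fun z hz => (hs z).trans (clamp_of_le (hz.trans hR))
            sec_out := fun z hz => ?_, prop := fun w => T.prop w w.2
            gh := fun z => z - clamp T.R z + T.E 1 (s z), gh_uc := T.uc_gh hs
            gh_bdd := ⟨T.R + B, fun z => ?_⟩, gh_in := fun z hz => ?_
            y0 := T.e T.x0, ρ0 := ρ0, ρ0_pos := hρ0, y0_le := by linarith [T.x0_le]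
            r0 := r0, r0_pos := hr0, free := h1, y1 := T.y1, R1 := T.R1, R1_pos := T.R1_pos
            y1_le := T.y1_le, η := T.η, η_nonneg := T.η_nonneg, c1 := fun w => T.c1 w w.2
            c2 := fun w => T.c2 w w.2 }, rfl⟩
  · simp only [TD.ρ, sub_self, norm_zero, ciSup_const]
  · simpa only [T.E_zero] using T.le_ρ 0 w w'
  · rw [hs]
    rcases le_or_gt ‖z‖ T.R with h | h
    · rwa [clamp_of_le h]
    · exact hR.trans (norm_clamp_ge (by linarith) h)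
  · rw [show z - clamp T.R z + T.E 1 (s z) - z = T.E 1 (s z) - clamp T.R z by abel, add_comm]
    exact (norm_sub_le _ _).trans (add_le_add (hB _) (norm_clamp_le (by linarith) z))
  · rcases le_or_gt ‖z‖ T.R with h | h
    · rw [clamp_of_le h, sub_self, zero_add]
      rfl
    · have h2 := T.ext z h (s z) (s z).2 (hs z)
      have h3 : T.E 1 (s z) = T.e (T.c +ᵥ (s z : M)) := by
        simp only [TD.E, TD.act, mul_one]
      rw [hs, ← h3] at h2
      rcases hz with hz | hz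
      · linarith
      · exact absurd hz h2.not_ge

theorem td_false [T2Space M] (T : ℕ → TD p n M) (hη : Tendsto (fun k => (T k).η) atTop (𝓝 0)) :
    False := by
  choose L hL using fun k => (T k).exists_LD
  exact ld_false L (by simpa only [hL] using hη)

end Vale.Agent.P228
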