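import Vale.Agent.P228.NullB
import Vale.Agent.P228.SigAlg

/-! Uniqueness of the local index. -/

set_option linter.unusedSectionVars false

namespace Vale.Agent.P228

variable {A : Type*} [Ring A] [StarRing A] [Algebra ℂ A] [StarModule ℂ A] [Base A]
variable {Γ : Type*} [AddCommGroup Γ]

theorem uniqAux_kappa {D : Cx A} (hD : D.OK) {x : A} (hx : star x = x) (h1 : D.p * x = x)
    (h : Htp D.d (-star D.d) x D.φ) :
    ∃ κ : A, star κ = -κ ∧ D.p * κ = κ ∧ κ * D.p = κ ∧ x = D.φ + D.d * κ - κ * star D.d := by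
  obtain ⟨h, hh⟩ := h
  have hp := hD.toCpx.star_p
  have hpp := hD.toCpx.pp
  have h2 : x * D.p = x := by simpa [hx, hp] using congrArg star h1
  have hs : x - D.φ = star h * star D.d - D.d * star h := by
    have := congrArg star hh
    simp only [star_sub, star_add, star_mul, star_neg, star_star, hx, hD.φs] at this
    rw [this]; noncomm_ring
  have hd := hD.toCpx.dual
  refine ⟨D.p * ((1 / 2 : ℂ) • (h - star h)) * D.p, ?_, ?_, ?_, ?_⟩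
  · simp only [star_mul, hp, star_smul, star_sub, star_star, mul_assoc, smul_sub, mul_sub, sub_mul,
      star_div₀, star_one, star_ofNat, neg_sub]
  · rw [← mul_assoc, ← mul_assoc, hpp]
  · rw [mul_assoc, hpp]
  · have e : x - D.φ = D.d * ((1 / 2 : ℂ) • (h - star h)) -
        ((1 / 2 : ℂ) • (h - star h)) * star D.d := by
      have : x - D.φ = (1 / 2 : ℂ) • ((x - D.φ) + (x - D.φ)) := by module
      rw [this]
      nth_rewrite 1 [hh]
      rw [hs]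
      simp only [mul_sub, sub_mul, mul_smul_comm, smul_mul_assoc, mul_neg]
      module
    generalize (1 / 2 : ℂ) • (h - star h) = k at e
    have e2 : D.p * (x - D.φ) * D.p = x - D.φ := by
      rw [mul_sub, sub_mul, h1, h2, hD.pφ, hD.φp]
    have e3 : D.p * (D.d * k - k * star D.d) * D.p =
        (D.p * D.d) * k * D.p - D.p * k * (star D.d * D.p) := by noncomm_ring
    have e4 : D.d * (D.p * k * D.p) - D.p * k * D.p * star D.d =
        (D.d * D.p) * k * D.p - D.p * k * (D.p * star D.d) := by noncomm_ring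
    rw [add_sub_assoc, e4, hD.toCpx.dp, hd.pd]
    rw [hD.toCpx.pd, hd.dp, ← e, e2] at e3
    rw [← e3]; abel

theorem uniqAux_ee {p d : A} (i : Fin 4) (h : Cpx p d) : Cpx (ee i i p) (ee i i d) :=
  ⟨ee_D i h.pD, by rw [ee_mul_same, h.pd], by rw [ee_mul_same, h.dp], by
    rw [ee_mul_same, h.dd, ee_zero]⟩

/-- For `f : C → D` an equivalence with `f φ f* - φ' = d' κ - κ d'*`, `κ` made skew by
`κ ↦ (κ - κ*)/2`: `pF = ee 2 2 D.p`, `pG = ee 3 3 D.p`,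
`T.d = - ee 2 2 d' + (ee 2 0 f + ee 2 1 p') + (ee 0 0 d + ee 1 1 d') - ee 2 3 κ
   - ee 0 3 (φ f*) + ee 1 3 φ' + ee 3 3 d'*`,
`T.φ = ee 0 0 φ - ee 1 1 φ' + ee 2 3 p' + ee 3 2 p'`.
`T` is an extension of the cone of the identity (slots 2,1) by the cone of `φ f*` (slots 0,3). -/
theorem null_init {G : TwoSidedIdeal A} {C D : Cx A} (hC : C.Good) (hD : D.Good) (h : C.Eqv D)
    (h1 : C.p ∈ G) (h2 : D.p ∈ G) :
    Null G ((C.conj 1 (Base.s 0)).add (D.conj (-1) (Base.s 1))) := by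
  obtain ⟨f, hf, hh⟩ := h
  have cC := hC.ok.toCpx
  have cD := hD.ok.toCpx
  have he : HE C.p C.d D.p (-star D.d) ((-1 : ℂ) • (C.φ * star f)) :=
    (HE.comp hC.poinc (HE.star cD cC hf).neg_d).smul_f (by norm_num)
  obtain ⟨f1, f2, f3, -⟩ := hf
  obtain ⟨κ, k0, k1, k2, k3⟩ := uniqAux_kappa hD.ok (x := f * C.φ * star f)
    (by simp [hC.ok.φs, mul_assoc]) (by rw [← mul_assoc, ← mul_assoc, f1]) hh
  obtain ⟨g, hg⟩ : ∃ g, g = C.φ * star f := ⟨_, rfl⟩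
  have g0 : f * C.φ = star g := by simp [hg, hC.ok.φs]
  have g0' : C.φ * star f = g := hg.symm
  have g1 : C.p * g = g := by rw [hg, ← mul_assoc, hC.ok.pφ]
  have g2 : g * D.p = g := by
    have : star f * D.p = star f := by simpa [cD.star_p] using congrArg star f1
    rw [hg, mul_assoc, this]
  have g3 : C.d * g = -(g * star D.d) := by
    have e1 : star f * star D.d = star C.d * star f := by simpa using congrArg star f3
    rw [hg, mul_assoc, e1, ← mul_assoc, ← mul_assoc, eq_neg_iff_add_eq_zero, ← add_mul, hC.ok.cyc,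
      zero_mul]
  have g4 : f * g = D.φ + D.d * κ - κ * star D.d := by rw [hg, ← mul_assoc, k3]
  have y1 : C.d * C.φ = -(C.φ * star C.d) := eq_neg_iff_add_eq_zero.2 hC.ok.cyc
  have y2 : D.d * D.φ = -(D.φ * star D.d) := eq_neg_iff_add_eq_zero.2 hD.ok.cyc
  rw [← hg, neg_smul, one_smul] at he
  have sg1 : star g * C.p = star g := by simpa [cC.star_p] using congrArg star g1
  have sg2 : D.p * star g = star g := by simpa [cD.star_p] using congrArg star g2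
  have eX : (C.conj 1 (Base.s 0)).add (D.conj (-1) (Base.s 1)) =
      ⟨ee 0 0 C.p + ee 1 1 D.p, ee 0 0 C.d + ee 1 1 D.d, ee 0 0 C.φ - ee 1 1 D.φ⟩ := by
    simp [Cx.add, Cx.conj, ee, sub_eq_add_neg]
  rw [eX]
  have a1 := cC.pp
  have a2 := cC.pd
  have a3 := cC.dp
  have a4 := cC.dd
  have a5 := hC.ok.pφ
  have a6 := hC.ok.φp
  have a7 := hC.ok.φs
  have a8 := cC.star_p
  have b1 := cD.pp
  have b2 := cD.pd
  have b3 := cD.dp
  have b4 := cD.dd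
  have b5 := hD.ok.pφ
  have b6 := hD.ok.φp
  have b7 := hD.ok.φs
  have b8 := cD.star_p
  have c2 := cD.dual.pd
  have c3 := cD.dual.dp
  have c4 := cD.dual.dd
  have hP1 : Cpx (ee 2 2 D.p + ee 1 1 D.p) (-ee 2 2 D.d + ee 2 1 D.p + ee 1 1 D.d) :=
    Cpx.ext (uniqAux_ee 2 cD).neg (uniqAux_ee 1 cD) (by simp [ee_mul]) (by simp [ee_mul, b1])
      (by simp [ee_mul, b1]) (by simp [ee_mul, b2, b3])
  have hP2 : Cpx (ee 0 0 C.p + ee 3 3 D.p) (ee 0 0 C.d + -ee 0 3 g + ee 3 3 (star D.d)) :=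
    Cpx.ext (uniqAux_ee 0 cC) (uniqAux_ee 3 cD.dual) (by simp [ee_mul]) (by simp [ee_mul, g1])
      (by simp [ee_mul, g2]) (by simp [ee_mul, g3, ee_neg])
  have hc1 : CtrI (⊥ : TwoSidedIdeal A) (ee 2 2 D.p + ee 1 1 D.p)
      (-ee 2 2 D.d + ee 2 1 D.p + ee 1 1 D.d) :=
    Ctr.ctrI _ ⟨ee 1 2 D.p, by simp [mul_add, add_mul, ee_mul, b1, b2, b3]⟩
  have hc2 : CtrI (⊥ : TwoSidedIdeal A) (ee 0 0 C.p + ee 3 3 D.p)
      (ee 0 0 C.d + -ee 0 3 g + ee 3 3 (star D.d)) := by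
    have := HE.ctr (uniqAux_ee 0 cC) (uniqAux_ee 3 cD.dual.neg) (by simp [ee_mul])
      (he.conj (v := Base.s 0) (w := Base.s 3) cC cD.dual.neg (by rw [Base.s_self, one_mul])
        (by rw [Base.s_self, one_mul]))
    refine Ctr.ctrI _ ?_
    have e : ee 0 0 C.d + -ee 0 3 g + ee 3 3 (star D.d) =
        ee 0 0 C.d + Base.s 0 * -g * star (Base.s 3 : A) - ee 3 3 (-star D.d) := by
      simp [ee]
    rw [e]; exact this
  have ho : (ee 2 2 D.p + ee 1 1 D.p) * (ee 0 0 C.p + ee 3 3 D.p) = 0 := by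
    simp [mul_add, add_mul, ee_mul]
  have ha1 : (ee 2 2 D.p + ee 1 1 D.p) * (ee 2 0 f - ee 2 3 κ + ee 1 3 D.φ) =
      ee 2 0 f - ee 2 3 κ + ee 1 3 D.φ := by
    simp [mul_add, add_mul, mul_sub, ee_mul, f1, k1, b5]
  have ha2 : (ee 2 0 f - ee 2 3 κ + ee 1 3 D.φ) * (ee 0 0 C.p + ee 3 3 D.p) =
      ee 2 0 f - ee 2 3 κ + ee 1 3 D.φ := by
    simp [mul_add, add_mul, sub_mul, ee_mul, f2, k2, b6]
    abel
  have ha3 : (-ee 2 2 D.d + ee 2 1 D.p + ee 1 1 D.d) * (ee 2 0 f - ee 2 3 κ + ee 1 3 D.φ) +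
      (ee 2 0 f - ee 2 3 κ + ee 1 3 D.φ) * (ee 0 0 C.d + -ee 0 3 g + ee 3 3 (star D.d)) = 0 := by
    simp [mul_add, add_mul, mul_sub, sub_mul, ee_mul, f3, g4, b5, y2, ee_add, ee_sub, ee_neg]
    abel
  have eP : ee 2 2 D.p + ee 1 1 D.p + (ee 0 0 C.p + ee 3 3 D.p) =
      ee 2 2 D.p + (ee 0 0 C.p + ee 1 1 D.p) + ee 3 3 D.p := by abel
  have hT := Cpx.ext hP1 hP2 ho ha1 ha2 ha3
  have hK := CtrI.ext hP1 hP2 ho ha1 ha2 ha3 hc1 hc2
  rw [eP] at hT hK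
  obtain ⟨δ, hδ⟩ : ∃ δ, δ = -ee 2 2 D.d + ee 2 1 D.p + ee 1 1 D.d +
    (ee 2 0 f - ee 2 3 κ + ee 1 3 D.φ) + (ee 0 0 C.d + -ee 0 3 g + ee 3 3 (star D.d)) := ⟨_, rfl⟩
  rw [← hδ] at hT hK
  have hF : ee 2 2 D.p * δ * ee 2 2 D.p = ee 2 2 (-D.d) := by
    simp [hδ, mul_add, add_mul, mul_sub, sub_mul, ee_mul, b2, b3, ee_neg]
  have hG : ee 3 3 D.p * δ * ee 3 3 D.p = ee 3 3 (star D.d) := by
    simp [hδ, mul_add, mul_sub, ee_mul, c2, c3]
  have hφ : ee 2 2 D.p * (ee 0 0 C.φ - ee 1 1 D.φ + ee 2 3 D.p + ee 3 2 D.p) * ee 3 3 D.p =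
      ee 2 3 D.p := by
    simp [mul_add, mul_sub, ee_mul, b1]
  refine ⟨⟨ee 2 2 D.p + (ee 0 0 C.p + ee 1 1 D.p) + ee 3 3 D.p, δ,
    ee 0 0 C.φ - ee 1 1 D.φ + ee 2 3 D.p + ee 3 2 D.p⟩, ee 2 2 D.p, ee 3 3 D.p,
    ⟨hT, ?_, ?_, ?_⟩, ee_D 2 cD.pD, ee_D 3 cD.pD, ?_, ?_, ?_, rfl, ?_, ?_, ?_, ?_, ?_, ?_, hK, ?_,
    ?_, ?_⟩
  · simp [star_ee, a7, b7, b8]; abel
  · simp [mul_add, add_mul, mul_sub, ee_mul, a5, b5, b1]
  · simp [hδ, mul_add, add_mul, mul_sub, sub_mul, ee_mul, star_ee, a7, b7, b8, k0, g0, g0', y1, y2,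
      b1, b2, b3, b5, b6, c2, c3, k1, k2, g2, sg2, ee_neg]
    abel
  · simp [mul_add, ee_mul]
  · simp [mul_add, ee_mul]
  · simp [ee_mul]
  · exact G.add_mem (G.add_mem (ee_mem G _ _ h2) (G.add_mem (ee_mem G _ _ h1) (ee_mem G _ _ h2)))
      (ee_mem G _ _ h2)
  · rw [hF]; simp [hδ, add_mul, sub_mul, ee_mul, b3, ee_neg]
  · rw [hG]; simp [hδ, mul_add, mul_sub, ee_mul, c2]
  · simp [hδ, mul_add, add_mul, mul_sub, ee_mul, a2, a3, b2, b3]
  · simp [mul_add, add_mul, mul_sub, sub_mul, ee_mul, a5, a6, b5, b6, sub_eq_add_neg]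
  · rw [hφ]; simp [add_mul, sub_mul, ee_mul, b1]
  · rw [hF, hG, hφ]
    exact Ctr.ctrI _ ⟨ee 3 2 D.p, by
      simp [mul_add, add_mul, ee_mul, star_ee, b1, b2, b3, ee_neg]⟩
  · rw [hF]; exact Cut.ee 2 cD.neg hD.cut.neg
  · rw [hG]; exact Cut.ee 3 cD.dual (hD.cut.dual cD)

theorem uniqAux_mono {G K : TwoSidedIdeal A} (hK : G ≤ K) {C : Cx A} (h : Null G C) :
    Null K C := by
  obtain ⟨T, pF, pG, h⟩ := h
  exact ⟨T, pF, pG, { h with inG := hK h.inG }⟩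

theorem Null.red {fs : List (Frame A)} (hfs : ∀ f ∈ fs, f.OK) {G K : TwoSidedIdeal A}
    (hK : ∀ x ∈ G, (∀ f ∈ fs, x ∈ f.B) → x ∈ K) {C C' : Cx A} (hC : C.Good) (hr : Red fs C C')
    (h : Null G C) : Null K C' := by
  induction fs generalizing G C with
  | nil =>
    obtain rfl : C' = C := hr
    exact uniqAux_mono (fun x hx => hK x hx (by simp)) h
  | cons f fs ih =>
    obtain ⟨C₁, hs, hr⟩ := hr
    have hf := hfs f (by simp)
    refine ih (fun f' h' => hfs f' (by simp [h'])) (G := G ⊓ f.B) ?_ (hs.good hf hC) hr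
      (h.step hf hC hs)
    intro x hx hb
    rw [TwoSidedIdeal.mem_inf] at hx
    refine hK x hx.1 fun f' h' => ?_
    rcases List.mem_cons.1 h' with rfl | h'
    · exact hx.2
    · exact hb f' h'

/-- the local index -/
def Val (S : Sig A Γ) (fs : List (Frame A)) (C : Cx A) (v : Γ) : Prop :=
  ∃ C', Red fs C C' ∧ S.sig C'.form = v

variable {S : Sig A Γ} {fs : List (Frame A)} {G : TwoSidedIdeal A} {C D : Cx A} {v w : Γ}

theorem Val.uniq (hfs : ∀ f ∈ fs, f.OK) (hK : ∀ x ∈ G, (∀ f ∈ fs, x ∈ f.B) → x ∈ S.K)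
    (hC : C.Good) (hD : D.Good) (h : C.Eqv D) (h1 : C.p ∈ G) (h2 : D.p ∈ G)
    (hv : Val S fs C v) (hw : Val S fs D w) : v = w := by
  obtain ⟨C', hr, rfl⟩ := hv
  obtain ⟨D', hr', rfl⟩ := hw
  have s0 : star (Base.s 0 : A) * Base.s 0 * C.p = C.p := by rw [Base.s_self, one_mul]
  have s1 : star (Base.s 1 : A) * Base.s 1 * D.p = D.p := by rw [Base.s_self, one_mul]
  obtain ⟨a, ma, ha, ra⟩ := hr.conj (ε := 1) (Or.inl rfl) hfs hC (mono_s 0) s0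
  obtain ⟨b, mb, hb, rb⟩ := hr'.conj (ε := -1) (Or.inr rfl) hfs hD (mono_s 1) s1
  have gC := hC.conj (ε := 1) (Or.inl rfl) (mono_s 0) s0
  have gD := hD.conj (ε := -1) (Or.inr rfl) (mono_s 1) s1
  have ho : (C.conj 1 (Base.s 0)).p * (D.conj (-1) (Base.s 1)).p = 0 :=
    ee_mul_ne 0 1 (by decide : (0 : Fin 4) ≠ 1) C.p D.p
  obtain ⟨ho', rab⟩ := Red.add hfs gC gD ho ra rb
  have hn := Null.red hfs hK (gC.add gD ho) rab (null_init hC hD h h1 h2)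
  have kC : C'.p ∈ S.K := hK _ (hr.mem h1) hr.memB
  have kD : D'.p ∈ S.K := hK _ (hr'.mem h2) hr'.memB
  have oC := (hr.good hfs hC).ok
  have oD := (hr'.good hfs hD).ok
  have oa := oC.conj (ε := 1) ma ha
  have ob := oD.conj (ε := -1) mb hb
  have e := S.form_null (oa.add ob ho') hn
  rw [S.form_add oa ob ho' (S.K.mul_mem_right _ _ (S.K.mul_mem_left _ _ kC))
    (S.K.mul_mem_right _ _ (S.K.mul_mem_left _ _ kD)), S.form_conj (Or.inl rfl) oC kC ha,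
    S.form_conj (Or.inr rfl) oD kD hb, one_smul, neg_smul, one_smul, add_neg_eq_zero] at e
  exact e
theorem Val.neg (hfs : ∀ f ∈ fs, f.OK) (hK : ∀ x ∈ G, (∀ f ∈ fs, x ∈ f.B) → x ∈ S.K)
    (hC : C.Good) (h1 : C.p ∈ G) (hv : Val S fs C v) : Val S fs C.neg (-v) := by
  obtain ⟨C', hr, rfl⟩ := hv
  obtain ⟨a, -, ha, ra⟩ := hr.conj (ε := -1) (v := 1) (Or.inr rfl) hfs hC (mono_D Base.one_mem)
    (by simp)
  rw [Cx.conj_neg_one] at ra
  refine ⟨_, ra, ?_⟩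
  rw [S.form_conj (Or.inr rfl) (hr.good hfs hC).ok (hK _ (hr.mem h1) hr.memB) ha, neg_smul,
    one_smul]
theorem Val.add (hfs : ∀ f ∈ fs, f.OK) (hK : ∀ x ∈ G, (∀ f ∈ fs, x ∈ f.B) → x ∈ S.K)
    (hC : C.Good) (hD : D.Good) (ho : C.p * D.p = 0) (h1 : C.p ∈ G) (h2 : D.p ∈ G)
    (hv : Val S fs C v) (hw : Val S fs D w) : Val S fs (C.add D) (v + w) := by
  obtain ⟨C', hr, rfl⟩ := hv
  obtain ⟨D', hr', rfl⟩ := hw
  obtain ⟨ho', rab⟩ := Red.add hfs hC hD ho hr hr'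
  exact ⟨_, rab, S.form_add (hr.good hfs hC).ok (hr'.good hfs hD).ok ho'
    (hK _ (hr.mem h1) hr.memB) (hK _ (hr'.mem h2) hr'.memB)⟩
theorem Cx.Eqv.refl (hC : C.OK) : C.Eqv C :=
  ⟨C.p, HE.refl hC.toCpx, by rw [hC.toCpx.star_p, hC.pφ, hC.φp]; exact Htp.refl _ _ _⟩

end Vale.Agent.P228
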